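import Mathlib

/-!
# P310: machines with numbered states, stacks and symbols, and their codes

`codeNM n s i` is the machine with the code `i` in base `s`, preceded by `s + n` states which
write the input `0^n 1^s` on the stack `0` (top of the stack first).
-/

namespace P310

open Function

/-- the operations: do nothing, write the symbol `b` on the stack `g`, read a symbol from the
stack `g`, accept (and stay) -/
inductive Op
  | nop
  | push (g b : ℕ)
  | pop (g : ℕ)
  | acc
  deriving DecidableEq

/-- a machine: the operation of a state, and the next state (`none`: nothing was read, or the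
stack was empty; `some b`: the symbol `b` was read) -/
structure NM where
  op : ℕ → Op
  nx : ℕ → Option ℕ → ℕ

/-- configurations -/
@[ext] structure NCfg where
  st : ℕ
  stk : ℕ → List ℕ

/-- one step -/
def NM.step (M : NM) (c : NCfg) : NCfg :=
  match M.op c.st with
  | .nop => ⟨M.nx c.st none, c.stk⟩
  | .push g b => ⟨M.nx c.st none, update c.stk g (b :: c.stk g)⟩
  | .pop g => ⟨M.nx c.st (c.stk g).head?, update c.stk g (c.stk g).tail⟩
  | .acc => c

/-- the configuration at time `t`; the start state is `0` and all stacks are empty at the start -/
def NM.run (M : NM) (t : ℕ) : NCfg := M.step^[t] ⟨0, fun _ => []⟩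

/-- an accepting state is reached before the time `T` -/
def NM.Accepts (M : NM) (T : ℕ) : Prop := ∃ t < T, M.op (M.run t).st = .acc

/-- all states are `< Q`, all stacks `< K`, all symbols `< A` -/
structure NM.Bdd (M : NM) (Q K A : ℕ) : Prop where
  pos : 0 < Q
  nx : ∀ q b, q < Q → M.nx q b < Q
  push : ∀ q g b, q < Q → M.op q = .push g b → g < K ∧ b < A
  pop : ∀ q g, q < Q → M.op q = .pop g → g < K

theorem NM.run_succ (M : NM) (t : ℕ) : M.run (t + 1) = M.step (M.run t) :=
  iterate_succ_apply' _ _ _

theorem NM.step_st_lt {M : NM} {Q K A : ℕ} (h : M.Bdd Q K A) {c : NCfg} (hc : c.st < Q) :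
    (M.step c).st < Q := by
  unfold NM.step
  cases hop : M.op c.st with
  | nop => exact h.nx _ _ hc
  | push g b => exact h.nx _ _ hc
  | pop g => exact h.nx _ _ hc
  | acc => exact hc

theorem NM.run_st_lt {M : NM} {Q K A : ℕ} (h : M.Bdd Q K A) (t : ℕ) : (M.run t).st < Q := by
  induction t with
  | zero => exact h.pos
  | succ t ih => rw [M.run_succ]; exact M.step_st_lt h ih

/-- the digit number `j` of `i` in base `s` -/
def dig (i s j : ℕ) : ℕ := i / s ^ j % s

/-- a pairing function -/
def prI (q b : ℕ) : ℕ := (q + b) ^ 2 + q

/-- the operation of the state `q` of the code `i` in base `s` -/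
def opC (s i q : ℕ) : Op :=
  if dig i s (2 * prI q 0 + 1) = 0 then .nop
  else if dig i s (2 * prI q 0 + 1) = 1 then
    .push (dig i s (2 * prI q 1 + 1)) (dig i s (2 * prI q 2 + 1))
  else if dig i s (2 * prI q 0 + 1) = 2 then .pop (dig i s (2 * prI q 1 + 1))
  else .acc

/-- the code of an optional symbol -/
def ob : Option ℕ → ℕ
  | none => 0
  | some b => b + 1

/-- the next state of the code `i` in base `s` -/
def nxC (s i q : ℕ) (b : Option ℕ) : ℕ := dig i s (2 * prI q (ob b))

/-- the machine with the code `i` in base `s`, preceded by `s + n` states which write the input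
`0^n 1^s` on the stack `0` -/
def codeNM (n s i : ℕ) : NM where
  op q := if q < s then .push 0 1 else if q < s + n then .push 0 0 else opC s i (q - (s + n))
  nx q b := if q < s + n then q + 1 else s + n + nxC s i (q - (s + n)) b

theorem dig_lt {i s j : ℕ} (hs : 0 < s) : dig i s j < s := Nat.mod_lt _ hs

theorem codeNM_bdd {n s i : ℕ} (hs : 2 ≤ s) : (codeNM n s i).Bdd (n + 2 * s) s s where
  pos := by omega
  nx q b hq := by
    have : nxC s i (q - (s + n)) b < s := dig_lt (by omega)
    simp only [codeNM]
    split_ifs <;> omega
  push q g b _ h := by
    simp only [codeNM] at h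
    split_ifs at h with h1 h2
    · injection h with h3 h4
      omega
    · injection h with h3 h4
      omega
    · unfold opC at h
      split_ifs at h
      injection h with h3 h4
      rw [← h3, ← h4]
      exact ⟨dig_lt (by omega), dig_lt (by omega)⟩
  pop q g _ h := by
    simp only [codeNM] at h
    split_ifs at h with h1 h2
    unfold opC at h
    split_ifs at h
    injection h with h3
    rw [← h3]
    exact dig_lt (by omega)

/-- after the input phase -/
theorem codeNM_input (n s i : ℕ) : (codeNM n s i).run (s + n) =
    ⟨s + n, update (fun _ => []) 0 (List.replicate n 0 ++ List.replicate s 1)⟩ := by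
  have h1 : ∀ t ≤ s, (codeNM n s i).run t =
      ⟨t, update (fun _ => []) 0 (List.replicate t 1)⟩ := by
    intro t
    induction t with
    | zero =>
      intro _
      simp [NM.run]
    | succ t ih =>
      intro ht
      rw [NM.run_succ, ih (by omega)]
      have h2 : t < s := by omega
      have h3 : t < s + n := by omega
      simp only [NM.step, codeNM, h2, h3, if_true, update_self, update_idem]
      rfl
  have h4 : ∀ t ≤ n, (codeNM n s i).run (s + t) =
      ⟨s + t, update (fun _ => []) 0 (List.replicate t 0 ++ List.replicate s 1)⟩ := by
    intro t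
    induction t with
    | zero =>
      intro _
      simpa using h1 s le_rfl
    | succ t ih =>
      intro ht
      rw [← Nat.add_assoc, NM.run_succ, ih (by omega)]
      have h2 : ¬ (s + t < s) := by omega
      have h3 : s + t < s + n := by omega
      simp only [NM.step, codeNM, h2, h3, if_true, if_false, update_self, update_idem]
      rfl
  exact h4 n le_rfl

end P310
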