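import Vale.Agent.Lib.PolyTM.Arith
import Vale.Agent.P310.NM

/-!
# P310: more functions computable in polynomial time on unary numbers
-/

namespace P310

open PolyTM

variable {A : Type} {k : ℕ} {f g h : (Fin k → ℕ) → ℕ}

theorem powmin_succ (a c m : ℕ) : min (a ^ (m + 1)) c = min (min (a ^ m) c * a) c := by
  rcases le_total (a ^ m) c with h | h
  · rw [min_eq_left h, pow_succ]
  · rw [min_eq_right h]
    rcases Nat.eq_zero_or_pos a with rfl | ha
    · simp
    · rw [min_eq_right (Nat.le_mul_of_pos_right c ha),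
        min_eq_right (h.trans (Nat.pow_le_pow_right ha (Nat.le_succ m)))]

/-- bounded powers -/
theorem comp_powmin (hf : Comp A f) (hg : Comp A g) (hh : Comp A h) :
    Comp A (fun x => min (f x ^ g x) (h x)) := by
  have hmin : ∀ {k : ℕ} {u v : (Fin k → ℕ) → ℕ}, Comp A u → Comp A v →
      Comp A (fun x => min (u x) (v x)) := by
    intro k u v hu hv
    refine Comp.congr (Comp.ite (Comp.le_ind hu hv) hu hv) (fun x => ?_)
    split_ifs with h <;> omega
  have h1 : Comp A (fun y : Fin 4 → ℕ => min (y 1 * y 2) (y 3)) :=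
    hmin (Comp.mul (Comp.proj 1) (Comp.proj 2)) (Comp.proj 3)
  have h2 : Comp A (fun x : Fin 2 → ℕ => min 1 (x 1)) := hmin (Comp.const 1) (Comp.proj 1)
  have base := Comp.primrec (A := A) (k := 2) (F := fun m x => min (x 0 ^ m) (x 1))
    (g := fun x => min 1 (x 1)) (h := fun y => min (y 1 * y 2) (y 3)) h2 h1
    (fun x => by simp)
    (fun m x => powmin_succ _ _ _)
    Polynomial.X (fun m x => by
      simp only [Polynomial.eval_X, Fin.sum_univ_two]
      exact (min_le_right _ _).trans (by omega))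
  have := Comp.comp base (g := ![g, f, h]) (by
    intro i
    fin_cases i
    · exact hg
    · exact hf
    · exact hh)
  exact this

theorem xor_mod_succ (a b m : ℕ) : (a ^^^ b) % 2 ^ (m + 1) = (a ^^^ b) % 2 ^ m +
    min (2 ^ m) (a + b + 1) * ((a / min (2 ^ m) (a + b + 1) + b / min (2 ^ m) (a + b + 1)) % 2) := by
  rw [Nat.mod_pow_succ]
  congr 1
  have h1 : (a ^^^ b) / 2 ^ m % 2 = (a / 2 ^ m + b / 2 ^ m) % 2 := by
    have h := Nat.xor_div_two_pow (a := a) (b := b) (n := m)
    rw [h, Nat.xor_mod_two_eq]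
  rcases le_total (2 ^ m) (a + b + 1) with h | h
  · rw [min_eq_left h, h1]
  · rcases Nat.lt_or_ge (a + b) (2 ^ m) with h2 | h2
    · rw [h1, Nat.div_eq_of_lt (show a < 2 ^ m by omega), Nat.div_eq_of_lt (show b < 2 ^ m by omega),
        min_eq_right h, Nat.div_eq_of_lt (show a < a + b + 1 by omega),
        Nat.div_eq_of_lt (show b < a + b + 1 by omega)]
      simp
    · rw [show min (2 ^ m) (a + b + 1) = 2 ^ m by omega, h1]

theorem xor_le_add (a : ℕ) : ∀ b : ℕ, a ^^^ b ≤ a + b := by
  induction a using Nat.strong_induction_on with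
  | _ a ih =>
    intro b
    rcases Nat.eq_zero_or_pos a with rfl | ha
    · simp
    · have h1 := ih (a / 2) (by omega) (b / 2)
      have h2 : (a ^^^ b) / 2 = a / 2 ^^^ b / 2 := Nat.xor_div_two
      have h3 : (a ^^^ b) % 2 = (a + b) % 2 := Nat.xor_mod_two_eq
      omega

/-- bitwise exclusive or (bounded recursion over the bits `2 ^ b`, `b < f x + g x`) -/
theorem comp_xor (hf : Comp A f) (hg : Comp A g) : Comp A (fun x => f x ^^^ g x) := by
  have hle := xor_le_add
  have hab : Comp A (fun y : Fin 4 → ℕ => y 2 + y 3 + 1) :=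
    Comp.add (Comp.add (Comp.proj 2) (Comp.proj 3)) (Comp.const 1)
  have hp : Comp A (fun y : Fin 4 → ℕ => min (2 ^ y 0) (y 2 + y 3 + 1)) :=
    comp_powmin (Comp.const 2) (Comp.proj 0) hab
  have h1 : Comp A (fun y : Fin 4 → ℕ => y 1 + min (2 ^ y 0) (y 2 + y 3 + 1) *
      ((y 2 / min (2 ^ y 0) (y 2 + y 3 + 1) + y 3 / min (2 ^ y 0) (y 2 + y 3 + 1)) % 2)) :=
    Comp.add (Comp.proj 1) (Comp.mul hp (Comp.mod (Comp.add (Comp.div (Comp.proj 2) hp)
      (Comp.div (Comp.proj 3) hp)) (Comp.const 2)))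
  have base := Comp.primrec (A := A) (k := 2) (F := fun m x => (x 0 ^^^ x 1) % 2 ^ m)
    (g := fun _ => 0) (Comp.const 0) h1
    (fun x => by simp [Nat.mod_one])
    (fun m x => xor_mod_succ _ _ _)
    Polynomial.X (fun m x => by
      simp only [Polynomial.eval_X, Fin.sum_univ_two]
      exact (Nat.mod_le _ _).trans ((hle _ _).trans (by omega)))
  have := Comp.comp base (g := ![fun x => f x + g x, f, g]) (by
    intro i
    fin_cases i
    · exact Comp.add hf hg
    · exact hf
    · exact hg)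
  refine Comp.congr this (fun x => ?_)
  exact Nat.mod_eq_of_lt ((hle _ _).trans_lt Nat.lt_two_pow_self)

/-- digits; note `dig i s j = i / min (s ^ j) (i + 1) % s` -/
theorem comp_dig (hf : Comp A f) (hg : Comp A g) (hh : Comp A h) :
    Comp A (fun x => dig (f x) (g x) (h x)) := by
  have h1 := comp_powmin hg hh (Comp.add hf (Comp.const 1))
  refine Comp.congr (Comp.mod (Comp.div hf h1) hg) (fun x => ?_)
  unfold dig
  rcases le_total (g x ^ h x) (f x + 1) with h2 | h2
  · rw [min_eq_left h2]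
  · rw [min_eq_right h2, Nat.div_eq_of_lt (show f x < f x + 1 by omega)]
    rcases Nat.lt_or_ge (f x) (g x ^ h x) with h3 | h3
    · rw [Nat.div_eq_of_lt h3]
    · rw [show g x ^ h x = f x + 1 by omega, Nat.div_eq_of_lt (by omega)]

/-- the pairing function of the codes of machines -/
theorem comp_prI (hf : Comp A f) (hg : Comp A g) : Comp A (fun x => prI (f x) (g x)) :=
  Comp.add (Comp.pow_const (Comp.add hf hg) 2) hf

end P310
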