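import Vale.Agent.P310.Final

/-!
# P310: the final estimate
-/

namespace P310

open Turing Function Filter Topology

/-- choice of the parameter `s` -/
theorem exists_s {A k e : ℕ} (hA : 0 < A) (hk : 0 < k) (he : 0 < e) (s₀ n : ℕ)
    (hn : A * (2 ^ (k * s₀)) ^ e ≤ n) : ∃ s ≥ s₀, A * (2 ^ (k * s)) ^ e ≤ n ∧
      n < A * (2 ^ (k * (s + 1))) ^ e := by
  have hgrow : ∀ s, s < A * (2 ^ (k * s)) ^ e := by
    intro s
    calc s < 2 ^ s := Nat.lt_two_pow_self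
      _ ≤ (2 ^ (k * s)) ^ e := by
          rw [← pow_mul]
          exact Nat.pow_le_pow_right (by omega) ((Nat.le_mul_of_pos_left s hk).trans
            (Nat.le_mul_of_pos_right _ he))
      _ ≤ A * (2 ^ (k * s)) ^ e := Nat.le_mul_of_pos_left _ hA
  let P : ℕ → Prop := fun s => A * (2 ^ (k * s)) ^ e ≤ n
  classical
  have hs₀ : s₀ ≤ n := ((hgrow s₀).le).trans hn
  refine ⟨Nat.findGreatest P n, Nat.le_findGreatest hs₀ hn, Nat.findGreatest_spec (P := P) hs₀ hn,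
    ?_⟩
  by_cases h : Nat.findGreatest P n + 1 ≤ n
  · have := Nat.findGreatest_is_greatest (P := P) (Nat.lt_succ_self _) h
    simp only [P] at this
    exact not_le.1 this
  · have := hgrow (Nat.findGreatest P n + 1)
    omega

theorem lower_bound : ∃ c : ℝ, 0 < c ∧ ∃ k₀ : ℕ, ∀ k ≥ k₀, ∀ (tm : FinTM2) (T : ℕ → ℕ),
    Decides k tm T → ∃ n₀ : ℕ, ∀ n ≥ n₀, ∃ N ≤ n, (n : ℝ) ^ (c * k) < T N := by
  obtain ⟨e₁, e₂, he₂, hcore⟩ := core
  have he₂' : (0 : ℝ) < e₂ := by exact_mod_cast he₂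
  refine ⟨1 / (24 * e₂), by positivity, 12 * e₁ + 40, fun k hk tm T hdec => ?_⟩
  obtain ⟨A, B, s₁, hA, hs₁⟩ := hcore k (by omega) tm T hdec
  have hA' : (0 : ℝ) < A := by exact_mod_cast hA
  set c : ℝ := 1 / (24 * e₂) with hc
  have hck : c * k * e₂ = k / 24 := by
    rw [hc]
    field_simp
  have hc0 : 0 ≤ c * k := by positivity
  -- the exponents
  have hkR : (12 * e₁ + 40 : ℝ) ≤ k := by exact_mod_cast hk
  have hdR : ((k : ℝ) - 13) / 6 ≤ dk k := by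
    have h1 : k ≤ 6 * dk k + 13 := by unfold dk; omega
    have h2 : (k : ℝ) ≤ 6 * dk k + 13 := by exact_mod_cast h1
    linarith
  obtain ⟨γ, hγ⟩ : ∃ γ : ℝ, γ = max (e₁ : ℝ) (k / 24) := ⟨_, rfl⟩
  have hγ1 : (e₁ : ℝ) ≤ γ := hγ ▸ le_max_left _ _
  have hγ2 : (k : ℝ) / 24 ≤ γ := hγ ▸ le_max_right _ _
  have hγd : γ < (dk k : ℝ) / 2 := by
    rw [hγ]
    refine max_lt ?_ ?_ <;> linarith
  -- the constant
  obtain ⟨C, hC⟩ : ∃ C : ℝ, C = 2 * A + 2 * B * (A * (2 ^ k) ^ e₂ : ℝ) ^ (c * k) := ⟨_, rfl⟩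
  -- large values
  have htend : Tendsto (fun s : ℕ => ((2 : ℝ) ^ (k * s)) ^ ((dk k : ℝ) / 2 - γ)) atTop atTop := by
    refine (tendsto_rpow_atTop (by linarith)).comp ?_
    have h1 : Tendsto (fun s : ℕ => k * s) atTop atTop := by
      apply tendsto_atTop_mono (fun s => Nat.le_mul_of_pos_left s (by omega : 0 < k)) tendsto_id
    exact (tendsto_pow_atTop_atTop_of_one_lt (by norm_num : (1 : ℝ) < 2)).comp h1
  obtain ⟨s₂, hs₂⟩ := eventually_atTop.1 (htend.eventually_gt_atTop C)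
  refine ⟨A * (2 ^ (k * max s₁ s₂)) ^ e₂, fun n hn => ?_⟩
  obtain ⟨s, hs, h1, h2⟩ := exists_s hA (by omega) he₂ (max s₁ s₂) n hn
  obtain ⟨N, hN, hT⟩ := hs₁ s ((le_max_left _ _).trans hs)
  refine ⟨N, hN.trans h1, ?_⟩
  by_contra hlt
  push Not at hlt
  have hs2 := hs₂ s ((le_max_right _ _).trans hs)
  refine absurd hs2 (not_lt.2 ?_)
  obtain ⟨X, hX⟩ : ∃ X : ℝ, X = (2 : ℝ) ^ (k * s) := ⟨_, rfl⟩
  have hX1 : 1 ≤ X := by rw [hX]; exact one_le_pow₀ (by norm_num)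
  have hX0 : 0 < X := by linarith
  rw [← hX]
  -- the bound for `n`
  have hnX : (n : ℝ) ≤ (A * (2 ^ k) ^ e₂) * X ^ e₂ := by
    have h3 : (n : ℝ) < A * (2 ^ (k * (s + 1))) ^ e₂ := by exact_mod_cast h2
    have h4 : (2 : ℝ) ^ (k * (s + 1)) = 2 ^ k * X := by
      rw [hX, ← pow_add]
      congr 1
      ring
    rw [h4, mul_pow, ← mul_assoc] at h3
    exact h3.le
  have hn0 : (0 : ℝ) ≤ n := Nat.cast_nonneg n
  have hTX : (T N : ℝ) ≤ (A * (2 ^ k) ^ e₂ : ℝ) ^ (c * k) * X ^ ((k : ℝ) / 24) := by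
    refine hlt.trans ((Real.rpow_le_rpow hn0 hnX hc0).trans ?_)
    rw [Real.mul_rpow (by positivity) (by positivity), ← Real.rpow_natCast X e₂,
      ← Real.rpow_mul hX0.le, mul_comm (e₂ : ℝ), hck]
  have hTR : ((2 : ℝ) ^ ((k * dk k * s - 1) / 2) : ℝ) ≤ A * X ^ e₁ + B * T N := by
    rw [hX]
    exact_mod_cast hT
  -- the left hand side
  have hleft : X ^ ((dk k : ℝ) / 2) ≤ 2 * 2 ^ ((k * dk k * s - 1) / 2) := by
    have h3 : X ^ ((dk k : ℝ) / 2) = (2 : ℝ) ^ ((k * dk k * s : ℝ) / 2) := by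
      rw [hX, ← Real.rpow_natCast 2 (k * s), ← Real.rpow_mul (by norm_num)]
      congr 1
      push_cast
      ring
    have h4 : (2 : ℝ) * 2 ^ ((k * dk k * s - 1) / 2) =
        (2 : ℝ) ^ ((((k * dk k * s - 1) / 2 : ℕ) : ℝ) + 1) := by
      rw [Real.rpow_add (by norm_num), Real.rpow_one, Real.rpow_natCast, mul_comm]
    rw [h3, h4]
    apply Real.rpow_le_rpow_of_exponent_le (by norm_num)
    have h5 : k * dk k * s ≤ 2 * ((k * dk k * s - 1) / 2) + 2 := by omega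
    have h6 : ((k * dk k * s : ℕ) : ℝ) ≤ 2 * (((k * dk k * s - 1) / 2 : ℕ) : ℝ) + 2 := by
      exact_mod_cast h5
    push_cast at h6 ⊢
    linarith
  -- the right hand side
  have hXe : X ^ e₁ ≤ X ^ γ := by
    rw [← Real.rpow_natCast X e₁]
    exact Real.rpow_le_rpow_of_exponent_le hX1 hγ1
  have hXk : X ^ ((k : ℝ) / 24) ≤ X ^ γ := Real.rpow_le_rpow_of_exponent_le hX1 hγ2
  have hmain : X ^ ((dk k : ℝ) / 2) ≤ C * X ^ γ := by
    have hP : (0 : ℝ) ≤ (A * (2 ^ k) ^ e₂ : ℝ) ^ (c * k) := by positivity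
    have hB : (0 : ℝ) ≤ B := Nat.cast_nonneg B
    calc X ^ ((dk k : ℝ) / 2) ≤ 2 * 2 ^ ((k * dk k * s - 1) / 2) := hleft
      _ ≤ 2 * (A * X ^ e₁ + B * T N) := by linarith
      _ ≤ 2 * (A * X ^ γ + B * ((A * (2 ^ k) ^ e₂ : ℝ) ^ (c * k) * X ^ γ)) := by
          have h3 : (A : ℝ) * X ^ e₁ ≤ A * X ^ γ := mul_le_mul_of_nonneg_left hXe hA'.le
          have h4 : (B : ℝ) * T N ≤ B * ((A * (2 ^ k) ^ e₂ : ℝ) ^ (c * k) * X ^ γ) :=
            mul_le_mul_of_nonneg_left (hTX.trans (mul_le_mul_of_nonneg_left hXk hP)) hB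
          linarith
      _ = C * X ^ γ := by rw [hC]; ring
  rw [Real.rpow_sub hX0, div_le_iff₀ (by positivity)]
  exact hmain

end P310
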