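import Vale.Agent.P310.NM

/-!
# P310: every machine has a code

An abstract machine `AM Q K A` has states `Q`, stacks `K` and symbols `A` of arbitrary types; if a
finite set of its states is closed, then for all large `s` it is simulated by `codeNM n s i`, where
`i < s ^ c` and `c` is a constant.
-/

namespace P310

open Function

/-! ### Digits -/

/-- the number with the digits `d 0, …, d (J - 1)` in base `s` -/
def ofDig (s : ℕ) (d : ℕ → ℕ) : ℕ → ℕ
  | 0 => 0
  | J + 1 => ofDig s d J + d J * s ^ J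

theorem ofDig_lt {s : ℕ} {d : ℕ → ℕ} (hd : ∀ j, d j < s) (J : ℕ) : ofDig s d J < s ^ J := by
  induction J with
  | zero => simp [ofDig]
  | succ J ih =>
    have h1 : d J + 1 ≤ s := hd J
    have h2 : (d J + 1) * s ^ J ≤ s * s ^ J := Nat.mul_le_mul_right _ h1
    rw [ofDig, pow_succ, mul_comm (s ^ J)]
    rw [Nat.add_mul, one_mul] at h2
    omega

theorem dig_ofDig {s : ℕ} {d : ℕ → ℕ} (hd : ∀ j, d j < s) {J j : ℕ} (hj : j < J) :
    dig (ofDig s d J) s j = d j := by
  have hs : 0 < s := (Nat.zero_le _).trans_lt (hd 0)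
  induction J with
  | zero => omega
  | succ J ih =>
    rw [ofDig]
    rcases Nat.lt_succ_iff_lt_or_eq.1 hj with h | rfl
    · have e : d J * s ^ J = (d J * s ^ (J - j - 1)) * s * s ^ j := by
        rw [mul_assoc, mul_assoc, ← pow_succ', ← pow_add]
        congr 2
        omega
      rw [dig, e, Nat.add_mul_div_right _ _ (pow_pos hs j), Nat.add_mul_mod_self_right]
      exact ih h
    · rw [dig, Nat.add_mul_div_right _ _ (pow_pos hs j), Nat.div_eq_of_lt (ofDig_lt hd j),
        zero_add, Nat.mod_eq_of_lt (hd j)]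

theorem prI_inj {q b q' b' : ℕ} (h : prI q b = prI q' b') : q = q' ∧ b = b' := by
  unfold prI at h
  have key : ∀ x y x' y' : ℕ, x ≤ y → x' ≤ y' → y ^ 2 + x = y' ^ 2 + x' → y ≤ y' := by
    intro x y x' y' hx hx' h
    by_contra hlt
    have h1 : y' + 1 ≤ y := by omega
    have h2 : (y' + 1) ^ 2 ≤ y ^ 2 := Nat.pow_le_pow_left h1 2
    nlinarith
  have h1 := key _ _ _ _ (Nat.le_add_right q b) (Nat.le_add_right q' b') h
  have h2 := key _ _ _ _ (Nat.le_add_right q' b') (Nat.le_add_right q b) h.symm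
  have h3 : q + b = q' + b' := le_antisymm h1 h2
  rw [h3] at h
  omega

theorem ob_inj {b b' : Option ℕ} (h : ob b = ob b') : b = b' := by
  rcases b with _ | b <;> rcases b' with _ | b' <;> simp_all [ob]

/-! ### Abstract machines -/

/-- the operations of an abstract machine -/
inductive AOp (K A : Type*)
  | nop
  | push (g : K) (b : A)
  | pop (g : K)
  | acc

/-- an abstract machine -/
structure AM (Q K A : Type*) where
  op : Q → AOp K A
  nx : Q → Option A → Q
  start : Q

variable {Q K A : Type*} [DecidableEq K]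

/-- one step -/
def AM.step (M : AM Q K A) (c : Q × (K → List A)) : Q × (K → List A) :=
  match M.op c.1 with
  | .nop => (M.nx c.1 none, c.2)
  | .push g b => (M.nx c.1 none, update c.2 g (b :: c.2 g))
  | .pop g => (M.nx c.1 (c.2 g).head?, update c.2 g (c.2 g).tail)
  | .acc => c

/-- the configuration at time `t` for the input `u^n v^s` on the stack `kin` -/
def AM.run (M : AM Q K A) (kin : K) (u v : A) (n s t : ℕ) : Q × (K → List A) :=
  M.step^[t] (M.start, update (fun _ => []) kin (List.replicate n u ++ List.replicate s v))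

theorem AM.run_succ (M : AM Q K A) (kin : K) (u v : A) (n s t : ℕ) :
    M.run kin u v n s (t + 1) = M.step (M.run kin u v n s t) :=
  iterate_succ_apply' _ _ _

/-- translation of the operations -/
def AOp.tr (eK : K → ℕ) (eA : A → ℕ) : AOp K A → Op
  | .nop => .nop
  | .push g b => .push (eK g) (eA b)
  | .pop g => .pop (eK g)
  | .acc => .acc

/-- the stack which is used by an operation -/
def AOp.uses : AOp K A → K → Prop
  | .push g _, k => g = k
  | .pop g, k => g = k
  | _, _ => False

/-- the simulation relation -/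
structure Sim (n s : ℕ) (eQ : Q → ℕ) (eK : K → ℕ) (eA : A → ℕ)
    (c : NCfg) (a : Q × (K → List A)) : Prop where
  st : c.st = s + n + eQ a.1
  stk : ∀ k, c.stk (eK k) = (a.2 k).map eA

theorem sim_step {n s i : ℕ} {M : AM Q K A} {SQ : Set Q} {eQ : Q → ℕ} {eK : K → ℕ} {eA : A → ℕ}
    (hK : Injective eK)
    (hop : ∀ q ∈ SQ, opC s i (eQ q) = (M.op q).tr eK eA)
    (hnx : ∀ q ∈ SQ, ∀ b, nxC s i (eQ q) (b.map eA) = eQ (M.nx q b))
    {c : NCfg} {a : Q × (K → List A)} (ha : a.1 ∈ SQ) (h : Sim n s eQ eK eA c a) :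
    Sim n s eQ eK eA ((codeNM n s i).step c) (M.step a) := by
  obtain ⟨q, stk⟩ := a
  obtain ⟨st, nstk⟩ := c
  obtain ⟨h1, h2⟩ := h
  simp only at h1 h2 ha
  subst h1
  have e1 : (codeNM n s i).op (s + n + eQ q) = opC s i (eQ q) := by
    simp only [codeNM]
    rw [if_neg (by omega), if_neg (by omega), Nat.add_sub_cancel_left]
  have e2 : ∀ b, (codeNM n s i).nx (s + n + eQ q) b = s + n + nxC s i (eQ q) b := by
    intro b
    simp only [codeNM]
    rw [if_neg (by omega), Nat.add_sub_cancel_left]
  have e3 : ∀ b : Option A, (codeNM n s i).nx (s + n + eQ q) (b.map eA) =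
      s + n + eQ (M.nx q b) := fun b => by rw [e2, hnx q ha]
  have e4 : (codeNM n s i).nx (s + n + eQ q) none = s + n + eQ (M.nx q none) := e3 none
  unfold NM.step AM.step
  simp only [e1, hop q ha]
  rcases hq : M.op q with _ | ⟨g, b⟩ | g | _
  · simp only [AOp.tr]
    exact ⟨e4, h2⟩
  · simp only [AOp.tr]
    refine ⟨e4, fun k => ?_⟩
    simp only
    by_cases hk : k = g
    · subst hk
      rw [update_self, update_self, h2, List.map_cons]
    · rw [update_of_ne (fun h => hk (hK h)), update_of_ne hk, h2]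
  · simp only [AOp.tr]
    refine ⟨?_, fun k => ?_⟩
    · simp only
      rw [h2, List.head?_map]
      exact e3 _
    · simp only
      by_cases hk : k = g
      · subst hk
        rw [update_self, update_self, h2, List.map_tail]
      · rw [update_of_ne (fun h => hk (hK h)), update_of_ne hk, h2]
  · simp only [AOp.tr]
    exact ⟨rfl, h2⟩

omit [DecidableEq K] in
theorem tr_eq_acc {o : AOp K A} {eK : K → ℕ} {eA : A → ℕ} (h : o.tr eK eA = .acc) : o = .acc := by
  cases o <;> simp_all [AOp.tr]

/-- if the digits of `i` describe the machine then `codeNM n s i` simulates it -/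
theorem codeNM_sim {s i : ℕ} {M : AM Q K A} {SQ : Set Q} {eQ : Q → ℕ} {eK : K → ℕ} {eA : A → ℕ}
    (hK : Injective eK) (hst : M.start ∈ SQ) (hcl : ∀ q ∈ SQ, ∀ b, M.nx q b ∈ SQ)
    (hop : ∀ q ∈ SQ, opC s i (eQ q) = (M.op q).tr eK eA)
    (hnx : ∀ q ∈ SQ, ∀ b, nxC s i (eQ q) (b.map eA) = eQ (M.nx q b))
    (h0 : eQ M.start = 0) (kin : K) (hkin : eK kin = 0) (u v : A) (hu : eA u = 0) (hv : eA v = 1)
    (n T : ℕ) :
    (codeNM n s i).Accepts T ↔
      ∃ t, s + n + t < T ∧ ∃ q, (M.run kin u v n s t).1 = q ∧ M.op q = .acc := by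
  have hsim : ∀ t, Sim n s eQ eK eA ((codeNM n s i).run (s + n + t)) (M.run kin u v n s t) ∧
      (M.run kin u v n s t).1 ∈ SQ := by
    intro t
    induction t with
    | zero =>
      rw [add_zero, codeNM_input]
      refine ⟨⟨?_, fun k => ?_⟩, hst⟩
      · show s + n = s + n + eQ M.start
        rw [h0, add_zero]
      · show update (fun _ => []) 0 (List.replicate n 0 ++ List.replicate s 1) (eK k) =
          List.map eA (update (fun _ => []) kin (List.replicate n u ++ List.replicate s v) k)
        by_cases hk : k = kin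
        · subst hk
          rw [hkin, update_self, update_self, List.map_append, List.map_replicate,
            List.map_replicate, hu, hv]
        · rw [update_of_ne hk, update_of_ne (fun h => hk (hK (by rw [h, hkin])))]
          rfl
    | succ t ih =>
      rw [← add_assoc, NM.run_succ, AM.run_succ]
      refine ⟨sim_step hK hop hnx ih.2 ih.1, ?_⟩
      have := ih.2
      unfold AM.step
      split
      · exact hcl _ this _
      · exact hcl _ this _
      · exact hcl _ this _
      · exact this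
  have hpre : ∀ t < s + n, (codeNM n s i).op ((codeNM n s i).run t).st ≠ .acc := by
    have hst : ∀ t ≤ s + n, ((codeNM n s i).run t).st = t := by
      intro t
      induction t with
      | zero => intro _; rfl
      | succ t ih =>
        intro ht
        have h1 := ih (by omega)
        rw [NM.run_succ]
        unfold NM.step
        rw [h1]
        have h2 : ∀ b, (codeNM n s i).nx t b = t + 1 := by
          intro b
          simp only [codeNM]
          rw [if_pos (by omega)]
        have h3 : (codeNM n s i).op t = .push 0 (if t < s then 1 else 0) := by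
          simp only [codeNM]
          split_ifs
          · rfl
          · rfl
          · omega
        rw [h3]
        exact h2 _
    intro t ht
    rw [hst t ht.le]
    simp only [codeNM]
    split_ifs
    · exact Op.noConfusion
    · exact Op.noConfusion
  have hacc : ∀ t, (codeNM n s i).op ((codeNM n s i).run (s + n + t)).st = .acc ↔
      M.op (M.run kin u v n s t).1 = .acc := by
    intro t
    obtain ⟨⟨h1, _⟩, h2⟩ := hsim t
    have e1 : (codeNM n s i).op ((codeNM n s i).run (s + n + t)).st =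
        (M.op (M.run kin u v n s t).1).tr eK eA := by
      rw [h1, ← hop _ h2]
      simp only [codeNM]
      rw [if_neg (by omega), if_neg (by omega), Nat.add_sub_cancel_left]
    rw [e1]
    exact ⟨fun h => tr_eq_acc h, fun h => by rw [h]; rfl⟩
  constructor
  · rintro ⟨t, ht, h⟩
    have h1 : s + n ≤ t := by
      by_contra hlt
      exact hpre t (by omega) h
    obtain ⟨t', rfl⟩ := Nat.exists_eq_add_of_le h1
    exact ⟨t', ht, _, rfl, (hacc t').1 h⟩
  · rintro ⟨t, ht, q, rfl, h⟩
    exact ⟨s + n + t, ht, (hacc t).2 h⟩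

/-- the digits of the description of an operation -/
def AOp.digs (eK : K → ℕ) (eA : A → ℕ) : AOp K A → Fin 3 → ℕ
  | .nop => ![0, 0, 0]
  | .push g b => ![1, eK g, eA b]
  | .pop g => ![2, eK g, 0]
  | .acc => ![3, 0, 0]

/-- an injection with one prescribed value -/
theorem exists_injOn_zero {B : Type*} {S : Set B} (hS : S.Countable) (a : B) :
    ∃ e : B → ℕ, Set.InjOn e S ∧ e a = 0 := by
  obtain ⟨f, hf⟩ := Set.countable_iff_exists_injOn.1 hS
  refine ⟨fun x => Equiv.swap (f a) 0 (f x), ?_, ?_⟩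
  · intro x hx y hy hxy
    exact hf hx hy ((Equiv.swap (f a) 0).injective hxy)
  · simp

/-- an injection with two prescribed values -/
theorem exists_inj_zero_one {B : Type*} [Countable B] (u v : B) (huv : u ≠ v) :
    ∃ e : B → ℕ, Injective e ∧ e u = 0 ∧ e v = 1 := by
  obtain ⟨f, hf, hu⟩ := exists_injOn_zero (S := (Set.univ : Set B)) Set.countable_univ u
  have hf' : Injective f := Set.injOn_univ.1 hf
  refine ⟨fun x => Equiv.swap (f v) 1 (f x), ?_, ?_, ?_⟩
  · intro x y hxy
    exact hf' ((Equiv.swap (f v) 1).injective hxy)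
  · have h1 : f v ≠ 0 := fun h => huv (hf' (by rw [hu, h]))
    show Equiv.swap (f v) 1 (f u) = 0
    rw [hu]
    exact Equiv.swap_apply_of_ne_of_ne h1.symm (by omega)
  · show Equiv.swap (f v) 1 (f v) = 1
    exact Equiv.swap_apply_left _ _

/-- **Codes exist.** -/
theorem exists_code (M : AM Q K A) [Finite A] [Countable K] (SQ : Set Q) (hfin : SQ.Finite)
    (hst : M.start ∈ SQ) (hcl : ∀ q ∈ SQ, ∀ b, M.nx q b ∈ SQ) (kin : K) (u v : A) (huv : u ≠ v) :
    ∃ c s₀ : ℕ, ∀ s ≥ s₀, ∃ i < s ^ c, ∀ n T, (codeNM n s i).Accepts T ↔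
      ∃ t, s + n + t < T ∧ M.op (M.run kin u v n s t).1 = .acc := by
  obtain ⟨eQ, hQ, hQ0⟩ := exists_injOn_zero hfin.countable M.start
  obtain ⟨eK, hK, hK0⟩ := exists_injOn_zero (S := (Set.univ : Set K)) Set.countable_univ kin
  have hK' : Injective eK := Set.injOn_univ.1 hK
  obtain ⟨eA, hA, hA0, hA1⟩ := exists_inj_zero_one u v huv
  -- the places
  have : Finite SQ := hfin
  let f : (SQ × Option A) ⊕ (SQ × Fin 3) → ℕ := fun x => match x with
    | .inl (q, b) => 2 * prI (eQ q) (ob (b.map eA))
    | .inr (q, r) => 2 * prI (eQ q) r + 1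
  let g : (SQ × Option A) ⊕ (SQ × Fin 3) → ℕ := fun x => match x with
    | .inl (q, b) => eQ (M.nx q b)
    | .inr (q, r) => (M.op q).digs eK eA r
  have hf : Injective f := by
    rintro (⟨q, b⟩ | ⟨q, r⟩) (⟨q', b'⟩ | ⟨q', r'⟩) h
    · obtain ⟨h1, h2⟩ := prI_inj (by simp only [f] at h; omega :
        prI (eQ q) (ob (b.map eA)) = prI (eQ q') (ob (b'.map eA)))
      have h3 : b = b' := Option.map_injective hA (ob_inj h2)
      have h4 : q = q' := Subtype.ext (hQ q.2 q'.2 h1)
      rw [h3, h4]
    · simp only [f] at h; omega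
    · simp only [f] at h; omega
    · obtain ⟨h1, h2⟩ := prI_inj (by simp only [f] at h; omega :
        prI (eQ q) r.1 = prI (eQ q') r'.1)
      have h4 : q = q' := Subtype.ext (hQ q.2 q'.2 h1)
      rw [h4, Fin.ext h2]
  obtain ⟨J, hJ⟩ := (Set.finite_range f).bddAbove
  obtain ⟨s₁, hs₁⟩ := (Set.finite_range g).bddAbove
  have hJ' : ∀ x, f x < J + 1 := fun x => Nat.lt_succ_of_le (hJ ⟨x, rfl⟩)
  refine ⟨J + 1, s₁ + 1, fun s hs => ?_⟩
  let d : ℕ → ℕ := Function.extend f g (fun _ => 0)
  have hdf : ∀ x, d (f x) = g x := fun x => hf.extend_apply g _ x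
  have hd : ∀ j, d j < s := by
    intro j
    by_cases hj : ∃ x, f x = j
    · obtain ⟨x, rfl⟩ := hj
      rw [hdf]
      have : g x ≤ s₁ := hs₁ ⟨x, rfl⟩
      omega
    · simp only [d]
      rw [Function.extend_apply' _ _ _ hj]
      omega
  refine ⟨ofDig s d (J + 1), ofDig_lt hd _, fun n T => ?_⟩
  have hdig : ∀ x, dig (ofDig s d (J + 1)) s (f x) = g x := fun x => by
    rw [dig_ofDig hd (hJ' x), hdf]
  have hnx : ∀ q ∈ SQ, ∀ b, nxC s (ofDig s d (J + 1)) (eQ q) (b.map eA) = eQ (M.nx q b) :=
    fun q hq b => hdig (.inl (⟨q, hq⟩, b))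
  have hop : ∀ q ∈ SQ, opC s (ofDig s d (J + 1)) (eQ q) = (M.op q).tr eK eA := by
    intro q hq
    have h0 : dig (ofDig s d (J + 1)) s (2 * prI (eQ q) 0 + 1) = (M.op q).digs eK eA 0 :=
      hdig (.inr (⟨q, hq⟩, 0))
    have h1 : dig (ofDig s d (J + 1)) s (2 * prI (eQ q) 1 + 1) = (M.op q).digs eK eA 1 :=
      hdig (.inr (⟨q, hq⟩, 1))
    have h2 : dig (ofDig s d (J + 1)) s (2 * prI (eQ q) 2 + 1) = (M.op q).digs eK eA 2 :=
      hdig (.inr (⟨q, hq⟩, 2))
    unfold opC
    rw [h0, h1, h2]
    cases M.op q <;> simp [AOp.digs, AOp.tr]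
  rw [codeNM_sim hK' hst hcl hop hnx hQ0 kin hK0 u v hA0 hA1]
  simp

end P310
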