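import Vale.Agent.P310.WL

/-!
# P310: deciding the equivalence of graphs by Turing machines

The machine model is Mathlib's `Turing.FinTM2`: a deterministic Turing machine with finitely many
labels, finitely many internal states and finitely many stacks (two stacks are a tape).
-/

namespace P310

open Turing

/-- the word which describes a pair of graphs on `Fin N`: the rows of the adjacency matrix of the
first graph, then those of the second one; every row is followed by the separator `none` -/
noncomputable def enc {N : ℕ} (G H : SimpleGraph (Fin N)) : List (Option Bool) :=
  open Classical in
  ((List.finRange N).flatMap fun u =>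
    ((List.finRange N).map fun v => some (decide (G.Adj u v))) ++ [none]) ++
  ((List.finRange N).flatMap fun u =>
    ((List.finRange N).map fun v => some (decide (H.Adj u v))) ++ [none])

/-- `t` steps of the machine `tm` lead from the configuration `a` to the configuration `b` -/
def Steps (tm : FinTM2) (t : ℕ) (a b : tm.Cfg) : Prop :=
  (flip bind tm.step)^[t] (some a) = some b

/-- The machine `tm` decides `≡_k` in time `T`. The word `enc G H` is written letter by letter on
the input stack; for all graphs `G`, `H` with `N` vertices each, the machine halts after at most
`T N` steps, and its answer, which is read from its final internal state and the top symbol of its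
output stack, is yes if and only if `G ≡_k H`. -/
def Decides (k : ℕ) (tm : FinTM2) (T : ℕ → ℕ) : Prop :=
  (∀ j, Finite (tm.Γ j)) ∧
  ∃ (inp : Option Bool → tm.Γ tm.k₀) (ans : tm.σ → Option (tm.Γ tm.k₁) → Bool),
    ∀ (N : ℕ) (G H : SimpleGraph (Fin N)), ∃ t ≤ T N, ∃ c : tm.Cfg,
      Steps tm t (initList tm ((enc G H).map inp)) c ∧ c.l = none ∧
        (ans c.var (c.stk tm.k₁).head? = true ↔ WLEquiv k G H)

end P310
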