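import Vale.Agent.P310.XorGraph
import Vale.Agent.P310.Stmt
import Vale.Agent.Lib.PolyTM.Print
import Vale.Agent.Lib.PolyTM.Arith

/-!
# P310: coded XOR systems and their graphs on `Fin N`

The variables are the numbers `< nX`, the equations the numbers `< nE`. The number `ev e i`
(`i < 4`) is `0` if the equation `e` has no variable at the place `i`, and `x + 1` if it has the
variable `x` there. The equation `sp` has the right hand side `b`, all other ones have the right
hand side `0`.

A vertex is a number `v < N`; its class is `v / (M + 2) / 16` (a variable `x`, or `nX + e`), its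
assignment is the number `v / (M + 2) % 16` (the bit `i` is the value of the variable at the
place `i`), its leaf number is `v % (M + 2)`. Numbers which are not valid are isolated vertices.
-/

namespace P310

/-- a coded XOR system -/
structure CSys where
  nX : ℕ
  nE : ℕ
  ev : ℕ → ℕ → ℕ
  sp : ℕ

namespace CSys

/-- the requirements -/
structure Ok (c : CSys) : Prop where
  le : ∀ e i, e < c.nE → i < 4 → c.ev e i ≤ c.nX
  inj : ∀ e i j, e < c.nE → i < 4 → j < 4 → c.ev e i = c.ev e j → c.ev e i ≠ 0 → i = j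
  sp_lt : c.sp < c.nE
  sp_ne : c.ev c.sp 0 ≠ 0

/-- the number of classes -/
def M (c : CSys) : ℕ := c.nX + c.nE

/-- the number of vertices -/
def N (c : CSys) : ℕ := c.M * 16 * (c.M + 2)

/-- the class of a vertex -/
def q (c : CSys) (v : ℕ) : ℕ := v / (c.M + 2) / 16

/-- the assignment of a vertex -/
def f (c : CSys) (v : ℕ) : ℕ := v / (c.M + 2) % 16

/-- the leaf number of a vertex -/
def l (c : CSys) (v : ℕ) : ℕ := v % (c.M + 2)

/-- the bit `i` of the assignment of a vertex -/
def bit (c : CSys) (v i : ℕ) : ℕ := c.f v / 2 ^ i % 2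

/-- the valid vertices of the graph with the right hand side `b` of `sp` -/
def Valid (c : CSys) (b v : ℕ) : Prop :=
  c.l v ≤ c.q v + 2 ∧
  (c.q v < c.nX → c.f v < 2) ∧
  (c.nX ≤ c.q v → (∀ i < 4, c.ev (c.q v - c.nX) i = 0 → c.bit v i = 0) ∧
    (c.bit v 0 + c.bit v 1 + c.bit v 2 + c.bit v 3) % 2 = if c.q v - c.nX = c.sp then b else 0)

/-- the adjacency of an equation vertex and a variable vertex, or of a main vertex and a leaf -/
def Adj0 (c : CSys) (u v : ℕ) : Prop :=
  (c.l u = 0 ∧ c.l v = 0 ∧ c.nX ≤ c.q u ∧ c.q v < c.nX ∧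
    ∃ i < 4, c.ev (c.q u - c.nX) i = c.q v + 1 ∧ c.bit u i = c.f v) ∨
  (c.l u = 0 ∧ c.l v ≠ 0 ∧ c.q u = c.q v ∧ c.f u = c.f v)

theorem adj0_irrefl (c : CSys) (u : ℕ) : ¬ c.Adj0 u u := by
  rintro (⟨_, _, h1, h2, _⟩ | ⟨h1, h2, _⟩)
  · omega
  · exact h2 h1

/-- the graph with the right hand side `b` of `sp` -/
def graph (c : CSys) (b : ℕ) : SimpleGraph (Fin c.N) where
  Adj u v := c.Valid b u ∧ c.Valid b v ∧ (c.Adj0 u v ∨ c.Adj0 v u)
  symm := ⟨fun _ _ h => ⟨h.2.1, h.1, h.2.2.symm⟩⟩
  loopless := ⟨fun u h => h.2.2.elim (c.adj0_irrefl u) (c.adj0_irrefl u)⟩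

/-- the variables of an equation -/
noncomputable def vset (c : CSys) (e : Fin c.nE) : Finset (Fin c.nX) :=
  open Classical in Finset.univ.filter fun x => ∃ i < 4, c.ev e i = x.1 + 1

end CSys

end P310
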