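import Vale.Agent.P310.Coded

/-!
# P310: the graphs of a coded XOR system are isomorphic to those of `XorGraph`
-/

namespace P310

/-- `WLEquiv` is invariant under isomorphisms -/
theorem wlEquiv_congr {k : ℕ} {V V' W W' : Type*} [Fintype V] [Fintype V'] [Fintype W]
    [Fintype W'] {G : SimpleGraph V} {G' : SimpleGraph V'} {H : SimpleGraph W}
    {H' : SimpleGraph W'} (e : G ≃g G') (f : H ≃g H') :
    WLEquiv k G H ↔ WLEquiv k G' H' :=
  ⟨WLEquiv.of_iso e f, WLEquiv.of_iso e.symm f.symm⟩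

/-- the XOR system of a coded system (leaves: the class `x` has `x + 2` leaves, the class `e` has
`nX + e + 2` leaves) -/
noncomputable def CSys.toSys (c : CSys) : Sys (Fin c.nX) (Fin c.nE) where
  vars := c.vset
  cls := Sum.elim (fun x => x.1 + 2) (fun e => c.nX + e.1 + 2)
  cls_inj := by
    rintro (x | e) (y | e') h
    · simp only [Sum.elim_inl] at h
      rw [Fin.ext (by omega : x.1 = y.1)]
    · simp only [Sum.elim_inl, Sum.elim_inr] at h
      omega
    · simp only [Sum.elim_inl, Sum.elim_inr] at h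
      omega
    · simp only [Sum.elim_inr] at h
      rw [Fin.ext (by omega : e.1 = e'.1)]
  two_le := by
    rintro (x | e) <;> simp

/-- the right hand sides of the second graph -/
def CSys.rhs (c : CSys) : Fin c.nE → ZMod 2 := fun e => if e.1 = c.sp then 1 else 0

namespace CSys

variable (c : CSys)

/-- the number of a class -/
def clsN : Fin c.nX ⊕ Fin c.nE → ℕ := Sum.elim (fun x => x.1) (fun e => c.nX + e.1)

theorem clsN_lt (p : Fin c.nX ⊕ Fin c.nE) : c.clsN p < c.M := by
  rcases p with x | e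
  · have := x.2
    simp only [clsN, Sum.elim_inl, M]
    omega
  · have := e.2
    simp only [clsN, Sum.elim_inr, M]
    omega

theorem clsN_inj : Function.Injective c.clsN := by
  rintro (x | e) (y | e') h
  · simp only [clsN, Sum.elim_inl] at h
    rw [Fin.ext h]
  · have := x.2
    simp only [clsN, Sum.elim_inl, Sum.elim_inr] at h
    omega
  · have := y.2
    simp only [clsN, Sum.elim_inl, Sum.elim_inr] at h
    omega
  · simp only [clsN, Sum.elim_inr] at h
    rw [Fin.ext (by omega : e.1 = e'.1)]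

/-- the bit of an assignment at the place `i` of the equation `e` -/
noncomputable def pb (e : Fin c.nE) (φ : Fin c.nX → ZMod 2) (i : ℕ) : ℕ :=
  if h : c.ev e i ≠ 0 ∧ c.ev e i - 1 < c.nX then (φ ⟨c.ev e i - 1, h.2⟩).val else 0

theorem pb_lt (e : Fin c.nE) (φ : Fin c.nX → ZMod 2) (i : ℕ) : c.pb e φ i < 2 := by
  unfold pb
  split_ifs
  · exact ZMod.val_lt _
  · omega

theorem pb_zero (e : Fin c.nE) (φ : Fin c.nX → ZMod 2) (i : ℕ) (h : c.ev e i = 0) :
    c.pb e φ i = 0 := by
  unfold pb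
  rw [dif_neg (fun h' => h'.1 h)]

theorem pb_of (e : Fin c.nE) (φ : Fin c.nX → ZMod 2) (i : ℕ) (x : Fin c.nX)
    (h : c.ev e i = x.1 + 1) : c.pb e φ i = (φ x).val := by
  unfold pb
  have hx := x.2
  rw [dif_pos ⟨by omega, by omega⟩]
  congr 2
  exact Fin.ext (by simp only; omega)

/-- the number of an assignment -/
noncomputable def an : Fin c.nX ⊕ Fin c.nE → (Fin c.nX → ZMod 2) → ℕ
  | .inl x, φ => (φ x).val
  | .inr e, φ => c.pb e φ 0 + 2 * c.pb e φ 1 + 4 * c.pb e φ 2 + 8 * c.pb e φ 3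

theorem an_lt (p : Fin c.nX ⊕ Fin c.nE) (φ : Fin c.nX → ZMod 2) : c.an p φ < 16 := by
  rcases p with x | e
  · have := ZMod.val_lt (φ x)
    simp only [an]
    omega
  · have h0 := c.pb_lt e φ 0
    have h1 := c.pb_lt e φ 1
    have h2 := c.pb_lt e φ 2
    have h3 := c.pb_lt e φ 3
    simp only [an]
    omega

/-- the number of a triple -/
noncomputable def num (t : (Fin c.nX ⊕ Fin c.nE) × (Fin c.nX → ZMod 2) × ℕ) : ℕ :=
  (c.clsN t.1 * 16 + c.an t.1 t.2.1) * (c.M + 2) + t.2.2

section num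

variable {t : (Fin c.nX ⊕ Fin c.nE) × (Fin c.nX → ZMod 2) × ℕ} (ht : t.2.2 ≤ c.clsN t.1 + 2)

include ht

theorem num_lt : c.num t < c.N := by
  have h1 := c.clsN_lt t.1
  have h2 := c.an_lt t.1 t.2.1
  unfold num N
  have h3 : c.clsN t.1 * 16 + c.an t.1 t.2.1 + 1 ≤ c.M * 16 := by omega
  calc (c.clsN t.1 * 16 + c.an t.1 t.2.1) * (c.M + 2) + t.2.2
      < (c.clsN t.1 * 16 + c.an t.1 t.2.1) * (c.M + 2) + (c.M + 2) := by omega
    _ = (c.clsN t.1 * 16 + c.an t.1 t.2.1 + 1) * (c.M + 2) := by ring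
    _ ≤ c.M * 16 * (c.M + 2) := Nat.mul_le_mul_right _ h3

theorem num_div : c.num t / (c.M + 2) = c.clsN t.1 * 16 + c.an t.1 t.2.1 := by
  have h1 := c.clsN_lt t.1
  unfold num
  rw [mul_comm, Nat.mul_add_div (by omega), Nat.div_eq_of_lt (by omega), add_zero]

theorem l_num : c.l (c.num t) = t.2.2 := by
  have h1 := c.clsN_lt t.1
  unfold l num
  rw [mul_comm, Nat.mul_add_mod, Nat.mod_eq_of_lt (by omega)]

theorem q_num : c.q (c.num t) = c.clsN t.1 := by
  have h2 := c.an_lt t.1 t.2.1
  unfold q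
  rw [c.num_div ht]
  omega

theorem f_num : c.f (c.num t) = c.an t.1 t.2.1 := by
  have h2 := c.an_lt t.1 t.2.1
  unfold f
  rw [c.num_div ht]
  omega

theorem bit_num (e : Fin c.nE) (he : t.1 = .inr e) (i : ℕ) (hi : i < 4) :
    c.bit (c.num t) i = c.pb e t.2.1 i := by
  unfold bit
  rw [c.f_num ht, he]
  have h0 := c.pb_lt e t.2.1 0
  have h1 := c.pb_lt e t.2.1 1
  have h2 := c.pb_lt e t.2.1 2
  have h3 := c.pb_lt e t.2.1 3
  simp only [an]
  interval_cases i <;> norm_num <;> omega

end num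

theorem mem_vset (e : Fin c.nE) (x : Fin c.nX) :
    x ∈ c.vset e ↔ ∃ i < 4, c.ev e i = x.1 + 1 := by
  unfold vset
  simp

/-- the sum over the variables of an equation -/
theorem sum_vset (hc : c.Ok) (e : Fin c.nE) (φ : Fin c.nX → ZMod 2) :
    ∑ x ∈ c.vset e, φ x =
      ((c.pb e φ 0 + c.pb e φ 1 + c.pb e φ 2 + c.pb e φ 3 : ℕ) : ZMod 2) := by
  classical
  have h1 : ((c.pb e φ 0 + c.pb e φ 1 + c.pb e φ 2 + c.pb e φ 3 : ℕ) : ZMod 2) =
      ∑ i ∈ Finset.range 4, ((c.pb e φ i : ℕ) : ZMod 2) := by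
    simp only [Finset.sum_range_succ, Finset.sum_range_zero, zero_add]
    push_cast
    ring
  have h2 : ∀ i ∈ Finset.range 4, ((c.pb e φ i : ℕ) : ZMod 2) =
      ∑ x : Fin c.nX, if c.ev e i = x.1 + 1 then φ x else 0 := by
    intro i hi
    rw [Finset.mem_range] at hi
    by_cases h0 : c.ev e i = 0
    · rw [c.pb_zero e φ i h0, Nat.cast_zero]
      refine (Finset.sum_eq_zero fun x _ => ?_).symm
      rw [if_neg (by omega)]
    · have hle := hc.le e i e.2 hi
      have hlt : c.ev e i - 1 < c.nX := by omega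
      rw [Finset.sum_eq_single (⟨c.ev e i - 1, hlt⟩ : Fin c.nX)]
      · have hx : c.ev e i = (⟨c.ev e i - 1, hlt⟩ : Fin c.nX).1 + 1 := by
          simp only
          omega
        rw [if_pos hx, c.pb_of e φ i _ hx, ZMod.natCast_zmod_val]
      · intro x _ hx
        rw [if_neg]
        intro h
        apply hx
        exact Fin.ext (by simp only; omega)
      · intro h
        exact absurd (Finset.mem_univ _) h
  rw [h1, Finset.sum_congr rfl h2, Finset.sum_comm]
  have h3 : ∀ x : Fin c.nX, (∑ i ∈ Finset.range 4, if c.ev e i = x.1 + 1 then φ x else 0) =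
      if x ∈ c.vset e then φ x else 0 := by
    intro x
    by_cases hx : x ∈ c.vset e
    · rw [if_pos hx]
      obtain ⟨i, hi, hix⟩ := (c.mem_vset e x).1 hx
      rw [Finset.sum_eq_single i]
      · rw [if_pos hix]
      · intro j hj hji
        rw [if_neg]
        intro h
        exact hji (hc.inj e j i e.2 (Finset.mem_range.1 hj) hi (h.trans hix.symm) (by omega))
      · intro h
        exact absurd (Finset.mem_range.2 hi) h
    · rw [if_neg hx]
      refine Finset.sum_eq_zero fun i hi => ?_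
      rw [if_neg]
      intro h
      exact hx ((c.mem_vset e x).2 ⟨i, Finset.mem_range.1 hi, h⟩)
  rw [Finset.sum_congr rfl fun x _ => h3 x, Finset.sum_ite_mem, Finset.univ_inter]

/-- the assignment is determined by its number -/
theorem an_inj (p : Fin c.nX ⊕ Fin c.nE) (φ ψ : Fin c.nX → ZMod 2)
    (h1 : ∀ x, x ∉ c.toSys.cov p → φ x = 0) (h2 : ∀ x, x ∉ c.toSys.cov p → ψ x = 0)
    (h : c.an p φ = c.an p ψ) : φ = ψ := by
  funext x
  by_cases hx : x ∈ c.toSys.cov p
  · rcases p with y | e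
    · rw [Sys.cov_inl, Finset.mem_singleton] at hx
      subst hx
      exact ZMod.val_injective 2 h
    · rw [Sys.cov_inr] at hx
      obtain ⟨i, hi, hix⟩ := (c.mem_vset e x).1 hx
      have h3 : c.pb e φ i = c.pb e ψ i := by
        have a0 := c.pb_lt e φ 0
        have a1 := c.pb_lt e φ 1
        have a2 := c.pb_lt e φ 2
        have a3 := c.pb_lt e φ 3
        have b0 := c.pb_lt e ψ 0
        have b1 := c.pb_lt e ψ 1
        have b2 := c.pb_lt e ψ 2
        have b3 := c.pb_lt e ψ 3
        simp only [an] at h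
        interval_cases i <;> omega
      rw [c.pb_of e φ i x hix, c.pb_of e ψ i x hix] at h3
      exact ZMod.val_injective 2 h3
  · rw [h1 x hx, h2 x hx]

theorem cls_toSys (p : Fin c.nX ⊕ Fin c.nE) : c.toSys.cls p = c.clsN p + 2 := by
  rcases p with x | e <;> rfl

theorem num_inj {b : Fin c.nE → ZMod 2}
    {t t' : (Fin c.nX ⊕ Fin c.nE) × (Fin c.nX → ZMod 2) × ℕ} (ht : c.toSys.Valid b t)
    (ht' : c.toSys.Valid b t') (h : c.num t = c.num t') : t = t' := by
  have hl : t.2.2 ≤ c.clsN t.1 + 2 := by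
    have := ht.2.2
    rwa [c.cls_toSys] at this
  have hl' : t'.2.2 ≤ c.clsN t'.1 + 2 := by
    have := ht'.2.2
    rwa [c.cls_toSys] at this
  have h1 : t.1 = t'.1 := c.clsN_inj (by rw [← c.q_num hl, ← c.q_num hl', h])
  have h2 : t.2.2 = t'.2.2 := by rw [← c.l_num hl, ← c.l_num hl', h]
  have h3 : c.an t.1 t.2.1 = c.an t'.1 t'.2.1 := by rw [← c.f_num hl, ← c.f_num hl', h]
  obtain ⟨p, φ, l⟩ := t
  obtain ⟨p', φ', l'⟩ := t'
  dsimp only at h1 h2 h3
  subst h1 h2
  rw [c.an_inj p φ φ' ht.1 ht'.1 h3]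

/-- the right hand side as an element of `ZMod 2` -/
def rb (b : ℕ) : Fin c.nE → ZMod 2 := fun e => ((if e.1 = c.sp then b else 0 : ℕ) : ZMod 2)

/-- valid triples have valid numbers -/
theorem valid_num (hc : c.Ok) {b : ℕ} (hb : b < 2)
    {t : (Fin c.nX ⊕ Fin c.nE) × (Fin c.nX → ZMod 2) × ℕ} (ht : c.toSys.Valid (c.rb b) t) :
    c.Valid b (c.num t) := by
  have hl : t.2.2 ≤ c.clsN t.1 + 2 := by
    have := ht.2.2
    rwa [c.cls_toSys] at this
  refine ⟨?_, ?_, ?_⟩
  · rw [c.l_num hl, c.q_num hl]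
    exact hl
  · intro hq
    rw [c.q_num hl] at hq
    rw [c.f_num hl]
    rcases hp : t.1 with x | e
    · exact ZMod.val_lt (t.2.1 x)
    · rw [hp] at hq
      simp only [clsN, Sum.elim_inr] at hq
      omega
  · intro hq
    rw [c.q_num hl] at hq ⊢
    rcases hp : t.1 with x | e
    · rw [hp] at hq
      simp only [clsN, Sum.elim_inl] at hq
      have := x.2
      omega
    · have he : c.clsN (Sum.inr e) - c.nX = e.1 := by
        simp only [clsN, Sum.elim_inr]
        omega
      rw [he]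
      refine ⟨fun i hi h0 => ?_, ?_⟩
      · rw [c.bit_num hl e hp i hi]
        exact c.pb_zero e _ i h0
      · rw [c.bit_num hl e hp 0 (by omega), c.bit_num hl e hp 1 (by omega),
          c.bit_num hl e hp 2 (by omega), c.bit_num hl e hp 3 (by omega)]
        have h1 := ht.2.1 e hp
        have h2 : ∑ x ∈ c.vset e, t.2.1 x = c.rb b e := h1
        rw [c.sum_vset hc] at h2
        unfold rb at h2
        rw [ZMod.natCast_eq_natCast_iff'] at h2
        rw [h2]
        exact Nat.mod_eq_of_lt (by split_ifs <;> omega)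

theorem q_lt_M {v : ℕ} (hv : v < c.N) : c.q v < c.M := by
  unfold q
  unfold N at hv
  have h1 : v / (c.M + 2) < c.M * 16 := Nat.div_lt_of_lt_mul (by rw [mul_comm]; exact hv)
  exact Nat.div_lt_of_lt_mul (by rw [mul_comm]; exact h1)

/-- valid numbers come from valid triples -/
theorem exists_num (hc : c.Ok) {b : ℕ} (hb : b < 2) {v : ℕ} (hv : v < c.N)
    (h : c.Valid b v) : ∃ t, c.toSys.Valid (c.rb b) t ∧ c.num t = v := by
  classical
  obtain ⟨h1, h2, h3⟩ := h
  have hq := c.q_lt_M hv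
  have hdiv : v = (c.q v * 16 + c.f v) * (c.M + 2) + c.l v := by
    have e1 : c.q v * 16 + c.f v = v / (c.M + 2) := by
      unfold q f
      omega
    rw [e1]
    unfold l
    rw [mul_comm]
    exact (Nat.div_add_mod v (c.M + 2)).symm
  have hf16 : c.f v < 16 := Nat.mod_lt _ (by norm_num)
  rcases lt_or_ge (c.q v) c.nX with hx | hx
  · have hf := h2 hx
    refine ⟨(.inl ⟨c.q v, hx⟩, Pi.single ⟨c.q v, hx⟩ ((c.f v : ℕ) : ZMod 2), c.l v),
      ⟨?_, ?_, ?_⟩, ?_⟩
    · intro x hxx
      rw [Sys.cov_inl, Finset.mem_singleton] at hxx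
      exact Pi.single_eq_of_ne hxx _
    · intro e he
      cases he
    · rw [c.cls_toSys]
      exact h1
    · have e1 : c.an (.inl ⟨c.q v, hx⟩)
          (Pi.single ⟨c.q v, hx⟩ ((c.f v : ℕ) : ZMod 2)) = c.f v := by
        simp only [an, Pi.single_eq_same]
        rw [ZMod.val_natCast]
        exact Nat.mod_eq_of_lt hf
      unfold num
      dsimp only
      rw [e1]
      exact hdiv.symm
  · obtain ⟨h4, h5⟩ := h3 hx
    have hlt : c.q v - c.nX < c.nE := by
      unfold M at hq
      omega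
    set e : Fin c.nE := ⟨c.q v - c.nX, hlt⟩ with he
    have hee : (e : ℕ) = c.q v - c.nX := rfl
    rw [← hee] at h4 h5
    let φ : Fin c.nX → ZMod 2 := fun x =>
      if h : ∃ i < 4, c.ev e i = x.1 + 1 then ((c.bit v h.choose : ℕ) : ZMod 2) else 0
    have hφ : ∀ (x : Fin c.nX) (i : ℕ), i < 4 → c.ev e i = x.1 + 1 →
        φ x = ((c.bit v i : ℕ) : ZMod 2) := by
      intro x i hi hix
      have hex : ∃ i < 4, c.ev e i = x.1 + 1 := ⟨i, hi, hix⟩
      have h6 : φ x = ((c.bit v hex.choose : ℕ) : ZMod 2) := dif_pos hex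
      obtain ⟨h7, h8⟩ := hex.choose_spec
      have h9 : hex.choose = i :=
        hc.inj e hex.choose i e.2 h7 hi (h8.trans hix.symm) (by omega)
      rw [h6, h9]
    have hbit : ∀ i, c.bit v i < 2 := fun i => Nat.mod_lt _ (by norm_num)
    have hpb : ∀ i < 4, c.pb e φ i = c.bit v i := by
      intro i hi
      by_cases h0 : c.ev e i = 0
      · rw [c.pb_zero e φ i h0, h4 i hi h0]
      · have hle := hc.le e i e.2 hi
        have hlt' : c.ev e i - 1 < c.nX := by omega
        have hix : c.ev e i = (⟨c.ev e i - 1, hlt'⟩ : Fin c.nX).1 + 1 := by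
          simp only
          omega
        rw [c.pb_of e φ i _ hix, hφ _ i hi hix, ZMod.val_natCast]
        exact Nat.mod_eq_of_lt (hbit i)
    refine ⟨(.inr e, φ, c.l v), ⟨?_, ?_, ?_⟩, ?_⟩
    · intro x hxx
      rw [Sys.cov_inr] at hxx
      have : ¬ ∃ i < 4, c.ev e i = x.1 + 1 := fun h => hxx ((c.mem_vset e x).2 h)
      exact dif_neg this
    · intro e' he'
      obtain rfl : e = e' := Sum.inr.inj he'
      show ∑ x ∈ c.vset e, φ x = c.rb b e
      rw [c.sum_vset hc, hpb 0 (by omega), hpb 1 (by omega), hpb 2 (by omega), hpb 3 (by omega)]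
      unfold rb
      rw [ZMod.natCast_eq_natCast_iff', h5]
      exact (Nat.mod_eq_of_lt (by split_ifs <;> omega)).symm
    · rw [c.cls_toSys]
      show c.l v ≤ c.nX + (c.q v - c.nX) + 2
      omega
    · have e1 : c.an (.inr e) φ = c.f v := by
        simp only [an]
        rw [hpb 0 (by omega), hpb 1 (by omega), hpb 2 (by omega), hpb 3 (by omega)]
        unfold bit
        norm_num
        omega
      have e2 : c.clsN (.inr e) = c.q v := by
        show c.nX + (c.q v - c.nX) = c.q v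
        omega
      unfold num
      dsimp only
      rw [e1, e2]
      exact hdiv.symm

/-- adjacency of triples and of their numbers -/
theorem adj0_num {b : Fin c.nE → ZMod 2}
    {t t' : (Fin c.nX ⊕ Fin c.nE) × (Fin c.nX → ZMod 2) × ℕ} (ht : c.toSys.Valid b t)
    (ht' : c.toSys.Valid b t') : c.Adj0 (c.num t) (c.num t') ↔ c.toSys.adj0 t t' := by
  have hl : t.2.2 ≤ c.clsN t.1 + 2 := by
    have := ht.2.2
    rwa [c.cls_toSys] at this
  have hl' : t'.2.2 ≤ c.clsN t'.1 + 2 := by
    have := ht'.2.2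
    rwa [c.cls_toSys] at this
  unfold Adj0
  rw [c.l_num hl, c.l_num hl', c.q_num hl, c.q_num hl', c.f_num hl, c.f_num hl']
  refine or_congr ?_ ?_
  · refine and_congr Iff.rfl (and_congr Iff.rfl ?_)
    constructor
    · rintro ⟨h1, h2, i, hi, h3, h4⟩
      rcases hp : t.1 with x | e
      · rw [hp] at h1
        simp only [clsN, Sum.elim_inl] at h1
        have := x.2
        omega
      · rcases hp' : t'.1 with x | e'
        · rw [c.bit_num hl e hp i hi] at h4
          rw [hp, hp'] at h3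
          have he : c.clsN (Sum.inr e) - c.nX = e.1 := by
            simp only [clsN, Sum.elim_inr]
            omega
          rw [he] at h3
          have h5 : c.ev e i = x.1 + 1 := h3
          refine ⟨e, x, rfl, rfl, (c.mem_vset e x).2 ⟨i, hi, h5⟩, ?_⟩
          rw [c.pb_of e _ i x h5, hp'] at h4
          exact ZMod.val_injective 2 h4
        · rw [hp'] at h2
          simp only [clsN, Sum.elim_inr] at h2
          omega
    · rintro ⟨e, x, hp, hp', hx, h⟩
      obtain ⟨i, hi, hix⟩ := (c.mem_vset e x).1 hx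
      have he : c.clsN (Sum.inr e) - c.nX = e.1 := by
        simp only [clsN, Sum.elim_inr]
        omega
      refine ⟨?_, ?_, i, hi, ?_, ?_⟩
      · rw [hp]
        simp only [clsN, Sum.elim_inr]
        omega
      · rw [hp']
        exact x.2
      · rw [hp, hp', he]
        exact hix
      · rw [c.bit_num hl e hp i hi, c.pb_of e _ i x hix, hp', h]
        rfl
  · refine and_congr Iff.rfl (and_congr Iff.rfl ?_)
    constructor
    · rintro ⟨h1, h2⟩
      have h3 : t.1 = t'.1 := c.clsN_inj h1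
      refine ⟨h3, ?_⟩
      rw [← h3] at h2
      refine c.an_inj t.1 _ _ ht.1 ?_ h2
      rw [h3]
      exact ht'.1
    · rintro ⟨h1, h2⟩
      rw [h1, h2]
      exact ⟨rfl, rfl⟩

/-- valid triples and valid numbers -/
noncomputable def numEquiv (hc : c.Ok) {b : ℕ} (hb : b < 2) :
    {t // c.toSys.Valid (c.rb b) t} ≃ {v : Fin c.N // c.Valid b v} :=
  Equiv.ofBijective (fun t => ⟨⟨c.num t.1, c.num_lt (by
      have := t.2.2.2
      rwa [c.cls_toSys] at this)⟩, c.valid_num hc hb t.2⟩) (by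
    constructor
    · intro t t' h
      have h1 : c.num t.1 = c.num t'.1 := congrArg (fun v => (v.1 : ℕ)) h
      exact Subtype.ext (c.num_inj t.2 t'.2 h1)
    · rintro ⟨v, hv⟩
      obtain ⟨t, ht, htv⟩ := c.exists_num hc hb v.2 hv
      exact ⟨⟨t, ht⟩, Subtype.ext (Fin.ext htv)⟩)

theorem numEquiv_val (hc : c.Ok) {b : ℕ} (hb : b < 2) (t : {t // c.toSys.Valid (c.rb b) t}) :
    ((c.numEquiv hc hb t).1 : ℕ) = c.num t.1 := rfl

/-- the isomorphism of graphs -/
theorem exists_iso (hc : c.Ok) {b : ℕ} (hb : b < 2) (J : Type)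
    (e : {v : Fin c.N // ¬ c.Valid b v} ≃ J) :
    Nonempty (c.toSys.graph (c.rb b) J ≃g c.graph b) := by
  classical
  let E : c.toSys.Vert (c.rb b) J ≃ Fin c.N :=
    ((c.numEquiv hc hb).sumCongr e.symm).trans
      (Equiv.sumCompl (fun v : Fin c.N => c.Valid b v))
  have hE1 : ∀ t, E (.inl t) = (c.numEquiv hc hb t).1 := fun t => rfl
  have hE2 : ∀ j, E (.inr j) = (e.symm j).1 := fun j => rfl
  refine ⟨⟨E, ?_⟩⟩
  rintro (t | j) (t' | j')
  · rw [hE1, hE1]
    have h1 := (c.numEquiv hc hb t).2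
    have h2 := (c.numEquiv hc hb t').2
    show (c.Valid b _ ∧ c.Valid b _ ∧ (c.Adj0 _ _ ∨ c.Adj0 _ _)) ↔
      (c.toSys.adj0 t.1 t'.1 ∨ c.toSys.adj0 t'.1 t.1)
    rw [c.numEquiv_val, c.numEquiv_val, c.adj0_num t.2 t'.2, c.adj0_num t'.2 t.2]
    exact ⟨fun h => h.2.2, fun h => ⟨h1, h2, h⟩⟩
  · rw [hE1, hE2]
    refine ⟨fun h => absurd h.2.1 (e.symm j').2, fun h => h.elim⟩
  · rw [hE2, hE1]
    refine ⟨fun h => absurd h.1 (e.symm j).2, fun h => h.elim⟩
  · rw [hE2, hE2]
    refine ⟨fun h => absurd h.1 (e.symm j).2, fun h => h.elim⟩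

theorem rb_zero : c.rb 0 = 0 := by
  funext e
  simp [rb]

theorem rb_one : c.rb 1 = c.rhs := by
  funext e
  unfold rb rhs
  split_ifs <;> simp

/-- the translation of the special class -/
theorem exists_valid_equiv (hc : c.Ok) :
    Nonempty ({t // c.toSys.Valid (c.rb 0) t} ≃ {t // c.toSys.Valid (c.rb 1) t}) := by
  classical
  have hle := hc.le c.sp 0 hc.sp_lt (by omega)
  have hne := hc.sp_ne
  have hlt : c.ev c.sp 0 - 1 < c.nX := by omega
  set x₀ : Fin c.nX := ⟨c.ev c.sp 0 - 1, hlt⟩ with hx₀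
  set s : Fin c.nE := ⟨c.sp, hc.sp_lt⟩ with hs
  have hx₀s : x₀ ∈ c.vset s := (c.mem_vset s x₀).2 ⟨0, by omega, by
    show c.ev c.sp 0 = c.ev c.sp 0 - 1 + 1
    omega⟩
  let T : (Fin c.nX ⊕ Fin c.nE) × (Fin c.nX → ZMod 2) × ℕ →
      (Fin c.nX ⊕ Fin c.nE) × (Fin c.nX → ZMod 2) × ℕ := fun t =>
    (t.1, (if t.1 = .inr s then t.2.1 + Pi.single x₀ 1 else t.2.1), t.2.2)
  have hTT : ∀ t, T (T t) = t := by
    rintro ⟨p, φ, l⟩
    simp only [T]
    by_cases h : p = .inr s
    · simp only [if_pos h]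
      congr 2
      rw [add_assoc, ← Pi.single_add]
      have : (1 + 1 : ZMod 2) = 0 := rfl
      rw [this, Pi.single_zero, add_zero]
    · simp only [if_neg h]
  have hval : ∀ (b b' : ℕ), b + b' = 1 → ∀ t, c.toSys.Valid (c.rb b) t →
      c.toSys.Valid (c.rb b') (T t) := by
    rintro b b' hbb ⟨p, φ, l⟩ ⟨h1, h2, h3⟩
    refine ⟨?_, ?_, h3⟩
    · intro x hx
      have h4 : φ x = 0 := h1 x hx
      simp only [T]
      by_cases h : p = .inr s
      · rw [if_pos h, Pi.add_apply, h4, zero_add]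
        refine Pi.single_eq_of_ne ?_ _
        rintro rfl
        apply hx
        show x₀ ∈ c.toSys.cov p
        rw [h]
        exact hx₀s
      · rw [if_neg h]
        exact h4
    · intro e he
      have he' : p = .inr e := he
      have h4 := h2 e he
      simp only [T]
      by_cases h : e = s
      · subst h
        rw [if_pos he']
        have h5 : ∑ x ∈ c.vset s, (φ + Pi.single x₀ 1 : Fin c.nX → ZMod 2) x =
            (∑ x ∈ c.vset s, φ x) + 1 := by
          simp only [Pi.add_apply]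
          rw [Finset.sum_add_distrib]
          congr 1
          rw [Finset.sum_eq_single x₀]
          · exact Pi.single_eq_same _ _
          · intro x _ hx
            exact Pi.single_eq_of_ne hx _
          · intro h
            exact absurd hx₀s h
        show ∑ x ∈ c.vset s, (φ + Pi.single x₀ 1 : Fin c.nX → ZMod 2) x = c.rb b' s
        rw [h5]
        have h6 : ∑ x ∈ c.vset s, φ x = c.rb b s := h4
        rw [h6]
        have h7 : (s : ℕ) = c.sp := rfl
        simp only [rb, if_pos h7]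
        have h8 : (b = 0 ∧ b' = 1) ∨ (b = 1 ∧ b' = 0) := by omega
        rcases h8 with ⟨rfl, rfl⟩ | ⟨rfl, rfl⟩
        · rfl
        · rfl
      · have hpe : p ≠ .inr s := by
          rw [he']
          intro h'
          exact h (Sum.inr.inj h')
        rw [if_neg hpe]
        have h6 : ∑ x ∈ c.vset e, φ x = c.rb b e := h4
        show ∑ x ∈ c.vset e, φ x = c.rb b' e
        rw [h6]
        have h7 : ¬ (e : ℕ) = c.sp := fun h' => h (Fin.ext h')
        simp only [rb, if_neg h7]
  exact ⟨{ toFun := fun t => ⟨T t.1, hval 0 1 rfl _ t.2⟩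
           invFun := fun t => ⟨T t.1, hval 1 0 rfl _ t.2⟩
           left_inv := fun t => Subtype.ext (hTT _)
           right_inv := fun t => Subtype.ext (hTT _) }⟩

/-- The graphs of a coded system are isomorphic to the graphs of its XOR system. Proof plan: `J` is
the subtype of the invalid numbers `v < N` for `b = 0`; `(p, φ, l)` is mapped to the number with
class `p` (`x`, or `nX + e`), assignment `φ x` resp. `∑ i < 4, 2 ^ i * φ (ev e i - 1)`
(`0` if `ev e i = 0`), leaf number `l`. For `b = 1` the numbers of `J` are mapped by the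
involution of `Fin N` which flips the bit `0` of the assignment of the class `nX + sp` (it maps
the valid numbers for `b = 0` onto the valid numbers for `b = 1`, as `ev sp 0 ≠ 0`). -/
theorem wl_iff (c : CSys) (hc : c.Ok) (k : ℕ) : ∃ (J : Type) (_ : Finite J),
    (WLEquiv k (c.graph 0) (c.graph 1) ↔
      WLEquiv k (c.toSys.graph 0 J) (c.toSys.graph c.rhs J)) := by
  classical
  refine ⟨{v : Fin c.N // ¬ c.Valid 0 v}, inferInstance, ?_⟩
  obtain ⟨F⟩ := c.exists_valid_equiv hc
  have hcard : Fintype.card {v : Fin c.N // c.Valid 1 v} =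
      Fintype.card {v : Fin c.N // c.Valid 0 v} :=
    Fintype.card_congr (((c.numEquiv hc (by omega : 1 < 2)).symm.trans F.symm).trans
      (c.numEquiv hc (by omega : 0 < 2)))
  have hcard' := Fintype.card_compl_eq_card_compl (fun v : Fin c.N => c.Valid 1 v)
    (fun v : Fin c.N => c.Valid 0 v) hcard
  have e1 : {v : Fin c.N // ¬ c.Valid 1 v} ≃ {v : Fin c.N // ¬ c.Valid 0 v} :=
    Fintype.equivOfCardEq hcard'
  obtain ⟨I0⟩ := c.exists_iso hc (by omega : 0 < 2) _
    (Equiv.refl {v : Fin c.N // ¬ c.Valid 0 v})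
  obtain ⟨I1⟩ := c.exists_iso hc (by omega : 1 < 2) _ e1
  rw [c.rb_zero] at I0
  rw [c.rb_one] at I1
  exact wlEquiv_congr I0.symm I1.symm

end CSys

end P310
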