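import Vale.Agent.P310.Coded

/-!
# P310: the graphs of coded XOR systems are printed in polynomial time
-/

namespace P310

open PolyTM

/-- a predicate whose indicator is computable in polynomial time -/
def CP {K : ℕ} (p : (Fin K → ℕ) → Prop) : Prop :=
  Comp (Option Bool) (fun z => @ite _ (p z) (Classical.propDecidable _) 1 0)

section CP

variable {K : ℕ} {p q : (Fin K → ℕ) → Prop} {f g : (Fin K → ℕ) → ℕ}

theorem CP.of [DecidablePred p] (h : Comp (Option Bool) (fun z => if p z then 1 else 0)) :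
    CP p := by
  refine h.congr fun z => ?_
  by_cases h : p z <;> simp [h]

theorem CP.congr (h : CP p) (hpq : ∀ z, p z ↔ q z) : CP q := by
  have : p = q := funext fun z => propext (hpq z)
  rwa [← this]

theorem CP.and (hp : CP p) (hq : CP q) : CP (fun z => p z ∧ q z) := by
  classical
  refine CP.of (Comp.and_ind (hp.congr fun z => ?_) (hq.congr fun z => ?_))
  · by_cases h : p z <;> simp [h]
  · by_cases h : q z <;> simp [h]

theorem CP.or (hp : CP p) (hq : CP q) : CP (fun z => p z ∨ q z) := by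
  classical
  refine CP.of (Comp.or_ind (hp.congr fun z => ?_) (hq.congr fun z => ?_))
  · by_cases h : p z <;> simp [h]
  · by_cases h : q z <;> simp [h]

theorem CP.not (hp : CP p) : CP (fun z => ¬ p z) := by
  classical
  refine CP.of (Comp.not_ind (hp.congr fun z => ?_))
  by_cases h : p z <;> simp [h]

theorem CP.imp (hp : CP p) (hq : CP q) : CP (fun z => p z → q z) :=
  (hp.not.or hq).congr fun z => by tauto

theorem CP.le (hf : Comp (Option Bool) f) (hg : Comp (Option Bool) g) :
    CP (fun z => f z ≤ g z) := CP.of (Comp.le_ind hf hg)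

theorem CP.lt (hf : Comp (Option Bool) f) (hg : Comp (Option Bool) g) :
    CP (fun z => f z < g z) := CP.of (Comp.lt_ind hf hg)

theorem CP.eq (hf : Comp (Option Bool) f) (hg : Comp (Option Bool) g) :
    CP (fun z => f z = g z) := CP.of (Comp.eq_ind hf hg)

theorem CP.forall4 {p : ℕ → (Fin K → ℕ) → Prop} (h : ∀ i, CP (p i)) :
    CP (fun z => ∀ i < 4, p i z) := by
  refine ((h 0).and ((h 1).and ((h 2).and (h 3)))).congr fun z => ?_
  constructor
  · rintro ⟨h0, h1, h2, h3⟩ i hi
    interval_cases i <;> assumption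
  · intro h
    exact ⟨h 0 (by omega), h 1 (by omega), h 2 (by omega), h 3 (by omega)⟩

theorem CP.exists4 {p : ℕ → (Fin K → ℕ) → Prop} (h : ∀ i, CP (p i)) :
    CP (fun z => ∃ i < 4, p i z) := by
  refine ((h 0).or ((h 1).or ((h 2).or (h 3)))).congr fun z => ?_
  constructor
  · rintro (h | h | h | h)
    · exact ⟨0, by omega, h⟩
    · exact ⟨1, by omega, h⟩
    · exact ⟨2, by omega, h⟩
    · exact ⟨3, by omega, h⟩
  · rintro ⟨i, hi, h⟩
    interval_cases i
    · exact Or.inl h
    · exact Or.inr (Or.inl h)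
    · exact Or.inr (Or.inr (Or.inl h))
    · exact Or.inr (Or.inr (Or.inr h))

/-- one letter -/
theorem CP.prn (hp : CP p) : Prn (Option Bool) (fun z =>
    [some (@decide (p z) (Classical.propDecidable _))]) := by
  refine ((Prn.rep hp [some true]).append (Prn.rep hp.not [some false])).congr fun z => ?_
  by_cases h : p z <;> simp [h]

end CP

section sys

variable {P : ℕ} (S : (Fin P → ℕ) → CSys) (F : (Fin (P + 2) → ℕ) → ℕ)

/-- the coded system whose equations are given by `F` -/
def cpS (x : Fin P → ℕ) : CSys where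
  nX := (S x).nX
  nE := (S x).nE
  sp := (S x).sp
  ev := fun e i => F (Fin.cons i (Fin.cons e x))

theorem cp_sub {G : (Fin P → ℕ) → ℕ} (hG : Comp (Option Bool) G) {K : ℕ} (sh : Fin P → Fin K) :
    Comp (Option Bool) (fun z : Fin K → ℕ => G (fun j => z (sh j))) :=
  Comp.comp hG (g := fun j z => z (sh j)) fun j => Comp.proj (sh j)

variable (hX : Comp (Option Bool) fun x => (S x).nX) (hE : Comp (Option Bool) fun x => (S x).nE)
    (hsp : Comp (Option Bool) fun x => (S x).sp) (hF : Comp (Option Bool) F)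
    {K : ℕ} (sh : Fin P → Fin K)

include hF in
theorem cp_ev {i e : (Fin K → ℕ) → ℕ} (hi : Comp (Option Bool) i) (he : Comp (Option Bool) e) :
    Comp (Option Bool) (fun z => (cpS S F (fun j => z (sh j))).ev (e z) (i z)) := by
  refine (Comp.comp hF (g := Fin.cons i (Fin.cons e (fun j z => z (sh j)))) ?_).congr ?_
  · intro k
    refine Fin.cases hi (fun k => ?_) k
    rw [Fin.cons_succ]
    refine Fin.cases he (fun k => ?_) k
    rw [Fin.cons_succ]
    exact Comp.proj (sh k)
  · intro z
    show F _ = F _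
    congr 1
    funext k
    refine Fin.cases rfl (fun k => ?_) k
    rw [Fin.cons_succ, Fin.cons_succ]
    refine Fin.cases rfl (fun k => ?_) k
    rw [Fin.cons_succ, Fin.cons_succ]

include hX hE in
theorem cp_M : Comp (Option Bool) (fun z => (cpS S F (fun j => z (sh j))).M) :=
  Comp.add (cp_sub hX sh) (cp_sub hE sh)

include hX hE in
theorem cp_q {v : (Fin K → ℕ) → ℕ} (hv : Comp (Option Bool) v) :
    Comp (Option Bool) (fun z => (cpS S F (fun j => z (sh j))).q (v z)) :=
  Comp.div (Comp.div hv (Comp.add (cp_M S F hX hE sh) (Comp.const 2))) (Comp.const 16)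

include hX hE in
theorem cp_f {v : (Fin K → ℕ) → ℕ} (hv : Comp (Option Bool) v) :
    Comp (Option Bool) (fun z => (cpS S F (fun j => z (sh j))).f (v z)) :=
  Comp.mod (Comp.div hv (Comp.add (cp_M S F hX hE sh) (Comp.const 2))) (Comp.const 16)

include hX hE in
theorem cp_l {v : (Fin K → ℕ) → ℕ} (hv : Comp (Option Bool) v) :
    Comp (Option Bool) (fun z => (cpS S F (fun j => z (sh j))).l (v z)) :=
  Comp.mod hv (Comp.add (cp_M S F hX hE sh) (Comp.const 2))

include hX hE in
theorem cp_bit {v : (Fin K → ℕ) → ℕ} (hv : Comp (Option Bool) v) (i : ℕ) :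
    Comp (Option Bool) (fun z => (cpS S F (fun j => z (sh j))).bit (v z) i) :=
  Comp.mod (Comp.div (cp_f S F hX hE sh hv) (Comp.const (2 ^ i))) (Comp.const 2)

include hX hE hsp hF in
theorem cp_valid {v : (Fin K → ℕ) → ℕ} (hv : Comp (Option Bool) v) (b : ℕ) :
    CP (fun z => (cpS S F (fun j => z (sh j))).Valid b (v z)) := by
  have hx : Comp (Option Bool) (fun z => (cpS S F (fun j => z (sh j))).nX) := cp_sub hX sh
  have hs : Comp (Option Bool) (fun z => (cpS S F (fun j => z (sh j))).sp) := cp_sub hsp sh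
  have hq := cp_q S F hX hE sh hv
  have hf := cp_f S F hX hE sh hv
  have hl := cp_l S F hX hE sh hv
  have hb := cp_bit S F hX hE sh hv
  refine (CP.le hl (Comp.add hq (Comp.const 2))).and (((CP.lt hq hx).imp
    (CP.lt hf (Comp.const 2))).and ((CP.le hx hq).imp ((CP.forall4 fun i => ?_).and ?_)))
  · exact (CP.eq (cp_ev S F hF sh (Comp.const i) (Comp.sub hq hx)) (Comp.const 0)).imp
      (CP.eq (hb i) (Comp.const 0))
  · exact CP.eq (Comp.mod (Comp.add (Comp.add (Comp.add (hb 0) (hb 1)) (hb 2)) (hb 3))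
      (Comp.const 2)) (Comp.ite (Comp.eq_ind (Comp.sub hq hx) hs) (Comp.const b) (Comp.const 0))

include hX hE hF in
theorem cp_adj0 {u v : (Fin K → ℕ) → ℕ} (hu : Comp (Option Bool) u) (hv : Comp (Option Bool) v) :
    CP (fun z => (cpS S F (fun j => z (sh j))).Adj0 (u z) (v z)) := by
  have hx : Comp (Option Bool) (fun z => (cpS S F (fun j => z (sh j))).nX) := cp_sub hX sh
  have hqu := cp_q S F hX hE sh hu
  have hfu := cp_f S F hX hE sh hu
  have hlu := cp_l S F hX hE sh hu
  have hbu := cp_bit S F hX hE sh hu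
  have hqv := cp_q S F hX hE sh hv
  have hfv := cp_f S F hX hE sh hv
  have hlv := cp_l S F hX hE sh hv
  refine CP.or ?_ ?_
  · refine (CP.eq hlu (Comp.const 0)).and ((CP.eq hlv (Comp.const 0)).and
      ((CP.le hx hqu).and ((CP.lt hqv hx).and (CP.exists4 fun i => ?_))))
    exact (CP.eq (cp_ev S F hF sh (Comp.const i) (Comp.sub hqu hx))
      (Comp.add hqv (Comp.const 1))).and (CP.eq (hbu i) hfv)
  · exact (CP.eq hlu (Comp.const 0)).and ((CP.eq hlv (Comp.const 0)).not.and
      ((CP.eq hqu hqv).and (CP.eq hfu hfv)))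

end sys

/-- the class of a vertex is smaller than `M` -/
theorem CSys.q_lt (c : CSys) {v : ℕ} (hv : v < c.N) : c.q v < c.M := by
  unfold CSys.q
  unfold CSys.N at hv
  have h1 : v / (c.M + 2) < c.M * 16 := Nat.div_lt_of_lt_mul (by rw [mul_comm]; exact hv)
  exact Nat.div_lt_of_lt_mul (by rw [mul_comm]; exact h1)

section congr

variable (c c' : CSys) (h1 : c.nX = c'.nX) (h2 : c.nE = c'.nE) (h3 : c.sp = c'.sp)
  (h4 : ∀ e i, e < c.nE → i < 4 → c.ev e i = c'.ev e i)

include h1 h2 h3 h4 in
theorem CSys.valid_congr {b v : ℕ} (hv : v < c.N) : c.Valid b v ↔ c'.Valid b v := by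
  obtain ⟨nX, nE, ev, sp⟩ := c
  obtain ⟨nX', nE', ev', sp'⟩ := c'
  dsimp only at h1 h2 h3 h4
  subst h1 h2 h3
  have hq := CSys.q_lt _ hv
  refine and_congr Iff.rfl (and_congr Iff.rfl ?_)
  refine forall_congr' fun hx => and_congr ?_ Iff.rfl
  refine forall_congr' fun i => forall_congr' fun hi => ?_
  have hlt : CSys.q ⟨nX, nE, ev, sp⟩ v - nX < nE := by
    have e1 : CSys.M ⟨nX, nE, ev, sp⟩ = nX + nE := rfl
    have hx' : nX ≤ CSys.q ⟨nX, nE, ev, sp⟩ v := hx
    omega
  have h5 := h4 _ i hlt hi
  refine imp_congr ?_ Iff.rfl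
  exact ⟨fun h => h5.symm.trans h, fun h => h5.trans h⟩

include h1 h2 h3 h4 in
theorem CSys.adj0_congr {u v : ℕ} (hu : u < c.N) : c.Adj0 u v ↔ c'.Adj0 u v := by
  obtain ⟨nX, nE, ev, sp⟩ := c
  obtain ⟨nX', nE', ev', sp'⟩ := c'
  dsimp only at h1 h2 h3 h4
  subst h1 h2 h3
  have hq := CSys.q_lt _ hu
  refine or_congr ?_ Iff.rfl
  refine and_congr Iff.rfl (and_congr Iff.rfl (and_congr_right fun hx => and_congr Iff.rfl ?_))
  refine exists_congr fun i => and_congr_right fun hi => ?_
  have hlt : CSys.q ⟨nX, nE, ev, sp⟩ u - nX < nE := by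
    have e1 : CSys.M ⟨nX, nE, ev, sp⟩ = nX + nE := rfl
    have hx' : nX ≤ CSys.q ⟨nX, nE, ev, sp⟩ u := hx
    omega
  have h5 := h4 _ i hlt hi
  refine and_congr ?_ Iff.rfl
  exact ⟨fun h => h5.symm.trans h, fun h => h5.trans h⟩

end congr

/-- the rows of a relation on numbers -/
noncomputable def rowsN (N : ℕ) (A : ℕ → ℕ → Prop) : List (Option Bool) :=
  (List.range N).flatMap fun u => ((List.range N).flatMap fun v =>
    [some (@decide (A u v) (Classical.propDecidable _))]) ++ [none]

theorem enc_eq_rows {N : ℕ} (G H : SimpleGraph (Fin N)) (A B : ℕ → ℕ → Prop)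
    (hG : ∀ u v : Fin N, G.Adj u v ↔ A u v) (hH : ∀ u v : Fin N, H.Adj u v ↔ B u v) :
    enc G H = rowsN N A ++ rowsN N B := by
  have key : ∀ (G : SimpleGraph (Fin N)) (A : ℕ → ℕ → Prop),
      (∀ u v : Fin N, G.Adj u v ↔ A u v) →
      ((List.finRange N).flatMap fun u => ((List.finRange N).map fun v =>
        some (@decide (G.Adj u v) (Classical.propDecidable _))) ++ [none]) = rowsN N A := by
    intro G A hG
    unfold rowsN
    have hr : List.range N = (List.finRange N).map Fin.val := (List.map_coe_finRange_eq_range).symm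
    rw [hr, List.flatMap_map]
    congr 1
    funext u
    congr 1
    rw [List.flatMap_map, List.map_eq_flatMap]
    congr 1
    funext v
    congr 2
    exact decide_eq_decide.2 (hG u v)
  unfold enc
  exact congrArg₂ _ (key G A hG) (key H B hH)

/-- If the data of a family of coded systems are computable in polynomial time from the unary
parameters `x`, then so is the description of its pair of graphs. (`ev` is called with the
arguments: place `i`, equation `e`, parameters.) -/
theorem prn_enc {P : ℕ} (S : (Fin P → ℕ) → CSys)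
    (hX : Comp (Option Bool) fun x => (S x).nX) (hE : Comp (Option Bool) fun x => (S x).nE)
    (hsp : Comp (Option Bool) fun x => (S x).sp)
    (F : (Fin (P + 2) → ℕ) → ℕ) (hF : Comp (Option Bool) F)
    (hev : ∀ x i e, i < 4 → e < (S x).nE → F (Fin.cons i (Fin.cons e x)) = (S x).ev e i) :
    Prn (Option Bool) (fun x => enc ((S x).graph 0) ((S x).graph 1)) := by
  -- the relation
  let A : ℕ → (Fin P → ℕ) → ℕ → ℕ → Prop := fun b x u v =>
    (cpS S F x).Valid b u ∧ (cpS S F x).Valid b v ∧
      ((cpS S F x).Adj0 u v ∨ (cpS S F x).Adj0 v u)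
  have hA : ∀ b x (u v : Fin (S x).N), ((S x).graph b).Adj u v ↔ A b x u v := by
    intro b x u v
    have h4 : ∀ e i, e < (S x).nE → i < 4 → (S x).ev e i = (cpS S F x).ev e i :=
      fun e i he hi => (hev x i e hi he).symm
    have hv1 := CSys.valid_congr (S x) (cpS S F x) rfl rfl rfl h4 (b := b) u.2
    have hv2 := CSys.valid_congr (S x) (cpS S F x) rfl rfl rfl h4 (b := b) v.2
    have ha1 := CSys.adj0_congr (S x) (cpS S F x) rfl rfl rfl h4 (v := (v : ℕ)) u.2
    have ha2 := CSys.adj0_congr (S x) (cpS S F x) rfl rfl rfl h4 (v := (u : ℕ)) v.2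
    exact and_congr hv1 (and_congr hv2 (or_congr ha1 ha2))
  have hN : Comp (Option Bool) fun x => (S x).N :=
    Comp.mul (Comp.mul (Comp.add hX hE) (Comp.const 16))
      (Comp.add (Comp.add hX hE) (Comp.const 2))
  have hrow : ∀ b, Prn (Option Bool) (fun x => rowsN (S x).N (A b x)) := by
    intro b
    have hcp : CP (fun z : Fin (P + 2) → ℕ => A b (fun j => z j.succ.succ) (z 1) (z 0)) := by
      have h1 := cp_valid S F hX hE hsp hF (K := P + 2) (fun j => j.succ.succ)
        (v := fun z => z 1) (Comp.proj 1) b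
      have h2 := cp_valid S F hX hE hsp hF (K := P + 2) (fun j => j.succ.succ)
        (v := fun z => z 0) (Comp.proj 0) b
      have h3 := cp_adj0 S F hX hE hF (K := P + 2) (fun j => j.succ.succ)
        (u := fun z => z 1) (v := fun z => z 0) (Comp.proj 1) (Comp.proj 0)
      have h4 := cp_adj0 S F hX hE hF (K := P + 2) (fun j => j.succ.succ)
        (u := fun z => z 0) (v := fun z => z 1) (Comp.proj 0) (Comp.proj 1)
      exact h1.and (h2.and (h3.or h4))
    have hin := Prn.flatMap (cp_sub hN (K := P + 1) Fin.succ) hcp.prn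
    have hout := Prn.flatMap hN (hin.append (Prn.word [none]))
    exact hout.congr fun x => rfl
  refine ((hrow 0).append (hrow 1)).congr fun x => ?_
  exact (enc_eq_rows _ _ (A 0 x) (A 1 x) (hA 0 x) (hA 1 x)).symm

end P310
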