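import Vale.Agent.P310.DMach

/-!
# P310: the run of the machine `dm`
-/

namespace P310

open Turing Function PolyTM

variable {tm : FinTM2} {L : List (Instr (Option Bool))} {inp : Option Bool → tm.Γ tm.k₀}
  {ans : tm.σ → Option (tm.Γ tm.k₁) → Bool}

theorem DRun.one {a b : DSt tm × (DStk tm → List (DSym tm))} (h : (dm L inp ans).step a = b) :
    DRun L inp ans 1 a b := h

/-! ### Reading the input -/

theorem drun_rd_u {pc i₁ i₂ : ℕ} (hx : L[pc]? = some (.rd i₁ i₂)) (c : ℕ → ℕ)
    (o : List (Option Bool)) (inpS : List (DSym tm)) :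
    DRun L inp ans 2 (pcfg inp pc c o (.inl false :: inpS))
      (pcfg inp pc (update c i₁ (c i₁ + 1)) o inpS) := by
  have h1 : DRun L inp ans 1 (pcfg inp pc c o (.inl false :: inpS))
      (.rdp i₁ pc, dstk c inpS (oS inp o)) := by
    apply DRun.one
    unfold AM.step
    have h1 : (dm L inp ans).op (pcfg inp pc c o (.inl false :: inpS)).1 = .pop none := by
      show pOp inp (L.getD pc .stop) = _
      rw [getD_of hx]
      rfl
    have h2 : (dm L inp ans).nx (pcfg inp pc c o (.inl false :: inpS)).1 (some (.inl false)) =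
        .rdp i₁ pc := by
      show pNx pc (L.getD pc .stop) (some (.inl false)) = _
      rw [getD_of hx]
      rfl
    rw [h1]
    refine Prod.ext h2 ?_
    show update (dstk c (.inl false :: inpS) (oS inp o)) none inpS = _
    rw [dstk_inp]
  have h2 : DRun L inp ans 1 (.rdp i₁ pc, dstk c inpS (oS inp o))
      (pcfg inp pc (update c i₁ (c i₁ + 1)) o inpS) := by
    apply DRun.one
    refine Prod.ext rfl ?_
    show update (dstk c inpS (oS inp o)) (some (.inl i₁))
      (List.replicate (c i₁ + 1) (.inl false)) = _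
    rw [dstk_reg]
    rfl
  exact h1.trans h2

theorem drun_rd_v {pc i₁ i₂ : ℕ} (hx : L[pc]? = some (.rd i₁ i₂)) (c : ℕ → ℕ)
    (o : List (Option Bool)) (inpS : List (DSym tm)) :
    DRun L inp ans 2 (pcfg inp pc c o (.inl true :: inpS))
      (pcfg inp pc (update c i₂ (c i₂ + 1)) o inpS) := by
  have h1 : DRun L inp ans 1 (pcfg inp pc c o (.inl true :: inpS))
      (.rdp i₂ pc, dstk c inpS (oS inp o)) := by
    apply DRun.one
    unfold AM.step
    have h1 : (dm L inp ans).op (pcfg inp pc c o (.inl true :: inpS)).1 = .pop none := by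
      show pOp inp (L.getD pc .stop) = _
      rw [getD_of hx]
      rfl
    have h2 : (dm L inp ans).nx (pcfg inp pc c o (.inl true :: inpS)).1 (some (.inl true)) =
        .rdp i₂ pc := by
      show pNx pc (L.getD pc .stop) (some (.inl true)) = _
      rw [getD_of hx]
      rfl
    rw [h1]
    refine Prod.ext h2 ?_
    show update (dstk c (.inl true :: inpS) (oS inp o)) none inpS = _
    rw [dstk_inp]
  have h2 : DRun L inp ans 1 (.rdp i₂ pc, dstk c inpS (oS inp o))
      (pcfg inp pc (update c i₂ (c i₂ + 1)) o inpS) := by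
    apply DRun.one
    refine Prod.ext rfl ?_
    show update (dstk c inpS (oS inp o)) (some (.inl i₂))
      (List.replicate (c i₂ + 1) (.inl false)) = _
    rw [dstk_reg]
    rfl
  exact h1.trans h2

theorem drun_rd_nil {pc i₁ i₂ : ℕ} (hx : L[pc]? = some (.rd i₁ i₂)) (c : ℕ → ℕ)
    (o : List (Option Bool)) :
    DRun L inp ans 1 (pcfg inp pc c o []) (pcfg inp (pc + 1) c o []) := by
  apply DRun.one
  unfold AM.step
  have h1 : (dm L inp ans).op (pcfg inp pc c o []).1 = .pop none := by
    show pOp inp (L.getD pc .stop) = _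
    rw [getD_of hx]
    rfl
  have h2 : (dm L inp ans).nx (pcfg inp pc c o []).1 none = .prog (pc + 1) := by
    show pNx pc (L.getD pc .stop) none = _
    rw [getD_of hx]
    rfl
  rw [h1]
  refine Prod.ext h2 ?_
  show update (dstk c [] (oS inp o)) none [] = _
  rw [dstk_inp]
  rfl

theorem drun_rd_us {pc i₁ i₂ : ℕ} (hx : L[pc]? = some (.rd i₁ i₂)) (o : List (Option Bool))
    (inpS : List (DSym tm)) (n : ℕ) : ∀ c : ℕ → ℕ,
    DRun L inp ans (2 * n) (pcfg inp pc c o (List.replicate n (.inl false) ++ inpS))
      (pcfg inp pc (update c i₁ (c i₁ + n)) o inpS) := by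
  induction n with
  | zero =>
    intro c
    rw [add_zero, update_eq_self]
    exact DRun.refl _
  | succ n ih =>
    intro c
    have h1 := drun_rd_u (inp := inp) (ans := ans) hx c o
      (List.replicate n (.inl false) ++ inpS)
    have h2 := h1.trans (ih _)
    rw [update_self, update_idem, add_assoc, add_comm 1 n] at h2
    rw [List.replicate_succ, List.cons_append]
    have e : 2 * (n + 1) = 2 + 2 * n := by ring
    rw [e]
    exact h2

theorem drun_rd_vs {pc i₁ i₂ : ℕ} (hx : L[pc]? = some (.rd i₁ i₂)) (o : List (Option Bool))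
    (n : ℕ) : ∀ c : ℕ → ℕ,
    DRun L inp ans (2 * n + 1) (pcfg inp pc c o (List.replicate n (.inl true)))
      (pcfg inp (pc + 1) (update c i₂ (c i₂ + n)) o []) := by
  induction n with
  | zero =>
    intro c
    rw [add_zero, update_eq_self]
    exact drun_rd_nil hx c o
  | succ n ih =>
    intro c
    have h1 := drun_rd_v (inp := inp) (ans := ans) hx c o (List.replicate n (.inl true))
    have h2 := h1.trans (ih _)
    rw [update_self, update_idem, add_assoc, add_comm 1 n] at h2
    rw [List.replicate_succ]
    have e : 2 * (n + 1) + 1 = 2 + (2 * n + 1) := by ring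
    rw [e]
    exact h2

/-! ### Running the Turing machine -/

/-- the number of steps of a statement -/
def ssz : TM2.Stmt tm.Γ tm.Λ tm.σ → ℕ
  | .push _ _ q => ssz q + 1
  | .peek _ _ q => ssz q + 2
  | .pop _ _ q => ssz q + 1
  | .load _ q => ssz q + 1
  | .branch _ q₁ q₂ => ssz q₁ + ssz q₂ + 1
  | .goto _ => 1
  | .halt => 1

/-- the state after a statement -/
def nst (c : TM2.Cfg tm.Γ tm.Λ tm.σ) : DSt tm := match c.l with
  | some l => .run (tm.m l) c.var
  | none => .fin c.var

theorem drun_stmt (c : ℕ → ℕ) (i : List (DSym tm)) (q : TM2.Stmt tm.Γ tm.Λ tm.σ) :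
    ∀ (v : tm.σ) (S : ∀ k, List (tm.Γ k)), ∃ t ≤ ssz q,
      DRun L inp ans t (.run q v, dstk c i S)
        (nst (TM2.stepAux q v S), dstk c i (TM2.stepAux q v S).stk) := by
  induction q with
  | push k f q ih =>
    intro v S
    obtain ⟨t, ht, h⟩ := ih v (update S k (f v :: S k))
    refine ⟨1 + t, by rw [ssz]; omega, DRun.trans ?_ h⟩
    apply DRun.one
    refine Prod.ext rfl ?_
    show update (dstk c i S) (some (.inr k)) ((f v :: S k).map fun g => .inr ⟨k, g⟩) = _
    rw [dstk_dec]
  | peek k f q ih =>
    intro v S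
    obtain ⟨t, ht, h⟩ := ih (f v (S k).head?) S
    rcases hk : S k with _ | ⟨g, l⟩
    · refine ⟨1 + t, by rw [ssz]; omega, ?_⟩
      have e : TM2.stepAux (.peek k f q) v S = TM2.stepAux q (f v (S k).head?) S := rfl
      rw [e]
      refine DRun.trans ?_ h
      apply DRun.one
      have hx : ((dstk c i S) (some (.inr k))).head? = none := by
        show ((S k).map _).head? = none
        rw [hk]
        rfl
      have hx' : ((dstk c i S) (some (.inr k))).tail = ((S k).map fun g => .inr ⟨k, g⟩) := by
        show ((S k).map _).tail = _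
        rw [hk]
        rfl
      show ((dm L inp ans).nx _ ((dstk c i S) (some (.inr k))).head?,
        update (dstk c i S) (some (.inr k)) ((dstk c i S) (some (.inr k))).tail) = _
      rw [hx, hx', dstk_dec, update_eq_self, hk]
      rfl
    · refine ⟨1 + 1 + t, by rw [ssz]; omega, ?_⟩
      have e : TM2.stepAux (.peek k f q) v S = TM2.stepAux q (f v (S k).head?) S := rfl
      rw [e]
      refine DRun.trans (DRun.trans (b := (.back k g q (f v (some g)),
        dstk c i (update S k l))) ?_ ?_) h
      · apply DRun.one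
        have hx : ((dstk c i S) (some (.inr k))).head? = some (.inr ⟨k, g⟩) := by
          show ((S k).map _).head? = _
          rw [hk]
          rfl
        have hx' : ((dstk c i S) (some (.inr k))).tail = (l.map fun g => .inr ⟨k, g⟩) := by
          show ((S k).map _).tail = _
          rw [hk]
          rfl
        show ((dm L inp ans).nx _ ((dstk c i S) (some (.inr k))).head?,
          update (dstk c i S) (some (.inr k)) ((dstk c i S) (some (.inr k))).tail) = _
        rw [hx, hx', dstk_dec]
        refine Prod.ext ?_ rfl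
        show (match unS k (some (.inr ⟨k, g⟩)) with
          | none => DSt.run q (f v none)
          | some g => .back k g q (f v (some g))) = _
        have : unS k (some (.inr ⟨k, g⟩) : Option (DSym tm)) = some g := by simp [unS]
        rw [this]
      · apply DRun.one
        refine Prod.ext ?_ ?_
        · show DSt.run q (f v (some g)) = DSt.run q (f v (S k).head?)
          rw [hk]
          rfl
        · show update (dstk c i (update S k l)) (some (.inr k))
            (.inr ⟨k, g⟩ :: (update S k l k).map fun g => .inr ⟨k, g⟩) = dstk c i S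
          rw [update_self]
          have : (.inr ⟨k, g⟩ :: l.map fun g => .inr ⟨k, g⟩ : List (DSym tm)) =
              (S k).map fun g => .inr ⟨k, g⟩ := by rw [hk]; rfl
          rw [this, dstk_dec, update_idem, update_eq_self]
  | pop k f q ih =>
    intro v S
    obtain ⟨t, ht, h⟩ := ih (f v (S k).head?) (update S k (S k).tail)
    refine ⟨1 + t, by rw [ssz]; omega, ?_⟩
    have e : TM2.stepAux (.pop k f q) v S =
        TM2.stepAux q (f v (S k).head?) (update S k (S k).tail) := rfl
    rw [e]
    refine DRun.trans ?_ h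
    apply DRun.one
    refine Prod.ext ?_ ?_
    · show DSt.run q (f v (unS k ((S k).map fun g => .inr ⟨k, g⟩).head?)) = _
      rw [unS_head]
    · show update (dstk c i S) (some (.inr k)) ((S k).map fun g => .inr ⟨k, g⟩).tail = _
      rw [← List.map_tail, dstk_dec]
  | load a q ih =>
    intro v S
    obtain ⟨t, ht, h⟩ := ih (a v) S
    refine ⟨1 + t, by rw [ssz]; omega, DRun.trans ?_ h⟩
    rfl
  | branch p q₁ q₂ ih₁ ih₂ =>
    intro v S
    have e : TM2.stepAux (.branch p q₁ q₂) v S =
        cond (p v) (TM2.stepAux q₁ v S) (TM2.stepAux q₂ v S) := rfl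
    have h0 : DRun L inp ans 1 (.run (.branch p q₁ q₂) v, dstk c i S)
        (.run (cond (p v) q₁ q₂) v, dstk c i S) := rfl
    rw [e]
    cases hp : p v with
    | true =>
      obtain ⟨t, ht, h⟩ := ih₁ v S
      rw [hp] at h0
      exact ⟨1 + t, by rw [ssz]; omega, h0.trans h⟩
    | false =>
      obtain ⟨t, ht, h⟩ := ih₂ v S
      rw [hp] at h0
      exact ⟨1 + t, by rw [ssz]; omega, h0.trans h⟩
  | goto l =>
    intro v S
    exact ⟨1, le_rfl, rfl⟩
  | halt =>
    intro v S
    exact ⟨1, le_rfl, rfl⟩

theorem steps_halt {t : ℕ} {a b : tm.Cfg} (ha : a.l = none) (h : Steps tm t a b) : b = a := by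
  cases t with
  | zero => exact (Option.some.inj h).symm
  | succ t =>
    exfalso
    unfold Steps at h
    rw [iterate_succ_apply] at h
    have h1 : flip bind tm.step (some a) = none := by
      show tm.step a = none
      obtain ⟨l, v, S⟩ := a
      simp only at ha
      subst ha
      rfl
    have h2 : ∀ t : ℕ, (flip bind tm.step)^[t] (none : Option tm.Cfg) = none := by
      intro t
      induction t with
      | zero => rfl
      | succ t ih =>
        rw [iterate_succ_apply]
        exact ih
    rw [h1, h2] at h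
    cases h

theorem drun_steps (c : ℕ → ℕ) (i : List (DSym tm)) {B : ℕ} (hB : ∀ l, ssz (tm.m l) ≤ B)
    (t : ℕ) : ∀ (l : tm.Λ) (v : tm.σ) (S : ∀ k, List (tm.Γ k)) (b : tm.Cfg),
    Steps tm t ⟨some l, v, S⟩ b → b.l = none → ∃ t' ≤ B * t,
      DRun L inp ans t' (.run (tm.m l) v, dstk c i S) (.fin b.var, dstk c i b.stk) := by
  induction t with
  | zero =>
    intro l v S b h hb
    have h1 : (⟨some l, v, S⟩ : tm.Cfg) = b := Option.some.inj h
    rw [← h1] at hb
    cases hb
  | succ t ih =>
    intro l v S b h hb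
    unfold Steps at h
    rw [iterate_succ_apply] at h
    have h1 : flip bind tm.step (some ⟨some l, v, S⟩) = some (TM2.stepAux (tm.m l) v S) := rfl
    rw [h1] at h
    obtain ⟨t₁, ht₁, hr⟩ := drun_stmt (L := L) (inp := inp) (ans := ans) c i (tm.m l) v S
    have hBl := hB l
    have e : B * (t + 1) = B + B * t := by ring
    rcases ha : TM2.stepAux (tm.m l) v S with ⟨l', v', S'⟩
    rw [ha] at h hr
    rcases l' with _ | l'
    · have h2 : b = ⟨none, v', S'⟩ := steps_halt (a := (⟨none, v', S'⟩ : tm.Cfg)) rfl h
      refine ⟨t₁, by rw [e]; omega, ?_⟩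
      rw [h2]
      exact hr
    · obtain ⟨t₂, ht₂, hr₂⟩ := ih l' v' S' b h hb
      exact ⟨t₁ + t₂, by rw [e]; omega, DRun.trans hr hr₂⟩

/-! ### The whole run -/

/-- the code of a program with input and start of the Turing machine -/
def dCode (P : Prog (Option Bool)) : List (Instr (Option Bool)) :=
  .rd 0 1 :: (compile P 1 ++ [.stop])

theorem drun_all (P : Prog (Option Bool)) {B : ℕ} (hB : ∀ l, ssz (tm.m l) ≤ B)
    {n s t t' : ℕ} {c' : ℕ → ℕ} {o : List (Option Bool)} {b : tm.Cfg}
    (hP : Big P (ini n s) [] c' o t) (ht : Steps tm t' (initList tm (o.map inp)) b)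
    (hb : b.l = none) :
    ∃ τ ≤ 2 * n + 2 * s + t + B * t' + 3, ∃ stk,
      (dm (dCode P) inp ans).run none (.inl false) (.inl true) n s τ =
        (.verd (ans b.var (b.stk tm.k₁).head?), stk) := by
  have hcode : CodeAt (dCode P) 0 (dCode P) := fun j x hj => by rwa [zero_add]
  obtain ⟨h0, h1⟩ := CodeAt.cons hcode
  obtain ⟨h2, h3⟩ := CodeAt.append h1
  rw [length_compile] at h3
  have r1 := drun_rd_us (inp := inp) (ans := ans) h0 []
    (List.replicate s (.inl true)) n (fun _ => 0)
  have r2 := drun_rd_vs (inp := inp) (ans := ans) h0 [] s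
    (update (fun _ => 0) 0 (0 + n))
  have e1 : update (update (fun _ => 0) 0 (0 + n)) 1
      ((update (fun _ => 0) 0 (0 + n) : ℕ → ℕ) 1 + s) = ini n s := by
    funext j
    simp only [update_apply, ini]
    split_ifs <;> simp_all
  rw [e1] at r2
  have r3 := drun_compile (inp := inp) (ans := ans) [] hP (0 + 1) h2
  have r4 : DRun (dCode P) inp ans 1 (pcfg inp (0 + 1 + P.size) c' o [])
      (.run (tm.m tm.main) tm.initialState, dstk c' [] (oS inp o)) := by
    have hx := (CodeAt.cons h3).1
    apply DRun.one
    unfold AM.step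
    have h1 : (dm (dCode P) inp ans).op (pcfg inp (0 + 1 + P.size) c' o []).1 = .nop := by
      show pOp inp ((dCode P).getD (0 + 1 + P.size) .stop) = _
      rw [getD_of hx]
      rfl
    have h3 : (dm (dCode P) inp ans).nx (pcfg inp (0 + 1 + P.size) c' o []).1 none =
        .run (tm.m tm.main) tm.initialState := by
      show pNx (0 + 1 + P.size) ((dCode P).getD (0 + 1 + P.size) .stop) none = _
      rw [getD_of hx]
      rfl
    rw [h1]
    exact Prod.ext h3 rfl
  have e2 : initList tm (o.map inp) = (⟨some tm.main, tm.initialState, oS inp o⟩ : tm.Cfg) := by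
    unfold initList oS
    congr 1
    funext k
    by_cases hk : k = tm.k₀
    · subst hk
      simp
    · rw [update_of_ne hk, dif_neg hk]
  rw [e2] at ht
  obtain ⟨t₅, ht₅, r5⟩ := drun_steps (L := dCode P) (inp := inp) (ans := ans) c' [] hB t' _ _ _ b
    ht hb
  have r6 : DRun (dCode P) inp ans 1 (.fin b.var, dstk c' [] b.stk)
      (.verd (ans b.var (b.stk tm.k₁).head?),
        dstk c' [] (update b.stk tm.k₁ (b.stk tm.k₁).tail)) := by
    apply DRun.one
    refine Prod.ext ?_ ?_
    · show DSt.verd (ans b.var (unS tm.k₁ ((b.stk tm.k₁).map fun g => .inr ⟨tm.k₁, g⟩).head?)) = _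
      rw [unS_head]
    · show update (dstk c' [] b.stk) (some (.inr tm.k₁))
        ((b.stk tm.k₁).map fun g => .inr ⟨tm.k₁, g⟩).tail = _
      rw [← List.map_tail, dstk_dec]
  have r7 := ((((r1.trans r2).trans r3).trans r4).trans r5).trans r6
  refine ⟨2 * n + (2 * s + 1) + t + 1 + t₅ + 1, ?_,
    dstk c' [] (update b.stk tm.k₁ (b.stk tm.k₁).tail), ?_⟩
  rotate_left 1
  · have e3 : (dm (dCode P) inp ans).run none (.inl false) (.inl true) n s
        (2 * n + (2 * s + 1) + t + 1 + t₅ + 1) =
        (dm (dCode P) inp ans).step^[2 * n + (2 * s + 1) + t + 1 + t₅ + 1]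
          (pcfg inp 0 (fun _ => 0) [] (List.replicate n (.inl false) ++
            List.replicate s (.inl true))) := by
      unfold AM.run
      congr 1
      refine Prod.ext rfl ?_
      show update (fun _ => []) none (List.replicate n (.inl false) ++
        List.replicate s (.inl true)) = dstk (fun _ => 0) _ (oS inp [])
      funext k
      rcases k with _ | j | k
      · rw [update_self]
        rfl
      · rw [update_of_ne (by simp)]
        rfl
      · rw [update_of_ne (by simp)]
        show [] = (oS inp [] k).map _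
        have : oS inp [] = fun _ => [] := by
          unfold oS
          exact update_eq_self _ _
        rw [this]
        rfl
    rw [e3]
    exact r7
  · omega

/-- a state with a loop is not left -/
theorem AM.run_stay {Q K A : Type*} [DecidableEq K] {M : AM Q K A} {kin : K} {u v : A}
    {n s t : ℕ} {q : Q} (h : (M.run kin u v n s t).1 = q) (hop : M.op q = .nop)
    (hnx : M.nx q none = q) (t' : ℕ) : (M.run kin u v n s (t + t')).1 = q := by
  induction t' with
  | zero => exact h
  | succ t' ih =>
    rw [← add_assoc, AM.run_succ]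
    unfold AM.step
    rw [ih, hop]
    exact hnx

theorem AM.run_acc {Q K A : Type*} [DecidableEq K] {M : AM Q K A} {kin : K} {u v : A}
    {n s t : ℕ} (h : M.op (M.run kin u v n s t).1 = .acc) (t' : ℕ) :
    M.run kin u v n s (t + t') = M.run kin u v n s t := by
  induction t' with
  | zero => rfl
  | succ t' ih =>
    rw [← add_assoc, AM.run_succ, ih]
    unfold AM.step
    rw [h]

/-- **The verdict.** -/
theorem dm_verdict (P : Prog (Option Bool)) {B : ℕ} (hB : ∀ l, ssz (tm.m l) ≤ B)
    {n s t t' : ℕ} {c' : ℕ → ℕ} {o : List (Option Bool)} {b : tm.Cfg}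
    (hP : Big P (ini n s) [] c' o t) (ht : Steps tm t' (initList tm (o.map inp)) b)
    (hb : b.l = none) :
    ∃ τ₀ ≤ 2 * n + 2 * s + t + B * t' + 3, ∀ T > τ₀,
      ((∃ τ, s + n + τ < s + n + T ∧ (dm (dCode P) inp ans).op
        ((dm (dCode P) inp ans).run none (.inl false) (.inl true) n s τ).1 = .acc) ↔
        ans b.var (b.stk tm.k₁).head? = true) := by
  obtain ⟨τ, hτ, stk, h⟩ := drun_all (inp := inp) (ans := ans) P hB hP ht hb
  refine ⟨τ, hτ, fun T hT => ?_⟩
  cases hans : ans b.var (b.stk tm.k₁).head? with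
  | true =>
    rw [hans] at h
    refine ⟨fun _ => rfl, fun _ => ⟨τ, by omega, ?_⟩⟩
    rw [h]
    rfl
  | false =>
    rw [hans] at h
    refine ⟨fun ⟨τ', _, h'⟩ => ?_, fun h' => by cases h'⟩
    exfalso
    have h1 := AM.run_acc h' τ
    have h2 := AM.run_stay (t := τ) (q := DSt.verd false) (by rw [h]) rfl rfl τ'
    rw [add_comm τ τ', h1] at h2
    rw [h2] at h'
    cases h'

end P310
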