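import Vale.Agent.P310.Red
import Vale.Agent.P310.DRun

/-!
# P310: the lower bound for one machine
-/

namespace P310

open PolyTM Turing Function

/-! ### Computability of the parameters -/

theorem ctp_tp {A : Type} {K : ℕ} (sh : Fin 7 → Fin K) :
    CTPar A (fun y : Fin K → ℕ => tp (fun j => y (sh j))) := by
  have pr : ∀ j, Comp A (fun y : Fin K → ℕ => y (sh j)) := fun j => Comp.proj (sh j)
  have hX : Comp A (fun y : Fin K → ℕ => min (2 ^ (y (sh 4) * y (sh 1))) (y (sh 0))) :=
    comp_powmin (Comp.const 2) (Comp.mul (pr 4) (pr 1)) (pr 0)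
  have hX' : Comp A (fun y : Fin K → ℕ => min (2 ^ (y (sh 4))) (y (sh 0))) :=
    comp_powmin (Comp.const 2) (pr 4) (pr 0)
  have hLL : Comp A (fun y : Fin K → ℕ => y (sh 4) * y (sh 5) * y (sh 1)) :=
    Comp.mul (Comp.mul (pr 4) (pr 5)) (pr 1)
  have hB : Comp A (fun y : Fin K → ℕ => (rp (fun j => y (sh j))).B) :=
    Comp.add (Comp.add (Comp.add (pr 0) (Comp.mul (Comp.const 2) (pr 1))) hLL) (Comp.const 30)
  have hn : Comp A (fun y : Fin K → ℕ => (rp (fun j => y (sh j))).n) := pr 0
  have hs : Comp A (fun y : Fin K → ℕ => (rp (fun j => y (sh j))).s) := pr 1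
  have hi : Comp A (fun y : Fin K → ℕ => (rp (fun j => y (sh j))).i) := Comp.sub (pr 0) hX
  have h1 : Comp A (fun y : Fin K → ℕ => (rp (fun j => y (sh j))).L1) :=
    Comp.div (Comp.sub hLL (Comp.const 1)) (Comp.const 2)
  have h2 : Comp A (fun y : Fin K → ℕ => (rp (fun j => y (sh j))).L2) := Comp.sub hLL h1
  have h45 : Comp A (fun y : Fin K → ℕ => y (sh 4) * y (sh 5)) := Comp.mul (pr 4) (pr 5)
  exact {
    m := pr 2
    l := pr 3
    L := Comp.add h1 h2
    X := hX
    BM := Comp.pow_const hB 5
    BR := Comp.pow_const hB 6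
    ac := Comp.add (Comp.const 7) (Comp.mul hB h1)
    V := fun r hr => comp_rV hB hn hs hi h1 h2 hr
    P := fun r hr => comp_rP hB hn hs hi h1 h2 hr
    Q := fun r hr => comp_rQ hB hn hs hi h1 h2 hr
    S := fun r hr => comp_rS hB hn hs hi h1 h2 hr
    C := fun r hr => comp_rC hB hn hs hi h1 h2 hr
    I := fun r hr => comp_iniN hB hn hs hi h1 h2 hr
    w := fun r r' hr hr' => Comp.mul
      (comp_dig (pr 6) hX' (Comp.add (Comp.mul hr h45) (Comp.mod hr' h45)))
      (comp_powmin hX' (Comp.div hr' h45) (pr 0)) }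

/-- the pair of graphs is printed in polynomial time -/
theorem prn_tp : Prn (Option Bool)
    (fun x : Fin 7 → ℕ => enc ((tp x).sys.graph 0) ((tp x).sys.graph 1)) := by
  have H := ctp_tp (A := Option Bool) (K := 7) id
  have H9 := ctp_tp (A := Option Bool) (K := 9) (fun j => j.succ.succ)
  refine prn_enc (fun x => (tp x).sys) (comp_nX H) (comp_nE H) (comp_sp H)
    (fun y => (tp (fun j => y j.succ.succ)).evN (y 1) (y 0))
    (comp_evN H9 (Comp.proj 1) (Comp.proj 0)) ?_
  intro x i e _ _
  rfl

/-- the number of vertices is polynomially bounded -/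
theorem bound_N : ∃ q : Polynomial ℕ, ∀ x : Fin 7 → ℕ, (tp x).sys.N ≤ q.eval (∑ j, x j) := by
  have H := ctp_tp (A := Option Bool) (K := 7) id
  have hM : Comp (Option Bool) fun x : Fin 7 → ℕ => (tp x).sys.M := Comp.add (comp_nX H) (comp_nE H)
  have hN : Comp (Option Bool) fun x : Fin 7 → ℕ => (tp x).sys.N :=
    Comp.mul (Comp.mul hM (Comp.const 16)) (Comp.add hM (Comp.const 2))
  exact hN.bound

theorem poly_le (p : Polynomial ℕ) : ∃ C e : ℕ, ∀ y : ℕ, 1 ≤ y → p.eval y ≤ C * y ^ e := by
  refine ⟨∑ i ∈ Finset.range (p.natDegree + 1), p.coeff i, p.natDegree, fun y hy => ?_⟩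
  rw [Polynomial.eval_eq_sum_range, Finset.sum_mul]
  refine Finset.sum_le_sum fun i hi => Nat.mul_le_mul_left _ (Nat.pow_le_pow_right hy ?_)
  have := Finset.mem_range.1 hi
  omega

/-! ### Setting the constants -/

/-- the parameters -/
def xv (n s m l r d W : ℕ) : Fin 7 → ℕ := ![n, s, m, l, r, d, W]

/-- the program which sets the constants -/
def setP (A : Type) (m l r d W : ℕ) : Prog A :=
  .seq (seqN m fun _ => .inc 2) (.seq (seqN l fun _ => .inc 3) (.seq (seqN r fun _ => .inc 4)
    (.seq (seqN d fun _ => .inc 5) (seqN W fun _ => .inc 6))))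

/-- the registers after this program -/
def regs (n s m l r d W : ℕ) : ℕ → ℕ := fun j =>
  if j = 0 then n else if j = 1 then s else if j = 2 then m else if j = 3 then l else
    if j = 4 then r else if j = 5 then d else if j = 6 then W else 0

theorem big_setP {A : Type} (n s m l r d W : ℕ) :
    Big (setP A m l r d W) (ini n s) [] (regs n s m l r d W) [] (m + (l + (r + (d + W)))) := by
  have e0 : ini n s = regs n s 0 0 0 0 0 := by
    funext j
    simp only [ini, regs]
    split_ifs <;> rfl
  have h2 : Big (seqN m fun _ => (.inc 2 : Prog A)) (regs n s 0 0 0 0 0) []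
      (regs n s m 0 0 0 0) [] m := by
    have e : regs n s m 0 0 0 0 = update (regs n s 0 0 0 0 0) 2 (0 + m) := by
      funext j
      simp only [regs, update_apply]
      split_ifs <;> omega
    rw [e]
    exact big_incs 2 m _ _
  have h3 : Big (seqN l fun _ => (.inc 3 : Prog A)) (regs n s m 0 0 0 0) []
      (regs n s m l 0 0 0) [] l := by
    have e : regs n s m l 0 0 0 = update (regs n s m 0 0 0 0) 3 (0 + l) := by
      funext j
      simp only [regs, update_apply]
      split_ifs <;> omega
    rw [e]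
    exact big_incs 3 l _ _
  have h4 : Big (seqN r fun _ => (.inc 4 : Prog A)) (regs n s m l 0 0 0) []
      (regs n s m l r 0 0) [] r := by
    have e : regs n s m l r 0 0 = update (regs n s m l 0 0 0) 4 (0 + r) := by
      funext j
      simp only [regs, update_apply]
      split_ifs <;> omega
    rw [e]
    exact big_incs 4 r _ _
  have h5 : Big (seqN d fun _ => (.inc 5 : Prog A)) (regs n s m l r 0 0) []
      (regs n s m l r d 0) [] d := by
    have e : regs n s m l r d 0 = update (regs n s m l r 0 0) 5 (0 + d) := by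
      funext j
      simp only [regs, update_apply]
      split_ifs <;> omega
    rw [e]
    exact big_incs 5 d _ _
  have h6 : Big (seqN W fun _ => (.inc 6 : Prog A)) (regs n s m l r d 0) []
      (regs n s m l r d W) [] W := by
    have e : regs n s m l r d W = update (regs n s m l r d 0) 6 (0 + W) := by
      funext j
      simp only [regs, update_apply]
      split_ifs <;> omega
    rw [e]
    exact big_incs 6 W _ _
  rw [e0]
  exact Big.seq h2 (Big.seq h3 (Big.seq h4 (Big.seq h5 h6)))

theorem regs_xv (n s m l r d W : ℕ) :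
    (fun j : Fin 7 => regs n s m l r d W j.1) = xv n s m l r d W := by
  funext j
  fin_cases j <;> rfl

/-- the printing program -/
theorem exists_prog : ∃ p : Polynomial ℕ, ∀ m l r d W : ℕ, ∃ P : Prog (Option Bool),
    ∀ n s : ℕ, ∃ t ≤ m + l + r + d + W + p.eval (n + s + m + l + r + d + W), ∃ c',
      Big P (ini n s) [] c' (enc ((tp (xv n s m l r d W)).sys.graph 0)
        ((tp (xv n s m l r d W)).sys.graph 1)) t := by
  obtain ⟨p, hp⟩ := prn_tp
  refine ⟨p, fun m l r d W => ?_⟩
  obtain ⟨P, hP⟩ := hp (fun j => j.1) 7 (fun j => j.2)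
  refine ⟨.seq (setP _ m l r d W) P, fun n s => ?_⟩
  obtain ⟨t, ht, h⟩ := hP (regs n s m l r d W) [] (fun j hj => by
    simp only [regs]
    split_ifs <;> omega)
  have e' : ∑ j : Fin 7, regs n s m l r d W j.1 = n + s + m + l + r + d + W := by
    rw [Fin.sum_univ_seven]
    rfl
  rw [e'] at ht
  rw [regs_xv, List.append_nil] at h
  refine ⟨_, ?_, _, Big.seq (big_setP n s m l r d W) h⟩
  omega

end P310
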