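import Vale.Agent.P310.Code
import Vale.Agent.P310.Stmt
import Vale.Agent.Lib.PolyTM.Print

/-!
# P310: a program followed by a Turing machine, as an abstract machine

The machine `dm` reads its input `u^n v^s` into two registers, runs the program `P` (its output is
written on the input stack of the Turing machine `tm`), then runs `tm`, reads the answer, and
accepts if the answer is yes; if the answer is no it loops.
-/

namespace P310

open Turing Function PolyTM

variable (tm : FinTM2)

/-- the states -/
inductive DSt : Type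
  | prog (pc : ℕ)
  | rdp (i pc : ℕ)
  | run (q : TM2.Stmt tm.Γ tm.Λ tm.σ) (v : tm.σ)
  | back (k : tm.K) (g : tm.Γ k) (q : TM2.Stmt tm.Γ tm.Λ tm.σ) (v : tm.σ)
  | fin (v : tm.σ)
  | verd (b : Bool)

/-- the stacks: the input, the registers, the stacks of `tm` -/
abbrev DStk : Type := Option (ℕ ⊕ tm.K)

/-- the symbols: `u`, `v` and the symbols of `tm` -/
abbrev DSym : Type := Bool ⊕ (Σ k, tm.Γ k)

variable {tm}

/-- the symbol of `tm` which was read from the stack `k` -/
def unS (k : tm.K) : Option (DSym tm) → Option (tm.Γ k)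
  | some (.inr ⟨k', g⟩) => if h : k' = k then some (h ▸ g) else none
  | _ => none

theorem unS_head (k : tm.K) (l : List (tm.Γ k)) :
    unS k (l.map fun g => (.inr ⟨k, g⟩ : DSym tm)).head? = l.head? := by
  cases l with
  | nil => rfl
  | cons g l => simp [unS]

variable (L : List (Instr (Option Bool))) (inp : Option Bool → tm.Γ tm.k₀)
  (ans : tm.σ → Option (tm.Γ tm.k₁) → Bool)

/-- the operation of an instruction -/
def pOp : Instr (Option Bool) → AOp (DStk tm) (DSym tm)
  | .inc i => .push (some (.inl i)) (.inl false)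
  | .dec i _ => .pop (some (.inl i))
  | .jmp _ => .nop
  | .out x => .push (some (.inr tm.k₀)) (.inr ⟨tm.k₀, inp x⟩)
  | .rd _ _ => .pop none
  | .stop => .nop

/-- the next state of an instruction at the address `pc` -/
def pNx (pc : ℕ) : Instr (Option Bool) → Option (DSym tm) → DSt tm
  | .inc _, _ => .prog (pc + 1)
  | .dec _ d, none => .prog d
  | .dec _ _, some _ => .prog (pc + 1)
  | .jmp d, _ => .prog d
  | .out _, _ => .prog (pc + 1)
  | .rd _ _, none => .prog (pc + 1)
  | .rd _ i₂, some (.inl true) => .rdp i₂ pc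
  | .rd i₁ _, some _ => .rdp i₁ pc
  | .stop, _ => .run (tm.m tm.main) tm.initialState

/-- the operations -/
def dOp : DSt tm → AOp (DStk tm) (DSym tm)
  | .prog pc => pOp inp (L.getD pc .stop)
  | .rdp i _ => .push (some (.inl i)) (.inl false)
  | .run (.push k f _) v => .push (some (.inr k)) (.inr ⟨k, f v⟩)
  | .run (.peek k _ _) _ => .pop (some (.inr k))
  | .run (.pop k _ _) _ => .pop (some (.inr k))
  | .run _ _ => .nop
  | .back k g _ _ => .push (some (.inr k)) (.inr ⟨k, g⟩)
  | .fin _ => .pop (some (.inr tm.k₁))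
  | .verd true => .acc
  | .verd false => .nop

/-- the next states -/
def dNx : DSt tm → Option (DSym tm) → DSt tm
  | .prog pc, x => pNx pc (L.getD pc .stop) x
  | .rdp _ pc, _ => .prog pc
  | .run (.push _ _ q) v, _ => .run q v
  | .run (.peek k f q) v, x => match unS k x with
    | none => .run q (f v none)
    | some g => .back k g q (f v (some g))
  | .run (.pop k f q) v, x => .run q (f v (unS k x))
  | .run (.load a q) v, _ => .run q (a v)
  | .run (.branch p q₁ q₂) v, _ => .run (cond (p v) q₁ q₂) v
  | .run (.goto l) v, _ => .run (tm.m (l v)) v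
  | .run .halt v, _ => .fin v
  | .back _ _ q v, _ => .run q v
  | .fin v, x => .verd (ans v (unS tm.k₁ x))
  | .verd b, _ => .verd b

/-- the machine -/
def dm : AM (DSt tm) (DStk tm) (DSym tm) where
  op := dOp L inp
  nx := dNx L ans
  start := .prog 0

/-! ### Finitely many states -/

/-- the targets and registers of an instruction -/
def tgt : Instr (Option Bool) → ℕ
  | .dec _ d => d
  | .jmp d => d
  | .rd i₁ i₂ => i₁ + i₂
  | _ => 0

/-- a bound for the addresses -/
def tB (L : List (Instr (Option Bool))) : ℕ := L.length + (L.map tgt).sum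

theorem tgt_le {x : Instr (Option Bool)} (hx : x ∈ L) : tgt x ≤ tB L := by
  have : tgt x ≤ (L.map tgt).sum := List.le_sum_of_mem (List.mem_map_of_mem hx)
  unfold tB
  omega

/-- the states which are used -/
def dSet : Set (DSt tm) := fun q => match q with
  | .prog pc => pc ≤ tB L
  | .rdp i pc => i ≤ tB L ∧ pc ≤ tB L
  | .run q _ => ∃ l, q ∈ TM2.stmts₁ (tm.m l)
  | .back _ _ q _ => ∃ l, q ∈ TM2.stmts₁ (tm.m l)
  | .fin _ => True
  | .verd _ => True

theorem dSet_finite (hΓ : ∀ k, Finite (tm.Γ k)) : (dSet (tm := tm) L).Finite := by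
  have := tm.kFin
  have := tm.ΛFin
  have := tm.σFin
  have hq : {q : TM2.Stmt tm.Γ tm.Λ tm.σ | ∃ l, q ∈ TM2.stmts₁ (tm.m l)}.Finite := by
    have : {q : TM2.Stmt tm.Γ tm.Λ tm.σ | ∃ l, q ∈ TM2.stmts₁ (tm.m l)} =
        ⋃ l, (TM2.stmts₁ (tm.m l) : Set _) := by
      ext q
      simp
    rw [this]
    exact Set.finite_iUnion fun l => Finset.finite_toSet _
  have h1 : {n : ℕ | n ≤ tB L}.Finite := Set.finite_le_nat _
  have f1 := h1.image (DSt.prog (tm := tm))
  have f2 := (h1.prod h1).image fun p => DSt.rdp (tm := tm) p.1 p.2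
  have f3 := (hq.prod (Set.finite_univ (α := tm.σ))).image fun p => DSt.run (tm := tm) p.1 p.2
  have f4 := ((Set.finite_univ (α := Σ k, tm.Γ k)).prod
    (hq.prod (Set.finite_univ (α := tm.σ)))).image
    fun p => DSt.back (tm := tm) p.1.1 p.1.2 p.2.1 p.2.2
  have f5 := (Set.finite_univ (α := tm.σ)).image fun v => DSt.fin (tm := tm) v
  have f6 := (Set.finite_univ (α := Bool)).image fun v => DSt.verd (tm := tm) v
  refine (f1.union (f2.union (f3.union (f4.union (f5.union f6))))).subset ?_
  rintro (pc | ⟨i, pc⟩ | ⟨q, v⟩ | ⟨k, g, q, v⟩ | v | b) h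
  · exact Or.inl ⟨pc, h, rfl⟩
  · exact Or.inr (Or.inl ⟨(i, pc), h, rfl⟩)
  · exact Or.inr (Or.inr (Or.inl ⟨(q, v), ⟨h, trivial⟩, rfl⟩))
  · exact Or.inr (Or.inr (Or.inr (Or.inl ⟨(⟨k, g⟩, (q, v)), ⟨trivial, h, trivial⟩, rfl⟩)))
  · exact Or.inr (Or.inr (Or.inr (Or.inr (Or.inl ⟨v, trivial, rfl⟩))))
  · exact Or.inr (Or.inr (Or.inr (Or.inr (Or.inr ⟨b, trivial, rfl⟩))))

theorem dSet_closed : ∀ q ∈ dSet (tm := tm) L, ∀ b, (dm L inp ans).nx q b ∈ dSet (tm := tm) L := by
  have sub : ∀ {q q' : TM2.Stmt tm.Γ tm.Λ tm.σ}, q' ∈ TM2.stmts₁ q →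
      (∃ l, q ∈ TM2.stmts₁ (tm.m l)) → ∃ l, q' ∈ TM2.stmts₁ (tm.m l) :=
    fun h ⟨l, hl⟩ => ⟨l, TM2.stmts₁_trans hl h⟩
  rintro (pc | ⟨i, pc⟩ | ⟨q, v⟩ | ⟨k, g, q, v⟩ | v | b) h x
  · show pNx pc (L.getD pc .stop) x ∈ _
    have hpc : pc ≤ tB L := h
    by_cases hlt : pc < L.length
    · have hmem : L.getD pc .stop ∈ L := by
        rw [List.getD_eq_getElem _ _ hlt]
        exact List.getElem_mem hlt
      have hle := tgt_le L hmem
      have h1 : pc + 1 ≤ tB L := by unfold tB; omega
      revert hle
      rcases L.getD pc .stop with i | ⟨i, d⟩ | d | y | ⟨i₁, i₂⟩ | _ <;> intro hle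
      · exact h1
      · rcases x with _ | x
        · exact hle
        · exact h1
      · exact hle
      · exact h1
      · simp only [tgt] at hle
        rcases x with _ | (_ | _) | x
        · exact h1
        · exact ⟨by omega, hpc⟩
        · exact ⟨by omega, hpc⟩
        · exact ⟨by omega, hpc⟩
      · exact ⟨_, TM2.stmts₁_self⟩
    · have hd : L.getD pc .stop = .stop := List.getD_eq_default _ _ (by omega)
      rw [hd]
      exact ⟨_, TM2.stmts₁_self⟩
  · exact h.2
  · have h' : ∃ l, q ∈ TM2.stmts₁ (tm.m l) := h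
    cases q with
    | push k f q =>
      exact sub (by simp only [TM2.stmts₁, Finset.mem_insert]; exact Or.inr TM2.stmts₁_self) h'
    | peek k f q =>
      have h2 := sub (q' := q)
        (by simp only [TM2.stmts₁, Finset.mem_insert]; exact Or.inr TM2.stmts₁_self) h'
      show dNx L ans (.run (.peek k f q) v) x ∈ _
      unfold dNx
      simp only
      cases unS k x with
      | none => exact h2
      | some g => exact h2
    | pop k f q =>
      exact sub (by simp only [TM2.stmts₁, Finset.mem_insert]; exact Or.inr TM2.stmts₁_self) h'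
    | load a q =>
      exact sub (by simp only [TM2.stmts₁, Finset.mem_insert]; exact Or.inr TM2.stmts₁_self) h'
    | branch p q₁ q₂ =>
      show ∃ l, cond (p v) q₁ q₂ ∈ TM2.stmts₁ (tm.m l)
      cases p v with
      | true =>
        exact sub (by
          simp only [TM2.stmts₁, Finset.mem_insert, Finset.mem_union]
          exact Or.inr (Or.inl TM2.stmts₁_self)) h'
      | false =>
        exact sub (by
          simp only [TM2.stmts₁, Finset.mem_insert, Finset.mem_union]
          exact Or.inr (Or.inr TM2.stmts₁_self)) h'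
    | goto l => exact ⟨_, TM2.stmts₁_self⟩
    | halt => trivial
  · exact h
  · trivial
  · trivial

/-! ### The stacks -/

/-- the stacks of a state -/
def dstk (c : ℕ → ℕ) (inpS : List (DSym tm)) (S : ∀ k, List (tm.Γ k)) : DStk tm → List (DSym tm)
  | none => inpS
  | some (.inl i) => List.replicate (c i) (.inl false)
  | some (.inr k) => (S k).map fun g => .inr ⟨k, g⟩

theorem dstk_reg (c : ℕ → ℕ) (inpS : List (DSym tm)) (S : ∀ k, List (tm.Γ k)) (i m : ℕ) :
    update (dstk c inpS S) (some (.inl i)) (List.replicate m (.inl false)) =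
      dstk (update c i m) inpS S := by
  funext k
  by_cases hk : k = some (.inl i)
  · subst hk
    rw [update_self]
    simp only [dstk, update_self]
  · rw [update_of_ne hk]
    rcases k with _ | j | k
    · rfl
    · have hj : j ≠ i := fun h => hk (by rw [h])
      simp only [dstk, update_of_ne hj]
    · rfl

theorem dstk_dec (c : ℕ → ℕ) (inpS : List (DSym tm)) (S : ∀ k, List (tm.Γ k)) (k : tm.K)
    (l : List (tm.Γ k)) :
    update (dstk c inpS S) (some (.inr k)) (l.map fun g => .inr ⟨k, g⟩) =
      dstk c inpS (update S k l) := by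
  funext j
  by_cases hj : j = some (.inr k)
  · subst hj
    rw [update_self]
    simp only [dstk, update_self]
  · rw [update_of_ne hj]
    rcases j with _ | j | j
    · rfl
    · rfl
    · have hj' : j ≠ k := fun h => hj (by rw [h])
      simp only [dstk, update_of_ne hj']

theorem dstk_inp (c : ℕ → ℕ) (inpS inpS' : List (DSym tm)) (S : ∀ k, List (tm.Γ k)) :
    update (dstk c inpS S) none inpS' = dstk c inpS' S := by
  funext j
  rcases j with _ | j | j
  · rw [update_self]
    rfl
  · rw [update_of_ne (by simp)]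
    rfl
  · rw [update_of_ne (by simp)]
    rfl

/-- `t` steps lead from one configuration to another one -/
def DRun (t : ℕ) (a b : DSt tm × (DStk tm → List (DSym tm))) : Prop :=
  (dm L inp ans).step^[t] a = b

variable {L inp ans}

theorem DRun.trans {t t' : ℕ} {a b c : DSt tm × (DStk tm → List (DSym tm))}
    (h : DRun L inp ans t a b) (h' : DRun L inp ans t' b c) : DRun L inp ans (t + t') a c := by
  unfold DRun at *
  rw [add_comm, iterate_add_apply, h, h']

theorem DRun.refl (a : DSt tm × (DStk tm → List (DSym tm))) : DRun L inp ans 0 a a := rfl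

/-- the stacks of `tm` in the program phase -/
def oS (inp : Option Bool → tm.Γ tm.k₀) (o : List (Option Bool)) : ∀ k, List (tm.Γ k) :=
  update (fun _ => []) tm.k₀ (o.map inp)

/-- the configuration in the program phase -/
def pcfg (inp : Option Bool → tm.Γ tm.k₀) (pc : ℕ) (c : ℕ → ℕ) (o : List (Option Bool))
    (inpS : List (DSym tm)) : DSt tm × (DStk tm → List (DSym tm)) :=
  (.prog pc, dstk c inpS (oS inp o))

theorem getD_of {pc : ℕ} {x : Instr (Option Bool)} (hx : L[pc]? = some x) :
    L.getD pc .stop = x := by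
  rw [List.getD_eq_getElem?_getD, hx]
  rfl

theorem drun_inc {pc i : ℕ} (hx : L[pc]? = some (.inc i)) (c : ℕ → ℕ) (o : List (Option Bool))
    (inpS : List (DSym tm)) :
    DRun L inp ans 1 (pcfg inp pc c o inpS) (pcfg inp (pc + 1) (update c i (c i + 1)) o inpS) := by
  show (dm L inp ans).step _ = _
  unfold AM.step
  have h1 : (dm L inp ans).op (pcfg inp pc c o inpS).1 = .push (some (.inl i)) (.inl false) := by
    show pOp inp (L.getD pc .stop) = _
    rw [getD_of hx]
    rfl
  have h2 : (dm L inp ans).nx (pcfg inp pc c o inpS).1 none = .prog (pc + 1) := by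
    show pNx pc (L.getD pc .stop) none = _
    rw [getD_of hx]
    rfl
  rw [h1]
  simp only [h2]
  refine Prod.ext rfl ?_
  show update (dstk c inpS (oS inp o)) (some (.inl i))
    (.inl false :: dstk c inpS (oS inp o) (some (.inl i))) = _
  have : (.inl false :: dstk c inpS (oS inp o) (some (.inl i)) : List (DSym tm)) =
      List.replicate (c i + 1) (.inl false) := rfl
  rw [this, dstk_reg]
  rfl

theorem drun_dec_zero {pc i d : ℕ} (hx : L[pc]? = some (.dec i d)) {c : ℕ → ℕ} (hc : c i = 0)
    (o : List (Option Bool)) (inpS : List (DSym tm)) :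
    DRun L inp ans 1 (pcfg inp pc c o inpS) (pcfg inp d c o inpS) := by
  show (dm L inp ans).step _ = _
  unfold AM.step
  have h1 : (dm L inp ans).op (pcfg inp pc c o inpS).1 = .pop (some (.inl i)) := by
    show pOp inp (L.getD pc .stop) = _
    rw [getD_of hx]
    rfl
  have h2 : (pcfg inp pc c o inpS).2 (some (.inl i)) = [] := by
    show List.replicate (c i) _ = []
    rw [hc]
    rfl
  have h3 : (dm L inp ans).nx (pcfg inp pc c o inpS).1 none = .prog d := by
    show pNx pc (L.getD pc .stop) none = _
    rw [getD_of hx]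
    rfl
  rw [h1]
  simp only [h2, List.head?_nil, List.tail_nil, h3]
  refine Prod.ext rfl ?_
  show update (dstk c inpS (oS inp o)) (some (.inl i)) (List.replicate 0 (.inl false)) = _
  rw [dstk_reg, ← hc, update_eq_self]
  rfl

theorem drun_dec_succ {pc i d : ℕ} (hx : L[pc]? = some (.dec i d)) {c : ℕ → ℕ} (hc : c i ≠ 0)
    (o : List (Option Bool)) (inpS : List (DSym tm)) :
    DRun L inp ans 1 (pcfg inp pc c o inpS) (pcfg inp (pc + 1) (update c i (c i - 1)) o inpS) := by
  obtain ⟨m, hm⟩ := Nat.exists_eq_succ_of_ne_zero hc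
  show (dm L inp ans).step _ = _
  unfold AM.step
  have h1 : (dm L inp ans).op (pcfg inp pc c o inpS).1 = .pop (some (.inl i)) := by
    show pOp inp (L.getD pc .stop) = _
    rw [getD_of hx]
    rfl
  have h2 : (pcfg inp pc c o inpS).2 (some (.inl i)) =
      .inl false :: List.replicate m (.inl false) := by
    show List.replicate (c i) _ = _
    rw [hm]
    rfl
  have h3 : ∀ x, (dm L inp ans).nx (pcfg inp pc c o inpS).1 (some x) = .prog (pc + 1) := by
    intro x
    show pNx pc (L.getD pc .stop) (some x) = _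
    rw [getD_of hx]
    rfl
  rw [h1]
  simp only [h2, List.head?_cons, List.tail_cons, h3]
  refine Prod.ext rfl ?_
  show update (dstk c inpS (oS inp o)) (some (.inl i)) (List.replicate m (.inl false)) = _
  rw [dstk_reg]
  have : c i - 1 = m := by omega
  rw [this]
  rfl

theorem drun_jmp {pc d : ℕ} (hx : L[pc]? = some (.jmp d)) (c : ℕ → ℕ) (o : List (Option Bool))
    (inpS : List (DSym tm)) :
    DRun L inp ans 1 (pcfg inp pc c o inpS) (pcfg inp d c o inpS) := by
  show (dm L inp ans).step _ = _
  unfold AM.step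
  have h1 : (dm L inp ans).op (pcfg inp pc c o inpS).1 = .nop := by
    show pOp inp (L.getD pc .stop) = _
    rw [getD_of hx]
    rfl
  have h3 : (dm L inp ans).nx (pcfg inp pc c o inpS).1 none = .prog d := by
    show pNx pc (L.getD pc .stop) none = _
    rw [getD_of hx]
    rfl
  rw [h1]
  simp only [h3]
  rfl

theorem drun_out {pc : ℕ} {x : Option Bool} (hx : L[pc]? = some (.out x)) (c : ℕ → ℕ)
    (o : List (Option Bool)) (inpS : List (DSym tm)) :
    DRun L inp ans 1 (pcfg inp pc c o inpS) (pcfg inp (pc + 1) c (x :: o) inpS) := by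
  show (dm L inp ans).step _ = _
  unfold AM.step
  have h1 : (dm L inp ans).op (pcfg inp pc c o inpS).1 =
      .push (some (.inr tm.k₀)) (.inr ⟨tm.k₀, inp x⟩) := by
    show pOp inp (L.getD pc .stop) = _
    rw [getD_of hx]
    rfl
  have h2 : (dm L inp ans).nx (pcfg inp pc c o inpS).1 none = .prog (pc + 1) := by
    show pNx pc (L.getD pc .stop) none = _
    rw [getD_of hx]
    rfl
  rw [h1]
  simp only [h2]
  refine Prod.ext rfl ?_
  show update (dstk c inpS (oS inp o)) (some (.inr tm.k₀))
    (((inp x) :: oS inp o tm.k₀).map fun g => .inr ⟨tm.k₀, g⟩) = _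
  rw [dstk_dec]
  show dstk c inpS (update (oS inp o) tm.k₀ (inp x :: oS inp o tm.k₀)) =
    dstk c inpS (oS inp (x :: o))
  congr 1
  unfold oS
  rw [update_self, update_idem]
  rfl

/-- correctness of the compiler -/
theorem drun_compile (inpS : List (DSym tm)) {P : Prog (Option Bool)} {c c' : ℕ → ℕ}
    {o o' : List (Option Bool)} {t : ℕ} (h : Big P c o c' o' t) : ∀ (off : ℕ),
    CodeAt L off (compile P off) →
    DRun L inp ans t (pcfg inp off c o inpS) (pcfg inp (off + P.size) c' o' inpS) := by
  induction h with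
  | skip c o => intro off _; exact DRun.refl _
  | inc i c o =>
    intro off hL
    exact drun_inc (CodeAt.cons hL).1 c o inpS
  | out x c o =>
    intro off hL
    exact drun_out (CodeAt.cons hL).1 c o inpS
  | seq hP hQ ihP ihQ =>
    intro off hL
    obtain ⟨h1, h2⟩ := CodeAt.append hL
    rw [length_compile] at h2
    have h3 := (ihP off h1).trans (ihQ _ h2)
    rw [Prog.size, ← add_assoc]
    exact h3
  | loop_zero hc =>
    intro off hL
    exact drun_dec_zero (CodeAt.cons hL).1 hc _ inpS
  | @loop_succ i P c o c' o' c'' o'' t t' hc hP hQ ihP ihQ =>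
    intro off hL
    obtain ⟨h1, h2⟩ := CodeAt.cons hL
    obtain ⟨h3, h4⟩ := CodeAt.append h2
    rw [length_compile] at h4
    have e1 := drun_dec_succ (inp := inp) (ans := ans) h1 hc o inpS
    have e2 := ihP (off + 1) h3
    have e3 := drun_jmp (inp := inp) (ans := ans) (CodeAt.cons h4).1 c' o' inpS
    have e4 := ihQ off hL
    have e5 := ((e1.trans e2).trans e3).trans e4
    have : 1 + t + 1 + t' = t + t' + 2 := by ring
    rw [this] at e5
    exact e5

end P310
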