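import Vale.Agent.P310.Core

/-!
# P310: the lower bound
-/

namespace P310

open PolyTM Turing Function Filter Topology

theorem exists_pow_le (c : ℕ) : ∃ s₁, ∀ s ≥ s₁, s ^ c ≤ 2 ^ s := by
  have h := tendsto_pow_const_div_const_pow_of_one_lt c (show (1 : ℝ) < 2 by norm_num)
  have h1 : ∀ᶠ n : ℕ in atTop, (n : ℝ) ^ c / 2 ^ n < 1 := h.eventually_lt_const (by norm_num)
  obtain ⟨s₁, hs₁⟩ := eventually_atTop.1 h1
  refine ⟨s₁, fun s hs => ?_⟩
  have h2 := hs₁ s hs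
  rw [div_lt_one (by positivity)] at h2
  exact_mod_cast h2.le

theorem exists_ssz (tm : FinTM2) : ∃ B, ∀ l, ssz (tm.m l) ≤ B := by
  have := tm.ΛFin
  obtain ⟨B, hB⟩ := (Set.finite_range fun l => ssz (tm.m l)).bddAbove
  exact ⟨B, fun l => hB ⟨l, rfl⟩⟩

/-- the parameter `d` -/
def dk (k : ℕ) : ℕ := (k - 8) / 6

/-- **Core.** A machine which decides `≡_k` in time `T` needs a long time for the graphs of the
reduction. -/
theorem core : ∃ e₁ e₂ : ℕ, 0 < e₂ ∧ ∀ k ≥ 14, ∀ (tm : FinTM2) (T : ℕ → ℕ), Decides k tm T →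
    ∃ A B s₁ : ℕ, 0 < A ∧ ∀ s ≥ s₁, ∃ N ≤ A * (2 ^ (k * s)) ^ e₂,
      2 ^ ((k * dk k * s - 1) / 2) ≤ A * (2 ^ (k * s)) ^ e₁ + B * T N := by
  obtain ⟨p, hp⟩ := exists_prog
  obtain ⟨q, hq⟩ := bound_N
  obtain ⟨Cp, ep, hCp⟩ := poly_le p
  obtain ⟨Cq, eq, hCq⟩ := poly_le q
  refine ⟨ep + 1, eq + 1, by omega, fun k hk tm T hdec => ?_⟩
  obtain ⟨hΓ, inp, ans, hdec⟩ := hdec
  have hd : 0 < dk k := by unfold dk; omega
  obtain ⟨W, hW⟩ := exists_pi (k - 3) k (dk k) hd (by omega)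
    ((Nat.sub_le _ _).trans (Nat.lt_two_pow_self).le)
  obtain ⟨P, hP⟩ := hp (k - 3) (k + 2) k (dk k) W
  obtain ⟨B, hB⟩ := exists_ssz tm
  have : Finite (DSym tm) := by
    have := tm.kFin
    infer_instance
  have : Countable (DStk tm) := by
    have := tm.kFin
    infer_instance
  obtain ⟨c, s₀, hcode⟩ := exists_code (dm (dCode P) inp ans) (dSet (tm := tm) (dCode P))
    (dSet_finite _ hΓ) (Nat.zero_le _) (dSet_closed _ _ _) none (.inl false) (.inl true)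
    (by simp)
  obtain ⟨s₂, hs₂⟩ := exists_pow_le c
  obtain ⟨K, hK⟩ : ∃ K, K = (k - 3) + (k + 2) + k + dk k + W := ⟨_, rfl⟩
  refine ⟨12 + K + Cp * (3 + K) ^ ep + Cq * (3 + K) ^ eq, B, max (max s₀ s₂) 2, by omega,
    fun s hs => ?_⟩
  have hs0 : s₀ ≤ s := (le_max_left _ _).trans ((le_max_left _ _).trans hs)
  have hs2 : s₂ ≤ s := (le_max_right _ _).trans ((le_max_left _ _).trans hs)
  have hs' : 2 ≤ s := (le_max_right _ _).trans hs
  obtain ⟨X, hX⟩ : ∃ X, X = 2 ^ (k * s) := ⟨_, rfl⟩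
  rw [← hX]
  obtain ⟨i, hi, hacc⟩ := hcode s hs0
  have hiX : i < X := by
    refine hi.trans_le ((hs₂ s hs2).trans ?_)
    rw [hX]
    exact Nat.pow_le_pow_right (by omega) (Nat.le_mul_of_pos_left _ (by omega))
  have hsX : s < X := by
    rw [hX]
    refine Nat.lt_two_pow_self.trans_le (Nat.pow_le_pow_right (by omega)
      (Nat.le_mul_of_pos_left _ (by omega)))
  have hX1 : 1 ≤ X := by omega
  obtain ⟨x, hx⟩ : ∃ x, x = xv (X + i) s (k - 3) (k + 2) k (dk k) W := ⟨_, rfl⟩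
  have hsum : ∑ j, x j ≤ (3 + K) * X := by
    have h1 : ∑ j, x j = (X + i) + s + (k - 3) + (k + 2) + k + dk k + W := by
      rw [hx, Fin.sum_univ_seven]
      rfl
    rw [h1]
    have h2 : K ≤ K * X := Nat.le_mul_of_pos_right _ hX1
    have h3 : (3 + K) * X = 3 * X + K * X := by ring
    omega
  have hsum1 : 1 ≤ ∑ j, x j := by
    have h1 : ∑ j, x j = (X + i) + s + (k - 3) + (k + 2) + k + dk k + W := by
      rw [hx, Fin.sum_univ_seven]
      rfl
    omega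
  have hxok : XOk x i := by
    rw [hx]
    exact ⟨hs', show 0 < k - 3 by omega, show 0 < k + 2 by omega, show 0 < k by omega, hd,
      show X + i = 2 ^ (k * s) + i by rw [hX]⟩
  have htab : TabOk (x 2) (x 4) (x 5) (x 6) := by
    rw [hx]
    exact hW
  have hred := reduction (k := k) hxok htab
    (by rw [hx]; show k + 1 + 6 * dk k < 2 * (k - 3); unfold dk; omega)
    (by rw [hx]; show k + 1 < k + 2; omega) (by rw [hx]; show k - 3 + 3 ≤ k; omega)
  obtain ⟨t, ht, c', hbig⟩ := hP (X + i) s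
  rw [← hx] at hbig
  obtain ⟨t', ht', cfg, hsteps, hhalt, hans⟩ :=
    hdec (tp x).sys.N ((tp x).sys.graph 0) ((tp x).sys.graph 1)
  obtain ⟨τ₀, hτ₀, hver⟩ := dm_verdict (inp := inp) (ans := ans) P hB hbig hsteps hhalt
  have hN : (tp x).sys.N ≤ Cq * (3 + K) ^ eq * X ^ eq := by
    refine (hq x).trans ((hCq _ hsum1).trans ?_)
    rw [mul_assoc, ← mul_pow]
    exact Nat.mul_le_mul_left _ (Nat.pow_le_pow_left hsum _)
  refine ⟨(tp x).sys.N, ?_, ?_⟩
  · refine hN.trans ?_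
    rw [pow_succ]
    calc Cq * (3 + K) ^ eq * X ^ eq ≤ (12 + K + Cp * (3 + K) ^ ep + Cq * (3 + K) ^ eq) * X ^ eq :=
          Nat.mul_le_mul_right _ (by omega)
      _ ≤ (12 + K + Cp * (3 + K) ^ ep + Cq * (3 + K) ^ eq) * (X ^ eq * X) :=
          Nat.mul_le_mul_left _ (Nat.le_mul_of_pos_right _ hX1)
  · by_contra hlt
    push Not at hlt
    have ht1 : t ≤ K + Cp * (3 + K) ^ ep * X ^ ep := by
      have h1 : p.eval (X + i + s + (k - 3) + (k + 2) + k + dk k + W) ≤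
          Cp * (3 + K) ^ ep * X ^ ep := by
        refine (hCp _ (by omega)).trans ?_
        rw [mul_assoc, ← mul_pow]
        refine Nat.mul_le_mul_left _ (Nat.pow_le_pow_left ?_ _)
        have h2 : K ≤ K * X := Nat.le_mul_of_pos_right _ hX1
        have h3 : (3 + K) * X = 3 * X + K * X := by ring
        omega
      omega
    have hB' : B * t' ≤ B * T (tp x).sys.N := Nat.mul_le_mul_left _ ht'
    have hA : 12 * X + K + Cp * (3 + K) ^ ep * X ^ ep ≤
        (12 + K + Cp * (3 + K) ^ ep + Cq * (3 + K) ^ eq) * X ^ (ep + 1) := by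
      have h1 : X ≤ X ^ (ep + 1) := Nat.le_self_pow (by omega) _
      have h2 : 1 ≤ X ^ (ep + 1) := Nat.one_le_pow _ _ hX1
      have h3 : X ^ ep ≤ X ^ (ep + 1) := Nat.pow_le_pow_right hX1 (by omega)
      have h4 : 12 * X ≤ 12 * X ^ (ep + 1) := Nat.mul_le_mul_left _ h1
      have h5 : K ≤ K * X ^ (ep + 1) := Nat.le_mul_of_pos_right _ h2
      have h6 : Cp * (3 + K) ^ ep * X ^ ep ≤ Cp * (3 + K) ^ ep * X ^ (ep + 1) :=
        Nat.mul_le_mul_left _ h3
      have h7 : (12 + K + Cp * (3 + K) ^ ep + Cq * (3 + K) ^ eq) * X ^ (ep + 1) =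
          12 * X ^ (ep + 1) + K * X ^ (ep + 1) + Cp * (3 + K) ^ ep * X ^ (ep + 1) +
            Cq * (3 + K) ^ eq * X ^ (ep + 1) := by ring
      rw [h7]
      omega
    have hbound : s + (X + i) + τ₀ < 2 ^ ((k * dk k * s - 1) / 2) := by
      have h12 : (12 : ℕ) * X = 12 * X := rfl
      omega
    obtain ⟨T', hT'⟩ := Nat.exists_eq_add_of_lt hbound
    have hv := hver (T' + 1 + τ₀) (by omega)
    have hacc' := hacc (X + i) (2 ^ ((k * dk k * s - 1) / 2))
    have e1 : s + (X + i) + (T' + 1 + τ₀) = 2 ^ ((k * dk k * s - 1) / 2) := by omega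
    rw [e1] at hv
    have hx0 : x 0 = X + i := by rw [hx]; rfl
    have hx1 : x 1 = s := by rw [hx]; rfl
    have hx4 : x 4 = k := by rw [hx]; rfl
    have hx5 : x 5 = dk k := by rw [hx]; rfl
    rw [hx0, hx1, hx4, hx5] at hred
    rw [hred] at hans
    rw [hacc', hv] at hans
    exact (iff_not_self hans)

end P310
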