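import Mathlib

/-!
# P310: shift-invariant Horn systems (notes/P310.md, section 3)

Cells are elements of `F_2^L`.  A rule has one (`p1 = p2`) or two premises at the cell `g + δ`
and the conclusion at the cell `g`; `δ` is `0` or a unit vector.
-/

namespace P310

/-- A rule: `c g` follows from `p1 (g + δ)` and `p2 (g + δ)`, where `δ = 0` if `sh = none` and
`δ = e_i` if `sh = some i`. -/
@[ext] structure HRule (L : ℕ) (Main : Type*) where
  p1 : Main
  p2 : Main
  sh : Option (Fin L)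
  c : Main

/-- The shift vector. -/
def shv {L : ℕ} : Option (Fin L) → (Fin L → ZMod 2)
  | none => 0
  | some i => Pi.single i 1

/-- Derivable facts. -/
inductive HDer {L : ℕ} {Main : Type*} (R : HRule L Main → Prop) (I : Main → Prop) :
    Main → (Fin L → ZMod 2) → Prop
  | init {A : Main} (h : I A) : HDer R I A 0
  | rule {ρ : HRule L Main} (h : R ρ) (g : Fin L → ZMod 2)
      (h1 : HDer R I ρ.p1 (g + shv ρ.sh)) (h2 : HDer R I ρ.p2 (g + shv ρ.sh)) : HDer R I ρ.c g

/-- Models. -/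
structure HModel {L : ℕ} {Main : Type*} (R : HRule L Main → Prop) (I : Main → Prop)
    (Tr : Main → (Fin L → ZMod 2) → Prop) : Prop where
  init : ∀ A, I A → Tr A 0
  rule : ∀ ρ, R ρ → ∀ g, Tr ρ.p1 (g + shv ρ.sh) → Tr ρ.p2 (g + shv ρ.sh) → Tr ρ.c g

/-- Well-formed systems: the conclusion is not a premise, the type `acc` is never a premise, and
for given premises and conclusion there is at most one nonzero shift. -/
structure HWf {L : ℕ} {Main : Type*} (R : HRule L Main → Prop) (acc : Main) : Prop where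
  c1 : ∀ ρ, R ρ → ρ.c ≠ ρ.p1
  c2 : ∀ ρ, R ρ → ρ.c ≠ ρ.p2
  a1 : ∀ ρ, R ρ → ρ.p1 ≠ acc
  a2 : ∀ ρ, R ρ → ρ.p2 ≠ acc
  sh : ∀ ρ ρ', R ρ → R ρ' → ρ.c = ρ'.c → ({ρ.p1, ρ.p2} : Set Main) = {ρ'.p1, ρ'.p2} →
    ρ.sh ≠ none → ρ'.sh ≠ none → ρ.sh = ρ'.sh

theorem HModel.of_der {L : ℕ} {Main : Type*} {R : HRule L Main → Prop} {I : Main → Prop}
    {Tr : Main → (Fin L → ZMod 2) → Prop} (h : HModel R I Tr) {A : Main} {g : Fin L → ZMod 2}
    (hd : HDer R I A g) : Tr A g := by
  induction hd with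
  | init hA => exact h.init _ hA
  | rule hR g _ _ h1 h2 => exact h.rule _ hR g h1 h2

end P310
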