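import Vale.Agent.P310.HornPV

/-!
# P310, module HD2: the closure properties (D2) and (D2')
-/

namespace P310

open Finset

variable {L R m n d : ℕ} {Main RI : Type} [DecidableEq Main] [DecidableEq RI]
variable {pi : Fin m → GV L →ₗ[ZMod 2] GV R} {rules : RI → Option (HRule L Main)}
  {ini : Main → Prop} {acc : Main} {Tr : Main → GV L → Prop}

/-- two different vectors of the kinds `x`, `y` share an axiom at the digit `j` (one order) -/
def LRP (pi : Fin m → GV L →ₗ[ZMod 2] GV R) (rules : RI → Option (HRule L Main)) (j : Fin m) :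
    PV R L Main → PV R L Main → Prop
  | .k C i a, .k C' i' b => C = C' ∧ ∃ l : Fin L, i = l.castSucc ∧ i' = l.succ ∧
      (a = b ∨ a = b + pi j (shv (some l)))
  | .k C i _, .c C' l _ => C = C' ∧ (i = l.castSucc ∨ i = l.succ)
  | .s S a, .s S' b => a = b ∧ ∃ r ρ, rules r = some ρ ∧
      ((S = {ρ.p1} ∧ S' = {ρ.p2}) ∨ (S = {ρ.p1} ∧ S' = ρ.prem) ∨ (S = {ρ.p2} ∧ S' = ρ.prem))
  | .s S a, .k C i b => i = Fin.last L ∧ ∃ r ρ, rules r = some ρ ∧ ρ.prem = S ∧ ρ.c = C ∧
      a = b + pi j (shv ρ.sh)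
  | .s S a, .u S' C' b' a' => (S = S' ∧ a = b') ∨ (S = {C'} ∧ a = a')
  | .k C i a, .u _ C' _ a' => i = Fin.last L ∧ C = C' ∧ a = a'
  | .s S _, .f C => ∃ r ρ, rules r = some ρ ∧ ρ.prem = S ∧ ρ.c = C
  | .s S a, .v S' C' b' => (S = S' ∧ a = b') ∨ (S = {C'} ∧ ∃ r ρ, rules r = some ρ ∧
      ρ.prem = S' ∧ ρ.c = C' ∧ b' = a + pi j (shv ρ.sh))
  | .f C, .v _ C' _ => C = C'
  | .u S C b _, .v S' C' b' => S = S' ∧ C = C' ∧ b = b'
  | _, _ => False

/-- both orders -/
def LRs (pi : Fin m → GV L →ₗ[ZMod 2] GV R) (rules : RI → Option (HRule L Main)) (j : Fin m)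
    (x y : PV R L Main) : Prop := LRP pi rules j x y ∨ LRP pi rules j y x

theorem LRs.symm {j : Fin m} {x y : PV R L Main} (h : LRs pi rules j x y) :
    LRs pi rules j y x := Or.symm h

theorem prem_nonempty (ρ : HRule L Main) : ρ.prem.Nonempty := ⟨ρ.p1, by simp [HRule.prem]⟩

theorem c_notin (H : HHyp d pi rules ini acc Tr) {r : RI} {ρ : HRule L Main}
    (hr : rules r = some ρ) : ρ.c ∉ ρ.prem := by
  unfold HRule.prem
  rw [mem_insert, mem_singleton, not_or]
  exact ⟨H.wf.c1 ρ ⟨r, hr⟩, H.wf.c2 ρ ⟨r, hr⟩⟩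

/-- three tokens with their kinds -/
theorem tri {j : Fin m} {τ1 τ2 τ3 : HTok L R Main RI} {p1 p2 p3 : PV R L Main}
    (g1 : p1.Good) (g2 : p2.Good) (g3 : p3.Good) (v1 : hvec pi rules j τ1 = p1.val)
    (v2 : hvec pi rules j τ2 = p2.val) (v3 : hvec pi rules j τ3 = p3.val)
    (h12 : LRs pi rules j p1 p2) (h13 : LRs pi rules j p1 p3) (h23 : LRs pi rules j p2 p3)
    {τ τ' : HTok L R Main RI} (hτ : τ ∈ ({τ1, τ2, τ3} : Finset (HTok L R Main RI)))
    (hτ' : τ' ∈ ({τ1, τ2, τ3} : Finset (HTok L R Main RI))) :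
    ∃ p p' : PV R L Main, p.Good ∧ p'.Good ∧ hvec pi rules j τ = p.val ∧
      hvec pi rules j τ' = p'.val ∧ (p = p' ∨ LRs pi rules j p p') := by
  simp only [mem_insert, mem_singleton] at hτ hτ'
  rcases hτ with rfl | rfl | rfl <;> rcases hτ' with rfl | rfl | rfl
  · exact ⟨p1, p1, g1, g1, v1, v1, Or.inl rfl⟩
  · exact ⟨p1, p2, g1, g2, v1, v2, Or.inr h12⟩
  · exact ⟨p1, p3, g1, g3, v1, v3, Or.inr h13⟩
  · exact ⟨p2, p1, g2, g1, v2, v1, Or.inr h12.symm⟩
  · exact ⟨p2, p2, g2, g2, v2, v2, Or.inl rfl⟩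
  · exact ⟨p2, p3, g2, g3, v2, v3, Or.inr h23⟩
  · exact ⟨p3, p1, g3, g1, v3, v1, Or.inr h13.symm⟩
  · exact ⟨p3, p2, g3, g2, v3, v2, Or.inr h23.symm⟩
  · exact ⟨p3, p3, g3, g3, v3, v3, Or.inl rfl⟩

theorem ax_LR (H : HHyp d pi rules ini acc Tr) {j : Fin m} {a : HAx L R Main RI}
    {τ τ' : HTok L R Main RI} (hτ : τ ∈ haxt pi rules j a) (hτ' : τ' ∈ haxt pi rules j a) :
    ∃ p p' : PV R L Main, p.Good ∧ p'.Good ∧ hvec pi rules j τ = p.val ∧
      hvec pi rules j τ' = p'.val ∧ (p = p' ∨ LRs pi rules j p p') := by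
  cases a with
  | m0 C i a =>
    exact tri (p1 := .k C i.castSucc a) (p2 := .k C i.succ a) (p3 := .c C i 0) trivial trivial
      trivial rfl rfl rfl (Or.inl ⟨rfl, i, rfl, rfl, Or.inl rfl⟩) (Or.inl ⟨rfl, Or.inl rfl⟩)
      (Or.inl ⟨rfl, Or.inr rfl⟩) hτ hτ'
  | m1 C i a =>
    exact tri (p1 := .k C i.castSucc (a + pi j (shv (some i)))) (p2 := .k C i.succ a)
      (p3 := .c C i (pi j (shv (some i)))) trivial trivial
      trivial rfl rfl rfl (Or.inl ⟨rfl, i, rfl, rfl, Or.inr rfl⟩) (Or.inl ⟨rfl, Or.inl rfl⟩)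
      (Or.inl ⟨rfl, Or.inr rfl⟩) hτ hτ'
  | p r a =>
    simp only [haxt] at hτ hτ'
    cases hr : rules r with
    | none => rw [hr] at hτ; simp at hτ
    | some ρ =>
      rw [hr] at hτ hτ'
      exact tri (p1 := .s {ρ.p1} (a + pi j (shv ρ.sh))) (p2 := .s {ρ.p2} (a + pi j (shv ρ.sh)))
        (p3 := .s ρ.prem (a + pi j (shv ρ.sh))) (singleton_nonempty _) (singleton_nonempty _)
        (prem_nonempty ρ) rfl rfl (by simp only [hvec, hr]; rfl)
        (Or.inl ⟨rfl, r, ρ, hr, Or.inl ⟨rfl, rfl⟩⟩)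
        (Or.inl ⟨rfl, r, ρ, hr, Or.inr (Or.inl ⟨rfl, rfl⟩)⟩)
        (Or.inl ⟨rfl, r, ρ, hr, Or.inr (Or.inr ⟨rfl, rfl⟩)⟩) hτ hτ'
  | u r a =>
    simp only [haxt] at hτ hτ'
    cases hr : rules r with
    | none => rw [hr] at hτ; simp at hτ
    | some ρ =>
      rw [hr] at hτ hτ'
      exact tri (p1 := .s ρ.prem (a + pi j (shv ρ.sh))) (p2 := .k ρ.c (Fin.last L) a)
        (p3 := .u ρ.prem ρ.c (a + pi j (shv ρ.sh)) a) (prem_nonempty ρ) trivial
        ⟨prem_nonempty ρ, c_notin H hr⟩ (by simp only [hvec, hr]; rfl) rfl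
        (by simp only [hvec, hr]; rfl)
        (Or.inl ⟨rfl, r, ρ, hr, rfl, rfl, rfl⟩) (Or.inl (Or.inl ⟨rfl, rfl⟩))
        (Or.inl ⟨rfl, rfl, rfl⟩) hτ hτ'
  | v r a =>
    simp only [haxt] at hτ hτ'
    cases hr : rules r with
    | none => rw [hr] at hτ; simp at hτ
    | some ρ =>
      rw [hr] at hτ hτ'
      exact tri (p1 := .s ρ.prem (a + pi j (shv ρ.sh))) (p2 := .f ρ.c)
        (p3 := .v ρ.prem ρ.c (a + pi j (shv ρ.sh))) (prem_nonempty ρ) trivial
        ⟨prem_nonempty ρ, c_notin H hr⟩ (by simp only [hvec, hr]; rfl) rfl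
        (by simp only [hvec, hr]; rfl)
        (Or.inl ⟨r, ρ, hr, rfl, rfl⟩) (Or.inl (Or.inl ⟨rfl, rfl⟩))
        (Or.inl rfl) hτ hτ'
  | q r a =>
    simp only [haxt] at hτ hτ'
    cases hr : rules r with
    | none => rw [hr] at hτ; simp at hτ
    | some ρ =>
      rw [hr] at hτ hτ'
      exact tri (p1 := .u ρ.prem ρ.c (a + pi j (shv ρ.sh)) a)
        (p2 := .v ρ.prem ρ.c (a + pi j (shv ρ.sh))) (p3 := .s {ρ.c} a)
        ⟨prem_nonempty ρ, c_notin H hr⟩ ⟨prem_nonempty ρ, c_notin H hr⟩ (singleton_nonempty _)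
        (by simp only [hvec, hr]; rfl) (by simp only [hvec, hr]; rfl) rfl
        (Or.inl ⟨rfl, rfl, rfl⟩) (Or.inr (Or.inr ⟨rfl, rfl⟩))
        (Or.inr (Or.inr ⟨rfl, r, ρ, hr, rfl, rfl, rfl⟩)) hτ hτ'

/-! ### counting digits -/

theorem far1 (H : HHyp d pi rules ini acc Tr) {g : GV L} {s : Finset (Fin m)}
    (h : ∀ j ∈ s, pi j g = 0) (hs : d < s.card) : g = 0 := by
  by_contra hg
  have := H.far g hg s h
  omega

theorem far_eq (H : HHyp d pi rules ini acc Tr) {g g' : GV L} {s : Finset (Fin m)}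
    (h : ∀ j ∈ s, pi j g = pi j g') (hs : d < s.card) : g = g' := by
  refine gv_eq_of_add (far1 H (s := s) ?_ hs)
  intro j hj
  rw [map_add, h j hj, gv_self]

theorem far_or (H : HHyp d pi rules ini acc Tr) {g g' g'' : GV L} {s : Finset (Fin m)}
    (h : ∀ j ∈ s, pi j g = pi j g' ∨ pi j g = pi j g'') (hs : 2 * d < s.card) :
    g = g' ∨ g = g'' := by
  classical
  have hsum := Finset.card_filter_add_card_filter_not (s := s) (fun j => pi j g = pi j g')
  by_cases h1 : d < (s.filter fun j => pi j g = pi j g').card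
  · exact Or.inl (far_eq H (fun j hj => (mem_filter.1 hj).2) h1)
  · refine Or.inr (far_eq H (s := s.filter fun j => ¬ pi j g = pi j g') ?_ (by omega))
    intro j hj
    rw [mem_filter] at hj
    exact (h j hj.1).resolve_left hj.2

/-- the shifts of the rules with given premises and conclusion -/
theorem far_rule (H : HHyp d pi rules ini acc Tr) {w : GV L} {S : Finset Main} {C : Main}
    {s : Finset (Fin m)}
    (h : ∀ j ∈ s, ∃ r ρ, rules r = some ρ ∧ ρ.prem = S ∧ ρ.c = C ∧ pi j w = pi j (shv ρ.sh))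
    (hs : 2 * d < s.card) : ∃ r ρ, rules r = some ρ ∧ ρ.prem = S ∧ ρ.c = C ∧ w = shv ρ.sh := by
  classical
  obtain ⟨Q, hQ⟩ : ∃ Q : Fin m → Prop, Q = fun j => ∃ r ρ, rules r = some ρ ∧ ρ.prem = S ∧
      ρ.c = C ∧ ρ.sh = none ∧ pi j w = pi j (shv (none : Option (Fin L))) := ⟨_, rfl⟩
  obtain ⟨s1, hs1⟩ : ∃ s1, s1 = s.filter fun j => Q j := ⟨_, rfl⟩
  obtain ⟨s2, hs2⟩ : ∃ s2, s2 = s.filter fun j => ¬ Q j := ⟨_, rfl⟩
  have hsum : s1.card + s2.card = s.card := by
    rw [hs1, hs2]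
    exact Finset.card_filter_add_card_filter_not (s := s) Q
  by_cases h1 : d < s1.card
  · have hne : s1.Nonempty := Finset.card_pos.1 (by omega)
    obtain ⟨j0, hj0⟩ := hne
    rw [hs1] at hj0
    have hQ0 : Q j0 := (mem_filter.1 hj0).2
    rw [hQ] at hQ0
    obtain ⟨r, ρ, hr, hp, hc, hsh, -⟩ := hQ0
    refine ⟨r, ρ, hr, hp, hc, ?_⟩
    rw [hsh]
    refine far_eq H (s := s1) ?_ h1
    intro j hj
    rw [hs1] at hj
    have hQ1 : Q j := (mem_filter.1 hj).2
    rw [hQ] at hQ1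
    obtain ⟨_, _, _, _, _, _, h2⟩ := hQ1
    exact h2
  · have h2 : d < s2.card := by omega
    have key : ∀ j ∈ s2, ∃ r ρ, rules r = some ρ ∧ ρ.prem = S ∧ ρ.c = C ∧
        ρ.sh ≠ none ∧ pi j w = pi j (shv ρ.sh) := by
      intro j hj
      rw [hs2] at hj
      obtain ⟨hj1, hj2⟩ := mem_filter.1 hj
      obtain ⟨r, ρ, hr, hp, hc, hw⟩ := h j hj1
      refine ⟨r, ρ, hr, hp, hc, ?_, hw⟩
      intro hsh
      refine hj2 ?_
      rw [hQ]
      refine ⟨r, ρ, hr, hp, hc, hsh, ?_⟩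
      rw [← hsh]
      exact hw
    have hne : s2.Nonempty := Finset.card_pos.1 (by omega)
    obtain ⟨j0, hj0⟩ := hne
    obtain ⟨r, ρ, hr, hp, hc, hsh, -⟩ := key j0 hj0
    refine ⟨r, ρ, hr, hp, hc, ?_⟩
    refine far_eq H (s := s2) ?_ h2
    intro j hj
    obtain ⟨r', ρ', hr', hp', hc', hsh', hw'⟩ := key j hj
    have hset : ({ρ'.p1, ρ'.p2} : Set Main) = {ρ.p1, ρ.p2} := by
      have h3 : ρ'.prem = ρ.prem := by rw [hp, hp']
      unfold HRule.prem at h3
      have h4 := congrArg (fun T : Finset Main => (T : Set Main)) h3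
      simpa using h4
    have := H.wf.sh ρ' ρ ⟨r', hr'⟩ ⟨r, hr⟩ (by rw [hc, hc']) hset hsh' hsh
    rw [hw', this]

/-! ### the true facts -/

/-- truth in terms of the kinds -/
def TrP (rules : RI → Option (HRule L Main)) (Tr : Main → GV L → Prop) : PV L L Main → Prop
  | .s S g => ((∃ A, S = {A}) ∨ ∃ r ρ, rules r = some ρ ∧ ρ.prem = S) ∧ ∀ A ∈ S, Tr A g
  | .k _ _ _ => True
  | .c _ i a => a = 0 ∨ a = shv (some i)
  | .f _ => True
  | .u S C b a => ∃ r ρ, rules r = some ρ ∧ ρ.prem = S ∧ ρ.c = C ∧ b = a + shv ρ.sh ∧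
      ∀ A ∈ S, Tr A b
  | .v S C b => ∃ r ρ, rules r = some ρ ∧ ρ.prem = S ∧ ρ.c = C ∧ ∀ A ∈ S, Tr A b

theorem true_of_TrP {x : PV L L Main} (h : TrP rules Tr x) : HTrue rules Tr x.val := by
  cases x with
  | s S g =>
    obtain ⟨h1 | h1, h2⟩ := h
    · obtain ⟨A, rfl⟩ := h1
      exact .main A g (h2 A (mem_singleton_self A))
    · obtain ⟨r, ρ, hr, rfl⟩ := h1
      exact .p r ρ hr g h2
  | k C i a => exact .k C i a
  | c C i a =>
    rcases h with rfl | rfl
    · exact .c C i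
    · exact .d C i
  | f C => exact .f C
  | u S C b a =>
    obtain ⟨r, ρ, hr, rfl, rfl, rfl, h⟩ := h
    exact .u r ρ hr a h
  | v S C b =>
    obtain ⟨r, ρ, hr, rfl, rfl, h⟩ := h
    exact .v r ρ hr b h

theorem TrP_of_true (H : HHyp d pi rules ini acc Tr) {t : HV L L Main}
    (h : HTrue rules Tr t) : ∃ x : PV L L Main, x.Good ∧ t = x.val ∧ TrP rules Tr x := by
  cases h with
  | main A g h =>
    refine ⟨.s {A} g, singleton_nonempty _, rfl, Or.inl ⟨A, rfl⟩, ?_⟩
    intro B hB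
    rw [mem_singleton] at hB
    rw [hB]; exact h
  | k C i g => exact ⟨.k C i g, trivial, rfl, trivial⟩
  | c C i => exact ⟨.c C i 0, trivial, rfl, Or.inl rfl⟩
  | d C i => exact ⟨.c C i _, trivial, rfl, Or.inr rfl⟩
  | f C => exact ⟨.f C, trivial, rfl, trivial⟩
  | p r ρ hr g h => exact ⟨.s ρ.prem g, prem_nonempty ρ, rfl, Or.inr ⟨r, ρ, hr, rfl⟩, h⟩
  | u r ρ hr g h =>
    exact ⟨.u ρ.prem ρ.c _ g, ⟨prem_nonempty ρ, c_notin H hr⟩, rfl, r, ρ, hr, rfl, rfl, rfl, h⟩
  | v r ρ hr g h =>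
    exact ⟨.v ρ.prem ρ.c g, ⟨prem_nonempty ρ, c_notin H hr⟩, rfl, r, ρ, hr, rfl, rfl, h⟩

theorem tr_c (H : HHyp d pi rules ini acc Tr) {r : RI} {ρ : HRule L Main}
    (hr : rules r = some ρ) {g : GV L} (h : ∀ A ∈ ρ.prem, Tr A (g + shv ρ.sh)) : Tr ρ.c g :=
  H.model.rule ρ ⟨r, hr⟩ g (h _ (by simp [HRule.prem])) (h _ (by simp [HRule.prem]))

/-! ### identities between vectors -/

theorem id_kk (C : Main) (i : Fin L) (g b : GV n) :
    (kv C i.castSucc (g + b) + kv C i.succ g : HV n L Main) = cv C i b := by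
  refine Prod.ext (add_zero _) (Prod.ext ?_ ?_)
  · refine pind_add ?_
    rw [Finset.disjoint_singleton]
    intro h
    rw [Prod.mk.injEq] at h
    have := congrArg Fin.val h.2
    simp at this
  · funext A
    simp only [kv, cv, Prod.snd_add, Pi.add_apply]
    split_ifs
    · rw [add_comm g b, add_assoc, gv_self, add_zero]
    · rw [add_zero]

theorem id_kc (C : Main) (i : Fin L) (g b : GV n) :
    (kv C i.castSucc g + cv C i b : HV n L Main) = kv C i.succ (g + b) := by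
  have h := id_kk C i (g + b) b
  have h2 : g + b + b = g := by rw [add_assoc, gv_self, add_zero]
  rw [h2] at h
  rw [← h, ← add_assoc, hv_self, zero_add]

theorem id_kd (C : Main) (i : Fin L) (g b : GV n) :
    (kv C i.succ g + cv C i b : HV n L Main) = kv C i.castSucc (g + b) := by
  rw [← id_kk C i g b, add_comm (kv C i.castSucc (g + b)), ← add_assoc, hv_self, zero_add]

theorem id_s2 {p q : Main} (h : p ≠ q) (g : GV n) :
    (sv L {p} g + sv L {q} g : HV n L Main) = sv L {p, q} g := by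
  refine Prod.ext ?_ (Prod.ext (add_zero _) ?_)
  · exact pind_add (by rw [Finset.disjoint_singleton]; exact h)
  · funext A
    simp only [sv, Prod.snd_add, Pi.add_apply, mem_singleton, mem_insert]
    by_cases h1 : A = p
    · have h2 : A ≠ q := fun h2 => h (by rw [← h1, h2])
      simp [h1, h]
    · by_cases h2 : A = q
      · simp [h2, Ne.symm h]
      · simp [h1, h2]

theorem id_fk (C : Main) (g : GV n) :
    (kv C (Fin.last L) g + fv C : HV n L Main) = sv L {C} g := by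
  refine Prod.ext (zero_add _) (Prod.ext (funext fun _ => zmod2_self _) ?_)
  funext A
  simp only [sv, kv, fv, Prod.snd_add, Pi.add_apply, mem_singleton, Pi.zero_apply, add_zero]

/-! ### the ten pairs -/

section pairs

variable {s : Finset (Fin m)}

theorem D_kk (H : HHyp d pi rules ini acc Tr) {C : Main} {i i' : Fin (L + 1)} {g g' : GV L}
    (hs : 2 * d < s.card)
    (h : ∀ j ∈ s, LRs pi rules j ((PV.k C i g).map (pi j)) ((PV.k C i' g').map (pi j)))
    {l : Fin L} (hi : i = l.castSucc) (hi' : i' = l.succ) :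
    HTrue rules Tr (kv C i g + kv C i' g') := by
  subst hi
  subst hi'
  have h1 : ∀ j ∈ s, pi j g = pi j g' ∨ pi j g = pi j (g' + shv (some l)) := by
    intro j hj
    rcases h j hj with ⟨-, l', h1, h2, h3⟩ | ⟨-, l', h1, h2, -⟩
    · have : l = l' := Fin.castSucc_injective _ h1
      subst this
      rw [map_add]
      exact h3
    · have e1 := congrArg Fin.val h1
      have e2 := congrArg Fin.val h2
      simp at e1 e2
      omega
  rcases far_or H h1 hs with h2 | h2
  · subst h2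
    have := id_kk C l g (0 : GV L)
    rw [add_zero] at this
    rw [this]
    exact .c C l
  · rw [h2, id_kk]
    exact .d C l

theorem D_ss (H : HHyp d pi rules ini acc Tr) {S S' : Finset Main} {g g' : GV L}
    (hs : 2 * d < s.card) (hne : PV.s S g ≠ (PV.s S' g' : PV L L Main))
    (hx : TrP rules Tr (.s S g)) (hy : TrP rules Tr (.s S' g'))
    (h : ∀ j ∈ s, LRs pi rules j ((PV.s S g).map (pi j)) ((PV.s S' g').map (pi j)))
    {r : RI} {ρ : HRule L Main} (hr : rules r = some ρ)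
    (hS : (S = {ρ.p1} ∧ S' = {ρ.p2}) ∨ (S = {ρ.p1} ∧ S' = ρ.prem) ∨
      (S = {ρ.p2} ∧ S' = ρ.prem)) :
    HTrue rules Tr (sv L S g + sv L S' g') := by
  have hg : g = g' := by
    refine far_eq H (s := s) ?_ (by omega)
    intro j hj
    rcases h j hj with ⟨h1, -⟩ | ⟨h1, -⟩
    · exact h1
    · exact h1.symm
  subst hg
  have hp12 : ρ.p1 ≠ ρ.p2 := by
    intro hp
    apply hne
    have hpr : ρ.prem = {ρ.p2} := by unfold HRule.prem; rw [hp]; simp
    rcases hS with ⟨h1, h2⟩ | ⟨h1, h2⟩ | ⟨h1, h2⟩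
    · rw [h1, h2, hp]
    · rw [h1, h2, hp, hpr]
    · rw [h1, h2, hpr]
  rcases hS with ⟨h1, h2⟩ | ⟨h1, h2⟩ | ⟨h1, h2⟩
  · subst h1
    subst h2
    rw [id_s2 hp12]
    refine .p r ρ hr g ?_
    intro A hA
    unfold HRule.prem at hA
    rw [mem_insert, mem_singleton] at hA
    rcases hA with rfl | rfl
    · exact hx.2 _ (mem_singleton_self _)
    · exact hy.2 _ (mem_singleton_self _)
  · subst h1
    subst h2
    have : sv L ρ.prem g = sv L {ρ.p1} g + sv L {ρ.p2} g := (id_s2 hp12 g).symm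
    rw [this, ← add_assoc, hv_self, zero_add]
    exact .main _ g (hy.2 _ (by simp [HRule.prem]))
  · subst h1
    subst h2
    have : sv L ρ.prem g = sv L {ρ.p1} g + sv L {ρ.p2} g := (id_s2 hp12 g).symm
    rw [this, add_comm (sv L {ρ.p1} g), ← add_assoc, hv_self, zero_add]
    exact .main _ g (hy.2 _ (by simp [HRule.prem]))

theorem D_sk (H : HHyp d pi rules ini acc Tr) {S : Finset Main} {C : Main}
    {i : Fin (L + 1)} {g g' : GV L} (hs : 2 * d < s.card)
    (hx : TrP rules Tr (.s S g))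
    (h : ∀ j ∈ s, LRs pi rules j ((PV.s S g).map (pi j)) ((PV.k C i g').map (pi j))) :
    HTrue rules Tr (sv L S g + kv C i g') := by
  have hne : s.Nonempty := Finset.card_pos.1 (by omega)
  obtain ⟨j0, hj0⟩ := hne
  have hi : i = Fin.last L := by
    rcases h j0 hj0 with ⟨h1, -⟩ | h1
    · exact h1
    · exact h1.elim
  subst hi
  obtain ⟨r, ρ, hr, hp, hc, hw⟩ := far_rule H (w := g + g') (S := S) (C := C) (s := s) (by
    intro j hj
    rcases h j hj with ⟨-, r, ρ, hr, hp, hc, h1⟩ | h1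
    · refine ⟨r, ρ, hr, hp, hc, ?_⟩
      have h2 : pi j g = pi j g' + pi j (shv ρ.sh) := h1
      rw [map_add, h2, add_comm (pi j g'), add_assoc, gv_self, add_zero]
    · exact h1.elim) hs
  have hg : g = g' + shv ρ.sh := by
    rw [← hw, add_comm g g', ← add_assoc, gv_self, zero_add]
  subst hp
  subst hc
  rw [hg]
  refine .u r ρ hr g' ?_
  rw [← hg]
  exact hx.2

theorem D_su (H : HHyp d pi rules ini acc Tr) {S S' : Finset Main} {C : Main} {g b a : GV L}
    (hs : 2 * d < s.card)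
    (hy : TrP rules Tr (.u S' C b a))
    (h : ∀ j ∈ s, LRs pi rules j ((PV.s S g).map (pi j)) ((PV.u S' C b a).map (pi j))) :
    HTrue rules Tr (sv L S g + (sv L S' b + kv C (Fin.last L) a)) := by
  have hne : s.Nonempty := Finset.card_pos.1 (by omega)
  obtain ⟨j0, hj0⟩ := hne
  obtain ⟨r, ρ, hr, rfl, rfl, rfl, htr⟩ := hy
  by_cases hS : S = ρ.prem
  · have hg : g = a + shv ρ.sh := by
      refine far_eq H (s := s) ?_ (by omega)
      intro j hj
      rcases h j hj with h1 | h1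
      · rcases h1 with ⟨-, h1⟩ | ⟨h1, -⟩
        · exact h1
        · exact absurd (by rw [← hS, h1]; simp) (c_notin H hr)
      · exact h1.elim
    rw [hS, hg, ← add_assoc, hv_self, zero_add]
    exact .k _ _ _
  · have hSC : S = {ρ.c} := by
      rcases h j0 hj0 with h1 | h1
      · rcases h1 with ⟨h1, -⟩ | ⟨h1, -⟩
        · exact absurd h1 hS
        · exact h1
      · exact h1.elim
    have hg : g = a := by
      refine far_eq H (s := s) ?_ (by omega)
      intro j hj
      rcases h j hj with h1 | h1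
      · rcases h1 with ⟨h1, -⟩ | ⟨-, h1⟩
        · exact absurd h1 hS
        · exact h1
      · exact h1.elim
    subst hg
    rw [hSC, ← id_fk ρ.c g]
    have : kv ρ.c (Fin.last L) g + fv ρ.c + (sv L ρ.prem (g + shv ρ.sh) +
        kv ρ.c (Fin.last L) g) = vv ρ (g + shv ρ.sh) := by
      unfold vv
      calc _ = sv L ρ.prem (g + shv ρ.sh) + fv ρ.c +
            (kv ρ.c (Fin.last L) g + kv ρ.c (Fin.last L) g) := by abel
        _ = _ := by rw [hv_self, add_zero]
    rw [this]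
    exact .v r ρ hr _ htr

theorem D_ku (H : HHyp d pi rules ini acc Tr) {S' : Finset Main} {C C' : Main}
    {i : Fin (L + 1)} {g b a : GV L} (hs : 2 * d < s.card)
    (hy : TrP rules Tr (.u S' C' b a))
    (h : ∀ j ∈ s, LRs pi rules j ((PV.k C i g).map (pi j)) ((PV.u S' C' b a).map (pi j))) :
    HTrue rules Tr (kv C i g + (sv L S' b + kv C' (Fin.last L) a)) := by
  have hne : s.Nonempty := Finset.card_pos.1 (by omega)
  obtain ⟨j0, hj0⟩ := hne
  obtain ⟨r, ρ, hr, rfl, rfl, rfl, htr⟩ := hy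
  have hiC : i = Fin.last L ∧ C = ρ.c := by
    rcases h j0 hj0 with ⟨h1, h2, -⟩ | h1
    · exact ⟨h1, h2⟩
    · exact h1.elim
  obtain ⟨rfl, rfl⟩ := hiC
  have hg : g = a := by
    refine far_eq H (s := s) ?_ (by omega)
    intro j hj
    rcases h j hj with ⟨-, -, h1⟩ | h1
    · exact h1
    · exact h1.elim
  subst hg
  have : kv ρ.c (Fin.last L) g + (sv L ρ.prem (g + shv ρ.sh) + kv ρ.c (Fin.last L) g) =
      sv L ρ.prem (g + shv ρ.sh) := by
    calc _ = sv L ρ.prem (g + shv ρ.sh) +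
          (kv ρ.c (Fin.last L) g + kv ρ.c (Fin.last L) g) := by abel
      _ = _ := by rw [hv_self, add_zero]
  rw [this]
  exact .p r ρ hr _ htr

theorem D_sf {S : Finset Main} {C : Main} {g : GV L} {j : Fin m}
    (hx : TrP rules Tr (.s S g))
    (h : LRs pi rules j ((PV.s S g).map (pi j)) ((PV.f C : PV L L Main).map (pi j))) :
    HTrue rules Tr (sv L S g + fv C) := by
  rcases h with ⟨r, ρ, hr, rfl, rfl⟩ | h
  · exact .v r ρ hr g hx.2
  · exact h.elim

theorem D_sv (H : HHyp d pi rules ini acc Tr) {S S' : Finset Main} {C : Main} {g b : GV L}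
    (hs : 2 * d < s.card)
    (hy : TrP rules Tr (.v S' C b))
    (h : ∀ j ∈ s, LRs pi rules j ((PV.s S g).map (pi j)) ((PV.v S' C b).map (pi j))) :
    HTrue rules Tr (sv L S g + (sv L S' b + fv C)) := by
  have hne : s.Nonempty := Finset.card_pos.1 (by omega)
  obtain ⟨j0, hj0⟩ := hne
  obtain ⟨r, ρ, hr, rfl, rfl, htr⟩ := hy
  by_cases hS : S = ρ.prem
  · have hg : g = b := by
      refine far_eq H (s := s) ?_ (by omega)
      intro j hj
      rcases h j hj with h1 | h1
      · rcases h1 with ⟨-, h1⟩ | ⟨h1, -⟩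
        · exact h1
        · exact absurd (by rw [← hS, h1]; simp) (c_notin H hr)
      · exact h1.elim
    rw [hS, hg, ← add_assoc, hv_self, zero_add]
    exact .f _
  · have hSC : S = {ρ.c} := by
      rcases h j0 hj0 with h1 | h1
      · rcases h1 with ⟨h1, -⟩ | ⟨h1, -⟩
        · exact absurd h1 hS
        · exact h1
      · exact h1.elim
    obtain ⟨r', ρ', hr', hp', hc', hw⟩ := far_rule H (w := g + b) (S := ρ.prem) (C := ρ.c)
      (s := s) (by
      intro j hj
      rcases h j hj with h1 | h1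
      · rcases h1 with ⟨h1, -⟩ | ⟨-, r', ρ', hr', hp', hc', h1⟩
        · exact absurd h1 hS
        · refine ⟨r', ρ', hr', hp', hc', ?_⟩
          have h2 : pi j b = pi j g + pi j (shv ρ'.sh) := h1
          rw [map_add, h2, ← add_assoc, gv_self, zero_add]
      · exact h1.elim) hs
    have hb : b = g + shv ρ'.sh := by
      rw [← hw, ← add_assoc, gv_self, zero_add]
    rw [hSC, ← id_fk ρ.c g, ← hc', ← hp', hb]
    have : kv ρ'.c (Fin.last L) g + fv ρ'.c + (sv L ρ'.prem (g + shv ρ'.sh) + fv ρ'.c) =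
        uv ρ' (g + shv ρ'.sh) g := by
      unfold uv
      calc _ = sv L ρ'.prem (g + shv ρ'.sh) + kv ρ'.c (Fin.last L) g +
            (fv ρ'.c + fv ρ'.c) := by abel
        _ = _ := by rw [hv_self, add_zero]
    rw [this]
    refine .u r' ρ' hr' g ?_
    rw [← hb, hp']
    exact htr

theorem D_fv {S' : Finset Main} {C C' : Main} {b : GV L} {j : Fin m}
    (hy : TrP rules Tr (.v S' C' b))
    (h : LRs pi rules j ((PV.f C : PV L L Main).map (pi j)) ((PV.v S' C' b).map (pi j))) :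
    HTrue rules Tr (fv C + (sv L S' b + fv C')) := by
  obtain ⟨r, ρ, hr, rfl, rfl, htr⟩ := hy
  rcases h with h | h
  · have hC : C = ρ.c := h
    subst hC
    have : fv ρ.c + (sv L ρ.prem b + fv ρ.c) = sv L ρ.prem b := by
      calc _ = sv L ρ.prem b + (fv ρ.c + fv ρ.c) := by abel
        _ = _ := by rw [hv_self, add_zero]
    rw [this]
    exact .p r ρ hr _ htr
  · exact h.elim

theorem D_uv (H : HHyp d pi rules ini acc Tr) {S S' : Finset Main} {C C' : Main}
    {b a b' : GV L} (hs : 2 * d < s.card)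
    (hx : TrP rules Tr (.u S C b a))
    (h : ∀ j ∈ s, LRs pi rules j ((PV.u S C b a).map (pi j)) ((PV.v S' C' b').map (pi j))) :
    HTrue rules Tr ((sv L S b + kv C (Fin.last L) a) + (sv L S' b' + fv C')) := by
  have hne : s.Nonempty := Finset.card_pos.1 (by omega)
  obtain ⟨j0, hj0⟩ := hne
  obtain ⟨r, ρ, hr, rfl, rfl, rfl, htr⟩ := hx
  have hSC : ρ.prem = S' ∧ ρ.c = C' := by
    rcases h j0 hj0 with ⟨h1, h2, -⟩ | h1
    · exact ⟨h1, h2⟩
    · exact h1.elim
  obtain ⟨rfl, rfl⟩ := hSC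
  have hg : a + shv ρ.sh = b' := by
    refine far_eq H (s := s) ?_ (by omega)
    intro j hj
    rcases h j hj with ⟨-, -, h1⟩ | h1
    · exact h1
    · exact h1.elim
  rw [← hg]
  have : sv L ρ.prem (a + shv ρ.sh) + kv ρ.c (Fin.last L) a +
      (sv L ρ.prem (a + shv ρ.sh) + fv ρ.c) = sv L {ρ.c} a := by
    rw [← id_fk ρ.c a]
    calc _ = (sv L ρ.prem (a + shv ρ.sh) + sv L ρ.prem (a + shv ρ.sh)) +
          (kv ρ.c (Fin.last L) a + fv ρ.c) := by abel
      _ = _ := by rw [hv_self, zero_add]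
  rw [this]
  exact .main _ a (tr_c H hr htr)

/-- (D2) in terms of kinds -/
theorem D_all (H : HHyp d pi rules ini acc Tr) {x y : PV L L Main} (hxy : x ≠ y)
    (hx : TrP rules Tr x) (hy : TrP rules Tr y) (hs : 2 * d < s.card)
    (h : ∀ j ∈ s, LRs pi rules j (x.map (pi j)) (y.map (pi j))) :
    HTrue rules Tr (x.val + y.val) := by
  have hne : s.Nonempty := Finset.card_pos.1 (by omega)
  obtain ⟨j0, hj0⟩ := hne
  have h0 := h j0 hj0
  have h' : ∀ j ∈ s, LRs pi rules j (y.map (pi j)) (x.map (pi j)) := fun j hj => (h j hj).symm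
  have h0' := h0.symm
  cases x with
  | s S g =>
    cases y with
    | s S' g' =>
      rcases h0 with ⟨-, r, ρ, hr, hS⟩ | ⟨-, r, ρ, hr, hS⟩
      · exact D_ss H hs hxy hx hy h hr hS
      · have := D_ss H hs (Ne.symm hxy) hy hx h' hr hS
        rw [add_comm]
        exact this
    | k C i a => exact D_sk H hs hx h
    | c C i a => rcases h0 with h0 | h0 <;> exact h0.elim
    | f C => exact D_sf hx h0
    | u S' C b a => exact D_su H hs hy h
    | v S' C b => exact D_sv H hs hy h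
  | k C i g =>
    cases y with
    | s S' g' => rw [add_comm]; exact D_sk H hs hy h'
    | k C' i' g' =>
      rcases h0 with ⟨h1, l, h2, h3, -⟩ | ⟨h1, l, h2, h3, -⟩
      · subst h1
        exact D_kk H hs h h2 h3
      · subst h1
        rw [add_comm]
        exact D_kk H hs h' h2 h3
    | c C' i' a =>
      rcases h0 with ⟨rfl, h1⟩ | h0
      · rcases h1 with rfl | rfl
        · show HTrue rules Tr (kv C i'.castSucc g + cv C i' a)
          rw [id_kc]
          exact .k _ _ _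
        · show HTrue rules Tr (kv C i'.succ g + cv C i' a)
          rw [id_kd]
          exact .k _ _ _
      · exact h0.elim
    | f C' => rcases h0 with h0 | h0 <;> exact h0.elim
    | u S' C' b a => exact D_ku H hs hy h
    | v S' C' b => rcases h0 with h0 | h0 <;> exact h0.elim
  | c C i g =>
    cases y with
    | s S' g' => rcases h0 with h0 | h0 <;> exact h0.elim
    | k C' i' g' =>
      rcases h0 with h0 | ⟨rfl, h1⟩
      · exact h0.elim
      · rw [add_comm]
        rcases h1 with rfl | rfl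
        · show HTrue rules Tr (kv C' i.castSucc g' + cv C' i g)
          rw [id_kc]
          exact .k _ _ _
        · show HTrue rules Tr (kv C' i.succ g' + cv C' i g)
          rw [id_kd]
          exact .k _ _ _
    | c C' i' a => rcases h0 with h0 | h0 <;> exact h0.elim
    | f C' => rcases h0 with h0 | h0 <;> exact h0.elim
    | u S' C' b a => rcases h0 with h0 | h0 <;> exact h0.elim
    | v S' C' b => rcases h0 with h0 | h0 <;> exact h0.elim
  | f C =>
    cases y with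
    | s S' g' => rw [add_comm]; exact D_sf hy h0'
    | k C' i' g' => rcases h0 with h0 | h0 <;> exact h0.elim
    | c C' i' a => rcases h0 with h0 | h0 <;> exact h0.elim
    | f C' => rcases h0 with h0 | h0 <;> exact h0.elim
    | u S' C' b a => rcases h0 with h0 | h0 <;> exact h0.elim
    | v S' C' b => exact D_fv hy h0
  | u S C b a =>
    cases y with
    | s S' g' => rw [add_comm]; exact D_su H hs hx h'
    | k C' i' g' => rw [add_comm]; exact D_ku H hs hx h'
    | c C' i' a' => rcases h0 with h0 | h0 <;> exact h0.elim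
    | f C' => rcases h0 with h0 | h0 <;> exact h0.elim
    | u S' C' b' a' => rcases h0 with h0 | h0 <;> exact h0.elim
    | v S' C' b' => exact D_uv H hs hx h
  | v S C b =>
    cases y with
    | s S' g' => rw [add_comm]; exact D_sv H hs hx h'
    | k C' i' g' => rcases h0 with h0 | h0 <;> exact h0.elim
    | c C' i' a' => rcases h0 with h0 | h0 <;> exact h0.elim
    | f C' => rw [add_comm]; exact D_fv hx h0'
    | u S' C' b' a' => rw [add_comm]; exact D_uv H hs hy h'
    | v S' C' b' => rcases h0 with h0 | h0 <;> exact h0.elim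

/-- (D2') in terms of kinds -/
theorem D_acc (H : HHyp d pi rules ini acc Tr) {x : PV L L Main}
    (hx : TrP rules Tr x) (hs : 2 * d < s.card)
    (h : ∀ j ∈ s, LRs pi rules j (x.map (pi j)) ((PV.s {acc} 0 : PV L L Main).map (pi j))) :
    False := by
  have hne : s.Nonempty := Finset.card_pos.1 (by omega)
  obtain ⟨j0, hj0⟩ := hne
  have h0 := h j0 hj0
  have hp1 : ∀ {r ρ}, rules r = some ρ → ({acc} : Finset Main) ≠ {ρ.p1} := by
    intro r ρ hr h1
    rw [Finset.singleton_inj] at h1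
    exact H.wf.a1 ρ ⟨r, hr⟩ h1.symm
  have hp2 : ∀ {r ρ}, rules r = some ρ → ({acc} : Finset Main) ≠ {ρ.p2} := by
    intro r ρ hr h1
    rw [Finset.singleton_inj] at h1
    exact H.wf.a2 ρ ⟨r, hr⟩ h1.symm
  have hpr : ∀ {r ρ}, rules r = some ρ → ({acc} : Finset Main) ≠ ρ.prem := by
    intro r ρ hr h1
    have h2 : ρ.p1 ∈ ({acc} : Finset Main) := by rw [h1]; simp [HRule.prem]
    rw [mem_singleton] at h2
    exact H.wf.a1 ρ ⟨r, hr⟩ h2
  cases x with
  | s S g =>
    rcases h0 with ⟨-, r, ρ, hr, hS⟩ | ⟨-, r, ρ, hr, hS⟩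
    · rcases hS with ⟨-, h1⟩ | ⟨-, h1⟩ | ⟨-, h1⟩
      · exact hp2 hr h1
      · exact hpr hr h1
      · exact hpr hr h1
    · rcases hS with ⟨h1, -⟩ | ⟨h1, -⟩ | ⟨h1, -⟩
      · exact hp1 hr h1
      · exact hp1 hr h1
      · exact hp2 hr h1
  | k C i g =>
    rcases h0 with h0 | ⟨-, r, ρ, hr, h1, -⟩
    · exact h0.elim
    · exact hpr hr h1.symm
  | c C i g => rcases h0 with h0 | h0 <;> exact h0.elim
  | f C =>
    rcases h0 with h0 | ⟨r, ρ, hr, h1, -⟩
    · exact h0.elim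
    · exact hpr hr h1.symm
  | u S C b a =>
    obtain ⟨r, ρ, hr, rfl, rfl, rfl, htr⟩ := hx
    have hac : acc = ρ.c := by
      rcases h0 with h0 | h0
      · exact h0.elim
      · rcases h0 with ⟨h1, -⟩ | ⟨h1, -⟩
        · exact absurd h1 (hpr hr)
        · exact Finset.singleton_inj.1 h1
    have ha : (0 : GV L) = a := by
      refine far_eq H (s := s) ?_ (by omega)
      intro j hj
      rcases h j hj with h1 | h1
      · exact h1.elim
      · rcases h1 with ⟨h1, -⟩ | ⟨-, h1⟩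
        · exact absurd h1 (hpr hr)
        · exact h1
    subst ha
    have := tr_c H hr htr
    rw [← hac] at this
    exact H.acc_not this
  | v S C b =>
    obtain ⟨r, ρ, hr, rfl, rfl, htr⟩ := hx
    have hac : acc = ρ.c := by
      rcases h0 with h0 | h0
      · exact h0.elim
      · rcases h0 with ⟨h1, -⟩ | ⟨h1, -⟩
        · exact absurd h1 (hpr hr)
        · exact Finset.singleton_inj.1 h1
    obtain ⟨r', ρ', hr', hp', hc', hw⟩ := far_rule H (w := b) (S := ρ.prem) (C := ρ.c)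
      (s := s) (by
      intro j hj
      rcases h j hj with h1 | h1
      · exact h1.elim
      · rcases h1 with ⟨h1, -⟩ | ⟨-, r', ρ', hr', hp', hc', h1⟩
        · exact absurd h1 (hpr hr)
        · refine ⟨r', ρ', hr', hp', hc', ?_⟩
          have h2 : pi j b = pi j 0 + pi j (shv ρ'.sh) := h1
          rw [h2, map_zero, zero_add]) hs
    have := tr_c H (g := 0) hr' (by
      rw [zero_add, ← hw, hp']
      exact htr)
    rw [hc', ← hac] at this
    exact H.acc_not this

end pairs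

/-! ### the fields of the product system -/

/-- shared axioms in terms of kinds -/
theorem share_LR (H : HHyp d pi rules ini acc Tr) {x y : PV L L Main} (hx : x.Good)
    (hy : y.Good) {j : Fin m} (hne : hev pi j x.val ≠ hev pi j y.val)
    (h : ∃ a, ∃ τ ∈ haxt pi rules j a, ∃ τ' ∈ haxt pi rules j a,
      hvec pi rules j τ = hev pi j x.val ∧ hvec pi rules j τ' = hev pi j y.val) :
    LRs pi rules j (x.map (pi j)) (y.map (pi j)) := by
  obtain ⟨a, τ, hτ, τ', hτ', h1, h2⟩ := h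
  obtain ⟨p, p', hp, hp', e1, e2, h3⟩ := ax_LR H hτ hτ'
  rw [e1, PV.val_map] at h1
  rw [e2, PV.val_map] at h2
  have i1 := PV.inj hp (PV.good_map _ hx) h1
  have i2 := PV.inj hp' (PV.good_map _ hy) h2
  rcases h3 with h3 | h3
  · exfalso
    apply hne
    rw [PV.val_map, PV.val_map, ← i1, ← i2, h3]
  · rw [i1, i2] at h3
    exact h3

/-- (D2) -/
theorem hD2 (H : HHyp d pi rules ini acc Tr) (t : HV L L Main) (ht : HTrue rules Tr t)
    (t' : HV L L Main) (ht' : HTrue rules Tr t') (hne : t ≠ t') (s : Finset (Fin m))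
    (hs : 2 * d < s.card)
    (h : ∀ j ∈ s, hev pi j t ≠ hev pi j t' ∧ ∃ a, ∃ τ ∈ haxt pi rules j a,
      ∃ τ' ∈ haxt pi rules j a, hvec pi rules j τ = hev pi j t ∧
        hvec pi rules j τ' = hev pi j t') : HTrue rules Tr (t + t') := by
  obtain ⟨x, hx, rfl, hxt⟩ := TrP_of_true H ht
  obtain ⟨y, hy, rfl, hyt⟩ := TrP_of_true H ht'
  exact D_all H (fun h' => hne (by rw [h'])) hxt hyt hs fun j hj =>
    share_LR H hx hy (h j hj).1 (h j hj).2

/-- (D2') -/
theorem hD2' (H : HHyp d pi rules ini acc Tr) (t : HV L L Main) (ht : HTrue rules Tr t)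
    (s : Finset (Fin m)) (hs : 2 * d < s.card) :
    ¬ (∀ j ∈ s, hev pi j t ≠ hev pi j (sv L {acc} 0) ∧ ∃ a, ∃ τ ∈ haxt pi rules j a,
      ∃ τ' ∈ haxt pi rules j a, hvec pi rules j τ = hev pi j t ∧
        hvec pi rules j τ' = hev pi j (sv L {acc} 0)) := by
  intro h
  obtain ⟨x, hx, rfl, hxt⟩ := TrP_of_true H ht
  exact D_acc H hxt hs fun j hj =>
    share_LR H hx (y := .s {acc} 0) (singleton_nonempty _) (h j hj).1 (h j hj).2

end P310
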