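import Vale.Agent.P310.XorGraph

/-!
# P310: product systems and their XOR systems

See notes/P310.md, section 2.  `m` digits; for every digit `j : Fin m` the tokens `Tok` and the
axioms `Ax` (the index sets do not depend on the digit, the incidences `axt j a` and the vectors
`vec j τ` do).  A fact is an element of the `F_2`-space `F`.
-/

namespace P310

open Finset

/-- A product system. -/
structure ProdSys (m d : ℕ) (Tok Ax Z F W : Type*) [DecidableEq Tok]
    [AddCommGroup F] [Module (ZMod 2) F] [AddCommGroup W] [Module (ZMod 2) W] where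
  /-- the tokens of the axiom `a` at digit `j` -/
  axt : Fin m → Ax → Finset Tok
  /-- the vector of a token at digit `j` -/
  vec : Fin m → Tok → W
  /-- evaluation of a fact at digit `j` -/
  ev : Fin m → F →ₗ[ZMod 2] W
  /-- the tokens of an initial fact -/
  ztok : Z → Fin m → Tok
  /-- the initial facts -/
  zfact : Z → F
  acc : Z
  /-- the true facts -/
  T : Set F
  ax_card : ∀ j a, (axt j a).card ≤ 3
  ax_sum : ∀ j a, ∑ τ ∈ axt j a, vec j τ = 0
  ev_inj : ∀ t : F, t ≠ 0 → ∀ s : Finset (Fin m), (∀ j ∈ s, ev j t = 0) → s.card ≤ d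
  zvec : ∀ z j, vec j (ztok z j) = ev j (zfact z)
  z_true : ∀ z, z ≠ acc → zfact z ∈ T
  acc_not : zfact acc ∉ T
  ev_ne : ∀ t ∈ T, ∀ j, ev j t ≠ 0
  ev_acc_ne : ∀ j, ev j (zfact acc) ≠ 0
  /-- (D2) -/
  add_mem : ∀ t ∈ T, ∀ t' ∈ T, t ≠ t' → ∀ s : Finset (Fin m), 2 * d < s.card →
    (∀ j ∈ s, ev j t ≠ ev j t' ∧ ∃ a, ∃ τ ∈ axt j a, ∃ τ' ∈ axt j a,
      vec j τ = ev j t ∧ vec j τ' = ev j t') → t + t' ∈ T
  /-- (D2') -/
  acc_far : ∀ t ∈ T, ∀ s : Finset (Fin m), 2 * d < s.card →
    ¬ (∀ j ∈ s, ev j t ≠ ev j (zfact acc) ∧ ∃ a, ∃ τ ∈ axt j a, ∃ τ' ∈ axt j a,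
      vec j τ = ev j t ∧ vec j τ' = ev j (zfact acc))

/-- Variables of the XOR system of a product system: tokens at the digits, horizontal and
vertical variables of the grids (those of the last column, resp. row, occur in no equation). -/
abbrev PVar (m l : ℕ) (Tok Z : Type*) : Type _ :=
  (Fin m × Tok) ⊕ ((Z × Fin m × Fin l) ⊕ (Z × Fin m × Fin l))

/-- Equations of the XOR system: axioms at the digits and grid vertices. -/
abbrev PEqn (m l : ℕ) (Ax Z : Type*) : Type _ :=
  (Fin m × Ax) ⊕ (Z × Fin m × Fin l)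

section
variable {m l : ℕ} {Tok Ax Z : Type*} [DecidableEq Tok] [DecidableEq Z]

/-- The token variable of digit `j`. -/
abbrev vtok (j : Fin m) (τ : Tok) : PVar m l Tok Z := .inl (j, τ)
/-- The horizontal variable to the right of the grid vertex `(z, j, c)`. -/
abbrev vhor (z : Z) (j : Fin m) (c : Fin l) : PVar m l Tok Z := .inr (.inl (z, j, c))
/-- The vertical variable below the grid vertex `(z, j, c)`. -/
abbrev vver (z : Z) (j : Fin m) (c : Fin l) : PVar m l Tok Z := .inr (.inr (z, j, c))

/-- The variables incident to the grid vertex `(z, j, c)`: to the right the horizontal variable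
(in the last column: the token of `z`), to the left the horizontal variable of the previous
column, below and above the vertical variables. -/
def gridVars (ztok : Z → Fin m → Tok) (z : Z) (j : Fin m) (c : Fin l) :
    Finset (PVar m l Tok Z) :=
  {if c.1 + 1 < l then vhor z j c else vtok j (ztok z j)} ∪
  (if h : 0 < c.1 then {vhor z j ⟨c.1 - 1, by omega⟩} else ∅) ∪
  (if j.1 + 1 < m then {vver z j c} else ∅) ∪
  (if h : 0 < j.1 then {vver z ⟨j.1 - 1, by omega⟩ c} else ∅)

/-- The variables of the equations. -/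
def prodVars (axt : Fin m → Ax → Finset Tok) (ztok : Z → Fin m → Tok) :
    PEqn m l Ax Z → Finset (PVar m l Tok Z)
  | .inl (j, a) => (axt j a).image (vtok j)
  | .inr (z, j, c) => gridVars ztok z j c

/-- The right hand sides: `1` for the grid vertex `(acc, 0, 0)`, otherwise `0`. -/
def prodRhs (acc : Z) : PEqn m l Ax Z → ZMod 2
  | .inl _ => 0
  | .inr (z, j, c) => if z = acc ∧ j.1 = 0 ∧ c.1 = 0 then 1 else 0

end

/-- Derivable token facts. -/
inductive Derivable {m : ℕ} {Tok Ax Z : Type*} [DecidableEq Tok]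
    (axt : Fin m → Ax → Finset Tok) (ztok : Z → Fin m → Tok) (acc : Z) :
    (Fin m → Tok) → Prop
  | init (z : Z) (h : z ≠ acc) : Derivable axt ztok acc (ztok z)
  | two (f g : Fin m → Tok) (hf : Derivable axt ztok acc f)
      (h : ∀ j, ∃ a, axt j a = {f j, g j} ∧ f j ≠ g j) : Derivable axt ztok acc g
  | three (f g h : Fin m → Tok) (hf : Derivable axt ztok acc f) (hg : Derivable axt ztok acc g)
      (hh : ∀ j, ∃ a, axt j a = {f j, g j, h j} ∧ f j ≠ g j ∧ f j ≠ h j ∧ g j ≠ h j) :
      Derivable axt ztok acc h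

end P310
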