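import Vale.Agent.P310.Horn
import Vale.Agent.P310.ProdSys

/-!
# P310: the product system of a Horn system, definitions (notes/P310.md, section 3)

`L` = dimension of the cells, `R` = dimension of the positions at a digit, `m` digits,
`pi j : F_2^L → F_2^R`.  Rules are given by a family `rules : RI → Option (HRule L Main)` (indices
without rule are dummies).
-/

namespace P310

open Finset

/-- `F_2^n` -/
abbrev GV (n : ℕ) := Fin n → ZMod 2

/-- Tokens. -/
inductive HTok (L R : ℕ) (Main RI : Type)
  /-- the type `A` at the position `a` -/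
  | tm (A : Main) (a : GV R)
  /-- the stage `i` of the type `C` at the position `a` -/
  | tk (C : Main) (i : Fin (L + 1)) (a : GV R)
  /-- the step from the stage `i` to the stage `i + 1`, without shift -/
  | tc (C : Main) (i : Fin L)
  /-- the step from the stage `i` to the stage `i + 1`, with the shift `e_i` -/
  | td (C : Main) (i : Fin L)
  | tf (C : Main)
  /-- the premises of the rule `r` -/
  | tp (r : RI) (a : GV R)
  | tu (r : RI) (a : GV R)
  | tv (r : RI) (a : GV R)
  deriving DecidableEq

/-- Axioms. -/
inductive HAx (L R : ℕ) (Main RI : Type)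
  | m0 (C : Main) (i : Fin L) (a : GV R)
  | m1 (C : Main) (i : Fin L) (a : GV R)
  | p (r : RI) (a : GV R)
  | u (r : RI) (a : GV R)
  | v (r : RI) (a : GV R)
  | q (r : RI) (a : GV R)

/-- Initial facts. -/
inductive HZ (L : ℕ) (Main : Type)
  | ini (A : Main)
  | k0 (C : Main)
  | c (C : Main) (i : Fin L)
  | d (C : Main) (i : Fin L)
  | f (C : Main)
  | acc
  deriving DecidableEq

/-- The space of facts (`n = L`) and of the vectors of the tokens (`n = R`). -/
abbrev HV (n L : ℕ) (Main : Type) : Type :=
  (Main → ZMod 2) × (Main × Fin (L + 1) → ZMod 2) × (Main → GV n)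

variable {L R m n : ℕ} {Main RI : Type} [DecidableEq Main] [DecidableEq RI]

/-- the indicator vector of a finite set -/
def ind {α : Type*} [DecidableEq α] (S : Finset α) : α → ZMod 2 := fun x => if x ∈ S then 1 else 0

/-- the set `S` of types at the position `a` -/
def sv (L : ℕ) (S : Finset Main) (a : GV n) : HV n L Main :=
  (ind S, 0, fun A => if A ∈ S then a else 0)

/-- the stage `i` of `C` at the position `a` -/
def kv (C : Main) (i : Fin (L + 1)) (a : GV n) : HV n L Main :=
  (0, ind {(C, i)}, fun A => if A = C then a else 0)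

/-- the step from the stage `i` to the stage `i + 1` with the shift `a` -/
def cv (C : Main) (i : Fin L) (a : GV n) : HV n L Main :=
  (0, ind {(C, i.castSucc), (C, i.succ)}, fun A => if A = C then a else 0)

/-- the vector of `F_C` -/
def fv (C : Main) : HV n L Main := (ind {C}, ind {(C, Fin.last L)}, 0)

/-- the set of premises of a rule -/
def HRule.prem (ρ : HRule L Main) : Finset Main := {ρ.p1, ρ.p2}

/-- the vector of `u`: premises at `b`, conclusion at `a` -/
def uv (ρ : HRule L Main) (b a : GV n) : HV n L Main :=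
  sv L ρ.prem b + kv ρ.c (Fin.last L) a

/-- the vector of `v`: premises at `b` -/
def vv (ρ : HRule L Main) (b : GV n) : HV n L Main := sv L ρ.prem b + fv ρ.c

section
variable (pi : Fin m → GV L →ₗ[ZMod 2] GV R) (rules : RI → Option (HRule L Main))

/-- the vectors of the tokens -/
def hvec (j : Fin m) : HTok L R Main RI → HV R L Main
  | .tm A a => sv L {A} a
  | .tk C i a => kv C i a
  | .tc C i => cv C i 0
  | .td C i => cv C i (pi j (shv (some i)))
  | .tf C => fv C
  | .tp r a => match rules r with
    | none => 0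
    | some ρ => sv L ρ.prem (a + pi j (shv ρ.sh))
  | .tu r a => match rules r with
    | none => 0
    | some ρ => uv ρ (a + pi j (shv ρ.sh)) a
  | .tv r a => match rules r with
    | none => 0
    | some ρ => vv ρ (a + pi j (shv ρ.sh))

/-- the tokens of the axioms -/
def haxt (j : Fin m) : HAx L R Main RI → Finset (HTok L R Main RI)
  | .m0 C i a => {.tk C i.castSucc a, .tk C i.succ a, .tc C i}
  | .m1 C i a => {.tk C i.castSucc (a + pi j (shv (some i))), .tk C i.succ a, .td C i}
  | .p r a => match rules r with
    | none => ∅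
    | some ρ => {.tm ρ.p1 (a + pi j (shv ρ.sh)), .tm ρ.p2 (a + pi j (shv ρ.sh)), .tp r a}
  | .u r a => match rules r with
    | none => ∅
    | some ρ => {.tp r a, .tk ρ.c (Fin.last L) a, .tu r a}
  | .v r a => match rules r with
    | none => ∅
    | some ρ => {.tp r a, .tf ρ.c, .tv r a}
  | .q r a => match rules r with
    | none => ∅
    | some ρ => {.tu r a, .tv r a, .tm ρ.c a}

/-- the evaluation of facts at the digit `j` -/
def hev (j : Fin m) : HV L L Main →ₗ[ZMod 2] HV R L Main where
  toFun x := (x.1, x.2.1, fun A => pi j (x.2.2 A))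
  map_add' x y := by
    refine Prod.ext rfl (Prod.ext rfl ?_)
    funext A
    simp
  map_smul' c x := by
    refine Prod.ext rfl (Prod.ext rfl ?_)
    funext A
    simp

/-- the true facts -/
inductive HTrue (Tr : Main → GV L → Prop) : HV L L Main → Prop
  | main (A : Main) (g : GV L) (h : Tr A g) : HTrue Tr (sv L {A} g)
  | k (C : Main) (i : Fin (L + 1)) (g : GV L) : HTrue Tr (kv C i g)
  | c (C : Main) (i : Fin L) : HTrue Tr (cv C i 0)
  | d (C : Main) (i : Fin L) : HTrue Tr (cv C i (shv (some i)))
  | f (C : Main) : HTrue Tr (fv C)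
  | p (r : RI) (ρ : HRule L Main) (hr : rules r = some ρ) (g : GV L)
      (h : ∀ A ∈ ρ.prem, Tr A g) : HTrue Tr (sv L ρ.prem g)
  | u (r : RI) (ρ : HRule L Main) (hr : rules r = some ρ) (g : GV L)
      (h : ∀ A ∈ ρ.prem, Tr A (g + shv ρ.sh)) : HTrue Tr (uv ρ (g + shv ρ.sh) g)
  | v (r : RI) (ρ : HRule L Main) (hr : rules r = some ρ) (g : GV L)
      (h : ∀ A ∈ ρ.prem, Tr A g) : HTrue Tr (vv ρ g)

end

section
variable (ini : Main → Prop) [DecidablePred ini] (acc : Main)

/-- the tokens of the initial facts (they do not depend on the digit) -/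
def hztok : HZ L Main → HTok L R Main RI
  | .ini A => if ini A then .tm A 0 else .tf A
  | .k0 C => .tk C 0 0
  | .c C i => .tc C i
  | .d C i => .td C i
  | .f C => .tf C
  | .acc => .tm acc 0

/-- the initial facts -/
def hzfact : HZ L Main → HV L L Main
  | .ini A => if ini A then sv L {A} 0 else fv A
  | .k0 C => kv C 0 0
  | .c C i => cv C i 0
  | .d C i => cv C i (shv (some i))
  | .f C => fv C
  | .acc => sv L {acc} 0

end

/-- the hypotheses of section 3 -/
structure HHyp (d : ℕ) (pi : Fin m → GV L →ₗ[ZMod 2] GV R) (rules : RI → Option (HRule L Main))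
    (ini : Main → Prop) (acc : Main) (Tr : Main → GV L → Prop) : Prop where
  wf : HWf (fun ρ => ∃ r, rules r = some ρ) acc
  model : HModel (fun ρ => ∃ r, rules r = some ρ) ini Tr
  acc_not : ¬ Tr acc 0
  far : ∀ g : GV L, g ≠ 0 → ∀ s : Finset (Fin m), (∀ j ∈ s, pi j g = 0) → s.card ≤ d

end P310
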