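import Vale.Agent.P310.HornDef

/-!
# P310, module HDER: Horn-derivable facts are derivable token facts

`K_C^i(g)` is derivable for `g` supported in the first `i` coordinates (induction on `i`, axioms
`m0`, `m1`, constructor `three`), so `K_C^L(g)` for all `g`.  Then induction on `HDer`: from
the premises at `g + δ` the token fact `tp r (π_j g)` (axiom `p`; if `p1 = p2` constructor `two`,
since the axiom is `{tm p1 (..), tp r (..)}`), then `tu`, `tv`, and `tm c (π_j g)` (axiom `q`).
Note `pi j (g + shv sh) = pi j g + pi j (shv sh)`.
-/

namespace P310

open Finset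

variable {L R m n d : ℕ} {Main RI : Type} [DecidableEq Main] [DecidableEq RI]
variable {pi : Fin m → GV L →ₗ[ZMod 2] GV R} {rules : RI → Option (HRule L Main)}
  {ini : Main → Prop} {acc : Main} {Tr : Main → GV L → Prop}

omit [DecidableEq RI] in
theorem hd_add_self (a : GV n) : a + a = 0 := by
  funext i
  exact CharTwo.add_self_eq_zero (a i)

theorem hk_der_aux (pi : Fin m → GV L →ₗ[ZMod 2] GV R) (rules : RI → Option (HRule L Main))
    (ini : Main → Prop) [DecidablePred ini] (acc : Main) (C : Main) (i : ℕ) (hi : i ≤ L)
    (g : GV L) (hg : ∀ x : Fin L, i ≤ x.1 → g x = 0) :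
    Derivable (haxt pi rules) (fun z _ => hztok ini acc z) (HZ.acc : HZ L Main)
      (fun j => .tk C ⟨i, by omega⟩ (pi j g)) := by
  induction i generalizing g with
  | zero =>
    have hg0 : g = 0 := by
      funext x
      exact hg x (Nat.zero_le _)
    subst hg0
    have h := Derivable.init (axt := haxt pi rules) (ztok := fun z _ => hztok ini acc z)
      (acc := (HZ.acc : HZ L Main)) (HZ.k0 C) (by simp)
    have e : (fun j => HTok.tk C ⟨0, by omega⟩ (pi j 0)) =
        (fun _ : Fin m => (hztok ini acc (HZ.k0 C) : HTok L R Main RI)) := by
      funext j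
      rw [map_zero]
      rfl
    rw [e]
    exact h
  | succ i ih =>
    have hiL : i < L := by omega
    set I : Fin L := ⟨i, hiL⟩ with hI
    have hne : (I.castSucc : Fin (L + 1)) ≠ I.succ := by
      intro h
      have := congrArg Fin.val h
      simp at this
    have key : g I = 0 ∨ g I = 1 := by
      have : ∀ z : ZMod 2, z = 0 ∨ z = 1 := by decide
      exact this _
    rcases key with h0 | h1
    · have hg' : ∀ x : Fin L, i ≤ x.1 → g x = 0 := by
        intro x hx
        rcases Nat.eq_or_lt_of_le hx with h | h
        · have : x = I := Fin.ext h.symm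
          rw [this]
          exact h0
        · exact hg x h
      have d1 := ih (by omega) g hg'
      have d2 := Derivable.init (axt := haxt pi rules) (ztok := fun z _ => hztok ini acc z)
        (acc := (HZ.acc : HZ L Main)) (HZ.c C I) (by simp)
      refine Derivable.three _ _ _ d1 d2 ?_
      intro j
      refine ⟨.m0 C I (pi j g), ?_, ?_, ?_, ?_⟩
      · show ({.tk C I.castSucc (pi j g), .tk C I.succ (pi j g), .tc C I} : Finset (HTok L R Main RI)) =
          {.tk C I.castSucc (pi j g), .tc C I, .tk C I.succ (pi j g)}
        rw [Finset.pair_comm (HTok.tk C I.succ (pi j g))]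
      · show (HTok.tk C I.castSucc (pi j g) : HTok L R Main RI) ≠ HTok.tc C I
        simp
      · show (HTok.tk C I.castSucc (pi j g) : HTok L R Main RI) ≠ HTok.tk C I.succ (pi j g)
        intro h
        injection h with _ h2
        exact hne h2
      · show (HTok.tc C I : HTok L R Main RI) ≠ HTok.tk C I.succ (pi j g)
        simp
    · set g' : GV L := g + shv (some I) with hg'
      have hgg : g = g' + shv (some I) := by
        rw [hg', add_assoc, hd_add_self, add_zero]
      have hsupp : ∀ x : Fin L, i ≤ x.1 → g' x = 0 := by
        intro x hx
        rcases Nat.eq_or_lt_of_le hx with h | h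
        · have hx' : x = I := Fin.ext h.symm
          rw [hx', hg']
          show g I + (Pi.single I 1 : GV L) I = 0
          rw [h1, Pi.single_eq_same]
          decide
        · rw [hg']
          show g x + (Pi.single I 1 : GV L) x = 0
          rw [hg x h, Pi.single_eq_of_ne (by
            intro hc
            rw [hc] at h
            exact lt_irrefl i h), add_zero]
      have d1 := ih (by omega) g' hsupp
      have d2 := Derivable.init (axt := haxt pi rules) (ztok := fun z _ => hztok ini acc z)
        (acc := (HZ.acc : HZ L Main)) (HZ.d C I) (by simp)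
      refine Derivable.three _ _ _ d1 d2 ?_
      intro j
      have e1 : pi j g' = pi j g + pi j (shv (some I)) := by rw [hg', map_add]
      refine ⟨.m1 C I (pi j g), ?_, ?_, ?_, ?_⟩
      · show ({.tk C I.castSucc (pi j g + pi j (shv (some I))), .tk C I.succ (pi j g), .td C I} :
            Finset (HTok L R Main RI)) =
          {.tk C I.castSucc (pi j g'), .td C I, .tk C I.succ (pi j g)}
        rw [e1, Finset.pair_comm (HTok.tk C I.succ (pi j g))]
      · show (HTok.tk C I.castSucc (pi j g') : HTok L R Main RI) ≠ HTok.td C I
        simp
      · show (HTok.tk C I.castSucc (pi j g') : HTok L R Main RI) ≠ HTok.tk C I.succ (pi j g)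
        intro h
        injection h with _ h2
        exact hne h2
      · show (HTok.td C I : HTok L R Main RI) ≠ HTok.tk C I.succ (pi j g)
        simp

theorem hk_der (pi : Fin m → GV L →ₗ[ZMod 2] GV R) (rules : RI → Option (HRule L Main))
    (ini : Main → Prop) [DecidablePred ini] (acc : Main) (C : Main) (g : GV L) :
    Derivable (haxt pi rules) (fun z _ => hztok ini acc z) (HZ.acc : HZ L Main)
      (fun j => .tk C (Fin.last L) (pi j g)) :=
  hk_der_aux pi rules ini acc C L le_rfl g fun x hx => absurd x.2 (by omega)

theorem hder (hwf : HWf (fun ρ => ∃ r, rules r = some ρ) acc)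
    [DecidablePred ini] (A : Main) (g : GV L)
    (h : HDer (fun ρ => ∃ r, rules r = some ρ) ini A g) :
    Derivable (haxt pi rules) (fun z _ => hztok ini acc z) (HZ.acc : HZ L Main)
      (fun j => .tm A (pi j g)) := by
  induction h with
  | @init A hA =>
    have h := Derivable.init (axt := haxt pi rules) (ztok := fun z _ => hztok ini acc z)
      (acc := (HZ.acc : HZ L Main)) (HZ.ini A) (by simp)
    have e : (fun j => HTok.tm A (pi j 0)) =
        (fun _ : Fin m => (hztok ini acc (HZ.ini A) : HTok L R Main RI)) := by
      funext j
      rw [map_zero]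
      show _ = (if ini A then HTok.tm A 0 else HTok.tf A)
      rw [if_pos hA]
    rw [e]
    exact h
  | @rule ρ hR g _ _ ih1 ih2 =>
    obtain ⟨r, hr⟩ := hR
    -- premises
    have dp : Derivable (haxt pi rules) (fun z _ => hztok ini acc z) (HZ.acc : HZ L Main)
        (fun j => .tp r (pi j g)) := by
      by_cases hp : ρ.p1 = ρ.p2
      · refine Derivable.two _ _ ih1 ?_
        intro j
        refine ⟨.p r (pi j g), ?_, by simp⟩
        unfold haxt
        simp only [hr]
        rw [map_add, ← hp]
        simp
      · refine Derivable.three _ _ _ ih1 ih2 ?_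
        intro j
        refine ⟨.p r (pi j g), ?_, ?_, by simp, by simp⟩
        · unfold haxt
          simp only [hr]
          rw [map_add]
        · intro h
          injection h with h2
          exact hp h2
    have dk := hk_der pi rules ini acc ρ.c g
    have du : Derivable (haxt pi rules) (fun z _ => hztok ini acc z) (HZ.acc : HZ L Main)
        (fun j => .tu r (pi j g)) := by
      refine Derivable.three _ _ _ dp dk ?_
      intro j
      refine ⟨.u r (pi j g), ?_, by simp, by simp, by simp⟩
      unfold haxt
      simp only [hr]
    have df := Derivable.init (axt := haxt pi rules) (ztok := fun z _ => hztok ini acc z)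
      (acc := (HZ.acc : HZ L Main)) (HZ.f ρ.c) (by simp)
    have dv : Derivable (haxt pi rules) (fun z _ => hztok ini acc z) (HZ.acc : HZ L Main)
        (fun j => .tv r (pi j g)) := by
      refine Derivable.three _ _ _ dp df ?_
      intro j
      refine ⟨.v r (pi j g), ?_, by simp [hztok], by simp, by simp [hztok]⟩
      unfold haxt
      simp only [hr]
      rfl
    refine Derivable.three _ _ _ du dv ?_
    intro j
    refine ⟨.q r (pi j g), ?_, by simp, by simp, by simp⟩
    unfold haxt
    simp only [hr]

end P310
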