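import Vale.Agent.P310.HornKinds

/-!
# P310, module HE: the easy fields of the product system of a Horn system
-/

namespace P310

open Finset

variable {L R m n d : ℕ} {Main RI : Type} [DecidableEq Main] [DecidableEq RI]
variable {pi : Fin m → GV L →ₗ[ZMod 2] GV R} {rules : RI → Option (HRule L Main)}
  {ini : Main → Prop} {acc : Main} {Tr : Main → GV L → Prop}

section eqs
variable {r : RI} {ρ : HRule L Main} {j : Fin m} {a : GV R}

theorem haxt_p0 (hr : rules r = none) : haxt pi rules j (.p r a) = ∅ := by simp only [haxt, hr]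
theorem haxt_u0 (hr : rules r = none) : haxt pi rules j (.u r a) = ∅ := by simp only [haxt, hr]
theorem haxt_v0 (hr : rules r = none) : haxt pi rules j (.v r a) = ∅ := by simp only [haxt, hr]
theorem haxt_q0 (hr : rules r = none) : haxt pi rules j (.q r a) = ∅ := by simp only [haxt, hr]

theorem haxt_p1 (hr : rules r = some ρ) : haxt pi rules j (.p r a) =
    {.tm ρ.p1 (a + pi j (shv ρ.sh)), .tm ρ.p2 (a + pi j (shv ρ.sh)), .tp r a} := by
  simp only [haxt, hr]

theorem haxt_u1 (hr : rules r = some ρ) : haxt pi rules j (.u r a) =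
    {.tp r a, .tk ρ.c (Fin.last L) a, .tu r a} := by simp only [haxt, hr]

theorem haxt_v1 (hr : rules r = some ρ) : haxt pi rules j (.v r a) =
    {.tp r a, .tf ρ.c, .tv r a} := by simp only [haxt, hr]

theorem haxt_q1 (hr : rules r = some ρ) : haxt pi rules j (.q r a) =
    {.tu r a, .tv r a, .tm ρ.c a} := by simp only [haxt, hr]

theorem hvec_tp (hr : rules r = some ρ) : hvec pi rules j (.tp r a) =
    sv L ρ.prem (a + pi j (shv ρ.sh)) := by simp only [hvec, hr]

theorem hvec_tu (hr : rules r = some ρ) : hvec pi rules j (.tu r a) =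
    uv ρ (a + pi j (shv ρ.sh)) a := by simp only [hvec, hr]

theorem hvec_tv (hr : rules r = some ρ) : hvec pi rules j (.tv r a) =
    vv ρ (a + pi j (shv ρ.sh)) := by simp only [hvec, hr]

end eqs

theorem hax_card (pi : Fin m → GV L →ₗ[ZMod 2] GV R) (rules : RI → Option (HRule L Main))
    (j : Fin m) (a : HAx L R Main RI) : (haxt pi rules j a).card ≤ 3 := by
  cases a with
  | m0 C i a => exact card_le_three
  | m1 C i a => exact card_le_three
  | p r a =>
    cases hr : rules r with
    | none => rw [haxt_p0 hr]; simp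
    | some ρ => rw [haxt_p1 hr]; exact card_le_three
  | u r a =>
    cases hr : rules r with
    | none => rw [haxt_u0 hr]; simp
    | some ρ => rw [haxt_u1 hr]; exact card_le_three
  | v r a =>
    cases hr : rules r with
    | none => rw [haxt_v0 hr]; simp
    | some ρ => rw [haxt_v1 hr]; exact card_le_three
  | q r a =>
    cases hr : rules r with
    | none => rw [haxt_q0 hr]; simp
    | some ρ => rw [haxt_q1 hr]; exact card_le_three

theorem he_self {α : Type*} [AddCommGroup α] [Module (ZMod 2) α] (x : α) : x + x = 0 := by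
  have h : (2 : ZMod 2) • x = 0 := by
    rw [show (2 : ZMod 2) = 0 by decide, zero_smul]
  rwa [two_smul] at h

theorem he_three {α : Type*} [DecidableEq α] {M : Type*} [AddCommMonoid M] {x y z : α}
    (h1 : x ≠ y) (h2 : x ≠ z) (h3 : y ≠ z) (f : α → M) :
    ∑ t ∈ ({x, y, z} : Finset α), f t = f x + f y + f z := by
  rw [sum_insert, sum_pair h3, add_assoc]
  simp only [mem_insert, mem_singleton, not_or]
  exact ⟨h1, h2⟩

/-- `kv_i + kv_{i+1} + cv = 0` -/
theorem he_kkc (C : Main) (i : Fin L) (a b : GV n) :
    (kv C i.castSucc (a + b) : HV n L Main) + kv C i.succ a + cv C i b = 0 := by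
  have hne : (i.castSucc : Fin (L + 1)) ≠ i.succ := by
    intro h
    have := congrArg Fin.val h
    simp at this
  unfold kv cv
  refine Prod.ext ?_ (Prod.ext ?_ ?_)
  · show (0 : Main → ZMod 2) + 0 + 0 = 0
    simp
  · show ind {(C, i.castSucc)} + ind {(C, i.succ)} + ind {(C, i.castSucc), (C, i.succ)} = 0
    rw [ind_add (by simpa using hne)]
    exact he_self _
  · show (fun A => if A = C then a + b else 0) + (fun A => if A = C then a else 0) +
      (fun A => if A = C then b else 0) = 0
    funext A
    show (if A = C then a + b else 0) + (if A = C then a else 0) + (if A = C then b else 0) = 0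
    split_ifs
    · have h1 := he_self a
      have h2 := he_self b
      calc a + b + a + b = (a + a) + (b + b) := by abel
        _ = 0 := by rw [h1, h2, add_zero]
    · simp

theorem he_sv_pair {p q : Main} (h : p ≠ q) (a : GV n) :
    (sv L {p} a : HV n L Main) + sv L {q} a = sv L {p, q} a := by
  unfold sv
  refine Prod.ext ?_ (Prod.ext ?_ ?_)
  · show ind {p} + ind {q} = ind {p, q}
    rw [ind_add (by simpa using h)]
    rfl
  · show (0 : Main × Fin (L + 1) → ZMod 2) + 0 = 0
    simp
  · show (fun A => if A ∈ ({p} : Finset Main) then a else 0) +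
      (fun A => if A ∈ ({q} : Finset Main) then a else 0) = fun A => if A ∈ ({p, q} : Finset Main) then a else 0
    funext A
    show (if A ∈ ({p} : Finset Main) then a else 0) + (if A ∈ ({q} : Finset Main) then a else 0) =
      if A ∈ ({p, q} : Finset Main) then a else 0
    simp only [mem_singleton, mem_insert]
    by_cases h1 : A = p
    · have h2 : A ≠ q := fun h2 => h (h1.symm.trans h2)
      simp [h1, h]
    · by_cases h2 : A = q
      · have h3 : ¬ q = p := fun h3 => h h3.symm
        simp [h2, h3]
      · simp [h1, h2]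

theorem he_q (C : Main) (a : GV n) :
    (kv C (Fin.last L) a : HV n L Main) + fv C + sv L {C} a = 0 := by
  unfold kv fv sv
  refine Prod.ext ?_ (Prod.ext ?_ ?_)
  · show (0 : Main → ZMod 2) + ind {C} + ind {C} = 0
    rw [zero_add]
    exact he_self _
  · show ind {(C, Fin.last L)} + ind {(C, Fin.last L)} + 0 = 0
    rw [add_zero]
    exact he_self _
  · show (fun A => if A = C then a else 0) + 0 + (fun A => if A ∈ ({C} : Finset Main) then a else 0) = 0
    funext A
    show (if A = C then a else 0) + 0 + (if A ∈ ({C} : Finset Main) then a else 0) = 0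
    simp only [mem_singleton, add_zero]
    exact he_self _

/-- the sum over each axiom is zero (`F_2`: `x + x = 0`; for `p1 = p2` the axiom `p` has two
tokens) -/
theorem hax_sum (H : HHyp d pi rules ini acc Tr) (j : Fin m) (a : HAx L R Main RI) :
    ∑ τ ∈ haxt pi rules j a, hvec pi rules j τ = 0 := by
  have hcs : ∀ i : Fin L, (i.castSucc : Fin (L + 1)) ≠ i.succ := by
    intro i h
    have := congrArg Fin.val h
    simp at this
  cases a with
  | m0 C i a =>
    unfold haxt
    rw [he_three]
    · have := he_kkc (n := R) C i a 0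
      rw [add_zero] at this
      exact this
    · intro h
      injection h with _ h2
      exact hcs i h2
    · simp
    · simp
  | m1 C i a =>
    unfold haxt
    rw [he_three]
    · exact he_kkc (n := R) C i a _
    · intro h
      injection h with _ h2
      exact hcs i h2
    · simp
    · simp
  | p r a =>
    cases hr : rules r with
    | none => rw [haxt_p0 hr, sum_empty]
    | some ρ =>
      rw [haxt_p1 hr]
      by_cases hp : ρ.p1 = ρ.p2
      · rw [← hp, insert_eq_of_mem (mem_insert_self _ _), sum_pair (by simp), hvec_tp hr]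
        show sv L {ρ.p1} _ + sv L {ρ.p1, ρ.p2} _ = 0
        rw [← hp, pair_eq_singleton]
        exact he_self _
      · rw [he_three, hvec_tp hr]
        · show sv L {ρ.p1} _ + sv L {ρ.p2} _ + sv L {ρ.p1, ρ.p2} _ = 0
          rw [he_sv_pair hp]
          exact he_self _
        · intro h
          injection h with h2
          exact hp h2
        · simp
        · simp
  | u r a =>
    cases hr : rules r with
    | none => rw [haxt_u0 hr, sum_empty]
    | some ρ =>
      rw [haxt_u1 hr, he_three (by simp) (by simp) (by simp), hvec_tp hr, hvec_tu hr]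
      exact he_self _
  | v r a =>
    cases hr : rules r with
    | none => rw [haxt_v0 hr, sum_empty]
    | some ρ =>
      rw [haxt_v1 hr, he_three (by simp) (by simp) (by simp), hvec_tp hr, hvec_tv hr]
      exact he_self _
  | q r a =>
    cases hr : rules r with
    | none => rw [haxt_q0 hr, sum_empty]
    | some ρ =>
      rw [haxt_q1 hr, he_three (by simp) (by simp) (by simp), hvec_tu hr, hvec_tv hr]
      unfold uv vv
      have h1 := he_q (L := L) (n := R) ρ.c a
      have h2 := he_self (sv L ρ.prem (a + pi j (shv ρ.sh)) : HV R L Main)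
      calc _ = (sv L ρ.prem (a + pi j (shv ρ.sh)) + sv L ρ.prem (a + pi j (shv ρ.sh)))
            + (kv ρ.c (Fin.last L) a + fv ρ.c + sv L {ρ.c} a) := by
              show _ + _ + sv L {ρ.c} a = _
              abel
        _ = 0 := by rw [h1, h2, add_zero]

theorem hev_inj (H : HHyp d pi rules ini acc Tr) (t : HV L L Main) (ht : t ≠ 0)
    (s : Finset (Fin m)) (hs : ∀ j ∈ s, hev (Main := Main) pi j t = 0) : s.card ≤ d := by
  rcases s.eq_empty_or_nonempty with h0 | ⟨j₀, hj₀⟩
  · rw [h0]
    simp
  · have h1 : t.1 = 0 := congrArg Prod.fst (hs j₀ hj₀)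
    have h2 : t.2.1 = 0 := congrArg (fun x => x.2.1) (hs j₀ hj₀)
    have h3 : t.2.2 ≠ 0 := by
      intro h3
      exact ht (Prod.ext h1 (Prod.ext h2 h3))
    obtain ⟨A, hA⟩ := Function.ne_iff.1 h3
    refine H.far (t.2.2 A) hA s fun j hj => ?_
    exact congrFun (congrArg (fun x => x.2.2) (hs j hj)) A

theorem hev_sv (pi : Fin m → GV L →ₗ[ZMod 2] GV R) (j : Fin m) (S : Finset Main) (g : GV L) :
    hev pi j (sv L S g) = sv L S (pi j g) := by
  refine Prod.ext rfl (Prod.ext rfl ?_)
  funext A
  show pi j (if A ∈ S then g else 0) = if A ∈ S then pi j g else 0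
  split_ifs
  · rfl
  · exact map_zero _

theorem hev_kv (pi : Fin m → GV L →ₗ[ZMod 2] GV R) (j : Fin m) (C : Main) (i : Fin (L + 1)) (g : GV L) :
    hev pi j (kv C i g) = kv C i (pi j g) := by
  refine Prod.ext rfl (Prod.ext rfl ?_)
  funext A
  show pi j (if A = C then g else 0) = if A = C then pi j g else 0
  split_ifs
  · rfl
  · exact map_zero _

theorem hev_cv (pi : Fin m → GV L →ₗ[ZMod 2] GV R) (j : Fin m) (C : Main) (i : Fin L) (g : GV L) :
    hev pi j (cv C i g) = cv C i (pi j g) := by
  refine Prod.ext rfl (Prod.ext rfl ?_)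
  funext A
  show pi j (if A = C then g else 0) = if A = C then pi j g else 0
  split_ifs
  · rfl
  · exact map_zero _

theorem hev_fv (pi : Fin m → GV L →ₗ[ZMod 2] GV R) (j : Fin m) (C : Main) :
    hev pi j (fv C) = fv C := by
  refine Prod.ext rfl (Prod.ext rfl ?_)
  funext A
  show pi j 0 = 0
  exact map_zero _

theorem hz_vec (rules : RI → Option (HRule L Main)) [DecidablePred ini] (z : HZ L Main)
    (j : Fin m) :
    hvec pi rules j (hztok ini acc z) = hev pi j (hzfact ini acc z) := by
  cases z with
  | ini A =>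
    show hvec pi rules j (if ini A then .tm A 0 else .tf A) =
      hev pi j (if ini A then sv L {A} 0 else fv A)
    split_ifs
    · rw [hev_sv, map_zero]
      rfl
    · rw [hev_fv]
      rfl
  | k0 C =>
    show kv C 0 0 = hev pi j (kv C 0 0)
    rw [hev_kv, map_zero]
  | c C i =>
    show cv C i 0 = hev pi j (cv C i 0)
    rw [hev_cv, map_zero]
  | d C i =>
    show cv C i (pi j (shv (some i))) = hev pi j (cv C i (shv (some i)))
    rw [hev_cv]
  | f C =>
    show fv C = hev pi j (fv C)
    rw [hev_fv]
  | acc =>
    show sv L {acc} 0 = hev pi j (sv L {acc} 0)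
    rw [hev_sv, map_zero]

theorem hz_true (H : HHyp d pi rules ini acc Tr) [DecidablePred ini] (z : HZ L Main)
    (hz : z ≠ .acc) : HTrue rules Tr (hzfact ini acc z) := by
  cases z with
  | ini A =>
    show HTrue rules Tr (if ini A then sv L {A} 0 else fv A)
    split_ifs with h
    · exact HTrue.main A 0 (H.model.init A h)
    · exact HTrue.f A
  | k0 C => exact HTrue.k C 0 0
  | c C i => exact HTrue.c C i
  | d C i => exact HTrue.d C i
  | f C => exact HTrue.f C
  | acc => exact absurd rfl hz

theorem hacc_not (H : HHyp d pi rules ini acc Tr) : ¬ HTrue rules Tr (sv L {acc} 0) := by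
  intro h
  obtain ⟨g, hg, hT⟩ := inv_s H h (S := {acc}) rfl rfl
  have : (0 : GV L) = g := (sv_inj (L := L) (singleton_nonempty acc)).1 hg
  rw [← this] at hT
  exact H.acc_not (hT acc (mem_singleton_self acc))

theorem he_ind_ne {α : Type*} [DecidableEq α] {S : Finset α} (h : S.Nonempty) : ind S ≠ 0 := by
  intro h0
  rw [ind_eq_zero] at h0
  exact h.ne_empty h0

theorem hev_ne (H : HHyp d pi rules ini acc Tr) {t : HV L L Main} (ht : HTrue rules Tr t)
    (j : Fin m) : hev pi j t ≠ 0 := by
  intro h0
  have h1 : t.1 = 0 := congrArg Prod.fst h0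
  have h2 : t.2.1 = 0 := congrArg (fun x => x.2.1) h0
  cases ht with
  | main A g h => exact he_ind_ne (singleton_nonempty A) h1
  | k C i g => exact he_ind_ne (singleton_nonempty (C, i)) h2
  | c C i => exact he_ind_ne (insert_nonempty _ _) h2
  | d C i => exact he_ind_ne (insert_nonempty _ _) h2
  | f C => exact he_ind_ne (singleton_nonempty C) h1
  | p r ρ hr g h => exact he_ind_ne (S := ρ.prem) (insert_nonempty _ _) h1
  | u r ρ hr g h =>
    have h3 : (0 : Main × Fin (L + 1) → ZMod 2) + ind {(ρ.c, Fin.last L)} = 0 := h2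
    rw [zero_add] at h3
    exact he_ind_ne (singleton_nonempty _) h3
  | v r ρ hr g h =>
    have h3 : (0 : Main × Fin (L + 1) → ZMod 2) + ind {(ρ.c, Fin.last L)} = 0 := h2
    rw [zero_add] at h3
    exact he_ind_ne (singleton_nonempty _) h3

theorem hev_acc_ne (pi : Fin m → GV L →ₗ[ZMod 2] GV R) (acc : Main) (j : Fin m) :
    hev pi j (sv L {acc} 0) ≠ 0 := by
  intro h0
  have h1 : ind {acc} = 0 := congrArg Prod.fst h0
  exact he_ind_ne (singleton_nonempty acc) h1

end P310
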