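import Vale.Agent.P310.HornDef

/-!
# P310, module HK: the kinds of the true facts

The first two components of a vector (`E : Main → F_2` and `K : Main × Fin (L+1) → F_2`) determine
its kind: `sv S g : (ind S, 0)`, `kv C i g : (0, ind {(C,i)})`,
`cv C i g : (0, ind {(C,i),(C,i+1)})`, `fv C : (ind {C}, ind {(C,last)})`,
`uv ρ b a : (ind prem, ind {(c,last)})`, `vv ρ b : (ind prem + ind {c}, ind {(c,last)})`.
Use `H.wf.c1`, `H.wf.c2` (`c ∉ prem`), and that `prem` is not empty.  All proofs: cases on `HTrue`.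
-/

namespace P310

open Finset

variable {L R m n d : ℕ} {Main RI : Type} [DecidableEq Main] [DecidableEq RI]

theorem ind_inj {α : Type*} [DecidableEq α] {S T : Finset α} : ind S = ind T ↔ S = T := by
  constructor
  · intro h
    ext x
    have hx := congrFun h x
    unfold ind at hx
    by_cases h1 : x ∈ S <;> by_cases h2 : x ∈ T <;> simp_all
  · rintro rfl
    rfl

theorem hk_ind_empty {α : Type*} [DecidableEq α] : ind (∅ : Finset α) = 0 := by
  funext x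
  simp [ind]

theorem ind_eq_zero {α : Type*} [DecidableEq α] {S : Finset α} : ind S = 0 ↔ S = ∅ := by
  rw [← hk_ind_empty, ind_inj]

/-- disjoint union -/
theorem ind_add {α : Type*} [DecidableEq α] {S T : Finset α} (h : Disjoint S T) :
    ind S + ind T = ind (S ∪ T) := by
  funext x
  have hx : ¬ (x ∈ S ∧ x ∈ T) := fun ⟨h1, h2⟩ => Finset.disjoint_left.1 h h1 h2
  by_cases h1 : x ∈ S <;> by_cases h2 : x ∈ T <;> simp_all [ind]

theorem sv_inj {S : Finset Main} (hS : S.Nonempty) {a b : GV n} :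
    sv L S a = sv L S b ↔ a = b := by
  obtain ⟨A, hA⟩ := hS
  constructor
  · intro h
    have h1 := congrFun (congrArg (fun x => x.2.2) h) A
    simpa [sv, hA] using h1
  · rintro rfl
    rfl

theorem kv_inj {C : Main} {i : Fin (L + 1)} {a b : GV n} :
    (kv C i a : HV n L Main) = kv C i b ↔ a = b := by
  constructor
  · intro h
    have h1 := congrFun (congrArg (fun x => x.2.2) h) C
    simpa [kv] using h1
  · rintro rfl
    rfl

theorem cv_inj {C : Main} {i : Fin L} {a b : GV n} :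
    (cv C i a : HV n L Main) = cv C i b ↔ a = b := by
  constructor
  · intro h
    have h1 := congrFun (congrArg (fun x => x.2.2) h) C
    simpa [cv] using h1
  · rintro rfl
    rfl

theorem hk_prem_nonempty (ρ : HRule L Main) : ρ.prem.Nonempty :=
  ⟨ρ.p1, by simp [HRule.prem]⟩

theorem hk_c_notMem {ρ : HRule L Main} (h1 : ρ.c ≠ ρ.p1) (h2 : ρ.c ≠ ρ.p2) : ρ.c ∉ ρ.prem := by
  simp [HRule.prem, h1, h2]

theorem vv_inj {ρ : HRule L Main} (h1 : ρ.c ≠ ρ.p1) (h2 : ρ.c ≠ ρ.p2) {a b : GV n} :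
    vv ρ a = vv ρ b ↔ a = b := by
  have _ := h1
  have _ := h2
  unfold vv
  rw [add_left_inj, sv_inj (hk_prem_nonempty ρ)]

theorem uv_inj {ρ ρ' : HRule L Main} (h1 : ρ.c ≠ ρ.p1) (h2 : ρ.c ≠ ρ.p2)
    (hp : ρ.prem = ρ'.prem) (hc : ρ.c = ρ'.c) {b a b' a' : GV n} :
    uv ρ b a = uv ρ' b' a' ↔ b = b' ∧ a = a' := by
  constructor
  · intro h
    unfold uv at h
    rw [← hp, ← hc] at h
    have hcn := hk_c_notMem h1 h2
    have hpm : ρ.p1 ∈ ρ.prem := by simp [HRule.prem]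
    have e1 := congrFun (congrArg (fun x => x.2.2) h) ρ.p1
    have e2 := congrFun (congrArg (fun x => x.2.2) h) ρ.c
    constructor
    · simpa [sv, kv, hpm, h1.symm] using e1
    · simpa [sv, kv, hcn] using e2
  · rintro ⟨rfl, rfl⟩
    unfold uv
    rw [hp, hc]

/-! ### The first two components -/

theorem hk_sv1 (S : Finset Main) (a : GV n) : (sv L S a).1 = ind S := rfl
theorem hk_sv2 (S : Finset Main) (a : GV n) : (sv L S a).2.1 = 0 := rfl
theorem hk_kv1 (C : Main) (i : Fin (L + 1)) (a : GV n) : (kv C i a : HV n L Main).1 = 0 := rfl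
theorem hk_kv2 (C : Main) (i : Fin (L + 1)) (a : GV n) :
    (kv C i a : HV n L Main).2.1 = ind {(C, i)} := rfl
theorem hk_cv1 (C : Main) (i : Fin L) (a : GV n) : (cv C i a : HV n L Main).1 = 0 := rfl
theorem hk_cv2 (C : Main) (i : Fin L) (a : GV n) :
    (cv C i a : HV n L Main).2.1 = ind {(C, i.castSucc), (C, i.succ)} := rfl
theorem hk_fv1 (C : Main) : (fv C : HV n L Main).1 = ind {C} := rfl
theorem hk_fv2 (C : Main) : (fv C : HV n L Main).2.1 = ind {(C, Fin.last L)} := rfl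
theorem hk_uv1 (ρ : HRule L Main) (b a : GV n) : (uv ρ b a).1 = ind ρ.prem := by
  simp [uv, sv, kv]
theorem hk_uv2 (ρ : HRule L Main) (b a : GV n) : (uv ρ b a).2.1 = ind {(ρ.c, Fin.last L)} := by
  simp [uv, sv, kv]
theorem hk_vv1 (ρ : HRule L Main) (b : GV n) (h1 : ρ.c ≠ ρ.p1) (h2 : ρ.c ≠ ρ.p2) :
    (vv ρ b).1 = ind (insert ρ.c ρ.prem) := by
  have h : (vv ρ b).1 = ind ρ.prem + ind {ρ.c} := rfl
  rw [h, ind_add (Finset.disjoint_singleton_right.2 (hk_c_notMem h1 h2)), Finset.union_comm,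
    Finset.singleton_union]
theorem hk_vv2 (ρ : HRule L Main) (b : GV n) : (vv ρ b).2.1 = ind {(ρ.c, Fin.last L)} := by
  simp [vv, sv, fv]

theorem hk_ind_ne_zero {α : Type*} [DecidableEq α] {S : Finset α} (h : S.Nonempty) :
    ind S ≠ 0 := fun h0 => h.ne_empty (ind_eq_zero.1 h0)

theorem hk_pair_ne_single {C D : Main} {i : Fin L} {k : Fin (L + 1)} :
    (ind {(C, i.castSucc), (C, i.succ)} : Main × Fin (L + 1) → ZMod 2) ≠ ind {(D, k)} := by
  intro h
  have h1 := congrArg Finset.card (ind_inj.1 h)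
  rw [Finset.card_singleton, Finset.card_pair] at h1
  · omega
  · intro h2
    have h3 := congrArg Prod.snd h2
    exact (Fin.castSucc_lt_succ (i := i)).ne h3

section
variable {pi : Fin m → GV L →ₗ[ZMod 2] GV R} {rules : RI → Option (HRule L Main)}
  {ini : Main → Prop} {acc : Main} {Tr : Main → GV L → Prop}

theorem inv_s (H : HHyp d pi rules ini acc Tr) {S : Finset Main} {t : HV L L Main}
    (h : HTrue rules Tr t) (h1 : t.1 = ind S) (h2 : t.2.1 = 0) :
    ∃ g, t = sv L S g ∧ ∀ A ∈ S, Tr A g := by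
  have _ := H
  cases h with
  | main A g h =>
    rw [hk_sv1, ind_inj] at h1
    subst h1
    exact ⟨g, rfl, by simpa using h⟩
  | k C i g =>
    rw [hk_kv2] at h2
    exact absurd h2 (hk_ind_ne_zero (by simp))
  | c C i =>
    rw [hk_cv2] at h2
    exact absurd h2 (hk_ind_ne_zero (by simp))
  | d C i =>
    rw [hk_cv2] at h2
    exact absurd h2 (hk_ind_ne_zero (by simp))
  | f C =>
    rw [hk_fv2] at h2
    exact absurd h2 (hk_ind_ne_zero (by simp))
  | p r ρ hr g h =>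
    rw [hk_sv1, ind_inj] at h1
    subst h1
    exact ⟨g, rfl, h⟩
  | u r ρ hr g h =>
    rw [hk_uv2] at h2
    exact absurd h2 (hk_ind_ne_zero (by simp))
  | v r ρ hr g h =>
    rw [hk_vv2] at h2
    exact absurd h2 (hk_ind_ne_zero (by simp))

theorem inv_k (H : HHyp d pi rules ini acc Tr) {C : Main} {i : Fin (L + 1)} {t : HV L L Main}
    (h : HTrue rules Tr t) (h1 : t.1 = 0) (h2 : t.2.1 = ind {(C, i)}) :
    ∃ g, t = kv C i g := by
  cases h with
  | main A g h =>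
    rw [hk_sv1] at h1
    exact absurd h1 (hk_ind_ne_zero (by simp))
  | k C' i' g =>
    rw [hk_kv2, ind_inj, Finset.singleton_inj, Prod.mk.injEq] at h2
    obtain ⟨rfl, rfl⟩ := h2
    exact ⟨g, rfl⟩
  | c C' i' =>
    rw [hk_cv2] at h2
    exact absurd h2 hk_pair_ne_single
  | d C' i' =>
    rw [hk_cv2] at h2
    exact absurd h2 hk_pair_ne_single
  | f C' =>
    rw [hk_fv1] at h1
    exact absurd h1 (hk_ind_ne_zero (by simp))
  | p r ρ hr g h =>
    rw [hk_sv1] at h1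
    exact absurd h1 (hk_ind_ne_zero (hk_prem_nonempty ρ))
  | u r ρ hr g h =>
    rw [hk_uv1] at h1
    exact absurd h1 (hk_ind_ne_zero (hk_prem_nonempty ρ))
  | v r ρ hr g h =>
    rw [hk_vv1 ρ g (H.wf.c1 ρ ⟨r, hr⟩) (H.wf.c2 ρ ⟨r, hr⟩)] at h1
    exact absurd h1 (hk_ind_ne_zero (by simp))

theorem inv_c (H : HHyp d pi rules ini acc Tr) {C : Main} {i : Fin L} {t : HV L L Main}
    (h : HTrue rules Tr t) (h1 : t.1 = 0) (h2 : t.2.1 = ind {(C, i.castSucc), (C, i.succ)}) :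
    t = cv C i 0 ∨ t = cv C i (shv (some i)) := by
  have key : ∀ (C' : Main) (i' : Fin L),
      (ind {(C', i'.castSucc), (C', i'.succ)} : Main × Fin (L + 1) → ZMod 2)
        = ind {(C, i.castSucc), (C, i.succ)} → C' = C ∧ i' = i := by
    intro C' i' h3
    have h4 := ind_inj.1 h3
    have h5 : (C', i'.castSucc) ∈ ({(C, i.castSucc), (C, i.succ)} : Finset _) := by
      rw [← h4]; simp
    have h6 : (C', i'.succ) ∈ ({(C, i.castSucc), (C, i.succ)} : Finset _) := by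
      rw [← h4]; simp
    simp only [Finset.mem_insert, Finset.mem_singleton, Prod.mk.injEq, Fin.ext_iff,
      Fin.val_castSucc, Fin.val_succ] at h5 h6
    refine ⟨by tauto, Fin.ext ?_⟩
    omega
  cases h with
  | main A g h =>
    rw [hk_sv1] at h1
    exact absurd h1 (hk_ind_ne_zero (by simp))
  | k C' i' g =>
    rw [hk_kv2] at h2
    exact absurd h2.symm hk_pair_ne_single
  | c C' i' =>
    rw [hk_cv2] at h2
    obtain ⟨rfl, rfl⟩ := key _ _ h2
    exact Or.inl rfl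
  | d C' i' =>
    rw [hk_cv2] at h2
    obtain ⟨rfl, rfl⟩ := key _ _ h2
    exact Or.inr rfl
  | f C' =>
    rw [hk_fv1] at h1
    exact absurd h1 (hk_ind_ne_zero (by simp))
  | p r ρ hr g h =>
    rw [hk_sv1] at h1
    exact absurd h1 (hk_ind_ne_zero (hk_prem_nonempty ρ))
  | u r ρ hr g h =>
    rw [hk_uv1] at h1
    exact absurd h1 (hk_ind_ne_zero (hk_prem_nonempty ρ))
  | v r ρ hr g h =>
    rw [hk_vv1 ρ g (H.wf.c1 ρ ⟨r, hr⟩) (H.wf.c2 ρ ⟨r, hr⟩)] at h1
    exact absurd h1 (hk_ind_ne_zero (by simp))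

theorem inv_f (H : HHyp d pi rules ini acc Tr) {C : Main} {t : HV L L Main}
    (h : HTrue rules Tr t) (h1 : t.1 = ind {C}) (h2 : t.2.1 = ind {(C, Fin.last L)}) :
    t = fv C := by
  cases h with
  | main A g h =>
    rw [hk_sv2] at h2
    exact absurd h2.symm (hk_ind_ne_zero (by simp))
  | k C' i' g =>
    rw [hk_kv1] at h1
    exact absurd h1.symm (hk_ind_ne_zero (by simp))
  | c C' i' =>
    rw [hk_cv1] at h1
    exact absurd h1.symm (hk_ind_ne_zero (by simp))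
  | d C' i' =>
    rw [hk_cv1] at h1
    exact absurd h1.symm (hk_ind_ne_zero (by simp))
  | f C' =>
    rw [hk_fv1, ind_inj, Finset.singleton_inj] at h1
    rw [h1]
  | p r ρ hr g h =>
    rw [hk_sv2] at h2
    exact absurd h2.symm (hk_ind_ne_zero (by simp))
  | u r ρ hr g h =>
    rw [hk_uv2, ind_inj, Finset.singleton_inj, Prod.mk.injEq] at h2
    rw [hk_uv1, ind_inj] at h1
    have h3 : ρ.c ∈ ρ.prem := by rw [h1, h2.1]; simp
    exact absurd h3 (hk_c_notMem (H.wf.c1 ρ ⟨r, hr⟩) (H.wf.c2 ρ ⟨r, hr⟩))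
  | v r ρ hr g h =>
    rw [hk_vv1 ρ g (H.wf.c1 ρ ⟨r, hr⟩) (H.wf.c2 ρ ⟨r, hr⟩), ind_inj] at h1
    have h3 : ρ.p1 ∈ insert ρ.c ρ.prem := by simp [HRule.prem]
    have h4 : ρ.c ∈ insert ρ.c ρ.prem := by simp
    rw [h1, Finset.mem_singleton] at h3 h4
    exact absurd (h4.trans h3.symm) (H.wf.c1 ρ ⟨r, hr⟩)

theorem inv_u (H : HHyp d pi rules ini acc Tr) {r : RI} {ρ : HRule L Main}
    (hr : rules r = some ρ) {t : HV L L Main}
    (h : HTrue rules Tr t) (h1 : t.1 = ind ρ.prem) (h2 : t.2.1 = ind {(ρ.c, Fin.last L)}) :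
    ∃ r' ρ', rules r' = some ρ' ∧ ρ'.prem = ρ.prem ∧ ρ'.c = ρ.c ∧
      ∃ g, t = uv ρ' (g + shv ρ'.sh) g ∧ ∀ A ∈ ρ'.prem, Tr A (g + shv ρ'.sh) := by
  have hcn : ρ.c ∉ ρ.prem := hk_c_notMem (H.wf.c1 ρ ⟨r, hr⟩) (H.wf.c2 ρ ⟨r, hr⟩)
  cases h with
  | main A g h =>
    rw [hk_sv2] at h2
    exact absurd h2.symm (hk_ind_ne_zero (by simp))
  | k C' i' g =>
    rw [hk_kv1] at h1
    exact absurd h1.symm (hk_ind_ne_zero (hk_prem_nonempty ρ))
  | c C' i' =>
    rw [hk_cv1] at h1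
    exact absurd h1.symm (hk_ind_ne_zero (hk_prem_nonempty ρ))
  | d C' i' =>
    rw [hk_cv1] at h1
    exact absurd h1.symm (hk_ind_ne_zero (hk_prem_nonempty ρ))
  | f C' =>
    rw [hk_fv1, ind_inj] at h1
    rw [hk_fv2, ind_inj, Finset.singleton_inj, Prod.mk.injEq] at h2
    exact absurd (by rw [← h1, ← h2.1]; simp) hcn
  | p r ρ hr g h =>
    rw [hk_sv2] at h2
    exact absurd h2.symm (hk_ind_ne_zero (by simp))
  | u r' ρ' hr' g h =>
    rw [hk_uv2, ind_inj, Finset.singleton_inj, Prod.mk.injEq] at h2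
    rw [hk_uv1, ind_inj] at h1
    exact ⟨r', ρ', hr', h1, h2.1, g, rfl, h⟩
  | v r' ρ' hr' g h =>
    rw [hk_vv1 ρ' g (H.wf.c1 ρ' ⟨r', hr'⟩) (H.wf.c2 ρ' ⟨r', hr'⟩), ind_inj] at h1
    rw [hk_vv2, ind_inj, Finset.singleton_inj, Prod.mk.injEq] at h2
    exact absurd (by rw [← h1, ← h2.1]; simp) hcn

theorem inv_v (H : HHyp d pi rules ini acc Tr) {r : RI} {ρ : HRule L Main}
    (hr : rules r = some ρ) {t : HV L L Main}
    (h : HTrue rules Tr t) (h1 : t.1 = ind ρ.prem + ind {ρ.c})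
    (h2 : t.2.1 = ind {(ρ.c, Fin.last L)}) :
    ∃ g, t = vv ρ g ∧ ∀ A ∈ ρ.prem, Tr A g := by
  have hcn : ρ.c ∉ ρ.prem := hk_c_notMem (H.wf.c1 ρ ⟨r, hr⟩) (H.wf.c2 ρ ⟨r, hr⟩)
  rw [ind_add (Finset.disjoint_singleton_right.2 hcn), Finset.union_comm,
    Finset.singleton_union] at h1
  cases h with
  | main A g h =>
    rw [hk_sv2] at h2
    exact absurd h2.symm (hk_ind_ne_zero (by simp))
  | k C' i' g =>
    rw [hk_kv1] at h1
    exact absurd h1.symm (hk_ind_ne_zero (by simp))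
  | c C' i' =>
    rw [hk_cv1] at h1
    exact absurd h1.symm (hk_ind_ne_zero (by simp))
  | d C' i' =>
    rw [hk_cv1] at h1
    exact absurd h1.symm (hk_ind_ne_zero (by simp))
  | f C' =>
    rw [hk_fv1, ind_inj] at h1
    have h3 : ρ.p1 ∈ insert ρ.c ρ.prem := by simp [HRule.prem]
    have h4 : ρ.c ∈ insert ρ.c ρ.prem := by simp
    rw [← h1, Finset.mem_singleton] at h3 h4
    exact absurd (h4.trans h3.symm) (H.wf.c1 ρ ⟨r, hr⟩)
  | p r ρ hr g h =>
    rw [hk_sv2] at h2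
    exact absurd h2.symm (hk_ind_ne_zero (by simp))
  | u r' ρ' hr' g h =>
    rw [hk_uv2, ind_inj, Finset.singleton_inj, Prod.mk.injEq] at h2
    rw [hk_uv1, ind_inj] at h1
    have h3 : ρ'.c ∈ ρ'.prem := by rw [h1, h2.1]; simp
    exact absurd h3 (hk_c_notMem (H.wf.c1 ρ' ⟨r', hr'⟩) (H.wf.c2 ρ' ⟨r', hr'⟩))
  | v r' ρ' hr' g h =>
    rw [hk_vv1 ρ' g (H.wf.c1 ρ' ⟨r', hr'⟩) (H.wf.c2 ρ' ⟨r', hr'⟩), ind_inj] at h1
    rw [hk_vv2, ind_inj, Finset.singleton_inj, Prod.mk.injEq] at h2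
    have hcn' : ρ'.c ∉ ρ'.prem := hk_c_notMem (H.wf.c1 ρ' ⟨r', hr'⟩) (H.wf.c2 ρ' ⟨r', hr'⟩)
    have hp : ρ'.prem = ρ.prem := by
      have h3 := congrArg (fun s => s.erase ρ.c) h1
      simp only [h2.1] at h3 hcn'
      rwa [Finset.erase_insert hcn', Finset.erase_insert hcn] at h3
    refine ⟨g, ?_, ?_⟩
    · unfold vv
      rw [hp, h2.1]
    · rw [← hp]
      exact h

end

end P310
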