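import Vale.Agent.P310.HornProd
import Vale.Agent.P310.CodedIso

/-!
# P310: the coded graphs of a Horn system

From the hypotheses of section 3 to the equivalence or inequivalence of the two graphs of a coded
system into which the XOR system of the product system is embedded.
-/

namespace P310

open Finset

/-- Robust coded systems have equivalent graphs. -/
theorem CSys.wl_of_robust (c : CSys) (hc : c.Ok) {k : ℕ} (hr : Robust c.vset c.rhs k) :
    WLEquiv k (c.graph 0) (c.graph 1) := by
  obtain ⟨J, hJ, h⟩ := c.wl_iff hc k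
  rw [h]
  exact Robust.wlEquiv c.toSys hr ⟨Sum.inr ⟨c.sp, hc.sp_lt⟩⟩

/-- Refutable coded systems have inequivalent graphs. -/
theorem CSys.not_wl_of_refutable (c : CSys) (hc : c.Ok) {k : ℕ} (hk : 3 ≤ k)
    (hr : Refutable c.vset c.rhs k) : ¬ WLEquiv k (c.graph 0) (c.graph 1) := by
  obtain ⟨J, hJ, h⟩ := c.wl_iff hc k
  rw [h]
  exact Refutable.not_wlEquiv c.toSys hk hr

variable {L R m d : ℕ} {Main RI : Type} [DecidableEq Main] [DecidableEq RI]
variable {pi : Fin m → GV L →ₗ[ZMod 2] GV R} {rules : RI → Option (HRule L Main)}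
  {ini : Main → Prop} {acc : Main} {Tr : Main → GV L → Prop}
variable {k l : ℕ} {c : CSys} [DecidablePred ini]

/-- **Main theorem, positive part**: no derivation of the accepting fact, the graphs are
equivalent. -/
theorem horn_wl (hc : c.Ok) [Finite Main] [Finite RI] [DecidableEq (HAx L R Main RI)]
    (M : Emb (prodVars (l := l) (haxt pi rules) (hzt m ini acc)) (prodRhs (HZ.acc : HZ L Main))
      c.vset c.rhs)
    (H : HHyp d pi rules ini acc Tr) (hk : k + 1 + 6 * d < 2 * m) (hl : k + 1 < l) :
    WLEquiv k (c.graph 0) (c.graph 1) :=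
  c.wl_of_robust hc ((horn_robust H hk hl).transport M)

/-- **Main theorem, negative part**: a derivation of the accepting fact, the graphs are not
equivalent. -/
theorem horn_not_wl (hc : c.Ok) [DecidableEq (HAx L R Main RI)]
    (M : Emb (prodVars (l := l) (haxt pi rules) (hzt m ini acc)) (prodRhs (HZ.acc : HZ L Main))
      c.vset c.rhs)
    (hwf : HWf (fun ρ => ∃ r, rules r = some ρ) acc)
    (h : HDer (fun ρ => ∃ r, rules r = some ρ) ini acc 0)
    (hm : 0 < m) (hl : 0 < l) (hk : m + 3 ≤ k) :
    ¬ WLEquiv k (c.graph 0) (c.graph 1) :=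
  c.not_wl_of_refutable hc (by omega) ((horn_refutable hwf h hm hl hk).transport M)

end P310
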