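import Vale.Agent.P310.Horn

/-!
# P310: renaming the types of a Horn system
-/

namespace P310

variable {L : ℕ} {Main Main' : Type}

/-- renaming of a rule -/
def HRule.ren (f : Main → Main') (ρ : HRule L Main) : HRule L Main' :=
  ⟨f ρ.p1, f ρ.p2, ρ.sh, f ρ.c⟩

/-- `f` is injective on a set `S` of types which contains all types of the system -/
structure HRen (f : Main → Main') (S : Set Main) (R : HRule L Main → Prop) (I : Main → Prop)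
    (acc : Main) : Prop where
  inj : Set.InjOn f S
  p1 : ∀ ρ, R ρ → ρ.p1 ∈ S
  p2 : ∀ ρ, R ρ → ρ.p2 ∈ S
  c : ∀ ρ, R ρ → ρ.c ∈ S
  ini : ∀ A, I A → A ∈ S
  acc : acc ∈ S

variable {f : Main → Main'} {S : Set Main} {R : HRule L Main → Prop} {I : Main → Prop}
  {acc : Main} {R' : HRule L Main' → Prop} {I' : Main' → Prop}

theorem hder_ren (hR : ∀ ρ, R ρ → R' (ρ.ren f)) (hI : ∀ A, I A → I' (f A)) {A : Main}
    {g : Fin L → ZMod 2} (h : HDer R I A g) : HDer R' I' (f A) g := by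
  induction h with
  | init hA => exact HDer.init (hI _ hA)
  | rule h g _ _ ih1 ih2 => exact HDer.rule (hR _ h) g ih1 ih2

theorem hwf_ren (H : HRen f S R I acc) (hR : ∀ ρ', R' ρ' → ∃ ρ, R ρ ∧ ρ' = ρ.ren f)
    (h : HWf R acc) : HWf R' (f acc) := by
  refine ⟨?_, ?_, ?_, ?_, ?_⟩
  · intro ρ' hρ'
    obtain ⟨ρ, hρ, rfl⟩ := hR ρ' hρ'
    exact fun he => h.c1 ρ hρ (H.inj (H.c ρ hρ) (H.p1 ρ hρ) he)
  · intro ρ' hρ'
    obtain ⟨ρ, hρ, rfl⟩ := hR ρ' hρ'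
    exact fun he => h.c2 ρ hρ (H.inj (H.c ρ hρ) (H.p2 ρ hρ) he)
  · intro ρ' hρ'
    obtain ⟨ρ, hρ, rfl⟩ := hR ρ' hρ'
    exact fun he => h.a1 ρ hρ (H.inj (H.p1 ρ hρ) H.acc he)
  · intro ρ' hρ'
    obtain ⟨ρ, hρ, rfl⟩ := hR ρ' hρ'
    exact fun he => h.a2 ρ hρ (H.inj (H.p2 ρ hρ) H.acc he)
  · intro ρ1 ρ2 h1 h2 hc hp hs1 hs2
    obtain ⟨ρ, hρ, rfl⟩ := hR ρ1 h1
    obtain ⟨ρ', hρ', rfl⟩ := hR ρ2 h2
    have hc' : ρ.c = ρ'.c := H.inj (H.c ρ hρ) (H.c ρ' hρ') hc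
    have hp' : f '' ({ρ.p1, ρ.p2} : Set Main) = f '' {ρ'.p1, ρ'.p2} := by
      rw [Set.image_pair, Set.image_pair]
      exact hp
    have hsub : ∀ τ : HRule L Main, R τ → ({τ.p1, τ.p2} : Set Main) ⊆ S := by
      intro τ hτ x hx
      rcases hx with hx | hx
      · rw [hx]
        exact H.p1 τ hτ
      · rw [Set.mem_singleton_iff.1 hx]
        exact H.p2 τ hτ
    have hpe : ({ρ.p1, ρ.p2} : Set Main) = {ρ'.p1, ρ'.p2} :=
      (H.inj.image_eq_image_iff (hsub ρ hρ) (hsub ρ' hρ')).1 hp'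
    exact h.sh ρ ρ' hρ hρ' hc' hpe hs1 hs2

/-- the renamed model -/
def trRen (f : Main → Main') (S : Set Main) (Tr : Main → (Fin L → ZMod 2) → Prop) :
    Main' → (Fin L → ZMod 2) → Prop := fun A' g => ∃ A ∈ S, f A = A' ∧ Tr A g

theorem hmodel_ren (H : HRen f S R I acc) (hR : ∀ ρ', R' ρ' → ∃ ρ, R ρ ∧ ρ' = ρ.ren f)
    (hI : ∀ A', I' A' → ∃ A, I A ∧ A' = f A) {Tr : Main → (Fin L → ZMod 2) → Prop}
    (h : HModel R I Tr) : HModel R' I' (trRen f S Tr) := by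
  refine ⟨?_, ?_⟩
  · intro A' hA'
    obtain ⟨A, hA, rfl⟩ := hI A' hA'
    exact ⟨A, H.ini A hA, rfl, h.init A hA⟩
  · intro ρ' hρ' g h1 h2
    obtain ⟨ρ, hρ, rfl⟩ := hR ρ' hρ'
    obtain ⟨A, hA, hfA, hTA⟩ := h1
    obtain ⟨B, hB, hfB, hTB⟩ := h2
    have e1 : A = ρ.p1 := H.inj hA (H.p1 ρ hρ) hfA
    have e2 : B = ρ.p2 := H.inj hB (H.p2 ρ hρ) hfB
    rw [e1] at hTA
    rw [e2] at hTB
    exact ⟨ρ.c, H.c ρ hρ, rfl, h.rule ρ hρ g hTA hTB⟩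

theorem hnot_ren (H : HRen f S R I acc) {Tr : Main → (Fin L → ZMod 2) → Prop}
    (h : ¬ Tr acc 0) : ¬ trRen f S Tr (f acc) 0 := by
  rintro ⟨A, hA, hfA, hTA⟩
  have e1 : A = acc := H.inj hA H.acc hfA
  rw [e1] at hTA
  exact h hTA

end P310
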