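import Vale.Agent.P310.MachSound

/-!
# P310: everything true is derivable in the Horn system of a machine
-/

namespace P310

open Function

variable {M : NM} {Q K A L1 L2 : ℕ}

/-- derivability -/
abbrev MDer (M : NM) (Q K A L1 L2 : ℕ) : Ty → (Fin (L1 + L2) → ZMod 2) → Prop :=
  HDer (MRule M Q K A L1 L2) (MInit L1 L2)

theorem mder1 {T C : Ty} {sh : Option (Fin (L1 + L2))} (h : MRule M Q K A L1 L2 ⟨T, T, sh, C⟩)
    {g : Fin (L1 + L2) → ZMod 2} (h1 : MDer M Q K A L1 L2 T (g + shv sh)) :
    MDer M Q K A L1 L2 C g := HDer.rule h g h1 h1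

theorem mder2 {T T' C : Ty} {sh : Option (Fin (L1 + L2))}
    (h : MRule M Q K A L1 L2 ⟨T, T', sh, C⟩)
    {g : Fin (L1 + L2) → ZMod 2} (h1 : MDer M Q K A L1 L2 T (g + shv sh))
    (h2 : MDer M Q K A L1 L2 T' (g + shv sh)) :
    MDer M Q K A L1 L2 C g := HDer.rule h g h1 h2

theorem mder1n {T C : Ty} (h : MRule M Q K A L1 L2 ⟨T, T, none, C⟩)
    {g : Fin (L1 + L2) → ZMod 2} (h1 : MDer M Q K A L1 L2 T g) :
    MDer M Q K A L1 L2 C g := mder1 h (by simpa [shv] using h1)

theorem mder2n {T T' C : Ty} (h : MRule M Q K A L1 L2 ⟨T, T', none, C⟩)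
    {g : Fin (L1 + L2) → ZMod 2} (h1 : MDer M Q K A L1 L2 T g)
    (h2 : MDer M Q K A L1 L2 T' g) :
    MDer M Q K A L1 L2 C g := mder2 h (by simpa [shv] using h1) (by simpa [shv] using h2)

/-! ### bits -/

theorem der_X (l : ℕ) (hl : l < L1 + L2) : ∀ i ≤ L1 + L2, ∀ (β : Bool)
    (g : Fin (L1 + L2) → ZMod 2), (∀ l' : Fin (L1 + L2), i ≤ l' → g l' = 0) →
    g ⟨l, hl⟩ = bv β → MDer M Q K A L1 L2 (.X l β i) g := by
  intro i
  induction i with
  | zero =>
    intro _ β g h0 hβ
    have hg : g = 0 := funext fun l' => h0 l' (Nat.zero_le _)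
    subst hg
    have : β = false := by
      have h1 : bv β = bv false := hβ.symm
      exact bv_inj h1
    subst this
    exact HDer.init (.x l hl)
  | succ i ih =>
    intro hi β g h0 hβ
    have hi' : i < L1 + L2 := hi
    rcases zmod2_cases (g ⟨i, hi'⟩) with h1 | h1
    · refine mder1n (.x1 l i β hl hi') (ih (by omega) β g ?_ hβ)
      intro l' hl'
      by_cases h : (l' : ℕ) = i
      · have : l' = ⟨i, hi'⟩ := Fin.ext h
        rw [this, h1]
      · exact h0 l' (by omega)
    · have hg' : ∀ l' : Fin (L1 + L2), i ≤ l' → (g + shv (some ⟨i, hi'⟩)) l' = 0 := by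
        intro l' hl'
        simp only [Pi.add_apply, shv]
        by_cases h : (l' : ℕ) = i
        · have : l' = ⟨i, hi'⟩ := Fin.ext h
          rw [this, h1, Pi.single_eq_same]
          decide
        · rw [h0 l' (by omega), Pi.single_eq_of_ne (fun h' => h (by rw [h'])), add_zero]
      by_cases hil : i = l
      · subst hil
        have hβ1 : β = true := by
          have h2 : bv β = bv true := by rw [← hβ, h1]; rfl
          exact bv_inj h2
        subst hβ1
        refine mder1 (.x3 i hi') (ih (by omega) false _ hg' ?_)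
        simp only [Pi.add_apply, shv, Pi.single_eq_same]
        rw [h1]
        decide
      · refine mder1 (.x2 l i β hl hi' hil) (ih (by omega) β _ hg' ?_)
        simp only [Pi.add_apply, shv]
        rw [hβ, Pi.single_eq_of_ne (fun h' => hil (by
          have := congrArg Fin.val h'
          exact this.symm)), add_zero]

theorem der_Xt {i t p : ℕ} (hi : i < L1) :
    MDer M Q K A L1 L2 (.X i (t.testBit i) (L1 + L2)) (cellv L1 L2 t p) :=
  der_X i (by omega) _ le_rfl _ _ (fun l' hl' => absurd l'.2 (by omega)) (cellv_t hi _)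

theorem der_Xp {i t p : ℕ} (hi : i < L2) :
    MDer M Q K A L1 L2 (.X (L1 + i) (p.testBit i) (L1 + L2)) (cellv L1 L2 t p) :=
  der_X (L1 + i) (by omega) _ le_rfl _ _ (fun l' hl' => absurd l'.2 (by omega)) (cellv_p _)

/-! ### counting up in the second number -/

theorem der_low {F : ℕ → Ty} {t : ℕ} (h0 : MDer M Q K A L1 L2 (F 0) (cellv L1 L2 t 0))
    (r1 : ∀ i < L2, MRule M Q K A L1 L2 ⟨F i, F i, none, F (i + 1)⟩)
    (r2 : ∀ i (hi : i < L2), MRule M Q K A L1 L2
      ⟨F i, F i, some ⟨L1 + i, by omega⟩, F (i + 1)⟩) :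
    ∀ i ≤ L2, ∀ p < 2 ^ i, MDer M Q K A L1 L2 (F i) (cellv L1 L2 t p) := by
  intro i
  induction i with
  | zero =>
    intro _ p hp
    have : p = 0 := by rw [pow_zero] at hp; omega
    subst this
    exact h0
  | succ i ih =>
    intro hi p hp
    by_cases h : p < 2 ^ i
    · exact mder1n (r1 i (by omega)) (ih (by omega) p h)
    · refine mder1 (r2 i (by omega)) ?_
      rw [cellv_p_add]
      refine ih (by omega) _ ?_
      have hbit : p.testBit i = true := by
        rw [testBit_iff]
        have h1 : p / 2 ^ i = 1 := by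
          rw [pow_succ] at hp
          exact Nat.div_eq_of_lt_le (by omega) (by omega)
        rw [h1]
      have := xor_sub hbit
      rw [pow_succ] at hp
      omega

/-- carry chain in the time -/
theorem der_time {b : Bx} (hb : okx Q K A b) {p : ℕ} : ∀ k i t : ℕ, k + i = L1 → 2 ^ i ∣ t →
    t + 2 ^ i < 2 ^ L1 → MDer M Q K A L1 L2 (.N b i) (cellv L1 L2 t p) →
    MDer M Q K A L1 L2 (.B b) (cellv L1 L2 (t + 2 ^ i) p) := by
  intro k
  induction k with
  | zero =>
    intro i t hk _ hlt _
    have : i = L1 := by omega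
    subst this
    omega
  | succ k ih =>
    intro i t hk hd hlt h
    have hi : i < L1 := by omega
    have hX := der_Xt (M := M) (Q := Q) (K := K) (A := A) (L2 := L2) (t := t) (p := p) hi
    cases hbit : t.testBit i with
    | false =>
      rw [hbit] at hX
      have hx := xor_add hbit
      rw [← hx]
      refine mder2 (.t2 b i hb hi) ?_ ?_
      · rw [cellv_t_add hi, xor_xor_pow]; exact h
      · rw [cellv_t_add hi, xor_xor_pow]; exact hX
    | true =>
      rw [hbit] at hX
      have hx := xor_sub hbit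
      have h1 : MDer M Q K A L1 L2 (.N b (i + 1)) (cellv L1 L2 (t ^^^ 2 ^ i) p) := by
        refine mder2 (.t1 b i hb hi) ?_ ?_
        · rw [cellv_t_add hi, xor_xor_pow]; exact h
        · rw [cellv_t_add hi, xor_xor_pow]; exact hX
      have h2 := dvd_odd' hd hbit
      have h3 : t - 2 ^ i = t ^^^ 2 ^ i := by omega
      rw [h3] at h2
      have h4 : (t ^^^ 2 ^ i) + 2 ^ (i + 1) = t + 2 ^ i := by rw [pow_succ]; omega
      have h5 := ih (i + 1) _ (by omega) h2 (by omega) h1
      rwa [h4] at h5

/-- carry chain for `push` -/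
theorem der_U {g : ℕ} {β : Option ℕ} (hg : g < K) (hβ : okb A β) {t : ℕ} : ∀ k i p : ℕ,
    k + i = L2 → 2 ^ i ∣ p → p + 2 ^ i < 2 ^ L2 →
    MDer M Q K A L1 L2 (.U g β i) (cellv L1 L2 t p) →
    MDer M Q K A L1 L2 (.N (.cl g β) 0) (cellv L1 L2 t (p + 2 ^ i)) := by
  intro k
  induction k with
  | zero =>
    intro i t hk _ hlt _
    have : i = L2 := by omega
    subst this
    omega
  | succ k ih =>
    intro i p hk hd hlt h
    have hi : i < L2 := by omega
    have hX := der_Xp (M := M) (Q := Q) (K := K) (A := A) (L1 := L1) (t := t) (p := p) hi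
    cases hbit : p.testBit i with
    | false =>
      rw [hbit] at hX
      have hx := xor_add hbit
      rw [← hx]
      refine mder2 (.u2 g β i hg hβ hi) ?_ ?_
      · rw [cellv_p_add, xor_xor_pow]; exact h
      · rw [cellv_p_add, xor_xor_pow]; exact hX
    | true =>
      rw [hbit] at hX
      have hx := xor_sub hbit
      have h1 : MDer M Q K A L1 L2 (.U g β (i + 1)) (cellv L1 L2 t (p ^^^ 2 ^ i)) := by
        refine mder2 (.u1 g β i hg hβ hi) ?_ ?_
        · rw [cellv_p_add, xor_xor_pow]; exact h
        · rw [cellv_p_add, xor_xor_pow]; exact hX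
      have h2 := dvd_odd' hd hbit
      have h3 : p - 2 ^ i = p ^^^ 2 ^ i := by omega
      rw [h3] at h2
      have h4 : (p ^^^ 2 ^ i) + 2 ^ (i + 1) = p + 2 ^ i := by rw [pow_succ]; omega
      have h5 := ih (i + 1) _ (by omega) h2 (by omega) h1
      rwa [h4] at h5

/-- borrow chain for `pop` -/
theorem der_D {g : ℕ} {β : Option ℕ} (hg : g < K) (hβ : okb A β) {t : ℕ} : ∀ k i p : ℕ,
    k + i = L2 → 2 ^ i ∣ p + 1 → p < 2 ^ L2 → 2 ^ i ≤ p →
    MDer M Q K A L1 L2 (.D g β i) (cellv L1 L2 t p) →
    MDer M Q K A L1 L2 (.N (.cl g β) 0) (cellv L1 L2 t (p - 2 ^ i)) := by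
  intro k
  induction k with
  | zero =>
    intro i t hk _ hlt hle _
    have : i = L2 := by omega
    subst this
    omega
  | succ k ih =>
    intro i p hk hd hlt hle h
    have hi : i < L2 := by omega
    have hX := der_Xp (M := M) (Q := Q) (K := K) (A := A) (L1 := L1) (t := t) (p := p) hi
    cases hbit : p.testBit i with
    | true =>
      rw [hbit] at hX
      have hx := xor_sub hbit
      have h3 : p - 2 ^ i = p ^^^ 2 ^ i := by omega
      rw [h3]
      refine mder2 (.d2 g β i hg hβ hi) ?_ ?_
      · rw [cellv_p_add, xor_xor_pow]; exact h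
      · rw [cellv_p_add, xor_xor_pow]; exact hX
    | false =>
      rw [hbit] at hX
      have hx := xor_add hbit
      have h1 : MDer M Q K A L1 L2 (.D g β (i + 1)) (cellv L1 L2 t (p ^^^ 2 ^ i)) := by
        refine mder2 (.d1 g β i hg hβ hi) ?_ ?_
        · rw [cellv_p_add, xor_xor_pow]; exact h
        · rw [cellv_p_add, xor_xor_pow]; exact hX
      have h2 := (succ_bit hd).1 hbit
      have h3 := xor_lt hlt hi
      have h4 : (p ^^^ 2 ^ i) - 2 ^ (i + 1) = p - 2 ^ i := by rw [pow_succ]; omega
      have h5 := ih (i + 1) (p ^^^ 2 ^ i) (by omega) (by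
        rw [hx]
        convert h2 using 1
        omega) h3 (by rw [pow_succ]; omega) h1
      rwa [h4] at h5

/-- the last position, for `pop` -/
theorem der_D_top {g : ℕ} {β : Option ℕ} (hg : g < K) (hβ : okb A β) {t : ℕ}
    (h : MDer M Q K A L1 L2 (.D g β 0) (cellv L1 L2 t 0)) : ∀ i ≤ L2,
    MDer M Q K A L1 L2 (.D g β i) (cellv L1 L2 t (2 ^ i - 1)) := by
  intro i
  induction i with
  | zero => intro _; exact h
  | succ i ih =>
    intro hi
    have hi' : i < L2 := by omega
    have hbit : (2 ^ i - 1).testBit i = false :=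
      Nat.testBit_lt_two_pow (by have : 0 < 2 ^ i := by positivity
                                 omega)
    have hX := der_Xp (M := M) (Q := Q) (K := K) (A := A) (L1 := L1) (t := t)
      (p := 2 ^ i - 1) hi'
    rw [hbit] at hX
    have hx := xor_add hbit
    have h1 : 2 ^ (i + 1) - 1 = (2 ^ i - 1) ^^^ 2 ^ i := by
      have : 0 < 2 ^ i := by positivity
      rw [hx, pow_succ]
      omega
    rw [h1]
    refine mder2 (.d1 g β i hg hβ hi') ?_ ?_
    · rw [cellv_p_add, xor_xor_pow]; exact ih (by omega)
    · rw [cellv_p_add, xor_xor_pow]; exact hX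

/-! ### the main induction -/

theorem stk_sym (hb : M.Bdd Q K A) (t g : ℕ) : ∀ b ∈ (M.run t).stk g, b < A := by
  induction t with
  | zero => simp [NM.run]
  | succ t ih =>
    intro b hbm
    have hq := M.run_st_lt hb t
    by_cases h : (M.op (M.run t).st).touches g
    · cases ho : M.op (M.run t).st with
      | nop => rw [ho] at h; exact absurd h (by simp [Op.touches])
      | acc => rw [ho] at h; exact absurd h (by simp [Op.touches])
      | push g' b' =>
        rw [ho] at h
        have h' : g' = g := h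
        subst h'
        rw [stk_push ho, List.mem_cons] at hbm
        rcases hbm with rfl | hbm
        · exact (hb.push _ _ _ hq ho).2
        · exact ih b hbm
      | pop g' =>
        rw [ho] at h
        have h' : g' = g := h
        subst h'
        rw [stk_pop ho] at hbm
        exact ih b (List.mem_of_mem_tail hbm)
    · rw [stk_keep h] at hbm
      exact ih b hbm

theorem okb_stk (hb : M.Bdd Q K A) (t g p : ℕ) : okb A ((M.run t).stk g)[p]? := by
  intro b hbm
  exact stk_sym hb t g b (List.mem_of_getElem? hbm)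

theorem oko_op (hb : M.Bdd Q K A) {q : ℕ} (hq : q < Q) : oko K A (M.op q) := by
  cases ho : M.op q with
  | nop => trivial
  | acc => trivial
  | push g b => exact hb.push q g b hq ho
  | pop g => exact hb.pop q g hq ho

theorem der_B (hb : M.Bdd Q K A) (hL : L1 < L2) : ∀ t < 2 ^ L1, ∀ (b : Bx) (p : ℕ),
    okx Q K A b → p < 2 ^ L2 → hbx M b t p →
    MDer M Q K A L1 L2 (.B b) (cellv L1 L2 t p) := by
  intro t
  induction t with
  | zero =>
    intro _ b p hok hp h
    have hZ : ∀ i ≤ L2, ∀ p < 2 ^ i, MDer M Q K A L1 L2 (.Z i) (cellv L1 L2 0 p) := by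
      refine der_low (F := Ty.Z) ?_ (fun i hi => .z1 i hi) (fun i hi => .z2 i hi)
      rw [cellv_zero]
      exact HDer.init .z
    cases b with
    | st q =>
      obtain ⟨rfl, h2⟩ := h
      have h3 : q = 0 := h2.symm
      subst h3
      exact mder1n .zs (hZ 0 (Nat.zero_le _) 0 (by simp))
    | cl g β =>
      have h2 : β = none := by
        have h3 : ((M.run 0).stk g)[p]? = β := h
        rw [← h3]
        simp [NM.run]
      subst h2
      exact mder1n (.zc g hok.1) (hZ L2 le_rfl p hp)
  | succ t ih =>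
    intro ht b p hok hp h
    have ih' := ih (by omega)
    have hq := M.run_st_lt hb t
    have hpos : (0 : ℕ) < 2 ^ L2 := by positivity
    have hB : MDer M Q K A L1 L2 (.B (.st (M.run t).st)) (cellv L1 L2 t 0) :=
      ih' (.st (M.run t).st) 0 hq hpos ⟨rfl, rfl⟩
    have hO0 : MDer M Q K A L1 L2 (.O (M.op (M.run t).st) 0) (cellv L1 L2 t 0) :=
      mder1n (.bo _ hq) hB
    have hoko := oko_op hb hq
    have hOL : ∀ i ≤ L2, ∀ p < 2 ^ i,
        MDer M Q K A L1 L2 (.O (M.op (M.run t).st) i) (cellv L1 L2 t p) :=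
      der_low (F := Ty.O (M.op (M.run t).st)) hO0 (fun i hi => .o1 _ i hoko hi)
        (fun i hi => .o2 _ i hoko hi)
    suffices hN : MDer M Q K A L1 L2 (.N b 0) (cellv L1 L2 t p) by
      have := der_time hok L1 0 t (by omega) (by simp) (by rw [pow_zero]; exact ht) hN
      rwa [pow_zero] at this
    cases b with
    | st q' =>
      obtain ⟨rfl, h2⟩ := h
      cases ho : M.op (M.run t).st with
      | nop =>
        rw [run_nop ho] at h2
        rw [← h2]
        exact mder1n (.nn _ hq ho) hB
      | acc =>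
        rw [run_acc ho] at h2
        rw [← h2]
        exact mder1n (.na _ hq ho) hB
      | push g b' =>
        rw [run_push ho] at h2
        rw [← h2]
        exact mder1n (.np _ g b' hq ho) hB
      | pop g =>
        rw [run_pop ho] at h2
        rw [← h2]
        have hokb := okb_stk hb t g 0
        have hBg := ih' (.cl g ((M.run t).stk g)[0]?) 0 ⟨hb.pop _ _ hq ho, hokb⟩ hpos rfl
        show MDer M Q K A L1 L2 (.N (.st (M.nx (M.run t).st ((M.run t).stk g).head?)) 0)
          (cellv L1 L2 t 0)
        rw [List.head?_eq_getElem?]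
        exact mder2n (.nq _ g _ hq ho hokb) hB hBg
    | cl g β =>
      obtain ⟨hg, hβ⟩ := hok
      have h2 : ((M.run (t + 1)).stk g)[p]? = β := h
      by_cases hto : (M.op (M.run t).st).touches g
      · cases ho : M.op (M.run t).st with
        | nop => rw [ho] at hto; exact absurd hto (by simp [Op.touches])
        | acc => rw [ho] at hto; exact absurd hto (by simp [Op.touches])
        | push g' b' =>
          rw [ho] at hto hO0 hOL
          have h' : g' = g := hto
          subst h'
          rw [stk_push ho] at h2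
          have hb' := (hb.push _ _ _ hq ho).2
          rcases Nat.eq_zero_or_pos p with hp0 | hp0
          · subst hp0
            have h3 : β = some b' := by rw [← h2]; rfl
            subst h3
            exact mder1n (.pu g' b' hg hb') hO0
          · obtain ⟨r, rfl⟩ : ∃ r, p = r + 1 := ⟨p - 1, by omega⟩
            rw [List.getElem?_cons_succ] at h2
            have hBr := ih' (.cl g' β) r ⟨hg, hβ⟩ (by omega) h2
            have hU : MDer M Q K A L1 L2 (.U g' β 0) (cellv L1 L2 t r) :=
              mder2n (.u0 g' b' β hg hb' hβ) hBr (hOL L2 le_rfl r (by omega))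
            have := der_U hg hβ L2 0 r (by omega) (by simp) (by rw [pow_zero]; exact hp) hU
            rwa [pow_zero] at this
        | pop g' =>
          rw [ho] at hto hO0 hOL
          have h' : g' = g := hto
          subst h'
          rw [stk_pop ho, List.getElem?_tail] at h2
          by_cases hp1 : p + 1 < 2 ^ L2
          · have hBr := ih' (.cl g' β) (p + 1) ⟨hg, hβ⟩ hp1 h2
            have hD : MDer M Q K A L1 L2 (.D g' β 0) (cellv L1 L2 t (p + 1)) :=
              mder2n (.d0 g' β hg hβ) hBr (hOL L2 le_rfl (p + 1) hp1)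
            have := der_D hg hβ L2 0 (p + 1) (by omega) (by simp) hp1 (by simp) hD
            rwa [pow_zero, Nat.add_sub_cancel] at this
          · have hpe : p = 2 ^ L2 - 1 := by omega
            have h3 : β = none := by
              rw [← h2, List.getElem?_eq_none_iff]
              refine (stk_len _ _).trans ?_
              have h7 : 2 ^ L1 < 2 ^ L2 := Nat.pow_lt_pow_right (by norm_num) hL
              omega
            subst h3
            have hokb := okb_stk hb t g' 0
            have hBr := ih' (.cl g' ((M.run t).stk g')[0]?) 0 ⟨hg, hokb⟩ hpos rfl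
            have hD : MDer M Q K A L1 L2 (.D g' ((M.run t).stk g')[0]? 0) (cellv L1 L2 t 0) :=
              mder2n (.d0 g' _ hg hokb) hBr (hOL L2 le_rfl 0 hpos)
            have hT := der_D_top hg hokb hD L2 le_rfl
            rw [hpe]
            exact mder1n (.d3 g' _ hg hokb) hT
      · rw [stk_keep hto] at h2
        have hBr := ih' (.cl g β) p ⟨hg, hβ⟩ hp h2
        exact mder2n (.kp g β _ hg hβ hoko hto) hBr (hOL L2 le_rfl p hp)

/-- **Completeness**: if the machine accepts in time then the goal is derivable. -/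
theorem mach_acc (hb : M.Bdd Q K A) (hL : L1 < L2) (h : M.Accepts (2 ^ L1)) :
    HDer (MRule M Q K A L1 L2) (MInit L1 L2) (.Acc L1) 0 := by
  obtain ⟨t0, ht0, ho⟩ := h
  have hq := M.run_st_lt hb t0
  have hpos : (0 : ℕ) < 2 ^ L2 := by positivity
  have hB : MDer M Q K A L1 L2 (.B (.st (M.run t0).st)) (cellv L1 L2 t0 0) :=
    der_B hb hL t0 ht0 (.st (M.run t0).st) 0 hq hpos ⟨rfl, rfl⟩
  have key : ∀ i ≤ L1, MDer M Q K A L1 L2 (.Acc i) (cellv L1 L2 (t0 / 2 ^ i * 2 ^ i) 0) := by
    intro i
    induction i with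
    | zero =>
      intro _
      rw [pow_zero, Nat.div_one, mul_one]
      exact mder1n (.a0 _ hq ho) hB
    | succ i ih =>
      intro hi
      have ih' := ih (by omega)
      have hi' : i < L1 := by omega
      have hdd : t0 / 2 ^ (i + 1) = t0 / 2 ^ i / 2 := by
        rw [pow_succ, Nat.div_div_eq_div_mul]
      have hbitv : (t0 / 2 ^ i * 2 ^ i) / 2 ^ i = t0 / 2 ^ i :=
        Nat.mul_div_cancel _ (by positivity)
      cases hbit : (t0 / 2 ^ i * 2 ^ i).testBit i with
      | false =>
        have h1 := (testBit_false_iff _ _).1 hbit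
        rw [hbitv] at h1
        have h2 : t0 / 2 ^ (i + 1) * 2 ^ (i + 1) = t0 / 2 ^ i * 2 ^ i := by
          rw [hdd]
          obtain ⟨r, hr⟩ : ∃ r, t0 / 2 ^ i = 2 * r := ⟨t0 / 2 ^ i / 2, by omega⟩
          rw [hr, Nat.mul_div_cancel_left _ (by norm_num)]
          ring
        rw [h2]
        exact mder1n (.a1 i hi') ih'
      | true =>
        have h1 := (testBit_iff _ _).1 hbit
        rw [hbitv] at h1
        have hx := xor_sub hbit
        have h2 : t0 / 2 ^ (i + 1) * 2 ^ (i + 1) = (t0 / 2 ^ i * 2 ^ i) ^^^ 2 ^ i := by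
          have h3 : t0 / 2 ^ (i + 1) * 2 ^ (i + 1) + 2 ^ i = t0 / 2 ^ i * 2 ^ i := by
            rw [hdd]
            obtain ⟨r, hr⟩ : ∃ r, t0 / 2 ^ i = 2 * r + 1 := ⟨t0 / 2 ^ i / 2, by omega⟩
            have h4 : t0 / 2 ^ i / 2 = r := by omega
            rw [h4, hr]
            ring
          omega
        rw [h2]
        refine mder1 (.a2 i hi') ?_
        rw [cellv_t_add hi', xor_xor_pow]
        exact ih'
  have := key L1 le_rfl
  rwa [Nat.div_eq_of_lt ht0, zero_mul, cellv_zero] at this

end P310
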