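import Vale.Agent.P310.MachCell

/-!
# P310: the truth of the machine is a model of the Horn system
-/

namespace P310

open Function

variable {M : NM} {Q K A L1 L2 : ℕ}

/-! ### the steps of the machine -/

theorem run_nop {t : ℕ} (h : M.op (M.run t).st = .nop) :
    M.run (t + 1) = ⟨M.nx (M.run t).st none, (M.run t).stk⟩ := by
  rw [M.run_succ]
  unfold NM.step
  rw [h]

theorem run_push {t g b : ℕ} (h : M.op (M.run t).st = .push g b) :
    M.run (t + 1) =
      ⟨M.nx (M.run t).st none, update (M.run t).stk g (b :: (M.run t).stk g)⟩ := by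
  rw [M.run_succ]
  unfold NM.step
  rw [h]

theorem run_pop {t g : ℕ} (h : M.op (M.run t).st = .pop g) :
    M.run (t + 1) = ⟨M.nx (M.run t).st ((M.run t).stk g).head?,
      update (M.run t).stk g ((M.run t).stk g).tail⟩ := by
  rw [M.run_succ]
  unfold NM.step
  rw [h]

theorem run_acc {t : ℕ} (h : M.op (M.run t).st = .acc) : M.run (t + 1) = M.run t := by
  rw [M.run_succ]
  unfold NM.step
  rw [h]

theorem stk_keep {t g : ℕ} (h : ¬ (M.op (M.run t).st).touches g) :
    (M.run (t + 1)).stk g = (M.run t).stk g := by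
  cases ho : M.op (M.run t).st with
  | nop => rw [run_nop ho]
  | acc => rw [run_acc ho]
  | push g' b =>
    rw [run_push ho]
    rw [ho] at h
    exact update_of_ne (fun h' => h h'.symm) _ _
  | pop g' =>
    rw [run_pop ho]
    rw [ho] at h
    exact update_of_ne (fun h' => h h'.symm) _ _

theorem stk_push {t g b : ℕ} (h : M.op (M.run t).st = .push g b) :
    (M.run (t + 1)).stk g = b :: (M.run t).stk g := by
  rw [run_push h]
  exact update_self _ _ _

theorem stk_pop {t g : ℕ} (h : M.op (M.run t).st = .pop g) :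
    (M.run (t + 1)).stk g = ((M.run t).stk g).tail := by
  rw [run_pop h]
  exact update_self _ _ _

theorem stk_len (t g : ℕ) : ((M.run t).stk g).length ≤ t := by
  induction t with
  | zero => simp [NM.run]
  | succ t ih =>
    by_cases h : (M.op (M.run t).st).touches g
    · cases ho : M.op (M.run t).st with
      | nop => rw [ho] at h; exact absurd h (by simp [Op.touches])
      | acc => rw [ho] at h; exact absurd h (by simp [Op.touches])
      | push g' b =>
        rw [ho] at h
        have h' : g' = g := h
        subst h'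
        rw [stk_push ho, List.length_cons]
        omega
      | pop g' =>
        rw [ho] at h
        have h' : g' = g := h
        subst h'
        rw [stk_pop ho, List.length_tail]
        omega
    · rw [stk_keep h]
      omega

/-! ### truth at cells -/

theorem tr_cell {T : Ty} (hT : ∀ l β i, T ≠ .X l β i) {t p : ℕ} (ht : t < 2 ^ L1)
    (hp : p < 2 ^ L2) : MTr M L1 L2 T (cellv L1 L2 t p) ↔ TrN M L1 T t p := by
  have key : (∃ t' p', t' < 2 ^ L1 ∧ p' < 2 ^ L2 ∧ cellv L1 L2 t p = cellv L1 L2 t' p' ∧
      TrN M L1 T t' p') ↔ TrN M L1 T t p := by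
    constructor
    · rintro ⟨t', p', h1, h2, h3, h4⟩
      obtain ⟨rfl, rfl⟩ := cellv_inj ht hp h1 h2 h3
      exact h4
    · exact fun h => ⟨t, p, ht, hp, rfl, h⟩
  cases T with
  | X l β i => exact absurd rfl (hT l β i)
  | Z i => exact key
  | B b => exact key
  | N b i => exact key
  | O o i => exact key
  | U g β i => exact key
  | D g β i => exact key
  | Acc i => exact key

theorem tr_X_t {i : ℕ} {β : Bool} {t p : ℕ} (hi : i < L1)
    (h : MTr M L1 L2 (.X i β (L1 + L2)) (cellv L1 L2 t p)) : t.testBit i = β := by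
  have := h.1 (by omega)
  rw [cellv_t hi] at this
  exact bv_inj this

theorem tr_X_p {i : ℕ} {β : Bool} {t p : ℕ} (hi : i < L2)
    (h : MTr M L1 L2 (.X (L1 + i) β (L1 + L2)) (cellv L1 L2 t p)) : p.testBit i = β := by
  have := h.1 (by omega)
  rw [cellv_p] at this
  exact bv_inj this

theorem zmod2_cases (z : ZMod 2) : z = 0 ∨ z = 1 := by
  revert z; decide

/-- **The truth is a model.** -/
theorem mach_model (hL : L1 < L2) :
    HModel (MRule M Q K A L1 L2) (MInit L1 L2) (MTr M L1 L2) where
  init := by
    intro T hT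
    cases hT with
    | x l hl => exact ⟨fun _ => by simp [bv], fun _ _ => rfl⟩
    | z => exact ⟨0, 0, by positivity, by positivity, cellv_zero.symm, rfl, by simp⟩
  rule := by
    intro ρ hρ g h1 h2
    obtain ⟨t, p, ht, hp, rfl⟩ := cellv_surj g
    have e1 : 1 ≤ 2 ^ L1 := Nat.one_le_two_pow
    cases hρ with
    | x1 l i β hl hi =>
      rw [cellv_none] at h1
      exact ⟨h1.1, fun l' hl' => h1.2 l' (by omega)⟩
    | x2 l i β hl hi hne =>
      refine ⟨fun h => ?_, fun l' hl' => ?_⟩
      · have := h1.1 h
        simp only [Pi.add_apply, shv] at this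
        rwa [Pi.single_eq_of_ne (by intro h'; exact hne (by simpa using congrArg Fin.val h'.symm)),
          add_zero] at this
      · have := h1.2 l' (by omega)
        simp only [Pi.add_apply, shv] at this
        rwa [Pi.single_eq_of_ne (by
          intro h'
          have := congrArg Fin.val h'
          simp only at this
          omega), add_zero] at this
    | x3 l hl =>
      refine ⟨fun h => ?_, fun l' hl' => ?_⟩
      · have := h1.1 h
        simp only [Pi.add_apply, shv, Pi.single_eq_same] at this
        rcases zmod2_cases (cellv L1 L2 t p ⟨l, hl⟩) with h3 | h3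
        · rw [h3] at this
          exact absurd this (by decide)
        · rw [h3]; rfl
      · have := h1.2 l' (by omega)
        simp only [Pi.add_apply, shv] at this
        rwa [Pi.single_eq_of_ne (by
          intro h'
          have := congrArg Fin.val h'
          simp only at this
          omega), add_zero] at this
    | z1 i hi =>
      rw [cellv_none, tr_cell (by simp) ht hp] at h1
      rw [tr_cell (by simp) ht hp]
      exact ⟨h1.1, h1.2.trans (Nat.pow_lt_pow_right (by norm_num) (by omega))⟩
    | z2 i hi =>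
      rw [cellv_p_add, tr_cell (by simp) ht (xor_lt hp hi)] at h1
      rw [tr_cell (by simp) ht hp]
      refine ⟨h1.1, ?_⟩
      rw [← xor_xor_pow p i]
      exact xor_lt (h1.2.trans (Nat.pow_lt_pow_right (by norm_num) (by omega))) (by omega)
    | zs =>
      rw [cellv_none, tr_cell (by simp) ht hp] at h1
      rw [tr_cell (by simp) ht hp]
      obtain ⟨rfl, h⟩ := h1
      rw [pow_zero] at h
      exact ⟨by omega, rfl⟩
    | zc g hg =>
      rw [cellv_none, tr_cell (by simp) ht hp] at h1
      rw [tr_cell (by simp) ht hp]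
      obtain ⟨rfl, h⟩ := h1
      show ((M.run 0).stk g)[p]? = none
      simp [NM.run]
    | bo q hq =>
      rw [cellv_none, tr_cell (by simp) ht hp] at h1
      rw [tr_cell (by simp) ht hp]
      obtain ⟨rfl, h⟩ := h1
      exact ⟨by rw [h], by simp⟩
    | o1 o i ho hi =>
      rw [cellv_none, tr_cell (by simp) ht hp] at h1
      rw [tr_cell (by simp) ht hp]
      exact ⟨h1.1, h1.2.trans (Nat.pow_lt_pow_right (by norm_num) (by omega))⟩
    | o2 o i ho hi =>
      rw [cellv_p_add, tr_cell (by simp) ht (xor_lt hp hi)] at h1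
      rw [tr_cell (by simp) ht hp]
      refine ⟨h1.1, ?_⟩
      rw [← xor_xor_pow p i]
      exact xor_lt (h1.2.trans (Nat.pow_lt_pow_right (by norm_num) (by omega))) (by omega)
    | nn q hq hop =>
      rw [cellv_none, tr_cell (by simp) ht hp] at h1
      rw [tr_cell (by simp) ht hp]
      obtain ⟨rfl, h⟩ := h1
      refine ⟨by simp, rfl, ?_⟩
      rw [← h] at hop
      rw [pow_zero, run_nop hop, h]
    | na q hq hop =>
      rw [cellv_none, tr_cell (by simp) ht hp] at h1
      rw [tr_cell (by simp) ht hp]
      obtain ⟨rfl, h⟩ := h1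
      refine ⟨by simp, rfl, ?_⟩
      rw [← h] at hop
      rw [pow_zero, run_acc hop, h]
    | np q g b hq hop =>
      rw [cellv_none, tr_cell (by simp) ht hp] at h1
      rw [tr_cell (by simp) ht hp]
      obtain ⟨rfl, h⟩ := h1
      refine ⟨by simp, rfl, ?_⟩
      rw [← h] at hop
      rw [pow_zero, run_push hop, h]
    | nq q g β hq hop hb =>
      rw [cellv_none, tr_cell (by simp) ht hp] at h1 h2
      rw [tr_cell (by simp) ht hp]
      obtain ⟨rfl, h⟩ := h1
      have h2' : ((M.run t).stk g)[0]? = β := h2
      refine ⟨by simp, rfl, ?_⟩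
      rw [← h] at hop
      rw [pow_zero, run_pop hop, ← h2', List.head?_eq_getElem?, h]
    | kp g β o hg hb ho h =>
      rw [cellv_none, tr_cell (by simp) ht hp] at h1 h2
      rw [tr_cell (by simp) ht hp]
      refine ⟨by simp, ?_⟩
      have h1' : ((M.run t).stk g)[p]? = β := h1
      show ((M.run (t + 2 ^ 0)).stk g)[p]? = β
      rw [← h2.1] at h
      rw [pow_zero, stk_keep h]
      exact h1'
    | pu g b hg hb =>
      rw [cellv_none, tr_cell (by simp) ht hp] at h1
      rw [tr_cell (by simp) ht hp]
      have hp0 : p = 0 := by have := h1.2; rw [pow_zero] at this; omega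
      subst hp0
      refine ⟨by simp, ?_⟩
      show ((M.run (t + 2 ^ 0)).stk g)[0]? = some b
      rw [pow_zero, stk_push h1.1]
      rfl
    | u0 g b β hg hb hβ =>
      rw [cellv_none, tr_cell (by simp) ht hp] at h1 h2
      rw [tr_cell (by simp) ht hp]
      exact ⟨⟨b, h2.1⟩, by simp, h1⟩
    | u1 g β i hg hβ hi =>
      rw [cellv_p_add, tr_cell (by simp) ht (xor_lt hp hi)] at h1
      rw [cellv_p_add] at h2
      rw [tr_cell (by simp) ht hp]
      have hbit := tr_X_p hi h2
      have hx := xor_sub hbit
      rw [xor_xor_pow] at hx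
      obtain ⟨h3, h4, h5⟩ := h1
      refine ⟨h3, ?_, ?_⟩
      · have := dvd_odd' h4 hbit
        rwa [← hx, Nat.add_sub_cancel] at this
      · rw [← hx] at h5
        rw [← h5]
        congr 1
        rw [pow_succ]; omega
    | u2 g β i hg hβ hi =>
      rw [cellv_p_add, tr_cell (by simp) ht (xor_lt hp hi)] at h1
      rw [cellv_p_add] at h2
      rw [tr_cell (by simp) ht hp]
      have hbit := tr_X_p hi h2
      have hx := xor_add hbit
      rw [xor_xor_pow] at hx
      obtain ⟨⟨b, h3⟩, h4, h5⟩ := h1
      refine ⟨by simp, ?_⟩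
      show ((M.run (t + 2 ^ 0)).stk g)[p]? = β
      rw [pow_zero, stk_push h3, ← h5]
      have hpos : 0 < 2 ^ i := by positivity
      obtain ⟨r, hr⟩ : ∃ r, p = r + 1 := ⟨p - 1, by omega⟩
      rw [hr] at hx
      rw [hr, List.getElem?_cons_succ]
      congr 1
      omega
    | d0 g β hg hβ =>
      rw [cellv_none, tr_cell (by simp) ht hp] at h1 h2
      rw [tr_cell (by simp) ht hp]
      exact ⟨h2.1, by simp, h1⟩
    | d1 g β i hg hβ hi =>
      rw [cellv_p_add, tr_cell (by simp) ht (xor_lt hp hi)] at h1
      rw [cellv_p_add] at h2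
      rw [tr_cell (by simp) ht hp]
      have hbit := tr_X_p hi h2
      have hx := xor_add hbit
      rw [xor_xor_pow] at hx
      obtain ⟨h3, h4, h5⟩ := h1
      refine ⟨h3, ?_, ?_⟩
      · have := (succ_bit h4).1 hbit
        rw [hx]
        convert this using 1
        omega
      · rw [← h5]
        congr 1
        rw [pow_succ]; omega
    | d2 g β i hg hβ hi =>
      rw [cellv_p_add, tr_cell (by simp) ht (xor_lt hp hi)] at h1
      rw [cellv_p_add] at h2
      rw [tr_cell (by simp) ht hp]
      have hbit := tr_X_p hi h2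
      have hx := xor_sub hbit
      rw [xor_xor_pow] at hx
      obtain ⟨h3, h4, h5⟩ := h1
      refine ⟨by simp, ?_⟩
      show ((M.run (t + 2 ^ 0)).stk g)[p]? = β
      rw [pow_zero, stk_pop h3, ← h5, List.getElem?_tail]
      congr 1
      omega
    | d3 g β hg hβ =>
      rw [cellv_none, tr_cell (by simp) ht hp] at h1
      rw [tr_cell (by simp) ht hp]
      obtain ⟨h3, h4, h5⟩ := h1
      refine ⟨by simp, ?_⟩
      show ((M.run (t + 2 ^ 0)).stk g)[p]? = none
      have h6 := Nat.le_of_dvd (by omega) h4
      rw [List.getElem?_eq_none_iff]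
      refine (stk_len _ _).trans ?_
      have h7 : 2 ^ L1 < 2 ^ L2 := Nat.pow_lt_pow_right (by norm_num) hL
      rw [pow_zero]
      omega
    | t1 b i hb hi =>
      rw [cellv_t_add hi, tr_cell (by simp) (xor_lt ht hi) hp] at h1
      rw [cellv_t_add hi] at h2
      rw [tr_cell (by simp) ht hp]
      have hbit := tr_X_t hi h2
      have hx := xor_sub hbit
      rw [xor_xor_pow] at hx
      obtain ⟨h4, h5⟩ := h1
      refine ⟨?_, ?_⟩
      · have := dvd_odd' h4 hbit
        rwa [← hx, Nat.add_sub_cancel] at this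
      · rw [← hx] at h5
        have : t + 2 ^ (i + 1) = t + 2 ^ i + 2 ^ i := by rw [pow_succ]; ring
        rw [this]
        exact h5
    | t2 b i hb hi =>
      rw [cellv_t_add hi, tr_cell (by simp) (xor_lt ht hi) hp] at h1
      rw [cellv_t_add hi] at h2
      rw [tr_cell (by simp) ht hp]
      have hbit := tr_X_t hi h2
      have hx := xor_add hbit
      rw [xor_xor_pow] at hx
      obtain ⟨h4, h5⟩ := h1
      rw [← hx] at h5
      exact h5
    | a0 q hq hop =>
      rw [cellv_none, tr_cell (by simp) ht hp] at h1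
      rw [tr_cell (by simp) ht hp]
      obtain ⟨rfl, h⟩ := h1
      exact ⟨rfl, t, ht, rfl, by rw [h]; exact hop⟩
    | a1 i hi =>
      rw [cellv_none, tr_cell (by simp) ht hp] at h1
      rw [tr_cell (by simp) ht hp]
      obtain ⟨h3, t0, h4, h5, h6⟩ := h1
      refine ⟨h3, t0, h4, ?_, h6⟩
      rw [pow_succ, ← Nat.div_div_eq_div_mul, ← Nat.div_div_eq_div_mul, h5]
    | a2 i hi =>
      rw [cellv_t_add hi, tr_cell (by simp) (xor_lt ht hi) hp] at h1
      rw [tr_cell (by simp) ht hp]
      obtain ⟨h3, t0, h4, h5, h6⟩ := h1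
      refine ⟨h3, t0, h4, ?_, h6⟩
      rw [← xor_div (x := t), pow_succ, ← Nat.div_div_eq_div_mul, ← Nat.div_div_eq_div_mul, h5]

/-- if the machine does not accept in time then the goal is not true -/
theorem mach_not (h : ¬ M.Accepts (2 ^ L1)) : ¬ MTr M L1 L2 (.Acc L1) 0 := by
  rintro ⟨t, p, -, -, -, -, t0, h1, -, h2⟩
  exact h ⟨t0, h1, h2⟩

end P310
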