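import Vale.Agent.P310.MachDef

/-!
# P310: the Horn system of a machine is well formed (module HWF)
-/

namespace P310

/-- the coordinate of the shift of a rule, from its first premise -/
def wfSh (L1 : ℕ) : Ty → ℕ
  | .X _ _ i => i
  | .Z i => L1 + i
  | .B _ => 0
  | .N _ i => i
  | .O _ i => L1 + i
  | .U _ _ i => L1 + i
  | .D _ _ i => L1 + i
  | .Acc i => i

/-- is it a type `X`? -/
def wfX : Ty → Bool
  | .X _ _ _ => true
  | _ => false

theorem mach_sh {M : NM} {Q K A L1 L2 : ℕ} {ρ : HRule (L1 + L2) Ty}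
    (h : MRule M Q K A L1 L2 ρ) (hs : ρ.sh ≠ none) :
    (∃ h : wfSh L1 ρ.p1 < L1 + L2, ρ.sh = some ⟨wfSh L1 ρ.p1, h⟩) ∧
      (ρ.p2 = ρ.p1 ∨ (wfX ρ.p2 = true ∧ wfX ρ.p1 = false)) := by
  cases h with
  | x1 => exact absurd rfl hs
  | x2 l i β hl hi h => exact ⟨⟨hi, rfl⟩, Or.inl rfl⟩
  | x3 l hl => exact ⟨⟨hl, rfl⟩, Or.inl rfl⟩
  | z1 => exact absurd rfl hs
  | z2 i hi => exact ⟨⟨by show L1 + i < L1 + L2; omega, rfl⟩, Or.inl rfl⟩
  | zs => exact absurd rfl hs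
  | zc => exact absurd rfl hs
  | bo => exact absurd rfl hs
  | o1 => exact absurd rfl hs
  | o2 o i ho hi => exact ⟨⟨by show L1 + i < L1 + L2; omega, rfl⟩, Or.inl rfl⟩
  | nn => exact absurd rfl hs
  | na => exact absurd rfl hs
  | np => exact absurd rfl hs
  | nq => exact absurd rfl hs
  | kp => exact absurd rfl hs
  | pu => exact absurd rfl hs
  | u0 => exact absurd rfl hs
  | u1 g β i hg hβ hi => exact ⟨⟨by show L1 + i < L1 + L2; omega, rfl⟩, Or.inr ⟨rfl, rfl⟩⟩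
  | u2 g β i hg hβ hi => exact ⟨⟨by show L1 + i < L1 + L2; omega, rfl⟩, Or.inr ⟨rfl, rfl⟩⟩
  | d0 => exact absurd rfl hs
  | d1 g β i hg hβ hi => exact ⟨⟨by show L1 + i < L1 + L2; omega, rfl⟩, Or.inr ⟨rfl, rfl⟩⟩
  | d2 g β i hg hβ hi => exact ⟨⟨by show L1 + i < L1 + L2; omega, rfl⟩, Or.inr ⟨rfl, rfl⟩⟩
  | d3 => exact absurd rfl hs
  | t1 b i hb hi => exact ⟨⟨by show i < L1 + L2; omega, rfl⟩, Or.inr ⟨rfl, rfl⟩⟩
  | t2 b i hb hi => exact ⟨⟨by show i < L1 + L2; omega, rfl⟩, Or.inr ⟨rfl, rfl⟩⟩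
  | a0 => exact absurd rfl hs
  | a1 => exact absurd rfl hs
  | a2 i hi => exact ⟨⟨by show i < L1 + L2; omega, rfl⟩, Or.inl rfl⟩

/-- the Horn system of a machine is well formed -/
theorem mach_wf (M : NM) (Q K A L1 L2 : ℕ) : HWf (MRule M Q K A L1 L2) (Ty.Acc L1) where
  c1 := by
    intro ρ h
    cases h <;> simp
  c2 := by
    intro ρ h
    cases h <;> simp
  a1 := by
    intro ρ h
    cases h <;> simp <;> omega
  a2 := by
    intro ρ h
    cases h <;> simp <;> omega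
  sh := by
    intro ρ ρ' h h' _ hp hs hs'
    obtain ⟨⟨k1, k2⟩, k3⟩ := mach_sh h hs
    obtain ⟨⟨k1', k2'⟩, k3'⟩ := mach_sh h' hs'
    have hp1 : ρ.p1 = ρ'.p1 := by
      have m1 : ρ.p1 ∈ ({ρ'.p1, ρ'.p2} : Set Ty) := by rw [← hp]; simp
      have m2 : ρ'.p1 ∈ ({ρ.p1, ρ.p2} : Set Ty) := by rw [hp]; simp
      rcases m1 with m1 | m1
      · exact m1
      · have m1' : ρ.p1 = ρ'.p2 := m1
        rcases m2 with m2 | m2
        · exact m2.symm
        · have m2' : ρ'.p1 = ρ.p2 := m2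
          rcases k3 with k3 | k3
          · rw [m2', k3]
          · rcases k3' with k3' | k3'
            · rw [m1', k3']
            · rw [← m1', k3.2] at k3'
              exact absurd k3'.1 (by simp)
    rw [k2, k2']
    congr 1
    apply Fin.ext
    show wfSh L1 ρ.p1 = wfSh L1 ρ'.p1
    rw [hp1]

end P310
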