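import Vale.Agent.P310.HornMap
import Vale.Agent.P310.HornDef
import Vale.Agent.P310.MachSound
import Vale.Agent.P310.MachCompl
import Vale.Agent.P310.MachWf

/-!
# P310: the renamed Horn system of a machine

`f : Ty → Main` numbers the types, injectively on a set `S` which contains all types of the
system; `rules : RI → Option (HRule L Main)` enumerates exactly the renamed rules, `ini` are
exactly the renamed initial types.
-/

namespace P310

open Finset

variable {R m d : ℕ} {Main RI : Type}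
variable {M : NM} {Q K A L1 L2 : ℕ} {f : Ty → Main} {S : Set Ty}

/-- the numbering of the types and rules is exact -/
structure MNum (M : NM) (Q K A L1 L2 : ℕ) (f : Ty → Main) (S : Set Ty)
    (rules : RI → Option (HRule (L1 + L2) Main)) (ini : Main → Prop) : Prop where
  inj : Set.InjOn f S
  bdd : ∀ ρ, MRule M Q K A L1 L2 ρ → ρ.p1 ∈ S ∧ ρ.p2 ∈ S ∧ ρ.c ∈ S
  ibdd : ∀ T, MInit L1 L2 T → T ∈ S
  acc : Ty.Acc L1 ∈ S
  sound : ∀ r ρ', rules r = some ρ' → ∃ ρ, MRule M Q K A L1 L2 ρ ∧ ρ' = ρ.ren f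
  complete : ∀ ρ, MRule M Q K A L1 L2 ρ → ∃ r, rules r = some (ρ.ren f)
  ini : ∀ a, ini a ↔ ∃ T, MInit L1 L2 T ∧ f T = a

namespace MNum

variable {rules : RI → Option (HRule (L1 + L2) Main)} {ini : Main → Prop}

theorem hren (N : MNum M Q K A L1 L2 f S rules ini) :
    HRen f S (MRule M Q K A L1 L2) (MInit L1 L2) (Ty.Acc L1) where
  inj := N.inj
  p1 ρ h := (N.bdd ρ h).1
  p2 ρ h := (N.bdd ρ h).2.1
  c ρ h := (N.bdd ρ h).2.2
  ini := N.ibdd
  acc := N.acc

theorem hR (N : MNum M Q K A L1 L2 f S rules ini) :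
    ∀ ρ', (∃ r, rules r = some ρ') → ∃ ρ, MRule M Q K A L1 L2 ρ ∧ ρ' = ρ.ren f :=
  fun ρ' ⟨r, h⟩ => N.sound r ρ' h

/-- the renamed system is well formed -/
theorem hwf (N : MNum M Q K A L1 L2 f S rules ini) :
    HWf (fun ρ => ∃ r, rules r = some ρ) (f (Ty.Acc L1)) :=
  hwf_ren N.hren N.hR (mach_wf M Q K A L1 L2)

/-- the renamed machine does not accept: the hypotheses of section 3 -/
theorem hhyp (N : MNum M Q K A L1 L2 f S rules ini) (hL : L1 < L2)
    (hM : ¬ M.Accepts (2 ^ L1)) {pi : Fin m → GV (L1 + L2) →ₗ[ZMod 2] GV R}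
    (far : ∀ g : GV (L1 + L2), g ≠ 0 → ∀ s : Finset (Fin m), (∀ j ∈ s, pi j g = 0) →
      s.card ≤ d) :
    HHyp d pi rules ini (f (Ty.Acc L1)) (trRen f S (MTr M L1 L2)) where
  wf := N.hwf
  model := hmodel_ren N.hren N.hR (fun a ha => by
    obtain ⟨T, hT, h⟩ := (N.ini a).1 ha
    exact ⟨T, hT, h.symm⟩) (mach_model hL)
  acc_not := hnot_ren N.hren (mach_not hM)
  far := far

/-- the renamed machine accepts: the accepting fact is derivable -/
theorem hder (N : MNum M Q K A L1 L2 f S rules ini) (hb : M.Bdd Q K A) (hL : L1 < L2)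
    (hM : M.Accepts (2 ^ L1)) :
    HDer (fun ρ => ∃ r, rules r = some ρ) ini (f (Ty.Acc L1)) 0 :=
  hder_ren (fun ρ h => N.complete ρ h) (fun T hT => (N.ini _).2 ⟨T, hT, rfl⟩)
    (mach_acc hb hL hM)

end MNum

end P310
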