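import Vale.Agent.P310.HornDef

/-!
# P310: vectors of tokens and facts, as an inductive type

`PV n L Main` is an inductive type of kinds with positions, `PV.val` its value in `HV n L Main`.
On good elements `PV.val` is injective.
-/

namespace P310

open Finset

variable {L R m n d : ℕ} {Main RI : Type} [DecidableEq Main] [DecidableEq RI]

/-! ### algebra over `F_2` -/

theorem zmod2_self (a : ZMod 2) : a + a = 0 := CharTwo.add_self_eq_zero a

theorem gv_self (a : GV n) : a + a = 0 := funext fun i => zmod2_self (a i)

theorem gv_eq_of_add {a b : GV n} (h : a + b = 0) : a = b := by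
  calc a = a + (b + b) := by rw [gv_self, add_zero]
    _ = (a + b) + b := by rw [add_assoc]
    _ = b := by rw [h, zero_add]

theorem hv_self (x : HV n L Main) : x + x = 0 :=
  Prod.ext (funext fun A => zmod2_self _) (Prod.ext (funext fun A => zmod2_self _)
    (funext fun A => gv_self _))

theorem pind_inj {α : Type*} [DecidableEq α] {S T : Finset α} (h : ind S = ind T) : S = T := by
  ext x
  have := congrFun h x
  unfold ind at this
  by_cases h1 : x ∈ S <;> by_cases h2 : x ∈ T <;> simp_all

theorem pind_add {α : Type*} [DecidableEq α] {S T : Finset α} (h : Disjoint S T) :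
    ind S + ind T = ind (S ∪ T) := by
  funext x
  have h3 : x ∈ S → x ∉ T := fun hx => Finset.disjoint_left.1 h hx
  unfold ind
  simp only [Pi.add_apply, mem_union]
  by_cases h1 : x ∈ S
  · have h2 := h3 h1
    simp [h1, h2]
  · by_cases h2 : x ∈ T <;> simp [h1, h2]

theorem pind_empty {α : Type*} [DecidableEq α] : ind (∅ : Finset α) = 0 := by
  funext x
  simp [ind]

/-- vectors with their kinds -/
inductive PV (n L : ℕ) (Main : Type)
  | s (S : Finset Main) (a : GV n)
  | k (C : Main) (i : Fin (L + 1)) (a : GV n)
  | c (C : Main) (i : Fin L) (a : GV n)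
  | f (C : Main)
  | u (S : Finset Main) (C : Main) (b a : GV n)
  | v (S : Finset Main) (C : Main) (b : GV n)

namespace PV

/-- the value -/
def val : PV n L Main → HV n L Main
  | .s S a => sv L S a
  | .k C i a => kv C i a
  | .c C i a => cv C i a
  | .f C => fv C
  | .u S C b a => sv L S b + kv C (Fin.last L) a
  | .v S C b => sv L S b + fv C

/-- good kinds -/
def Good : PV n L Main → Prop
  | .s S _ => S.Nonempty
  | .u S C _ _ => S.Nonempty ∧ C ∉ S
  | .v S C _ => S.Nonempty ∧ C ∉ S
  | _ => True

/-- the support of the first component -/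
def E : PV n L Main → Finset Main
  | .s S _ => S
  | .k _ _ _ => ∅
  | .c _ _ _ => ∅
  | .f C => {C}
  | .u S _ _ _ => S
  | .v S C _ => S ∪ {C}

/-- the support of the second component -/
def K : PV n L Main → Finset (Main × Fin (L + 1))
  | .s _ _ => ∅
  | .k C i _ => {(C, i)}
  | .c C i _ => {(C, i.castSucc), (C, i.succ)}
  | .f C => {(C, Fin.last L)}
  | .u _ C _ _ => {(C, Fin.last L)}
  | .v _ C _ => {(C, Fin.last L)}

/-- change of the positions -/
def map {n' : ℕ} (φ : GV n → GV n') : PV n L Main → PV n' L Main
  | .s S a => .s S (φ a)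
  | .k C i a => .k C i (φ a)
  | .c C i a => .c C i (φ a)
  | .f C => .f C
  | .u S C b a => .u S C (φ b) (φ a)
  | .v S C b => .v S C (φ b)

theorem val_E {x : PV n L Main} (h : x.Good) : x.val.1 = ind x.E := by
  cases x with
  | s S a => rfl
  | k C i a => exact pind_empty.symm
  | c C i a => exact pind_empty.symm
  | f C => rfl
  | u S C b a => exact add_zero _
  | v S C b => exact pind_add (by rw [Finset.disjoint_singleton_right]; exact h.2)

theorem val_K (x : PV n L Main) : x.val.2.1 = ind x.K := by
  cases x with
  | s S a => exact pind_empty.symm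
  | k C i a => rfl
  | c C i a => rfl
  | f C => rfl
  | u S C b a => exact zero_add _
  | v S C b => exact zero_add _

theorem good_map {n' : ℕ} (φ : GV n → GV n') {x : PV n L Main} (h : x.Good) :
    (x.map φ).Good := by
  cases x <;> exact h

theorem inj {x y : PV n L Main} (hx : x.Good) (hy : y.Good) (h : x.val = y.val) : x = y := by
  have hE : x.E = y.E := pind_inj (by rw [← val_E hx, ← val_E hy, h])
  have hK : x.K = y.K := pind_inj (by rw [← val_K, ← val_K, h])
  have hI : ∀ A, x.val.2.2 A = y.val.2.2 A := fun A => by rw [h]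
  have hcc : ∀ (C C' : Main) (i : Fin (L + 1)) (i' : Fin L),
      ({(C, i)} : Finset (Main × Fin (L + 1))) ≠ {(C', i'.castSucc), (C', i'.succ)} := by
    intro C C' i i' h
    have h1 : (C', i'.castSucc) ∈ ({(C, i)} : Finset (Main × Fin (L + 1))) := by rw [h]; simp
    have h2 : (C', i'.succ) ∈ ({(C, i)} : Finset (Main × Fin (L + 1))) := by rw [h]; simp
    rw [mem_singleton, Prod.mk.injEq] at h1 h2
    have h3 := h1.2.trans h2.2.symm
    have h4 := congrArg Fin.val h3
    simp at h4
  cases x with
  | s S a =>
    cases y with
    | s S' a' =>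
      have hS : S = S' := hE
      subst hS
      obtain ⟨A, hA⟩ := hx
      have := hI A
      simp only [val, sv, if_pos hA] at this
      rw [this]
    | k C i a' => exact absurd hE (Finset.Nonempty.ne_empty hx)
    | c C i a' => exact absurd hE (Finset.Nonempty.ne_empty hx)
    | f C => simp [K] at hK
    | u S' C b a' => simp [K] at hK
    | v S' C b => simp [K] at hK
  | k C i a =>
    cases y with
    | s S' a' => exact absurd hE.symm (Finset.Nonempty.ne_empty hy)
    | k C' i' a' =>
      have h1 : ({(C, i)} : Finset (Main × Fin (L + 1))) = {(C', i')} := hK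
      rw [Finset.singleton_inj, Prod.mk.injEq] at h1
      obtain ⟨rfl, rfl⟩ := h1
      have := hI C
      simp only [val, kv, if_true] at this
      rw [this]
    | c C' i' a' => exact absurd hK (hcc _ _ _ _)
    | f C' => simp [E] at hE
    | u S' C' b a' => exact absurd hE.symm (Finset.Nonempty.ne_empty hy.1)
    | v S' C' b =>
      have hE' := hE.symm
      simp [E] at hE'
  | c C i a =>
    cases y with
    | s S' a' => exact absurd hE.symm (Finset.Nonempty.ne_empty hy)
    | k C' i' a' => exact absurd hK.symm (hcc _ _ _ _)
    | c C' i' a' =>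
      have hK' : ({(C, i.castSucc), (C, i.succ)} : Finset (Main × Fin (L + 1))) =
        {(C', i'.castSucc), (C', i'.succ)} := hK
      have h1 : (C, i.castSucc) ∈ ({(C', i'.castSucc), (C', i'.succ)} :
          Finset (Main × Fin (L + 1))) := by
        rw [← hK']; simp
      have h2 : (C, i.succ) ∈ ({(C', i'.castSucc), (C', i'.succ)} :
          Finset (Main × Fin (L + 1))) := by
        rw [← hK']; simp
      simp only [mem_insert, mem_singleton, Prod.mk.injEq, Fin.ext_iff, Fin.val_castSucc,
        Fin.val_succ] at h1 h2
      have hC : C = C' := by rcases h1 with h1 | h1 <;> exact h1.1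
      have hi : i = i' := Fin.ext (by omega)
      subst hC
      subst hi
      have := hI C
      simp only [val, cv, if_true] at this
      rw [this]
    | f C' => simp [E] at hE
    | u S' C' b a' => exact absurd hE.symm (Finset.Nonempty.ne_empty hy.1)
    | v S' C' b =>
      have hE' := hE.symm
      simp [E] at hE'
  | f C =>
    cases y with
    | s S' a' => simp [K] at hK
    | k C' i' a' => simp [E] at hE
    | c C' i' a' => simp [E] at hE
    | f C' =>
      have h1 : ({C} : Finset Main) = {C'} := hE
      rw [Finset.singleton_inj] at h1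
      rw [h1]
    | u S' C' b a' =>
      have h1 : ({C} : Finset Main) = S' := hE
      have h2 : ({(C, Fin.last L)} : Finset (Main × Fin (L + 1))) = {(C', Fin.last L)} := hK
      rw [Finset.singleton_inj, Prod.mk.injEq] at h2
      exact absurd (by rw [← h1, h2.1]; simp) hy.2
    | v S' C' b =>
      have h1 : ({C} : Finset Main) = S' ∪ {C'} := hE
      have h2 : ({(C, Fin.last L)} : Finset (Main × Fin (L + 1))) = {(C', Fin.last L)} := hK
      rw [Finset.singleton_inj, Prod.mk.injEq] at h2
      obtain ⟨A, hA⟩ := hy.1
      have h3 : A ∈ ({C} : Finset Main) := by rw [h1]; exact mem_union_left _ hA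
      rw [mem_singleton] at h3
      exact absurd (by rw [← h2.1, ← h3]; exact hA) hy.2
  | u S C b a =>
    cases y with
    | s S' a' => simp [K] at hK
    | k C' i' a' => exact absurd hE (Finset.Nonempty.ne_empty hx.1)
    | c C' i' a' => exact absurd hE (Finset.Nonempty.ne_empty hx.1)
    | f C' =>
      have h1 : S = ({C'} : Finset Main) := hE
      have h2 : ({(C, Fin.last L)} : Finset (Main × Fin (L + 1))) = {(C', Fin.last L)} := hK
      rw [Finset.singleton_inj, Prod.mk.injEq] at h2
      exact absurd (by rw [h1, h2.1]; simp) hx.2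
    | u S' C' b' a' =>
      have h1 : S = S' := hE
      have h2 : ({(C, Fin.last L)} : Finset (Main × Fin (L + 1))) = {(C', Fin.last L)} := hK
      rw [Finset.singleton_inj, Prod.mk.injEq] at h2
      obtain ⟨rfl, -⟩ := h2
      subst h1
      obtain ⟨A, hA⟩ := hx.1
      have hAC : A ≠ C := fun h => hx.2 (h ▸ hA)
      have h3 := hI A
      have h4 := hI C
      simp only [val, sv, kv, Prod.snd_add, Pi.add_apply, if_pos hA, if_neg hAC, add_zero] at h3
      simp only [val, sv, kv, Prod.snd_add, Pi.add_apply, if_neg hx.2, if_true, zero_add] at h4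
      rw [h3, h4]
    | v S' C' b' =>
      have h1 : S = S' ∪ {C'} := hE
      have h2 : ({(C, Fin.last L)} : Finset (Main × Fin (L + 1))) = {(C', Fin.last L)} := hK
      rw [Finset.singleton_inj, Prod.mk.injEq] at h2
      exact absurd (by rw [h1, h2.1]; simp) hx.2
  | v S C b =>
    cases y with
    | s S' a' => simp [K] at hK
    | k C' i' a' => simp [E] at hE
    | c C' i' a' => simp [E] at hE
    | f C' =>
      have h1 : S ∪ {C} = ({C'} : Finset Main) := hE
      have h2 : ({(C, Fin.last L)} : Finset (Main × Fin (L + 1))) = {(C', Fin.last L)} := hK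
      rw [Finset.singleton_inj, Prod.mk.injEq] at h2
      obtain ⟨A, hA⟩ := hx.1
      have h3 : A ∈ ({C'} : Finset Main) := by rw [← h1]; exact mem_union_left _ hA
      rw [mem_singleton] at h3
      exact absurd (by rw [h2.1, ← h3]; exact hA) hx.2
    | u S' C' b' a' =>
      have h1 : S ∪ {C} = S' := hE
      have h2 : ({(C, Fin.last L)} : Finset (Main × Fin (L + 1))) = {(C', Fin.last L)} := hK
      rw [Finset.singleton_inj, Prod.mk.injEq] at h2
      exact absurd (by rw [← h1, h2.1]; simp) hy.2
    | v S' C' b' =>
      have h1 : S ∪ {C} = S' ∪ {C'} := hE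
      have h2 : ({(C, Fin.last L)} : Finset (Main × Fin (L + 1))) = {(C', Fin.last L)} := hK
      rw [Finset.singleton_inj, Prod.mk.injEq] at h2
      obtain ⟨rfl, -⟩ := h2
      have hS : S = S' := by
        ext A
        have h3 : A ∈ S ∪ {C} ↔ A ∈ S' ∪ {C} := by rw [h1]
        rw [mem_union, mem_union, mem_singleton] at h3
        by_cases hA : A = C
        · subst hA
          exact ⟨fun h => absurd h hx.2, fun h => absurd h hy.2⟩
        · tauto
      subst hS
      obtain ⟨A, hA⟩ := hx.1
      have h3 := hI A
      simp only [val, sv, fv, Prod.snd_add, Pi.add_apply, if_pos hA, Pi.zero_apply,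
        add_zero] at h3
      rw [h3]

theorem val_map (pi : Fin m → GV L →ₗ[ZMod 2] GV R) (j : Fin m) (x : PV L L Main) :
    hev pi j x.val = (x.map (pi j)).val := by
  cases x with
  | s S a =>
    refine Prod.ext rfl (Prod.ext rfl (funext fun A => ?_))
    simp only [hev, map, val, sv, LinearMap.coe_mk, AddHom.coe_mk]
    split_ifs <;> simp
  | k C i a =>
    refine Prod.ext rfl (Prod.ext rfl (funext fun A => ?_))
    simp only [hev, map, val, kv, LinearMap.coe_mk, AddHom.coe_mk]
    split_ifs <;> simp
  | c C i a =>
    refine Prod.ext rfl (Prod.ext rfl (funext fun A => ?_))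
    simp only [hev, map, val, cv, LinearMap.coe_mk, AddHom.coe_mk]
    split_ifs <;> simp
  | f C =>
    refine Prod.ext rfl (Prod.ext rfl (funext fun A => ?_))
    simp [hev, map, val, fv]
  | u S C b a =>
    refine Prod.ext rfl (Prod.ext rfl (funext fun A => ?_))
    simp only [hev, map, val, sv, kv, LinearMap.coe_mk, AddHom.coe_mk, Prod.snd_add,
      Pi.add_apply, map_add]
    split_ifs <;> simp
  | v S C b =>
    refine Prod.ext rfl (Prod.ext rfl (funext fun A => ?_))
    simp only [hev, map, val, sv, fv, LinearMap.coe_mk, AddHom.coe_mk, Prod.snd_add,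
      Pi.add_apply, map_add]
    split_ifs <;> simp

end PV

end P310
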