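import Vale.Agent.P310.XorSpoil

/-!
# P310: robust and refutable XOR systems

`Robust vars b k`: the abstract Duplicator data.  `Ref vars b k P e c`: the equation `e · x = c`
is derived at the window `P` with at most `k` pebbles.  Both notions are transported along
embeddings of the classes into larger sets of classes in which all other classes are dummies.
-/

set_option linter.unusedSectionVars false

namespace P310

open Sys

section defs
variable {X E : Type*}

/-- The variables covered by a class. -/
def covOf (vars : E → Finset X) : X ⊕ E → Finset X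
  | .inl x => {x}
  | .inr e => vars e

/-- Abstract Duplicator data for an XOR system. -/
def Robust (vars : E → Finset X) (b : E → ZMod 2) (k : ℕ) : Prop :=
  ∃ Good : Set (X ⊕ E) → (X → ZMod 2) → Prop,
    Good ∅ 0 ∧
    (∀ P lam, Good P lam → ∀ e, Sum.inr e ∈ P → ∑ x ∈ vars e, lam x = b e) ∧
    (∀ P P' lam, Good P lam → P' ⊆ P → Good P' lam) ∧
    (∀ P lam, Good P lam → P.encard ≤ k → ∀ p, ∃ mu, (∀ q ∈ P, ∀ x ∈ covOf vars q,
      mu x = lam x) ∧ Good (insert p P) mu) ∧
    (∀ P lam mu, Good P lam → (∀ q ∈ P, ∀ x ∈ covOf vars q, mu x = lam x) → Good P mu)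

/-- Derivations with windows of at most `k` classes. -/
inductive Ref [DecidableEq X] [DecidableEq E] (vars : E → Finset X) (b : E → ZMod 2) (k : ℕ) :
    Finset (X ⊕ E) → (X → ZMod 2) → ZMod 2 → Prop
  | zero : Ref vars b k ∅ 0 0
  | eqn (e : E) : Ref vars b k {Sum.inr e} (fun v => if v ∈ vars e then 1 else 0) (b e)
  | add {P e e' c c'} (h : Ref vars b k P e c) (h' : Ref vars b k P e' c') :
      Ref vars b k P (fun v => e v + e' v) (c + c')
  | mono {P P' e c} (h : Ref vars b k P e c) (hP : P ⊆ P') : Ref vars b k P' e c
  | drop {P q e c} (h : Ref vars b k (insert q P) e c)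
      (he : ∀ v, e v ≠ 0 → ∃ p ∈ P, v ∈ covOf vars p) (hcard : P.card < k) : Ref vars b k P e c

/-- A refutation with at most `k` pebbles. -/
def Refutable [DecidableEq X] [DecidableEq E] (vars : E → Finset X) (b : E → ZMod 2) (k : ℕ) :
    Prop :=
  ∃ P e, P.card ≤ k ∧ P.Nonempty ∧ Ref vars b k P e 0 ∧ Ref vars b k P e 1

end defs

theorem covOf_eq {X E : Type*} (S : Sys X E) : covOf S.vars = S.cov := by
  funext p
  rcases p with p | p <;> rfl

section main
variable {X E J : Type*} [Finite X] [Finite E] [Finite J]

theorem Robust.wlEquiv (S : Sys X E) {b : E → ZMod 2} {k : ℕ} (h : Robust S.vars b k)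
    (hne : Nonempty (X ⊕ E)) : WLEquiv k (S.graph 0 J) (S.graph b J) := by
  obtain ⟨Good, h0, h1, h2, h3, -⟩ := h
  rw [covOf_eq] at h3
  exact wlEquiv_of_good S b k Good h0 h1 h2 h3 hne

theorem Ref.holds [Fintype X] [DecidableEq X] [DecidableEq E] (S : Sys X E) {b : E → ZMod 2}
    {k : ℕ} (hk : 3 ≤ k) {P : Finset (X ⊕ E)} {e : X → ZMod 2} {c : ZMod 2}
    (h : Ref S.vars b k P e c) : HoldsAt S b J k (P : Set (X ⊕ E)) e c := by
  induction h with
  | zero => exact HoldsAt.zero
  | eqn e => exact HoldsAt.eqn hk e (by simp)
  | add _ _ ih ih' => exact ih.add ih'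
  | mono _ hP ih => exact ih.mono (by exact_mod_cast hP)
  | drop _ he hcard ih =>
    rw [covOf_eq] at he
    rw [Finset.coe_insert] at ih
    exact ih.drop hk he hcard

theorem Refutable.not_wlEquiv [DecidableEq X] [DecidableEq E] (S : Sys X E) {b : E → ZMod 2}
    {k : ℕ} (hk : 3 ≤ k) (h : Refutable S.vars b k) :
    ¬ WLEquiv k (S.graph 0 J) (S.graph b J) := by
  classical
  cases nonempty_fintype X
  obtain ⟨P, e, hc, hne, h0, h1⟩ := h
  exact HoldsAt.contra hk (h0.holds S hk) (h1.holds S hk) hc hne

end main

section transport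
variable {X E X' E' : Type*}

/-- The image of a class. -/
def mapCls (f : X → X') (g : E → E') : X ⊕ E → X' ⊕ E' := Sum.map f g

theorem mapCls_inj {f : X → X'} {g : E → E'} (hf : Function.Injective f)
    (hg : Function.Injective g) : Function.Injective (mapCls f g) := Sum.map_injective.2 ⟨hf, hg⟩

variable [DecidableEq X] [DecidableEq E] [DecidableEq X'] [DecidableEq E']

/-- Embedding of an XOR system in a larger one in which all other classes are dummies. -/
structure Emb (vars : E → Finset X) (b : E → ZMod 2) (vars' : E' → Finset X') (b' : E' → ZMod 2)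
    where
  f : X → X'
  g : E → E'
  f_inj : Function.Injective f
  g_inj : Function.Injective g
  hvars : ∀ e, vars' (g e) = (vars e).image f
  hb : ∀ e, b' (g e) = b e
  hdummy : ∀ e', (∀ e, g e ≠ e') → vars' e' = ∅ ∧ b' e' = 0

variable {vars : E → Finset X} {b : E → ZMod 2} {vars' : E' → Finset X'} {b' : E' → ZMod 2}

theorem Robust.transport (M : Emb vars b vars' b') {k : ℕ} (h : Robust vars b k) :
    Robust vars' b' k := by
  classical
  obtain ⟨Good, h0, h1, h2, h3, h4⟩ := h
  have hcov : ∀ q x, M.f x ∈ covOf vars' (mapCls M.f M.g q) ↔ x ∈ covOf vars q := by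
    rintro (q | q) x
    · simp [mapCls, covOf, M.f_inj.eq_iff]
    · simp [mapCls, covOf, M.hvars, M.f_inj.eq_iff]
  refine ⟨fun P lam => Good (mapCls M.f M.g ⁻¹' P) (fun x => lam (M.f x)), ?_, ?_, ?_, ?_, ?_⟩
  · exact h0
  · intro P lam hg e' he'
    by_cases hd : ∃ e, M.g e = e'
    · obtain ⟨e, rfl⟩ := hd
      rw [M.hvars, Finset.sum_image (fun a _ c _ hac => M.f_inj hac), M.hb]
      exact h1 _ _ hg e he'
    · push Not at hd
      obtain ⟨hd1, hd2⟩ := M.hdummy e' hd
      rw [hd1, hd2, Finset.sum_empty]
  · intro P P' lam hg hP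
    exact h2 _ _ _ hg (Set.preimage_mono hP)
  · intro P lam hg hcard p'
    have hcard' : (mapCls M.f M.g ⁻¹' P).encard ≤ k := by
      refine le_trans ?_ hcard
      rw [← (mapCls_inj M.f_inj M.g_inj).encard_image]
      exact Set.encard_le_encard (Set.image_preimage_subset _ _)
    by_cases hp : ∃ p, mapCls M.f M.g p = p'
    · obtain ⟨p, rfl⟩ := hp
      obtain ⟨mu, hmu1, hmu2⟩ := h3 _ _ hg hcard' p
      refine ⟨fun x' => if hx : ∃ x, M.f x = x' then mu hx.choose else lam x', ?_, ?_⟩
      · intro q' hq' x' hx'
        by_cases hx : ∃ x, M.f x = x'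
        · obtain ⟨x, rfl⟩ := hx
          have hex : ∃ y, M.f y = M.f x := ⟨x, rfl⟩
          simp only [dif_pos hex]
          have : hex.choose = x := M.f_inj hex.choose_spec
          rw [this]
          -- the class `q'` is not a dummy
          have hq : ∃ q, mapCls M.f M.g q = q' := by
            rcases q' with y | e'
            · simp only [covOf, Finset.mem_singleton] at hx'
              exact ⟨.inl x, by simp [mapCls, hx']⟩
            · by_contra hcon
              push Not at hcon
              have := (M.hdummy e' (fun e he => hcon (.inr e) (by simp [mapCls, he]))).1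
              simp only [covOf, this, Finset.notMem_empty] at hx'
          obtain ⟨q, rfl⟩ := hq
          exact hmu1 q hq' x ((hcov q x).1 hx')
        · simp only [dif_neg hx]
      · have hfin : Good (insert p (mapCls M.f M.g ⁻¹' P))
            (fun x => (if hx : ∃ y, M.f y = M.f x then mu hx.choose else lam (M.f x))) := by
          refine h4 _ mu _ hmu2 ?_
          intro q _ x _
          have hex : ∃ y, M.f y = M.f x := ⟨x, rfl⟩
          simp only [dif_pos hex]
          rw [M.f_inj hex.choose_spec]
        · refine h2 _ _ _ hfin ?_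
          intro q hq
          rcases hq with hq | hq
          · exact Or.inl (mapCls_inj M.f_inj M.g_inj hq)
          · exact Or.inr hq
    · push Not at hp
      refine ⟨lam, fun _ _ _ _ => rfl, h2 _ _ _ hg ?_⟩
      intro q hq
      rcases hq with hq | hq
      · exact absurd hq (hp q)
      · exact hq
  · intro P lam mu hg hmu
    refine h4 _ _ _ hg (fun q hq x hx => ?_)
    exact hmu _ hq _ ((hcov q x).2 hx)

/-- Push-forward of a linear form. -/
noncomputable def push (f : X → X') (e : X → ZMod 2) : X' → ZMod 2 := Function.extend f e 0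

theorem push_apply {f : X → X'} (hf : Function.Injective f) (e : X → ZMod 2) (x : X) :
    push f e (f x) = e x := hf.extend_apply e 0 x

theorem push_of_not {f : X → X'} (e : X → ZMod 2) (x' : X') (h : ∀ x, f x ≠ x') :
    push f e x' = 0 := by
  unfold push
  rw [Function.extend_apply' _ _ _ (by rintro ⟨x, hx⟩; exact h x hx)]
  rfl

theorem Ref.transport (M : Emb vars b vars' b') {k : ℕ} {P : Finset (X ⊕ E)} {e : X → ZMod 2}
    {c : ZMod 2} (h : Ref vars b k P e c) :
    Ref vars' b' k (P.image (mapCls M.f M.g)) (push M.f e) c := by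
  have hinj := mapCls_inj M.f_inj M.g_inj
  induction h with
  | zero =>
    have : push M.f (0 : X → ZMod 2) = 0 := by
      funext x'
      by_cases hx : ∃ x, M.f x = x'
      · obtain ⟨x, rfl⟩ := hx
        exact push_apply M.f_inj _ _
      · push Not at hx
        exact push_of_not _ _ hx
    rw [this, Finset.image_empty]
    exact Ref.zero
  | eqn e =>
    have : push M.f (fun v => if v ∈ vars e then 1 else 0) =
        fun v' => if v' ∈ vars' (M.g e) then 1 else 0 := by
      funext x'
      rw [M.hvars]
      by_cases hx : ∃ x, M.f x = x'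
      · obtain ⟨x, rfl⟩ := hx
        rw [push_apply M.f_inj]
        simp [M.f_inj.eq_iff]
      · push Not at hx
        rw [push_of_not _ _ hx, if_neg]
        simp only [Finset.mem_image, not_exists, not_and]
        exact fun x _ => hx x
    rw [this, Finset.image_singleton, ← M.hb e]
    exact Ref.eqn (M.g e)
  | @add P e e' c c' _ _ ih ih' =>
    have : push M.f (fun v => e v + e' v) = fun v => push M.f e v + push M.f e' v := by
      funext x'
      by_cases hx : ∃ x, M.f x = x'
      · obtain ⟨x, rfl⟩ := hx
        simp only [push_apply M.f_inj]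
      · push Not at hx
        simp only [push_of_not _ _ hx, add_zero]
    rw [this]
    exact Ref.add ih ih'
  | mono _ hP ih => exact Ref.mono ih (Finset.image_subset_image hP)
  | @drop P q e c _ he hcard ih =>
    rw [Finset.image_insert] at ih
    refine Ref.drop ih ?_ (by rwa [Finset.card_image_of_injective _ hinj])
    intro x' hx'
    by_cases hx : ∃ x, M.f x = x'
    · obtain ⟨x, rfl⟩ := hx
      rw [push_apply M.f_inj] at hx'
      obtain ⟨p, hp, hpx⟩ := he x hx'
      refine ⟨mapCls M.f M.g p, Finset.mem_image_of_mem _ hp, ?_⟩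
      rcases p with p | p
      · simp only [covOf, Finset.mem_singleton] at hpx
        simp [mapCls, covOf, hpx]
      · simp only [covOf] at hpx
        simp only [mapCls, Sum.map_inr, covOf, M.hvars]
        exact Finset.mem_image_of_mem _ hpx
    · push Not at hx
      exact absurd (push_of_not _ _ hx) hx'

theorem Refutable.transport (M : Emb vars b vars' b') {k : ℕ} (h : Refutable vars b k) :
    Refutable vars' b' k := by
  obtain ⟨P, e, hc, hne, h0, h1⟩ := h
  exact ⟨_, _, by rwa [Finset.card_image_of_injective _ (mapCls_inj M.f_inj M.g_inj)],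
    hne.image _, h0.transport M, h1.transport M⟩

end transport

end P310
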