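import Vale.Agent.P310.ProdSys
import Vale.Agent.P310.Transport

/-!
# P310: Theorem A (no refutation with fewer than about `2 (m - 3 d)` pebbles)

See notes/P310.md, section 2.
-/

set_option linter.unusedSectionVars false

namespace P310

open Finset

/-! ### Linear algebra -/

section linear
variable {X : Type*} [Fintype X] [DecidableEq X]

/-- The equations `(a, a · lam)` with `a` supported in `C`. -/
def evalSub (C : Set X) (lam : X → ZMod 2) : Submodule (ZMod 2) ((X → ZMod 2) × ZMod 2) where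
  carrier := {p | (∀ v, v ∉ C → p.1 v = 0) ∧ ∑ v, p.1 v * lam v = p.2}
  zero_mem' := by simp
  add_mem' := by
    rintro a b ⟨ha1, ha2⟩ ⟨hb1, hb2⟩
    refine ⟨fun v hv => by simp [ha1 v hv, hb1 v hv], ?_⟩
    simp only [Prod.fst_add, Pi.add_apply, add_mul, Finset.sum_add_distrib, Prod.snd_add, ha2, hb2]
  smul_mem' := by
    rintro r a ⟨ha1, ha2⟩
    refine ⟨fun v hv => by simp [ha1 v hv], ?_⟩
    simp only [Prod.smul_fst, Pi.smul_apply, smul_eq_mul, Prod.smul_snd, ← ha2, Finset.mul_sum,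
      mul_assoc]

theorem exists_solution (K : Submodule (ZMod 2) ((X → ZMod 2) × ZMod 2)) (C : Set X)
    (lam : X → ZMod 2)
    (h : ∀ e c, (e, c) ∈ K → (∀ v, v ∉ C → e v = 0) → ∑ v, e v * lam v = c) :
    ∃ mu : X → ZMod 2, (∀ v ∈ C, mu v = lam v) ∧ ∀ e c, (e, c) ∈ K → ∑ v, e v * mu v = c := by
  set K' := K ⊔ evalSub C lam with hK'
  have hnot : ((0 : X → ZMod 2), (1 : ZMod 2)) ∉ K' := by
    intro hmem
    rw [hK', Submodule.mem_sup] at hmem
    obtain ⟨⟨e, c⟩, hec, ⟨a, r⟩, ⟨ha1, ha2⟩, hsum⟩ := hmem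
    simp only [Prod.mk_add_mk, Prod.mk.injEq] at hsum
    obtain ⟨h1, h2⟩ := hsum
    have hea : e = a := by
      funext v
      have := congrFun h1 v
      simp only [Pi.add_apply, Pi.zero_apply] at this
      exact CharTwo.add_eq_zero.mp this
    subst hea
    have := h e c hec ha1
    simp only at ha2
    rw [ha2] at this
    subst this
    rw [CharTwo.add_self_eq_zero] at h2
    exact zero_ne_one h2
  obtain ⟨g, hg1, hg2⟩ := Submodule.exists_le_ker_of_notMem hnot
  have hg1' : g (0, 1) = 1 := by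
    have : ∀ a : ZMod 2, a ≠ 0 → a = 1 := by decide
    exact this _ hg1
  have hgK : ∀ e c, (e, c) ∈ K' → g (e, 0) = c := by
    intro e c hec
    have h1 : g (e, c) = 0 := hg2 hec
    have h2 : g (e, c) = g (e, 0) + c * g (0, 1) := by
      rw [← smul_eq_mul, ← map_smul, ← map_add]
      simp
    rw [h2, hg1', mul_one] at h1
    exact CharTwo.add_eq_zero.mp h1
  have hexp : ∀ e : X → ZMod 2, g (e, 0) = ∑ v, e v * g (Pi.single v 1, 0) := by
    intro e
    have h1 : (e, (0 : ZMod 2)) = ∑ v, e v • ((Pi.single v 1 : X → ZMod 2), (0 : ZMod 2)) := by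
      refine Prod.ext ?_ ?_
      · rw [Prod.fst_sum]
        funext w
        simp [Finset.sum_apply, Pi.single_apply]
      · rw [Prod.snd_sum]
        simp
    rw [h1, map_sum]
    simp only [map_smul, smul_eq_mul]
  refine ⟨fun v => g (Pi.single v 1, 0), fun v hv => ?_, fun e c hec => ?_⟩
  · refine hgK _ _ (Submodule.mem_sup_right ⟨fun w hw => ?_, ?_⟩)
    · have : w ≠ v := fun h' => hw (h' ▸ hv)
      simp [this]
    · simp [Pi.single_apply]
  · rw [← hexp]
    exact hgK e c (Submodule.mem_sup_left hec)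

/-- Sub-sums of at most three vectors with sum zero. -/
theorem subsum_three {A W : Type*} [DecidableEq A] [AddCommGroup W] [Module (ZMod 2) W]
    (s : Finset A) (hs : s.card ≤ 3) (v : A → W) (hv : ∑ a ∈ s, v a = 0) (ε : A → ZMod 2) :
    ∑ a ∈ s, ε a • v a = 0 ∨ ∃ a ∈ s, ∑ a ∈ s, ε a • v a = v a := by
  classical
  have hself : ∀ w : W, w + w = 0 := fun w => by
    rw [← two_smul (ZMod 2), show (2 : ZMod 2) = 0 from rfl, zero_smul]
  have hsmall : ∀ B ⊆ s, B.card ≤ 1 → ∑ a ∈ B, v a = 0 ∨ ∃ a ∈ s, ∑ a ∈ B, v a = v a := by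
    intro B hB hc
    rcases Nat.le_one_iff_eq_zero_or_eq_one.mp hc with h | h
    · rw [Finset.card_eq_zero] at h
      left
      rw [h, Finset.sum_empty]
    · obtain ⟨a, rfl⟩ := Finset.card_eq_one.mp h
      exact Or.inr ⟨a, hB (Finset.mem_singleton_self a), Finset.sum_singleton _ _⟩
  have hsum : ∑ a ∈ s, ε a • v a = ∑ a ∈ s.filter (fun a => ε a = 1), v a := by
    rw [Finset.sum_filter]
    refine Finset.sum_congr rfl fun a _ => ?_
    have : ε a = 0 ∨ ε a = 1 := by
      have : ∀ x : ZMod 2, x = 0 ∨ x = 1 := by decide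
      exact this _
    rcases this with h | h
    · simp [h]
    · simp [h]
  have hcompl : ∑ a ∈ s.filter (fun a => ε a = 1), v a =
      ∑ a ∈ s.filter (fun a => ¬ ε a = 1), v a := by
    have := Finset.sum_filter_add_sum_filter_not s (fun a => ε a = 1) v
    rw [hv] at this
    calc ∑ a ∈ s.filter (fun a => ε a = 1), v a
        = (∑ a ∈ s.filter (fun a => ε a = 1), v a + ∑ a ∈ s.filter (fun a => ¬ ε a = 1), v a) +
          ∑ a ∈ s.filter (fun a => ¬ ε a = 1), v a := by rw [add_assoc, hself, add_zero]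
      _ = _ := by rw [this, zero_add]
  have hcard := Finset.card_filter_add_card_filter_not (s := s) (fun a => ε a = 1)
  rw [hsum]
  by_cases h1 : (s.filter (fun a => ε a = 1)).card ≤ 1
  · exact hsmall _ (Finset.filter_subset _ _) h1
  · rw [hcompl]
    exact hsmall _ (Finset.filter_subset _ _) (by omega)

end linear

/-! ### Windows -/

section window
variable {m l : ℕ} {Tok Ax Z : Type*}

/-- The digit of a class. -/
def pdig : PVar m l Tok Z ⊕ PEqn m l Ax Z → Option (Fin m)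
  | .inl (.inl (j, _)) => some j
  | .inl (.inr (.inl (_, j, _))) => some j
  | .inl (.inr (.inr _)) => none
  | .inr (.inl (j, _)) => some j
  | .inr (.inr (_, j, _)) => some j

/-- The column `c` of the grid of `z` is touched by `P`. -/
def Touched (P : Set (PVar m l Tok Z ⊕ PEqn m l Ax Z)) (z : Z) (c : Fin l) : Prop :=
  (∃ j, Sum.inr (Sum.inr (z, j, c)) ∈ P) ∨ ∃ j, Sum.inl (vver z j c) ∈ P

theorem exists_untouched {k : ℕ} (hl : k + 1 < l) (P : Set (PVar m l Tok Z ⊕ PEqn m l Ax Z))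
    (hP : P.encard ≤ (k + 1 : ℕ)) : ∃ cz : Z → Fin l, ∀ z, ¬ Touched P z (cz z) := by
  classical
  have hfin : P.Finite := Set.finite_of_encard_le_coe hP
  have : ∀ z : Z, ∃ c : Fin l, ¬ Touched P z c := by
    intro z
    by_contra hcon
    push Not at hcon
    have hch : ∀ c : Fin l, ∃ p ∈ P, (∃ j, p = Sum.inr (Sum.inr (z, j, c))) ∨
        ∃ j, p = Sum.inl (vver z j c) := by
      intro c
      rcases hcon c with ⟨j, hj⟩ | ⟨j, hj⟩
      · exact ⟨_, hj, Or.inl ⟨j, rfl⟩⟩
      · exact ⟨_, hj, Or.inr ⟨j, rfl⟩⟩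
    choose g hg1 hg2 using hch
    have hinj : Function.Injective g := by
      intro c c' hcc
      rcases hg2 c with ⟨j, hj⟩ | ⟨j, hj⟩ <;> rcases hg2 c' with ⟨j', hj'⟩ | ⟨j', hj'⟩ <;>
        rw [hj, hj'] at hcc <;> simp at hcc
      · exact hcc.2
      · exact hcc.2
    have h1 : (Set.range g).encard ≤ P.encard :=
      Set.encard_le_encard (by rintro _ ⟨c, rfl⟩; exact hg1 c)
    have h2 : (Set.range g).encard = l := by
      rw [← Set.image_univ, hinj.encard_image, Set.encard_univ]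
      simp
    rw [h2] at h1
    have := h1.trans hP
    have : l ≤ k + 1 := by exact_mod_cast this
    omega
  choose cz hcz using this
  exact ⟨cz, hcz⟩

/-- The number of digits with at most one pebble. -/
theorem exists_good {k d : ℕ} (hk : k + 1 + 6 * d < 2 * m)
    (P : Set (PVar m l Tok Z ⊕ PEqn m l Ax Z)) (hP : P.encard ≤ (k + 1 : ℕ)) :
    ∃ s : Finset (Fin m), 3 * d < s.card ∧
      ∀ j ∈ s, ∀ p ∈ P, ∀ q ∈ P, pdig p = some j → pdig q = some j → p = q := by
  classical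
  have hfin : P.Finite := Set.finite_of_encard_le_coe hP
  let Q : Finset (PVar m l Tok Z ⊕ PEqn m l Ax Z) := hfin.toFinset
  have hQ : Q.card ≤ k + 1 := by
    have : P.encard = Q.card := by
      rw [hfin.encard_eq_coe_toFinset_card]
    rw [this] at hP
    exact_mod_cast hP
  let fib : Fin m → Finset (PVar m l Tok Z ⊕ PEqn m l Ax Z) := fun j =>
    Q.filter (fun p => pdig p = some j)
  have hsum : ∑ j : Fin m, (fib j).card ≤ Q.card := by
    rw [← Finset.card_biUnion]
    · refine Finset.card_le_card ?_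
      intro p hp
      simp only [fib, Finset.mem_biUnion, Finset.mem_filter] at hp
      obtain ⟨j, _, hp, _⟩ := hp
      exact hp
    · intro i _ j _ hij
      rw [Function.onFun, Finset.disjoint_left]
      intro p hp hp'
      simp only [fib, Finset.mem_filter] at hp hp'
      rw [hp.2] at hp'
      exact hij (Option.some.inj hp'.2)
  let s : Finset (Fin m) := Finset.univ.filter (fun j => (fib j).card ≤ 1)
  have hbad : 2 * (Finset.univ.filter (fun j : Fin m => ¬ (fib j).card ≤ 1)).card ≤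
      ∑ j : Fin m, (fib j).card := by
    calc 2 * (Finset.univ.filter (fun j : Fin m => ¬ (fib j).card ≤ 1)).card
        = ∑ j ∈ Finset.univ.filter (fun j : Fin m => ¬ (fib j).card ≤ 1), 2 := by
          rw [Finset.sum_const, smul_eq_mul, mul_comm]
      _ ≤ ∑ j ∈ Finset.univ.filter (fun j : Fin m => ¬ (fib j).card ≤ 1), (fib j).card := by
          refine Finset.sum_le_sum fun j hj => ?_
          have := (Finset.mem_filter.mp hj).2
          omega
      _ ≤ _ := Finset.sum_le_sum_of_subset (Finset.filter_subset _ _)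
  have htot := Finset.card_filter_add_card_filter_not (s := (Finset.univ : Finset (Fin m)))
    (fun j => (fib j).card ≤ 1)
  rw [Finset.card_univ, Fintype.card_fin] at htot
  refine ⟨s, ?_, ?_⟩
  · show 3 * d < (Finset.univ.filter (fun j => (fib j).card ≤ 1)).card
    omega
  · intro j hj p hp q hq hpj hqj
    have h1 : (fib j).card ≤ 1 := (Finset.mem_filter.mp hj).2
    rw [Finset.card_le_one] at h1
    refine h1 p ?_ q ?_
    · exact Finset.mem_filter.mpr ⟨hfin.mem_toFinset.mpr hp, hpj⟩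
    · exact Finset.mem_filter.mpr ⟨hfin.mem_toFinset.mpr hq, hqj⟩

variable [DecidableEq Tok] [DecidableEq Z]

theorem mem_gridVars {ztok : Z → Fin m → Tok} {z : Z} {j : Fin m} {c : Fin l}
    {v : PVar m l Tok Z} : v ∈ gridVars ztok z j c ↔
      (c.1 + 1 < l ∧ v = vhor z j c) ∨ (¬ c.1 + 1 < l ∧ v = vtok j (ztok z j)) ∨
      (∃ c' : Fin l, c'.1 + 1 = c.1 ∧ v = vhor z j c') ∨
      (j.1 + 1 < m ∧ v = vver z j c) ∨ (∃ j' : Fin m, j'.1 + 1 = j.1 ∧ v = vver z j' c) := by
  unfold gridVars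
  simp only [Finset.mem_union]
  constructor
  · rintro (((h | h) | h) | h)
    · by_cases hc : c.1 + 1 < l
      · rw [Finset.mem_singleton, if_pos hc] at h
        exact Or.inl ⟨hc, h⟩
      · rw [Finset.mem_singleton, if_neg hc] at h
        exact Or.inr (Or.inl ⟨hc, h⟩)
    · by_cases hc : 0 < c.1
      · rw [dif_pos hc, Finset.mem_singleton] at h
        exact Or.inr (Or.inr (Or.inl ⟨⟨c.1 - 1, by omega⟩, by simp; omega, h⟩))
      · rw [dif_neg hc] at h
        exact absurd h (Finset.notMem_empty _)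
    · by_cases hc : j.1 + 1 < m
      · rw [if_pos hc, Finset.mem_singleton] at h
        exact Or.inr (Or.inr (Or.inr (Or.inl ⟨hc, h⟩)))
      · rw [if_neg hc] at h
        exact absurd h (Finset.notMem_empty _)
    · by_cases hc : 0 < j.1
      · rw [dif_pos hc, Finset.mem_singleton] at h
        exact Or.inr (Or.inr (Or.inr (Or.inr ⟨⟨j.1 - 1, by omega⟩, by simp; omega, h⟩)))
      · rw [dif_neg hc] at h
        exact absurd h (Finset.notMem_empty _)
  · rintro (⟨hc, h⟩ | ⟨hc, h⟩ | ⟨c', hc, h⟩ | ⟨hc, h⟩ | ⟨j', hc, h⟩)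
    · left; left; left
      rw [Finset.mem_singleton, if_pos hc]; exact h
    · left; left; left
      rw [Finset.mem_singleton, if_neg hc]; exact h
    · left; left; right
      have h0 : 0 < c.1 := by omega
      rw [dif_pos h0, Finset.mem_singleton]
      have : c' = ⟨c.1 - 1, by omega⟩ := Fin.ext (by simp; omega)
      rw [h, this]
    · left; right
      rw [if_pos hc, Finset.mem_singleton]; exact h
    · right
      have h0 : 0 < j.1 := by omega
      rw [dif_pos h0, Finset.mem_singleton]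
      have : j' = ⟨j.1 - 1, by omega⟩ := Fin.ext (by simp; omega)
      rw [h, this]

variable {axt : Fin m → Ax → Finset Tok} {ztok : Z → Fin m → Tok}

theorem cov_tok {j : Fin m} {τ : Tok} {p : PVar m l Tok Z ⊕ PEqn m l Ax Z}
    (h : vtok j τ ∈ covOf (prodVars axt ztok) p) :
    p = Sum.inl (vtok j τ) ∨ (∃ a, p = Sum.inr (Sum.inl (j, a)) ∧ τ ∈ axt j a) ∨
      ∃ z c, p = Sum.inr (Sum.inr (z, j, c)) ∧ τ = ztok z j := by
  rcases p with p | ⟨j', a⟩ | ⟨z, j', c⟩
  · simp only [covOf, Finset.mem_singleton] at h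
    exact Or.inl (by rw [h])
  · simp only [covOf, prodVars, Finset.mem_image] at h
    obtain ⟨τ', hτ', h⟩ := h
    simp only [Sum.inl.injEq, Prod.mk.injEq] at h
    obtain ⟨rfl, rfl⟩ := h
    exact Or.inr (Or.inl ⟨a, rfl, hτ'⟩)
  · simp only [covOf, prodVars, mem_gridVars] at h
    rcases h with ⟨_, h⟩ | ⟨_, h⟩ | ⟨c', _, h⟩ | ⟨_, h⟩ | ⟨j', _, h⟩ <;> simp at h
    obtain ⟨rfl, rfl⟩ := h
    exact Or.inr (Or.inr ⟨z, c, rfl, rfl⟩)

theorem cov_hor {z : Z} {j : Fin m} {c : Fin l} {p : PVar m l Tok Z ⊕ PEqn m l Ax Z}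
    (h : vhor z j c ∈ covOf (prodVars axt ztok) p) :
    p = Sum.inl (vhor z j c) ∨ ∃ c', p = Sum.inr (Sum.inr (z, j, c')) := by
  rcases p with p | ⟨j', a⟩ | ⟨z', j', c'⟩
  · simp only [covOf, Finset.mem_singleton] at h
    exact Or.inl (by rw [h])
  · simp only [covOf, prodVars, Finset.mem_image] at h
    obtain ⟨τ', hτ', h⟩ := h
    simp at h
  · simp only [covOf, prodVars, mem_gridVars] at h
    rcases h with ⟨_, h⟩ | ⟨_, h⟩ | ⟨c', _, h⟩ | ⟨_, h⟩ | ⟨j', _, h⟩ <;> simp at h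
    · obtain ⟨rfl, rfl, rfl⟩ := h
      exact Or.inr ⟨_, rfl⟩
    · obtain ⟨rfl, rfl, rfl⟩ := h
      exact Or.inr ⟨_, rfl⟩

theorem cov_ver {z : Z} {j : Fin m} {c : Fin l} {p : PVar m l Tok Z ⊕ PEqn m l Ax Z}
    (h : vver z j c ∈ covOf (prodVars axt ztok) p) :
    p = Sum.inl (vver z j c) ∨ ∃ j', p = Sum.inr (Sum.inr (z, j', c)) := by
  rcases p with p | ⟨j', a⟩ | ⟨z', j', c'⟩
  · simp only [covOf, Finset.mem_singleton] at h
    exact Or.inl (by rw [h])
  · simp only [covOf, prodVars, Finset.mem_image] at h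
    obtain ⟨τ', hτ', h⟩ := h
    simp at h
  · simp only [covOf, prodVars, mem_gridVars] at h
    rcases h with ⟨_, h⟩ | ⟨_, h⟩ | ⟨c', _, h⟩ | ⟨_, h⟩ | ⟨j', _, h⟩ <;> simp at h
    · obtain ⟨rfl, rfl, rfl⟩ := h
      exact Or.inr ⟨_, rfl⟩
    · obtain ⟨rfl, rfl, rfl⟩ := h
      exact Or.inr ⟨_, rfl⟩

end window

/-! ### Certificates -/

section cert
variable {m d l : ℕ} {Tok Ax Z F W : Type*} [DecidableEq Tok] [DecidableEq Z]
  [Fintype Tok] [Fintype Z]
  [AddCommGroup F] [Module (ZMod 2) F] [AddCommGroup W] [Module (ZMod 2) W]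
  (PS : ProdSys m d Tok Ax Z F W)

open Classical in
/-- The value of a fact: `1` for the accepting fact. -/
noncomputable def valF (t : F) : ZMod 2 := if t = PS.zfact PS.acc then 1 else 0

/-- `(X, t)` is a certificate of `(e, c)`. -/
structure Cert (hm : 0 < m) (hl : 0 < l) (cz : Z → Fin l) (e : PVar m l Tok Z → ZMod 2)
    (c : ZMod 2) (X : Z → Fin m → Fin l → ZMod 2) (t : F) : Prop where
  ht : t = 0 ∨ t ∈ PS.T ∨ t = PS.zfact PS.acc
  hor : ∀ z j (c c' : Fin l), c.1 + 1 = c'.1 → e (vhor z j c) = X z j c + X z j c'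
  horl : ∀ z j (c : Fin l), ¬ c.1 + 1 < l → e (vhor z j c) = 0
  ver : ∀ z (j j' : Fin m) c, j.1 + 1 = j'.1 → e (vver z j c) = X z j c + X z j' c
  verl : ∀ z (j : Fin m) c, ¬ j.1 + 1 < m → e (vver z j c) = 0
  tok : ∀ j, ∑ τ, e (vtok j τ) • PS.vec j τ +
    ∑ z, X z j ⟨l - 1, by omega⟩ • PS.ev j (PS.zfact z) = PS.ev j t
  val : c = X PS.acc ⟨0, hm⟩ ⟨0, hl⟩ + valF PS t
  zero : ∀ z j, X z j (cz z) = 0

/-- The derivable equations of the window `P`. -/
def KP (hm : 0 < m) (hl : 0 < l) (P : Set (PVar m l Tok Z ⊕ PEqn m l Ax Z)) (cz : Z → Fin l)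
    (e : PVar m l Tok Z → ZMod 2) (c : ZMod 2) : Prop :=
  (∀ v, e v ≠ 0 → ∃ p ∈ P, v ∈ covOf (prodVars PS.axt PS.ztok) p) ∧
    ∃ X t, Cert PS hm hl cz e c X t

variable {PS}

theorem self_add {V : Type*} [AddCommGroup V] [Module (ZMod 2) V] (w : V) : w + w = 0 := by
  rw [← two_smul (ZMod 2), show (2 : ZMod 2) = 0 from rfl, zero_smul]

theorem eq_of_add_zero {V : Type*} [AddCommGroup V] [Module (ZMod 2) V] {v w : V}
    (h : v + w = 0) : v = w := by
  calc v = v + (w + w) := by rw [self_add, add_zero]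
    _ = (v + w) + w := (add_assoc _ _ _).symm
    _ = w := by rw [h, zero_add]

theorem zfact_acc_ne (hm : 0 < m) : PS.zfact PS.acc ≠ 0 := by
  intro h
  have := PS.ev_acc_ne ⟨0, hm⟩
  rw [h, map_zero] at this
  exact this rfl

theorem valF_zero (hm : 0 < m) : valF PS (0 : F) = 0 := by
  unfold valF
  rw [if_neg (fun h => zfact_acc_ne hm h.symm)]

theorem valF_T {t : F} (h : t ∈ PS.T) : valF PS t = 0 := by
  unfold valF
  rw [if_neg]
  rintro rfl
  exact PS.acc_not h

theorem valF_acc : valF PS (PS.zfact PS.acc) = 1 := if_pos rfl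

theorem ev_ne' {t : F} (h : t ∈ PS.T ∨ t = PS.zfact PS.acc) (j : Fin m) : PS.ev j t ≠ 0 := by
  rcases h with h | rfl
  · exact PS.ev_ne t h j
  · exact PS.ev_acc_ne j

/-- Facts that agree at more than `d` digits are equal. -/
theorem eq_of_many {t t' : F} (s : Finset (Fin m)) (hs : d < s.card)
    (h : ∀ j ∈ s, PS.ev j t = PS.ev j t') : t = t' := by
  by_contra hne
  have h1 : t + t' ≠ 0 := fun h' => hne (eq_of_add_zero h')
  have := PS.ev_inj (t + t') h1 s (fun j hj => by rw [map_add, h j hj, self_add])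
  omega

variable {hm : 0 < m} {hl : 0 < l}

/-- `X` is constant along a row in which no horizontal variable occurs. -/
theorem row_const {X : Z → Fin m → Fin l → ZMod 2} {z : Z} {j : Fin m}
    (h : ∀ c c' : Fin l, c.1 + 1 = c'.1 → X z j c = X z j c') (a b : Fin l) :
    X z j a = X z j b := by
  have key : ∀ n (hn : n < l), X z j ⟨n, hn⟩ = X z j ⟨0, by omega⟩ := by
    intro n
    induction n with
    | zero => intro _; rfl
    | succ n ih =>
      intro hn
      rw [← ih (by omega)]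
      exact (h ⟨n, by omega⟩ ⟨n + 1, hn⟩ rfl).symm
  exact (key a.1 a.2).trans (key b.1 b.2).symm

/-- If `X` is not constant along a row then the row carries a pebble. -/
theorem exists_gridPeb {P : Set (PVar m l Tok Z ⊕ PEqn m l Ax Z)} {cz : Z → Fin l}
    {e : PVar m l Tok Z → ZMod 2} {c : ZMod 2} {X : Z → Fin m → Fin l → ZMod 2} {t : F}
    (hsupp : ∀ v, e v ≠ 0 → ∃ p ∈ P, v ∈ covOf (prodVars PS.axt PS.ztok) p)
    (hC : Cert PS hm hl cz e c X t) {z : Z} {j : Fin m} {a b : Fin l}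
    (hab : X z j a ≠ X z j b) :
    (∃ c, Sum.inl (vhor z j c) ∈ P) ∨ ∃ c, Sum.inr (Sum.inr (z, j, c)) ∈ P := by
  by_contra hcon
  push Not at hcon
  obtain ⟨h1, h2⟩ := hcon
  refine hab (row_const (fun c c' hcc => ?_) a b)
  have h3 : e (vhor z j c) = 0 := by
    by_contra hne
    obtain ⟨p, hp, hpc⟩ := hsupp _ hne
    rcases cov_hor hpc with rfl | ⟨c', rfl⟩
    · exact h1 c hp
    · exact h2 c' hp
  rw [hC.hor z j c c' hcc] at h3
  exact CharTwo.add_eq_zero.mp h3

variable (PS)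

/-- The vectors a class may contribute at its digit. -/
def LocP (j : Fin m) : PVar m l Tok Z ⊕ PEqn m l Ax Z → W → Prop
  | .inl (.inl (_, τ)), w => w = PS.vec j τ
  | .inl (.inr (.inl (z, _, _))), w => w = PS.ev j (PS.zfact z)
  | .inl (.inr (.inr _)), _ => False
  | .inr (.inl (_, a)), w => ∃ τ ∈ PS.axt j a, w = PS.vec j τ
  | .inr (.inr (z, _, _)), w => w = PS.ev j (PS.zfact z)

variable {PS}

theorem zmod2_smul {V : Type*} [AddCommGroup V] [Module (ZMod 2) V] (a : ZMod 2) (v : V) :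
    a • v = 0 ∨ a • v = v := by
  have : a = 0 ∨ a = 1 := by revert a; decide
  rcases this with rfl | rfl
  · exact Or.inl (zero_smul _ _)
  · exact Or.inr (one_smul _ _)

/-- **Locality.** -/
theorem locality {P : Set (PVar m l Tok Z ⊕ PEqn m l Ax Z)} {cz : Z → Fin l}
    {e : PVar m l Tok Z → ZMod 2} {c : ZMod 2} {X : Z → Fin m → Fin l → ZMod 2} {t : F}
    (hsupp : ∀ v, e v ≠ 0 → ∃ p ∈ P, v ∈ covOf (prodVars PS.axt PS.ztok) p)
    (hC : Cert PS hm hl cz e c X t) {j : Fin m}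
    (hj : ∀ p ∈ P, ∀ q ∈ P, pdig p = some j → pdig q = some j → p = q) :
    PS.ev j t = 0 ∨ ∃ p ∈ P, pdig p = some j ∧ LocP PS j p (PS.ev j t) := by
  classical
  -- the tokens
  have htok : ∀ τ, e (vtok j τ) ≠ 0 → ∃ p ∈ P, pdig p = some j ∧
      (p = Sum.inl (vtok j τ) ∨ (∃ a, p = Sum.inr (Sum.inl (j, a)) ∧ τ ∈ PS.axt j a) ∨
      ∃ z c, p = Sum.inr (Sum.inr (z, j, c)) ∧ τ = PS.ztok z j) := by
    intro τ hτ
    obtain ⟨p, hp, hpc⟩ := hsupp _ hτ
    refine ⟨p, hp, ?_, cov_tok hpc⟩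
    rcases cov_tok hpc with rfl | ⟨a, rfl, _⟩ | ⟨z, c, rfl, _⟩ <;> rfl
  -- the grids
  have hgrid : ∀ z, X z j ⟨l - 1, by omega⟩ ≠ 0 → ∃ p ∈ P, pdig p = some j ∧
      ((∃ c, p = Sum.inl (vhor z j c)) ∨ ∃ c, p = Sum.inr (Sum.inr (z, j, c))) := by
    intro z hz
    rcases exists_gridPeb hsupp hC (z := z) (j := j) (a := ⟨l - 1, by omega⟩) (b := cz z)
      (by rw [hC.zero]; exact hz) with ⟨c, hc⟩ | ⟨c, hc⟩
    · exact ⟨_, hc, rfl, Or.inl ⟨c, rfl⟩⟩
    · exact ⟨_, hc, rfl, Or.inr ⟨c, rfl⟩⟩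
  by_cases hex : ∃ p ∈ P, pdig p = some j
  swap
  · left
    rw [← hC.tok j]
    have h1 : ∀ τ, e (vtok j τ) = 0 := fun τ => by
      by_contra hne
      obtain ⟨p, hp, hpj, _⟩ := htok τ hne
      exact hex ⟨p, hp, hpj⟩
    have h2 : ∀ z, X z j ⟨l - 1, by omega⟩ = 0 := fun z => by
      by_contra hne
      obtain ⟨p, hp, hpj, _⟩ := hgrid z hne
      exact hex ⟨p, hp, hpj⟩
    simp only [h1, h2, zero_smul, Finset.sum_const_zero, add_zero]
  obtain ⟨p, hp, hpj⟩ := hex
  have htok' : ∀ τ, e (vtok j τ) ≠ 0 →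
      (p = Sum.inl (vtok j τ) ∨ (∃ a, p = Sum.inr (Sum.inl (j, a)) ∧ τ ∈ PS.axt j a) ∨
      ∃ z c, p = Sum.inr (Sum.inr (z, j, c)) ∧ τ = PS.ztok z j) := by
    intro τ hτ
    obtain ⟨q, hq, hqj, hq'⟩ := htok τ hτ
    rwa [hj p hp q hq hpj hqj]
  have hgrid' : ∀ z, X z j ⟨l - 1, by omega⟩ ≠ 0 →
      ((∃ c, p = Sum.inl (vhor z j c)) ∨ ∃ c, p = Sum.inr (Sum.inr (z, j, c))) := by
    intro z hz
    obtain ⟨q, hq, hqj, hq'⟩ := hgrid z hz
    rwa [hj p hp q hq hpj hqj]
  have hT := hC.tok j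
  suffices h : PS.ev j t = 0 ∨ LocP PS j p (PS.ev j t) by
    rcases h with h | h
    · exact Or.inl h
    · exact Or.inr ⟨p, hp, hpj, h⟩
  rcases p with (⟨j', τ0⟩ | ⟨z0, j', c0⟩ | q) | ⟨j', a⟩ | ⟨z0, j', c0⟩
  · -- a token
    have h2 : ∀ z, X z j ⟨l - 1, by omega⟩ = 0 := fun z => by
      by_contra hne
      rcases hgrid' z hne with ⟨c, hc⟩ | ⟨c, hc⟩ <;> simp at hc
    have h1 : ∀ τ, τ ≠ τ0 → e (vtok j τ) = 0 := fun τ hτ => by
      by_contra hne
      rcases htok' τ hne with h | ⟨a, h, _⟩ | ⟨z, c, h, _⟩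
      · simp at h
        exact hτ h.2.symm
      · simp at h
      · simp at h
    have h3 : ∑ τ, e (vtok j τ) • PS.vec j τ = e (vtok j τ0) • PS.vec j τ0 := by
      refine Finset.sum_eq_single τ0 (fun τ _ hτ => by rw [h1 τ hτ, zero_smul]) (fun h => ?_)
      exact absurd (Finset.mem_univ _) h
    rw [h3] at hT
    simp only [h2, zero_smul, Finset.sum_const_zero, add_zero] at hT
    rw [← hT]
    exact zmod2_smul _ _
  · -- a horizontal variable
    have h1 : ∀ τ, e (vtok j τ) = 0 := fun τ => by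
      by_contra hne
      rcases htok' τ hne with h | ⟨a, h, _⟩ | ⟨z, c, h, _⟩ <;> simp at h
    have h2 : ∀ z, z ≠ z0 → X z j ⟨l - 1, by omega⟩ = 0 := fun z hz => by
      by_contra hne
      rcases hgrid' z hne with ⟨c, hc⟩ | ⟨c, hc⟩
      · simp at hc
        exact hz hc.1.symm
      · simp at hc
    have h3 : ∑ z, X z j ⟨l - 1, by omega⟩ • PS.ev j (PS.zfact z) =
        X z0 j ⟨l - 1, by omega⟩ • PS.ev j (PS.zfact z0) := by
      refine Finset.sum_eq_single z0 (fun z _ hz => by rw [h2 z hz, zero_smul]) (fun h => ?_)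
      exact absurd (Finset.mem_univ _) h
    rw [h3] at hT
    simp only [h1, zero_smul, Finset.sum_const_zero, zero_add] at hT
    rw [← hT]
    exact zmod2_smul _ _
  · simp [pdig] at hpj
  · -- an axiom
    have hjj : j' = j := by simpa [pdig] using hpj
    subst hjj
    have h2 : ∀ z, X z j' ⟨l - 1, by omega⟩ = 0 := fun z => by
      by_contra hne
      rcases hgrid' z hne with ⟨c, hc⟩ | ⟨c, hc⟩ <;> simp at hc
    have h1 : ∀ τ, τ ∉ PS.axt j' a → e (vtok j' τ) = 0 := fun τ hτ => by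
      by_contra hne
      rcases htok' τ hne with h | ⟨a', h, h'⟩ | ⟨z, c, h, _⟩
      · simp at h
      · simp at h
        subst h
        exact hτ h'
      · simp at h
    have h3 : ∑ τ, e (vtok j' τ) • PS.vec j' τ =
        ∑ τ ∈ PS.axt j' a, e (vtok j' τ) • PS.vec j' τ := by
      symm
      refine Finset.sum_subset (Finset.subset_univ _) (fun τ _ hτ => ?_)
      rw [h1 τ hτ, zero_smul]
    rw [h3] at hT
    simp only [h2, zero_smul, Finset.sum_const_zero, add_zero] at hT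
    rw [← hT]
    exact subsum_three _ (PS.ax_card j' a) _ (PS.ax_sum j' a) _
  · -- a grid vertex
    have h1 : ∀ τ, τ ≠ PS.ztok z0 j → e (vtok j τ) = 0 := fun τ hτ => by
      by_contra hne
      rcases htok' τ hne with h | ⟨a', h, h'⟩ | ⟨z, c, h, h'⟩
      · simp at h
      · simp at h
      · simp at h
        rw [h.1] at hτ
        exact hτ h'
    have h2 : ∀ z, z ≠ z0 → X z j ⟨l - 1, by omega⟩ = 0 := fun z hz => by
      by_contra hne
      rcases hgrid' z hne with ⟨c, hc⟩ | ⟨c, hc⟩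
      · simp at hc
      · simp at hc
        exact hz hc.1.symm
    have h3 : ∑ z, X z j ⟨l - 1, by omega⟩ • PS.ev j (PS.zfact z) =
        X z0 j ⟨l - 1, by omega⟩ • PS.ev j (PS.zfact z0) := by
      refine Finset.sum_eq_single z0 (fun z _ hz => by rw [h2 z hz, zero_smul]) (fun h => ?_)
      exact absurd (Finset.mem_univ _) h
    have h4 : ∑ τ, e (vtok j τ) • PS.vec j τ =
        e (vtok j (PS.ztok z0 j)) • PS.vec j (PS.ztok z0 j) := by
      refine Finset.sum_eq_single _ (fun τ _ hτ => by rw [h1 τ hτ, zero_smul]) (fun h => ?_)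
      exact absurd (Finset.mem_univ _) h
    rw [h3, h4, PS.zvec, ← add_smul] at hT
    rw [← hT]
    exact zmod2_smul _ _

/-- Sums of facts of certificates. -/
theorem fact_add {k : ℕ} (hk : k + 1 + 6 * d < 2 * m)
    {P : Set (PVar m l Tok Z ⊕ PEqn m l Ax Z)} (hP : P.encard ≤ (k + 1 : ℕ))
    {cz : Z → Fin l} {e1 e2 : PVar m l Tok Z → ZMod 2} {c1 c2 : ZMod 2}
    {X1 X2 : Z → Fin m → Fin l → ZMod 2} {t1 t2 : F}
    (hs1 : ∀ v, e1 v ≠ 0 → ∃ p ∈ P, v ∈ covOf (prodVars PS.axt PS.ztok) p)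
    (hs2 : ∀ v, e2 v ≠ 0 → ∃ p ∈ P, v ∈ covOf (prodVars PS.axt PS.ztok) p)
    (hC1 : Cert PS hm hl cz e1 c1 X1 t1) (hC2 : Cert PS hm hl cz e2 c2 X2 t2) :
    t1 = 0 ∨ t2 = 0 ∨ t1 = t2 ∨ (t1 ∈ PS.T ∧ t2 ∈ PS.T ∧ t1 + t2 ∈ PS.T) := by
  classical
  by_cases h1 : t1 = 0
  · exact Or.inl h1
  by_cases h2 : t2 = 0
  · exact Or.inr (Or.inl h2)
  by_cases h12 : t1 = t2
  · exact Or.inr (Or.inr (Or.inl h12))
  right; right; right
  have h1' := hC1.ht.resolve_left h1
  have h2' := hC2.ht.resolve_left h2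
  obtain ⟨s, hs, hsP⟩ := exists_good hk P hP
  let s2 := s.filter (fun j => PS.ev j t1 ≠ PS.ev j t2)
  have hs2card : 2 * d < s2.card := by
    have h3 := Finset.card_filter_add_card_filter_not (s := s)
      (fun j => PS.ev j t1 ≠ PS.ev j t2)
    have h4 : (s.filter (fun j => ¬ PS.ev j t1 ≠ PS.ev j t2)).card ≤ d := by
      by_contra hcon
      exact h12 (eq_of_many (PS := PS) _ (not_le.mp hcon) (fun j hj => by
        have := (Finset.mem_filter.mp hj).2
        exact not_not.mp this))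
    show 2 * d < (s.filter (fun j => PS.ev j t1 ≠ PS.ev j t2)).card
    omega
  have hax : ∀ j ∈ s2, PS.ev j t1 ≠ PS.ev j t2 ∧ ∃ a, ∃ τ ∈ PS.axt j a, ∃ τ' ∈ PS.axt j a,
      PS.vec j τ = PS.ev j t1 ∧ PS.vec j τ' = PS.ev j t2 := by
    intro j hj
    obtain ⟨hjs, hne⟩ := Finset.mem_filter.mp hj
    refine ⟨hne, ?_⟩
    rcases locality hs1 hC1 (hsP j hjs) with h | ⟨p, hp, hpj, hl1⟩
    · exact absurd h (ev_ne' h1' j)
    rcases locality hs2 hC2 (hsP j hjs) with h | ⟨q, hq, hqj, hl2⟩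
    · exact absurd h (ev_ne' h2' j)
    have := hsP j hjs p hp q hq hpj hqj
    subst this
    rcases p with (⟨j', τ0⟩ | ⟨z0, j', c0⟩ | q) | ⟨j', a⟩ | ⟨z0, j', c0⟩
    · exact absurd (hl1.trans hl2.symm) hne
    · exact absurd (hl1.trans hl2.symm) hne
    · exact hl1.elim
    · obtain ⟨τ, hτ, e1⟩ := hl1
      obtain ⟨τ', hτ', e2⟩ := hl2
      exact ⟨a, τ, hτ, τ', hτ', e1.symm, e2.symm⟩
    · exact absurd (hl1.trans hl2.symm) hne
  rcases h1' with h1' | h1' <;> rcases h2' with h2' | h2'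
  · exact ⟨h1', h2', PS.add_mem t1 h1' t2 h2' h12 s2 hs2card hax⟩
  · subst h2'
    exact absurd hax (PS.acc_far t1 h1' s2 hs2card)
  · subst h1'
    refine absurd ?_ (PS.acc_far t2 h2' s2 hs2card)
    intro j hj
    obtain ⟨hne, a, τ, hτ, τ', hτ', e1, e2⟩ := hax j hj
    exact ⟨hne.symm, a, τ', hτ', τ, hτ, e2, e1⟩
  · exact absurd (h1'.trans h2'.symm) h12

theorem KP.add {k : ℕ} (hk : k + 1 + 6 * d < 2 * m)
    {P : Set (PVar m l Tok Z ⊕ PEqn m l Ax Z)} (hP : P.encard ≤ (k + 1 : ℕ))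
    {cz : Z → Fin l} {e1 e2 : PVar m l Tok Z → ZMod 2} {c1 c2 : ZMod 2}
    (h1 : KP PS hm hl P cz e1 c1) (h2 : KP PS hm hl P cz e2 c2) :
    KP PS hm hl P cz (e1 + e2) (c1 + c2) := by
  obtain ⟨hs1, X1, t1, hC1⟩ := h1
  obtain ⟨hs2, X2, t2, hC2⟩ := h2
  have hadd := fact_add hk hP hs1 hs2 hC1 hC2
  refine ⟨fun v hv => ?_, X1 + X2, t1 + t2, ?_⟩
  · by_cases h : e1 v = 0
    · refine hs2 v (fun h' => hv ?_)
      simp [h, h']
    · exact hs1 v h
  · have hval : valF PS (t1 + t2) = valF PS t1 + valF PS t2 := by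
      rcases hadd with rfl | rfl | rfl | ⟨h1, h2, h3⟩
      · rw [zero_add, valF_zero hm, zero_add]
      · rw [add_zero, valF_zero hm, add_zero]
      · rw [self_add, valF_zero hm, CharTwo.add_self_eq_zero]
      · rw [valF_T h1, valF_T h2, valF_T h3, add_zero]
    refine ⟨?_, ?_, ?_, ?_, ?_, ?_, ?_, ?_⟩
    · rcases hadd with rfl | rfl | rfl | ⟨h1, h2, h3⟩
      · rw [zero_add]; exact hC2.ht
      · rw [add_zero]; exact hC1.ht
      · exact Or.inl (self_add _)
      · exact Or.inr (Or.inl h3)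
    · intro z j c c' hcc
      simp only [Pi.add_apply, hC1.hor z j c c' hcc, hC2.hor z j c c' hcc]
      ring
    · intro z j c hc
      simp only [Pi.add_apply, hC1.horl z j c hc, hC2.horl z j c hc, add_zero]
    · intro z j j' c hcc
      simp only [Pi.add_apply, hC1.ver z j j' c hcc, hC2.ver z j j' c hcc]
      ring
    · intro z j c hc
      simp only [Pi.add_apply, hC1.verl z j c hc, hC2.verl z j c hc, add_zero]
    · intro j
      rw [map_add, ← hC1.tok j, ← hC2.tok j]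
      simp only [Pi.add_apply, add_smul, Finset.sum_add_distrib]
      abel
    · rw [hval, hC1.val, hC2.val]
      simp only [Pi.add_apply]
      ring
    · intro z j
      simp only [Pi.add_apply, hC1.zero, hC2.zero, add_zero]

theorem KP.zero_mem {P : Set (PVar m l Tok Z ⊕ PEqn m l Ax Z)} {cz : Z → Fin l} :
    KP PS hm hl P cz 0 0 := by
  refine ⟨fun v hv => absurd rfl hv, 0, 0, Or.inl rfl, ?_, ?_, ?_, ?_, ?_, ?_, ?_⟩
  · intro z j c c' _; simp
  · intro z j c _; simp
  · intro z j c c' _; simp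
  · intro z j c _; simp
  · intro j; simp
  · simp [valF_zero hm]
  · intro z j; simp

/-- The equation `0 = 1` is not derivable. -/
theorem KP.zero_eq (hd : d < m) {P : Set (PVar m l Tok Z ⊕ PEqn m l Ax Z)} {cz : Z → Fin l}
    {c : ZMod 2} (h : KP PS hm hl P cz 0 c) : c = 0 := by
  obtain ⟨-, X, t, hC⟩ := h
  have hX : ∀ z j c, X z j c = 0 := by
    intro z j c
    rw [row_const (X := X) (z := z) (j := j) (fun c c' hcc => ?_) c (cz z), hC.zero]
    have := hC.hor z j c c' hcc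
    simp only [Pi.zero_apply] at this
    exact CharTwo.add_eq_zero.mp this.symm
  have ht : t = 0 := by
    by_contra hne
    have := PS.ev_inj t hne Finset.univ (fun j _ => by
      rw [← hC.tok j]
      simp [hX])
    simp at this
    omega
  rw [hC.val, hX, ht, valF_zero hm, add_zero]

/-- Equations of the window are derivable. -/
theorem KP.eqn {P : Set (PVar m l Tok Z ⊕ PEqn m l Ax Z)} {cz : Z → Fin l}
    (hcz : ∀ z, ¬ Touched P z (cz z)) (q : PEqn m l Ax Z) (hq : Sum.inr q ∈ P) :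
    KP PS hm hl P cz (fun v => if v ∈ prodVars PS.axt PS.ztok q then 1 else 0)
      (prodRhs PS.acc q) := by
  classical
  refine ⟨fun v hv => ⟨_, hq, ?_⟩, ?_⟩
  · by_contra hcon
    simp only [covOf] at hcon
    simp [hcon] at hv
  rcases q with ⟨j0, a⟩ | ⟨z0, j0, c0⟩
  · refine ⟨0, 0, Or.inl rfl, ?_, ?_, ?_, ?_, ?_, ?_, ?_⟩
    · intro z j c c' _; simp [prodVars]
    · intro z j c _; simp [prodVars]
    · intro z j c c' _; simp [prodVars]
    · intro z j c _; simp [prodVars]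
    · intro j
      rw [map_zero]
      simp only [Pi.zero_apply, zero_smul, Finset.sum_const_zero, add_zero]
      by_cases hj : j = j0
      · subst hj
        have : ∀ τ, (if vtok j τ ∈ prodVars PS.axt PS.ztok (Sum.inl (j, a) : PEqn m l Ax Z)
            then (1 : ZMod 2) else 0) = if τ ∈ PS.axt j a then 1 else 0 := by
          intro τ
          simp [prodVars]
        simp only [this, ite_smul, one_smul, zero_smul]
        rw [Finset.sum_ite_mem, Finset.univ_inter, PS.ax_sum]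
      · refine Finset.sum_eq_zero fun τ _ => ?_
        rw [if_neg, zero_smul]
        simp only [prodVars, Finset.mem_image, not_exists, not_and]
        intro τ' _ h
        simp at h
        exact hj h.1.symm
    · simp [prodRhs, valF_zero hm]
    · intro z j; simp
  · refine ⟨fun z j c => if z = z0 ∧ j = j0 ∧ c = c0 then 1 else 0, 0, Or.inl rfl,
      ?_, ?_, ?_, ?_, ?_, ?_, ?_⟩
    · intro z j c c' hcc
      have hmem : vhor z j c ∈ prodVars PS.axt PS.ztok (Sum.inr (z0, j0, c0) : PEqn m l Ax Z) ↔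
          z = z0 ∧ j = j0 ∧ (c = c0 ∨ c' = c0) := by
        simp only [prodVars, mem_gridVars]
        constructor
        · rintro (⟨h, h'⟩ | ⟨h, h'⟩ | ⟨c'', h, h'⟩ | ⟨h, h'⟩ | ⟨j', h, h'⟩) <;> simp at h'
          · exact ⟨h'.1, h'.2.1, Or.inl h'.2.2⟩
          · refine ⟨h'.1, h'.2.1, Or.inr (Fin.ext ?_)⟩
            rw [h'.2.2] at hcc
            omega
        · rintro ⟨rfl, rfl, rfl | rfl⟩
          · exact Or.inl ⟨by omega, rfl⟩
          · exact Or.inr (Or.inr (Or.inl ⟨c, hcc, rfl⟩))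
      by_cases hz : z = z0 ∧ j = j0
      · obtain ⟨rfl, rfl⟩ := hz
        by_cases h1 : c = c0
        · have h2 : c' ≠ c0 := by
            rintro rfl
            rw [h1] at hcc
            omega
          rw [if_pos (hmem.2 ⟨rfl, rfl, Or.inl h1⟩)]
          simp [h1, h2]
        · by_cases h2 : c' = c0
          · simp [hmem, h1, h2]
          · simp [hmem, h1, h2]
      · have h3 : ¬ (z = z0 ∧ j = j0 ∧ (c = c0 ∨ c' = c0)) := fun h => hz ⟨h.1, h.2.1⟩
        have h4 : ¬ (z = z0 ∧ j = j0 ∧ c = c0) := fun h => hz ⟨h.1, h.2.1⟩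
        have h5 : ¬ (z = z0 ∧ j = j0 ∧ c' = c0) := fun h => hz ⟨h.1, h.2.1⟩
        simp only [hmem, if_neg h3, if_neg h4, if_neg h5, add_zero]
    · intro z j c hc
      rw [if_neg]
      simp only [prodVars, mem_gridVars]
      rintro (⟨h, h'⟩ | ⟨h, h'⟩ | ⟨c'', h, h'⟩ | ⟨h, h'⟩ | ⟨j', h, h'⟩) <;> simp at h'
      · rw [h'.2.2] at hc
        exact hc h
      · rw [h'.2.2] at hc
        omega
    · intro z j j' c hcc
      have hmem : vver z j c ∈ prodVars PS.axt PS.ztok (Sum.inr (z0, j0, c0) : PEqn m l Ax Z) ↔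
          z = z0 ∧ c = c0 ∧ (j = j0 ∨ j' = j0) := by
        simp only [prodVars, mem_gridVars]
        constructor
        · rintro (⟨h, h'⟩ | ⟨h, h'⟩ | ⟨c'', h, h'⟩ | ⟨h, h'⟩ | ⟨j'', h, h'⟩) <;> simp at h'
          · exact ⟨h'.1, h'.2.2, Or.inl h'.2.1⟩
          · refine ⟨h'.1, h'.2.2, Or.inr (Fin.ext ?_)⟩
            rw [h'.2.1] at hcc
            omega
        · rintro ⟨rfl, rfl, rfl | rfl⟩
          · exact Or.inr (Or.inr (Or.inr (Or.inl ⟨by omega, rfl⟩)))
          · exact Or.inr (Or.inr (Or.inr (Or.inr ⟨j, hcc, rfl⟩)))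
      by_cases hz : z = z0 ∧ c = c0
      · obtain ⟨rfl, rfl⟩ := hz
        by_cases h1 : j = j0
        · have h2 : j' ≠ j0 := by
            rintro rfl
            rw [h1] at hcc
            omega
          rw [if_pos (hmem.2 ⟨rfl, rfl, Or.inl h1⟩)]
          simp [h1, h2]
        · by_cases h2 : j' = j0
          · simp [hmem, h1, h2]
          · simp [hmem, h1, h2]
      · have h3 : ¬ (z = z0 ∧ c = c0 ∧ (j = j0 ∨ j' = j0)) := fun h => hz ⟨h.1, h.2.1⟩
        have h4 : ¬ (z = z0 ∧ j = j0 ∧ c = c0) := fun h => hz ⟨h.1, h.2.2⟩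
        have h5 : ¬ (z = z0 ∧ j' = j0 ∧ c = c0) := fun h => hz ⟨h.1, h.2.2⟩
        simp only [hmem, if_neg h3, if_neg h4, if_neg h5, add_zero]
    · intro z j c hc
      rw [if_neg]
      simp only [prodVars, mem_gridVars]
      rintro (⟨h, h'⟩ | ⟨h, h'⟩ | ⟨c'', h, h'⟩ | ⟨h, h'⟩ | ⟨j', h, h'⟩) <;> simp at h'
      · rw [h'.2.1] at hc
        exact hc h
      · rw [h'.2.1] at hc
        omega
    · intro j
      rw [map_zero]
      have hmem : ∀ τ, vtok j τ ∈ prodVars PS.axt PS.ztok (Sum.inr (z0, j0, c0) : PEqn m l Ax Z) ↔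
          j = j0 ∧ ¬ c0.1 + 1 < l ∧ τ = PS.ztok z0 j := by
        intro τ
        simp only [prodVars, mem_gridVars]
        constructor
        · rintro (⟨h, h'⟩ | ⟨h, h'⟩ | ⟨c'', h, h'⟩ | ⟨h, h'⟩ | ⟨j'', h, h'⟩) <;> simp at h'
          obtain ⟨rfl, rfl⟩ := h'
          exact ⟨rfl, h, rfl⟩
        · rintro ⟨rfl, h, rfl⟩
          exact Or.inr (Or.inl ⟨h, rfl⟩)
      by_cases hj : j = j0 ∧ ¬ c0.1 + 1 < l
      · obtain ⟨rfl, hc⟩ := hj
        have hc0 : (⟨l - 1, by omega⟩ : Fin l) = c0 := Fin.ext (by simp; omega)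
        have e1 : ∑ τ, (if vtok j τ ∈ prodVars PS.axt PS.ztok
            (Sum.inr (z0, j, c0) : PEqn m l Ax Z) then (1 : ZMod 2) else 0) • PS.vec j τ =
            PS.vec j (PS.ztok z0 j) := by
          rw [Finset.sum_eq_single (PS.ztok z0 j)]
          · rw [if_pos ((hmem _).2 ⟨rfl, hc, rfl⟩), one_smul]
          · intro τ _ hτ
            rw [if_neg (fun h => hτ ((hmem τ).1 h).2.2), zero_smul]
          · intro h
            exact absurd (Finset.mem_univ _) h
        have e2 : ∑ z, (if z = z0 ∧ j = j ∧ (⟨l - 1, by omega⟩ : Fin l) = c0 then (1 : ZMod 2)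
            else 0) • PS.ev j (PS.zfact z) = PS.ev j (PS.zfact z0) := by
          rw [Finset.sum_eq_single z0]
          · rw [if_pos ⟨rfl, rfl, hc0⟩, one_smul]
          · intro z _ hz
            rw [if_neg (fun h => hz h.1), zero_smul]
          · intro h
            exact absurd (Finset.mem_univ _) h
        rw [e1, e2, PS.zvec, self_add]
      · have e1 : ∀ τ, ¬ (vtok j τ ∈ prodVars PS.axt PS.ztok
            (Sum.inr (z0, j0, c0) : PEqn m l Ax Z)) := fun τ h => by
          have := (hmem τ).1 h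
          exact hj ⟨this.1, this.2.1⟩
        have e2 : ∀ z, ¬ (z = z0 ∧ j = j0 ∧ (⟨l - 1, by omega⟩ : Fin l) = c0) := fun z h => by
          apply hj
          refine ⟨h.2.1, ?_⟩
          rw [← h.2.2]
          simp
          omega
        simp only [if_neg (e1 _), if_neg (e2 _), zero_smul, Finset.sum_const_zero, add_zero]
    · rw [valF_zero hm, add_zero]
      simp only [prodRhs]
      by_cases h : z0 = PS.acc ∧ j0.1 = 0 ∧ c0.1 = 0
      · rw [if_pos h, if_pos ⟨h.1.symm, Fin.ext h.2.1.symm, Fin.ext h.2.2.symm⟩]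
      · rw [if_neg h, if_neg]
        rintro ⟨h1, h2, h3⟩
        exact h ⟨h1.symm, by rw [← h2], by rw [← h3]⟩
    · intro z j
      rw [if_neg]
      rintro ⟨rfl, rfl, h⟩
      exact hcz z (Or.inl ⟨j, by rw [h]; exact hq⟩)

/-- The derivable equations do not depend on the untouched columns. -/
theorem KP.change {k : ℕ} (hk : k + 1 + 6 * d < 2 * m)
    {P : Set (PVar m l Tok Z ⊕ PEqn m l Ax Z)} (hP : P.encard ≤ (k + 1 : ℕ))
    {cz cz' : Z → Fin l} (hcz' : ∀ z, ¬ Touched P z (cz' z))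
    {e : PVar m l Tok Z → ZMod 2} {c : ZMod 2}
    (h : KP PS hm hl P cz e c) : KP PS hm hl P cz' e c := by
  classical
  obtain ⟨hs, X, t, hC⟩ := h
  refine ⟨hs, ?_⟩
  -- constancy of `X` on the untouched columns
  have hcol : ∀ z j, X z j (cz' z) = X z ⟨0, hm⟩ (cz' z) := by
    intro z j
    have key : ∀ n (hn : n < m), X z ⟨n, hn⟩ (cz' z) = X z ⟨0, hm⟩ (cz' z) := by
      intro n
      induction n with
      | zero => intro _; rfl
      | succ n ih =>
        intro hn
        rw [← ih (by omega)]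
        have h1 := hC.ver z ⟨n, by omega⟩ ⟨n + 1, hn⟩ (cz' z) rfl
        have h2 : e (vver z ⟨n, by omega⟩ (cz' z)) = 0 := by
          by_contra hne
          obtain ⟨p, hp, hpc⟩ := hs _ hne
          rcases cov_ver hpc with rfl | ⟨j', rfl⟩
          · exact hcz' z (Or.inr ⟨_, hp⟩)
          · exact hcz' z (Or.inl ⟨_, hp⟩)
        rw [h2] at h1
        exact (CharTwo.add_eq_zero.mp h1.symm).symm
    exact key j.1 j.2
  obtain ⟨s, hscard, hsP⟩ := exists_good hk P hP
  by_cases hall : ∀ z, X z ⟨0, hm⟩ (cz' z) = 0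
  · exact ⟨X, t, hC.ht, hC.hor, hC.horl, hC.ver, hC.verl, hC.tok, hC.val,
      fun z j => by rw [hcol, hall]⟩
  push Not at hall
  obtain ⟨z0, hz0⟩ := hall
  -- every row of the grid of `z0` carries a pebble
  have hrow : ∀ z, X z ⟨0, hm⟩ (cz' z) ≠ 0 → ∀ j,
      (∃ c, Sum.inl (vhor z j c) ∈ P) ∨ ∃ c, Sum.inr (Sum.inr (z, j, c)) ∈ P := by
    intro z hz j
    refine exists_gridPeb hs hC (a := cz' z) (b := cz z) ?_
    rw [hC.zero, hcol]
    exact hz
  have hother : ∀ z, z ≠ z0 → X z ⟨0, hm⟩ (cz' z) = 0 := by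
    intro z hz
    by_contra hne
    obtain ⟨j, hj⟩ : s.Nonempty := by
      rw [← Finset.card_pos]
      omega
    rcases hrow z0 hz0 j with ⟨c1, h1⟩ | ⟨c1, h1⟩ <;> rcases hrow z hne j with ⟨c2, h2⟩ | ⟨c2, h2⟩
    all_goals
      have := hsP j hj _ h1 _ h2 rfl rfl
      simp at this
    · exact hz this.1.symm
    · exact hz this.1.symm
  have hloc : ∀ j ∈ s, PS.ev j t = 0 ∨ PS.ev j t = PS.ev j (PS.zfact z0) := by
    intro j hj
    rcases locality hs hC (hsP j hj) with h | ⟨p, hp, hpj, hl1⟩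
    · exact Or.inl h
    · right
      rcases hrow z0 hz0 j with ⟨c1, h1⟩ | ⟨c1, h1⟩
      · have := hsP j hj _ hp _ h1 hpj rfl
        subst this
        exact hl1
      · have := hsP j hj _ hp _ h1 hpj rfl
        subst this
        exact hl1
  have ht : t = 0 ∨ t = PS.zfact z0 := by
    have h3 := Finset.card_filter_add_card_filter_not (s := s) (fun j => PS.ev j t = 0)
    by_cases h4 : d < (s.filter (fun j => PS.ev j t = 0)).card
    · left
      refine eq_of_many (PS := PS) _ h4 (fun j hj => ?_)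
      rw [map_zero]
      exact (Finset.mem_filter.mp hj).2
    · right
      refine eq_of_many (PS := PS) (s.filter (fun j => ¬ PS.ev j t = 0)) (by omega)
        (fun j hj => ?_)
      exact (hloc j (Finset.mem_filter.mp hj).1).resolve_left (Finset.mem_filter.mp hj).2
  have hz0' : X z0 ⟨0, hm⟩ (cz' z0) = 1 := by
    have : ∀ a : ZMod 2, a ≠ 0 → a = 1 := by decide
    exact this _ hz0
  refine ⟨fun z j c => X z j c + if z = z0 then 1 else 0, t + PS.zfact z0, ?_, ?_, hC.horl, ?_,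
    hC.verl, ?_, ?_, ?_⟩
  · rcases ht with rfl | rfl
    · rw [zero_add]
      by_cases hz : z0 = PS.acc
      · right; right; rw [hz]
      · exact Or.inr (Or.inl (PS.z_true z0 hz))
    · exact Or.inl (self_add _)
  · intro z j c c' hcc
    rw [hC.hor z j c c' hcc]
    have : ∀ a b r : ZMod 2, a + b = a + r + (b + r) := by decide
    exact this _ _ _
  · intro z j j' c hcc
    rw [hC.ver z j j' c hcc]
    have : ∀ a b r : ZMod 2, a + b = a + r + (b + r) := by decide
    exact this _ _ _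
  · intro j
    rw [map_add, ← hC.tok j]
    simp only [add_smul, Finset.sum_add_distrib, ite_smul, one_smul, zero_smul]
    rw [Finset.sum_ite_eq' Finset.univ z0, if_pos (Finset.mem_univ _)]
    abel
  · rw [hC.val]
    by_cases hz : z0 = PS.acc
    · subst hz
      simp only [if_true]
      rcases ht with rfl | rfl
      · rw [zero_add, valF_acc, valF_zero hm]
        have : ∀ a : ZMod 2, a + 0 = a + 1 + 1 := by decide
        exact this _
      · rw [self_add, valF_acc, valF_zero hm, add_zero]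
    · have h5 : ¬ (PS.acc = z0) := fun h => hz h.symm
      rw [if_neg h5, add_zero]
      rcases ht with rfl | rfl
      · rw [zero_add, valF_zero hm, valF_T (PS.z_true z0 hz)]
      · rw [self_add, valF_zero hm, valF_T (PS.z_true z0 hz)]
  · intro z j
    by_cases hz : z = z0
    · subst hz
      simp only [if_true]
      rw [hcol, hz0']
      exact CharTwo.add_self_eq_zero _
    · simp only [if_neg hz, add_zero]
      rw [hcol, hother z hz]

theorem KP.mono {P P' : Set (PVar m l Tok Z ⊕ PEqn m l Ax Z)} (hPP : P ⊆ P') {cz : Z → Fin l}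
    {e : PVar m l Tok Z → ZMod 2} {c : ZMod 2}
    (h : KP PS hm hl P cz e c) : KP PS hm hl P' cz e c := by
  obtain ⟨hs, hX⟩ := h
  exact ⟨fun v hv => (hs v hv).imp fun p hp => ⟨hPP hp.1, hp.2⟩, hX⟩

end cert

/-- **Theorem A** (no refutation): fewer than about `2 (m - 3 d)` pebbles do not refute the XOR
system of a product system. -/
theorem theoremA {m d l k : ℕ} {Tok Ax Z F W : Type*} [DecidableEq Tok] [DecidableEq Z]
    [Finite Tok] [Finite Ax] [Finite Z]
    [AddCommGroup F] [Module (ZMod 2) F] [AddCommGroup W] [Module (ZMod 2) W]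
    (PS : ProdSys m d Tok Ax Z F W) (hk : k + 1 + 6 * d < 2 * m) (hl : k + 1 < l) :
    Robust (prodVars (l := l) PS.axt PS.ztok) (prodRhs PS.acc) k := by
  classical
  cases nonempty_fintype Tok
  cases nonempty_fintype Z
  have hm0 : 0 < m := by omega
  have hl0 : 0 < l := by omega
  have hd : d < m := by omega
  have hself : ∀ P : Set (PVar m l Tok Z ⊕ PEqn m l Ax Z), P.encard ≤ (k + 1 : ℕ) →
      ∃ cz : Z → Fin l, ∀ z, ¬ Touched P z (cz z) := exists_untouched hl
  refine ⟨fun P lam => P.encard ≤ (k + 1 : ℕ) ∧ ∀ cz, (∀ z, ¬ Touched P z (cz z)) →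
    ∀ e c, KP PS hm0 hl0 P cz e c → ∑ v, e v * lam v = c, ?_, ?_, ?_, ?_, ?_⟩
  · refine ⟨by simp, fun cz hcz e c h => ?_⟩
    have he : e = 0 := by
      funext v
      by_contra hne
      obtain ⟨p, hp, _⟩ := h.1 v hne
      exact hp
    subst he
    simp [h.zero_eq hd]
  · rintro P lam ⟨hP, hg⟩ q hq
    obtain ⟨cz, hcz⟩ := hself P hP
    have := hg cz hcz _ _ (KP.eqn hcz q hq)
    rw [← this]
    simp only [ite_mul, one_mul, zero_mul]
    rw [Finset.sum_ite_mem, Finset.univ_inter]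
  · rintro P P' lam ⟨hP, hg⟩ hPP
    have hP' : P'.encard ≤ (k + 1 : ℕ) := (Set.encard_le_encard hPP).trans hP
    refine ⟨hP', fun cz' _ e c h => ?_⟩
    obtain ⟨cz, hcz⟩ := hself P hP
    have hcz' : ∀ z, ¬ Touched P' z (cz z) := fun z ht => hcz z
      (ht.imp (fun ⟨j, hj⟩ => ⟨j, hPP hj⟩) (fun ⟨j, hj⟩ => ⟨j, hPP hj⟩))
    exact hg cz hcz e c ((h.change hk hP' hcz').mono hPP)
  · rintro P lam ⟨hP, hg⟩ hcard p
    have hP' : (insert p P).encard ≤ (k + 1 : ℕ) := by
      refine (Set.encard_insert_le _ _).trans ?_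
      push_cast
      exact add_le_add_left hcard 1
    obtain ⟨cz, hcz⟩ := hself _ hP'
    have hczP : ∀ z, ¬ Touched P z (cz z) := fun z ht => hcz z
      (ht.imp (fun ⟨j, hj⟩ => ⟨j, Set.mem_insert_of_mem _ hj⟩)
        (fun ⟨j, hj⟩ => ⟨j, Set.mem_insert_of_mem _ hj⟩))
    let K : Submodule (ZMod 2) ((PVar m l Tok Z → ZMod 2) × ZMod 2) :=
      { carrier := {x | KP PS hm0 hl0 (insert p P) cz x.1 x.2}
        zero_mem' := KP.zero_mem
        add_mem' := fun {a b} ha hb => KP.add hk hP' ha hb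
        smul_mem' := by
          intro r a ha
          have : r = 0 ∨ r = 1 := by revert r; decide
          rcases this with rfl | rfl
          · simp only [zero_smul]
            exact KP.zero_mem
          · simpa only [one_smul] using ha }
    obtain ⟨mu, hmu1, hmu2⟩ := exists_solution K
      {v | ∃ q ∈ P, v ∈ covOf (prodVars PS.axt PS.ztok) q} lam (by
        intro e c hec hsupp
        have hec' : KP PS hm0 hl0 (insert p P) cz e c := hec
        refine hg cz hczP e c ⟨fun v hv => ?_, hec'.2⟩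
        by_contra hcon
        exact hv (hsupp v hcon))
    refine ⟨mu, fun q hq x hx => hmu1 x ⟨q, hq, hx⟩, hP', fun cz' hcz' e c h => ?_⟩
    exact hmu2 e c (h.change hk hP' hcz)
  · rintro P lam mu ⟨hP, hg⟩ hmu
    refine ⟨hP, fun cz hcz e c h => ?_⟩
    rw [← hg cz hcz e c h]
    refine Finset.sum_congr rfl fun v _ => ?_
    by_cases hv : e v = 0
    · simp [hv]
    · obtain ⟨q, hq, hvq⟩ := h.1 v hv
      rw [hmu q hq v hvq]

end P310
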