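import Vale.Agent.P310.TheoremA

/-!
# P310: Theorem B (refutation with `m + 3` pebbles)

See notes/P310.md, section 2.
-/

set_option linter.unusedSectionVars false

namespace P310

open Finset

section general
variable {X E : Type*} [DecidableEq X] [DecidableEq E] {vars : E → Finset X} {b : E → ZMod 2}
  {k : ℕ}

/-- Dropping several classes. -/
theorem Ref.shrink {Q P : Finset (X ⊕ E)} {e : X → ZMod 2} {c : ZMod 2}
    (h : Ref vars b k Q e c) (hPQ : P ⊆ Q) (hcard : Q.card ≤ k)
    (he : ∀ v, e v ≠ 0 → ∃ p ∈ P, v ∈ covOf vars p) : Ref vars b k P e c := by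
  obtain ⟨R, hR⟩ : ∃ R, R = Q \ P := ⟨_, rfl⟩
  induction R using Finset.induction_on generalizing Q with
  | empty =>
    have hQP : Q ⊆ P := by
      rw [← Finset.sdiff_eq_empty_iff_subset]
      exact hR.symm
    exact h.mono hQP
  | insert q R hq ih =>
    have hqQ : q ∈ Q \ P := by rw [← hR]; exact Finset.mem_insert_self _ _
    obtain ⟨hqQ1, hqP⟩ := Finset.mem_sdiff.mp hqQ
    have hsub : P ⊆ Q.erase q := fun p hp =>
      Finset.mem_erase.mpr ⟨fun h' => hqP (h' ▸ hp), hPQ hp⟩
    have hcard' : (Q.erase q).card < Q.card := Finset.card_erase_lt_of_mem hqQ1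
    refine ih (Q := Q.erase q) ?_ hsub (by omega) ?_
    · refine Ref.drop (q := q) ?_ ?_ (by omega)
      · rwa [Finset.insert_erase hqQ1]
      · intro v hv
        obtain ⟨p, hp, hpv⟩ := he v hv
        exact ⟨p, hsub hp, hpv⟩
    · ext p
      have := congrArg (fun s => p ∈ s) hR
      simp only [Finset.mem_insert, Finset.mem_sdiff, eq_iff_iff] at this
      simp only [Finset.mem_sdiff, Finset.mem_erase]
      constructor
      · intro hp
        have h1 := this.1 (Or.inr hp)
        exact ⟨⟨fun h' => hq (h' ▸ hp), h1.1⟩, h1.2⟩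
      · rintro ⟨⟨h1, h2⟩, h3⟩
        exact (this.2 ⟨h2, h3⟩).resolve_left h1

/-- The indicator of a finite set. -/
def indic (A : Finset X) : X → ZMod 2 := fun v => if v ∈ A then 1 else 0

/-- The equation `∑_{v ∈ A} v = c` holds at the window `A`. -/
def HS (vars : E → Finset X) (b : E → ZMod 2) (k : ℕ) (A : Finset X) (c : ZMod 2) : Prop :=
  Ref vars b k (A.image Sum.inl) (indic A) c

theorem HS.empty : HS vars b k ∅ 0 := by
  have : indic (∅ : Finset X) = 0 := by
    funext v
    simp [indic]
  unfold HS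
  rw [this, Finset.image_empty]
  exact Ref.zero

/-- Adding an equation. -/
theorem HS.step {A A' : Finset X} {c : ZMod 2} (h : HS vars b k A c) (a : E)
    (hA : ∀ v, v ∈ A' ↔ ((v ∈ A ∧ v ∉ vars a) ∨ (v ∈ vars a ∧ v ∉ A)))
    (h1 : A.card + 1 ≤ k) (h2 : A'.card + 1 ≤ k) : HS vars b k A' (c + b a) := by
  -- add the equation
  have e1 : Ref vars b k (insert (Sum.inr a) (A.image Sum.inl)) (indic A') (c + b a) := by
    have hs : indic A' = fun v => indic A v + (if v ∈ vars a then 1 else 0) := by
      funext v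
      unfold indic
      by_cases hv : v ∈ A <;> by_cases hv' : v ∈ vars a
      · have : v ∉ A' := fun h' => by
          rcases (hA v).1 h' with h' | h'
          · exact h'.2 hv'
          · exact h'.2 hv
        rw [if_neg this, if_pos hv, if_pos hv']
        rfl
      · have : v ∈ A' := (hA v).2 (Or.inl ⟨hv, hv'⟩)
        rw [if_pos this, if_pos hv, if_neg hv', add_zero]
      · have : v ∈ A' := (hA v).2 (Or.inr ⟨hv', hv⟩)
        rw [if_pos this, if_neg hv, if_pos hv', zero_add]
      · have : v ∉ A' := fun h' => by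
          rcases (hA v).1 h' with h' | h'
          · exact hv h'.1
          · exact hv' h'.1
        rw [if_neg this, if_neg hv, if_neg hv', add_zero]
    rw [hs]
    refine Ref.add (Ref.mono h (Finset.subset_insert _ _)) (Ref.mono (Ref.eqn a) ?_)
    intro p hp
    rw [Finset.mem_singleton] at hp
    rw [hp]
    exact Finset.mem_insert_self _ _
  -- first shrink
  have e2 : Ref vars b k (insert (Sum.inr a) ((A.filter (fun v => v ∉ vars a)).image Sum.inl))
      (indic A') (c + b a) := by
    refine e1.shrink ?_ ?_ ?_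
    · exact Finset.insert_subset_insert _ (Finset.image_subset_image (Finset.filter_subset _ _))
    · refine (Finset.card_insert_le _ _).trans ?_
      have := Finset.card_image_le (s := A) (f := (Sum.inl : X → X ⊕ E))
      omega
    · intro v hv
      have hv' : v ∈ A' := by
        by_contra hcon
        exact hv (if_neg hcon)
      rcases (hA v).1 hv' with h' | h'
      · refine ⟨Sum.inl v, ?_, ?_⟩
        · refine Finset.mem_insert_of_mem (Finset.mem_image_of_mem _ ?_)
          exact Finset.mem_filter.mpr h'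
        · simp [covOf]
      · exact ⟨Sum.inr a, Finset.mem_insert_self _ _, h'.1⟩
  -- second shrink
  have hsub : A.filter (fun v => v ∉ vars a) ⊆ A' := fun v hv => by
    have := Finset.mem_filter.mp hv
    exact (hA v).2 (Or.inl this)
  have e3 : Ref vars b k (insert (Sum.inr a) (A'.image Sum.inl)) (indic A') (c + b a) :=
    e2.mono (Finset.insert_subset_insert _ (Finset.image_subset_image hsub))
  refine e3.shrink (Finset.subset_insert _ _) ?_ ?_
  · refine (Finset.card_insert_le _ _).trans ?_
    have := Finset.card_image_le (s := A') (f := (Sum.inl : X → X ⊕ E))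
    omega
  · intro v hv
    have hv' : v ∈ A' := by
      by_contra hcon
      exact hv (if_neg hcon)
    exact ⟨Sum.inl v, Finset.mem_image_of_mem _ hv', by simp [covOf]⟩

/-- Exchanging the classes of a window one by one. -/
theorem Ref.exch {m : ℕ} (W W' : Fin m → X ⊕ E) {e : X → ZMod 2} {c : ZMod 2}
    (h : Ref vars b k (Finset.univ.image W) e c)
    (hs : ∀ v, e v ≠ 0 → ∃ j, v ∈ covOf vars (W j) ∧ v ∈ covOf vars (W' j))
    (hk : m + 1 ≤ k) : Ref vars b k (Finset.univ.image W') e c := by
  have key : ∀ i ≤ m, Ref vars b k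
      (Finset.univ.image (fun j : Fin m => if j.1 < i then W' j else W j)) e c := by
    intro i
    induction i with
    | zero =>
      intro _
      simpa using h
    | succ i ih =>
      intro hi
      have hi' : i < m := by omega
      have h1 := ih (by omega)
      have hsub : Finset.univ.image (fun j : Fin m => if j.1 < i + 1 then W' j else W j) ⊆
          insert (W' ⟨i, hi'⟩)
            (Finset.univ.image (fun j : Fin m => if j.1 < i then W' j else W j)) := by
        intro p hp
        obtain ⟨j, _, rfl⟩ := Finset.mem_image.mp hp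
        by_cases hj : j.1 = i
        · have : j = ⟨i, hi'⟩ := Fin.ext hj
          subst this
          simp
        · refine Finset.mem_insert_of_mem (Finset.mem_image.mpr ⟨j, Finset.mem_univ _, ?_⟩)
          by_cases hj' : j.1 < i
          · rw [if_pos hj', if_pos (by omega)]
          · rw [if_neg hj', if_neg (by omega)]
      refine (h1.mono (Finset.subset_insert (W' ⟨i, hi'⟩) _)).shrink hsub ?_ ?_
      · refine (Finset.card_insert_le _ _).trans ?_
        have := Finset.card_image_le (s := (Finset.univ : Finset (Fin m)))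
          (f := fun j : Fin m => if j.1 < i then W' j else W j)
        rw [Finset.card_univ, Fintype.card_fin] at this
        omega
      · intro v hv
        obtain ⟨j, hj1, hj2⟩ := hs v hv
        refine ⟨_, Finset.mem_image.mpr ⟨j, Finset.mem_univ _, rfl⟩, ?_⟩
        by_cases hj' : j.1 < i + 1
        · rw [if_pos hj']; exact hj2
        · rw [if_neg hj']; exact hj1
  have := key m le_rfl
  simpa using this

end general

instance instDecPE {m l : ℕ} {Tok Ax Z : Type*} [DecidableEq Tok] [DecidableEq Ax]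
    [DecidableEq Z] : DecidableEq (PVar m l Tok Z ⊕ PEqn m l Ax Z) := instDecidableEqSum

section grid
variable {m l k : ℕ} {Tok Ax Z : Type*} [DecidableEq Tok] [DecidableEq Ax] [DecidableEq Z]
  (axt : Fin m → Ax → Finset Tok) (ztok : Z → Fin m → Tok) (acc : Z)

/-- The variable to the right of a grid vertex. -/
def rgt (ztok : Z → Fin m → Tok) (z : Z) (c : Fin l) (j : Fin m) : PVar m l Tok Z :=
  if c.1 + 1 < l then vhor z j c else vtok j (ztok z j)

/-- The variables to the left of a grid vertex. -/
def lft (z : Z) (c : Fin l) (j : Fin m) : Finset (PVar m l Tok Z) :=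
  if h : 0 < c.1 then {vhor z j ⟨c.1 - 1, by omega⟩} else ∅

/-- The boundary of the set of the columns before `c` and the first `i` vertices of the
column `c`. -/
def bdry (ztok : Z → Fin m → Tok) (z : Z) (c : Fin l) (i : ℕ) : Finset (PVar m l Tok Z) :=
  ((Finset.univ.filter (fun j : Fin m => j.1 < i)).image (rgt ztok z c)) ∪
  ((Finset.univ.filter (fun j : Fin m => ¬ j.1 < i)).biUnion (lft z c)) ∪
  (if h : 0 < i ∧ i < m then {vver z ⟨i - 1, by omega⟩ c} else ∅)

theorem bdry_card (z : Z) (c : Fin l) (i : ℕ) : (bdry (Tok := Tok) ztok z c i).card ≤ m + 1 := by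
  unfold bdry
  have h1 := Finset.card_image_le (s := Finset.univ.filter (fun j : Fin m => j.1 < i))
    (f := rgt (Tok := Tok) ztok z c)
  have h2 : ((Finset.univ.filter (fun j : Fin m => ¬ j.1 < i)).biUnion
      (lft (Tok := Tok) z c)).card ≤ (Finset.univ.filter (fun j : Fin m => ¬ j.1 < i)).card * 1 := by
    refine Finset.card_biUnion_le_card_mul _ _ _ (fun j _ => ?_)
    unfold lft
    split_ifs <;> simp
  have h3 : (if h : 0 < i ∧ i < m then ({vver z ⟨i - 1, by omega⟩ c} :
      Finset (PVar m l Tok Z)) else ∅).card ≤ 1 := by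
    split_ifs <;> simp
  have h4 := Finset.card_filter_add_card_filter_not (s := (Finset.univ : Finset (Fin m)))
    (fun j => j.1 < i)
  rw [Finset.card_univ, Fintype.card_fin] at h4
  refine (Finset.card_union_le _ _).trans ?_
  have h5 := Finset.card_union_le
    ((Finset.univ.filter (fun j : Fin m => j.1 < i)).image (rgt (Tok := Tok) ztok z c))
    ((Finset.univ.filter (fun j : Fin m => ¬ j.1 < i)).biUnion (lft (Tok := Tok) z c))
  omega

theorem mem_bdry {z : Z} {c : Fin l} {i : ℕ} {v : PVar m l Tok Z} :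
    v ∈ bdry ztok z c i ↔
      (∃ j : Fin m, j.1 < i ∧ v = rgt ztok z c j) ∨
      (∃ j : Fin m, ∃ c' : Fin l, ¬ j.1 < i ∧ c'.1 + 1 = c.1 ∧ v = vhor z j c') ∨
      (∃ j : Fin m, j.1 + 1 = i ∧ i < m ∧ v = vver z j c) := by
  unfold bdry
  rw [Finset.mem_union, Finset.mem_union, or_assoc]
  refine or_congr ?_ (or_congr ?_ ?_)
  · simp only [Finset.mem_image, Finset.mem_filter, Finset.mem_univ, true_and]
    exact exists_congr fun j => ⟨fun h => ⟨h.1, h.2.symm⟩, fun h => ⟨h.1, h.2.symm⟩⟩
  · simp only [Finset.mem_biUnion, Finset.mem_filter, Finset.mem_univ, true_and, lft]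
    constructor
    · rintro ⟨j, hj, hv⟩
      by_cases h : 0 < c.1
      · rw [dif_pos h, Finset.mem_singleton] at hv
        exact ⟨j, ⟨c.1 - 1, by omega⟩, hj, by simp; omega, hv⟩
      · rw [dif_neg h] at hv
        exact absurd hv (Finset.notMem_empty _)
    · rintro ⟨j, c', hj, hc, hv⟩
      refine ⟨j, hj, ?_⟩
      have h : 0 < c.1 := by omega
      rw [dif_pos h, Finset.mem_singleton, hv]
      have : c' = ⟨c.1 - 1, by omega⟩ := Fin.ext (by simp; omega)
      rw [this]
  · by_cases h : 0 < i ∧ i < m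
    · rw [dif_pos h, Finset.mem_singleton]
      constructor
      · intro hv
        exact ⟨⟨i - 1, by omega⟩, by simp; omega, h.2, hv⟩
      · rintro ⟨j, hj, _, hv⟩
        have : j = ⟨i - 1, by omega⟩ := Fin.ext (by simp; omega)
        rw [hv, this]
    · rw [dif_neg h]
      constructor
      · intro hv
        exact absurd hv (Finset.notMem_empty _)
      · rintro ⟨j, hj, hi, _⟩
        exact absurd ⟨by omega, hi⟩ h

theorem bdry_step {z : Z} {c : Fin l} {i : ℕ} (hi : i < m) (v : PVar m l Tok Z) :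
    v ∈ bdry ztok z c (i + 1) ↔
      ((v ∈ bdry ztok z c i ∧ v ∉ gridVars ztok z ⟨i, hi⟩ c) ∨
        (v ∈ gridVars ztok z ⟨i, hi⟩ c ∧ v ∉ bdry ztok z c i)) := by
  rw [mem_bdry, mem_bdry, mem_gridVars]
  unfold rgt
  by_cases hc : c.1 + 1 < l
  · simp only [hc, if_true, true_and, not_true_eq_false, false_and, false_or]
    rcases v with ⟨j', τ⟩ | ⟨z', j', c'⟩ | ⟨z', j', c'⟩
    · simp
    · simp only [Sum.inr.injEq, Sum.inl.injEq, Prod.mk.injEq, reduceCtorEq, and_false,
        exists_false, or_false]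
      constructor
      · rintro (⟨j, h1, rfl, rfl, rfl⟩ | ⟨j, c'', h1, h2, rfl, rfl, rfl⟩)
        · by_cases hj : j'.1 < i
          · left
            refine ⟨Or.inl ⟨j', hj, rfl, rfl, rfl⟩, ?_⟩
            rintro (⟨-, rfl, -⟩ | ⟨c'', h, -, rfl, rfl⟩)
            · exact absurd hj (lt_irrefl _)
            · omega
          · right
            have : j' = ⟨i, hi⟩ := Fin.ext (by simp; omega)
            refine ⟨Or.inl ⟨rfl, this, rfl⟩, ?_⟩
            rintro (⟨j, h, -, rfl, -⟩ | ⟨j, c'', h, h', -, rfl, rfl⟩)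
            · omega
            · omega
        · left
          refine ⟨Or.inr ⟨j', c', by omega, h2, rfl, rfl, rfl⟩, ?_⟩
          rintro (⟨-, rfl, rfl⟩ | ⟨c'', h, -, rfl, rfl⟩)
          · omega
          · simp at h1
      · rintro (⟨⟨j, h1, rfl, rfl, rfl⟩ | ⟨j, c'', h1, h2, rfl, rfl, rfl⟩, h3⟩ |
          ⟨⟨rfl, rfl, rfl⟩ | ⟨c'', h, rfl, rfl, rfl⟩, h3⟩)
        · exact Or.inl ⟨j', by omega, rfl, rfl, rfl⟩
        · refine Or.inr ⟨j', c', ?_, h2, rfl, rfl, rfl⟩
          intro h4
          have : j' = ⟨i, hi⟩ := Fin.ext (by simp; omega)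
          exact h3 (Or.inr ⟨c', h2, rfl, this, rfl⟩)
        · exact Or.inl ⟨⟨i, hi⟩, by simp, rfl, rfl, rfl⟩
        · exfalso
          exact h3 (Or.inr ⟨⟨i, hi⟩, c', by simp, h, rfl, rfl, rfl⟩)
    · simp only [Sum.inr.injEq, Prod.mk.injEq, reduceCtorEq, and_false,
        exists_false, false_or]
      constructor
      · rintro ⟨j, h1, h2, rfl, rfl, rfl⟩
        right
        have : j' = ⟨i, hi⟩ := Fin.ext (by simp; omega)
        refine ⟨Or.inl ⟨by show i + 1 < m; exact h2, rfl, this, rfl⟩, ?_⟩
        rintro ⟨j, h3, h4, -, rfl, -⟩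
        omega
      · rintro (⟨⟨j, h1, h2, rfl, rfl, rfl⟩, h3⟩ | ⟨⟨h1, rfl, rfl, rfl⟩ | ⟨j, h1, rfl, rfl, rfl⟩, h3⟩)
        · exfalso
          exact h3 (Or.inr ⟨j', h1, rfl, rfl, rfl⟩)
        · exact ⟨⟨i, hi⟩, rfl, h1, rfl, rfl, rfl⟩
        · exfalso
          exact h3 ⟨j', h1, hi, rfl, rfl, rfl⟩
  · simp only [hc, if_false, false_and, not_false_eq_true, true_and, false_or]
    rcases v with ⟨j', τ⟩ | ⟨z', j', c'⟩ | ⟨z', j', c'⟩
    · simp only [Sum.inl.injEq, Prod.mk.injEq, reduceCtorEq, and_false,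
        exists_false, or_false]
      constructor
      · rintro ⟨j, h1, rfl, rfl⟩
        by_cases hj : j'.1 < i
        · left
          refine ⟨⟨j', hj, rfl, rfl⟩, ?_⟩
          rintro ⟨rfl, -⟩
          exact absurd hj (lt_irrefl _)
        · right
          have : j' = ⟨i, hi⟩ := Fin.ext (by simp; omega)
          subst this
          refine ⟨⟨rfl, rfl⟩, ?_⟩
          rintro ⟨j, h, rfl, -⟩
          exact absurd h (lt_irrefl _)
      · rintro (⟨⟨j, h1, rfl, rfl⟩, h3⟩ | ⟨⟨rfl, rfl⟩, h3⟩)
        · exact ⟨j', by omega, rfl, rfl⟩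
        · exact ⟨⟨i, hi⟩, by simp, rfl, rfl⟩
    · simp only [Sum.inr.injEq, Sum.inl.injEq, Prod.mk.injEq, reduceCtorEq, and_false,
        exists_false, or_false, false_or]
      constructor
      · rintro ⟨j, c'', h1, h2, rfl, rfl, rfl⟩
        left
        refine ⟨⟨j', c', by omega, h2, rfl, rfl, rfl⟩, ?_⟩
        rintro ⟨c'', h, -, rfl, rfl⟩
        simp at h1
      · rintro (⟨⟨j, c'', h1, h2, rfl, rfl, rfl⟩, h3⟩ | ⟨⟨c'', h, rfl, rfl, rfl⟩, h3⟩)
        · refine ⟨j', c', ?_, h2, rfl, rfl, rfl⟩
          intro h4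
          have : j' = ⟨i, hi⟩ := Fin.ext (by simp; omega)
          exact h3 ⟨c', h2, rfl, this, rfl⟩
        · exfalso
          exact h3 ⟨⟨i, hi⟩, c', by simp, h, rfl, rfl, rfl⟩
    · simp only [Sum.inr.injEq, Prod.mk.injEq, reduceCtorEq, and_false,
        exists_false, false_or]
      constructor
      · rintro ⟨j, h1, h2, rfl, rfl, rfl⟩
        right
        have : j' = ⟨i, hi⟩ := Fin.ext (by simp; omega)
        refine ⟨Or.inl ⟨by show i + 1 < m; exact h2, rfl, this, rfl⟩, ?_⟩
        rintro ⟨j, h3, h4, -, rfl, -⟩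
        omega
      · rintro (⟨⟨j, h1, h2, rfl, rfl, rfl⟩, h3⟩ | ⟨⟨h1, rfl, rfl, rfl⟩ | ⟨j, h1, rfl, rfl, rfl⟩, h3⟩)
        · exfalso
          exact h3 (Or.inr ⟨j', h1, rfl, rfl, rfl⟩)
        · exact ⟨⟨i, hi⟩, rfl, h1, rfl, rfl, rfl⟩
        · exfalso
          exact h3 ⟨j', h1, hi, rfl, rfl, rfl⟩

theorem bdry_next {z : Z} {c c' : Fin l} (h : c.1 + 1 = c'.1) :
    bdry ztok z c m = bdry ztok z c' 0 := by
  ext v
  rw [mem_bdry, mem_bdry]
  have hc : c.1 + 1 < l := by omega
  have hr : ∀ j, rgt ztok z c j = vhor z j c := fun j => if_pos hc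
  simp only [hr]
  constructor
  · rintro (⟨j, _, hv⟩ | ⟨j, c'', hj, _⟩ | ⟨j, _, hm, _⟩)
    · exact Or.inr (Or.inl ⟨j, c, by omega, h, hv⟩)
    · exact absurd j.2 hj
    · omega
  · rintro (⟨j, hj, _⟩ | ⟨j, c'', _, hc'', hv⟩ | ⟨j, hj, _, _⟩)
    · omega
    · have : c'' = c := Fin.ext (by omega)
      subst this
      exact Or.inl ⟨j, j.2, hv⟩
    · omega

theorem bdry_zero {z : Z} {c : Fin l} (h : c.1 = 0) : bdry (Tok := Tok) ztok z c 0 = ∅ := by
  ext v
  rw [mem_bdry]
  constructor
  · rintro (⟨j, hj, _⟩ | ⟨j, c'', _, hc'', hv⟩ | ⟨j, hj, _, _⟩) <;> omega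
  · intro h
    exact absurd h (Finset.notMem_empty _)

/-- The sweep through the grid. -/
theorem sweep (hk : m + 3 ≤ k) (z : Z) :
    ∀ n (hn : n < l), HS (prodVars (l := l) axt ztok) (prodRhs acc) k (bdry ztok z ⟨n, hn⟩ m)
      (if z = acc ∧ 0 < m then 1 else 0) := by
  have hrow : ∀ (c : Fin l) (β : ZMod 2),
      HS (prodVars (l := l) axt ztok) (prodRhs acc) k (bdry ztok z c 0) β →
      ∀ i ≤ m, HS (prodVars (l := l) axt ztok) (prodRhs acc) k (bdry ztok z c i)
        (β + if z = acc ∧ c.1 = 0 ∧ 0 < i then 1 else 0) := by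
    intro c β h0 i
    induction i with
    | zero =>
      intro _
      simpa using h0
    | succ i ih =>
      intro hi
      have h1 := ih (by omega)
      have h2 := HS.step h1 (Sum.inr (z, ⟨i, by omega⟩, c) : PEqn m l Ax Z)
        (A' := bdry ztok z c (i + 1)) (fun v => bdry_step ztok (by omega) v)
        (by have := bdry_card (Tok := Tok) ztok z c i; omega)
        (by have := bdry_card (Tok := Tok) ztok z c (i + 1); omega)
      convert h2 using 1
      rw [add_assoc]
      congr 1
      simp only [prodRhs]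
      by_cases hz : z = acc
      · by_cases hc : c.1 = 0
        · rcases Nat.eq_zero_or_pos i with rfl | hi0
          · simp [hz, hc]
          · simp [hz, hc, hi0, hi0.ne']
        · simp [hz, hc]
      · simp [hz]
  intro n
  induction n with
  | zero =>
    intro hn
    have h0 : HS (prodVars (l := l) axt ztok) (prodRhs acc) k (bdry ztok z ⟨0, hn⟩ 0) 0 := by
      rw [bdry_zero ztok rfl]
      exact HS.empty
    have := hrow _ _ h0 m le_rfl
    simpa using this
  | succ n ih =>
    intro hn
    have h0 := ih (by omega)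
    rw [bdry_next ztok (c' := ⟨n + 1, hn⟩) rfl] at h0
    have := hrow _ _ h0 m le_rfl
    simpa using this

/-- The set of the token variables of a token fact. -/
def tset (f : Fin m → Tok) : Finset (PVar m l Tok Z) := Finset.univ.image (fun j => vtok j (f j))

theorem mem_tset {f : Fin m → Tok} {v : PVar m l Tok Z} :
    v ∈ tset (l := l) (Z := Z) f ↔ ∃ j, v = vtok j (f j) := by
  unfold tset
  simp only [Finset.mem_image, Finset.mem_univ, true_and]
  exact exists_congr fun j => eq_comm

theorem init_holds (hk : m + 3 ≤ k) (hm : 0 < m) (hl : 0 < l) (z : Z) :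
    HS (prodVars (l := l) axt ztok) (prodRhs acc) k (tset (ztok z)) (if z = acc then 1 else 0) := by
  have h := sweep (l := l) (k := k) axt ztok acc hk z (l - 1) (by omega)
  have hl1 : l - 1 < l := by omega
  have e1 : bdry ztok z (⟨l - 1, hl1⟩ : Fin l) m = tset (ztok z) := by
    ext v
    rw [mem_bdry, mem_tset]
    have hr : ∀ j, rgt ztok z (⟨l - 1, hl1⟩ : Fin l) j = vtok j (ztok z j) :=
      fun j => if_neg (by show ¬ (l - 1 + 1 < l); omega)
    simp only [hr]
    constructor
    · rintro (⟨j, _, hv⟩ | ⟨j, c'', hj, _⟩ | ⟨j, _, hm, _⟩)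
      · exact ⟨j, hv⟩
      · exact absurd j.2 hj
      · omega
    · rintro ⟨j, hv⟩
      exact Or.inl ⟨j, j.2, hv⟩
  rw [e1] at h
  simpa [hm] using h

/-- The window of the axioms of a family. -/
def axWin (l : ℕ) (Tok Z : Type*) [DecidableEq Tok] [DecidableEq Z] (a : Fin m → Ax) :
    Finset (PVar m l Tok Z ⊕ PEqn m l Ax Z) :=
  Finset.univ.image (fun j => Sum.inr (Sum.inl (j, a j)))

/-- The sum of the axioms of a family. -/
def axSum (l : ℕ) (Z : Type*) (axt : Fin m → Ax → Finset Tok) (a : Fin m → Ax)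
    (s : Finset (Fin m)) : PVar m l Tok Z → ZMod 2
  | .inl (j, τ) => if j ∈ s ∧ τ ∈ axt j (a j) then 1 else 0
  | .inr _ => 0

theorem sum_axioms (a : Fin m → Ax) (s : Finset (Fin m)) :
    Ref (prodVars (l := l) axt ztok) (prodRhs acc) k (axWin l Tok Z a) (axSum l Z axt a s) 0 := by
  induction s using Finset.induction_on with
  | empty =>
    have : axSum l Z axt a ∅ = 0 := by
      funext v
      rcases v with ⟨j, τ⟩ | v <;> simp [axSum]
    rw [this]
    exact Ref.mono Ref.zero (Finset.empty_subset _)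
  | insert j0 s hj ih =>
    have h1 : Ref (prodVars (l := l) axt ztok) (prodRhs acc) k (axWin l Tok Z a)
        (fun v => if v ∈ prodVars (l := l) axt ztok (Sum.inl (j0, a j0)) then 1 else 0) 0 := by
      refine Ref.mono (Ref.eqn (Sum.inl (j0, a j0) : PEqn m l Ax Z)) ?_
      intro p hp
      rw [Finset.mem_singleton] at hp
      rw [hp]
      exact Finset.mem_image.mpr ⟨j0, Finset.mem_univ _, rfl⟩
    have h2 := Ref.add ih h1
    rw [add_zero] at h2
    convert h2 using 1
    funext v
    rcases v with ⟨j, τ⟩ | v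
    · by_cases hjj : j = j0
      · subst hjj
        simp [prodVars, hj, axSum]
      · have : ¬ (j0 = j) := fun h => hjj h.symm
        simp [prodVars, hjj, this, axSum]
    · simp [prodVars, axSum]

theorem derivable_holds (hk : m + 3 ≤ k) (hm : 0 < m) (hl : 0 < l) {f : Fin m → Tok}
    (h : Derivable axt ztok acc f) :
    HS (prodVars (l := l) axt ztok) (prodRhs acc) k (tset f) 0 := by
  have himg : ∀ g : Fin m → Tok, (tset (l := l) (Z := Z) g).image Sum.inl =
      Finset.univ.image (fun j => (Sum.inl (vtok j (g j)) : PVar m l Tok Z ⊕ PEqn m l Ax Z)) := by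
    intro g
    unfold tset
    rw [Finset.image_image]
    rfl
  -- moving a token fact to the axioms
  have toAx : ∀ (g : Fin m → Tok) (a : Fin m → Ax), (∀ j, g j ∈ axt j (a j)) →
      HS (prodVars (l := l) axt ztok) (prodRhs acc) k (tset g) 0 →
      Ref (prodVars (l := l) axt ztok) (prodRhs acc) k (axWin l Tok Z a)
      (indic (tset g)) 0 := by
    intro g a hg hH
    unfold HS at hH
    rw [himg] at hH
    refine hH.exch _ _ (fun v hv => ?_) (by omega)
    have hv' : v ∈ tset g := by
      by_contra hcon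
      exact hv (if_neg hcon)
    obtain ⟨j, rfl⟩ := mem_tset.mp hv'
    refine ⟨j, by simp [covOf], ?_⟩
    simp only [covOf, prodVars, Finset.mem_image]
    exact ⟨g j, hg j, rfl⟩
  have fromAx : ∀ (g : Fin m → Tok) (a : Fin m → Ax), (∀ j, g j ∈ axt j (a j)) →
      Ref (prodVars (l := l) axt ztok) (prodRhs acc) k (axWin l Tok Z a)
      (indic (tset g)) 0 →
      HS (prodVars (l := l) axt ztok) (prodRhs acc) k (tset g) 0 := by
    intro g a hg hH
    unfold HS
    rw [himg]
    refine hH.exch _ _ (fun v hv => ?_) (by omega)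
    have hv' : v ∈ tset g := by
      by_contra hcon
      exact hv (if_neg hcon)
    obtain ⟨j, rfl⟩ := mem_tset.mp hv'
    refine ⟨j, ?_, by simp [covOf]⟩
    simp only [covOf, prodVars, Finset.mem_image]
    exact ⟨g j, hg j, rfl⟩
  have hind : ∀ (g : Fin m → Tok) (j : Fin m) (τ : Tok),
      indic (tset (l := l) (Z := Z) g) (vtok j τ) = if τ = g j then 1 else 0 := by
    intro g j τ
    unfold indic
    simp only [mem_tset]
    by_cases hτ : τ = g j
    · rw [if_pos hτ, if_pos ⟨j, by rw [hτ]⟩]
    · rw [if_neg hτ, if_neg]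
      rintro ⟨j', h'⟩
      simp only [Sum.inl.injEq, Prod.mk.injEq] at h'
      obtain ⟨rfl, rfl⟩ := h'
      exact hτ rfl
  have hind' : ∀ (g : Fin m → Tok) (v), indic (tset (l := l) (Z := Z) g) (Sum.inr v) = 0 := by
    intro g v
    unfold indic
    rw [if_neg]
    rw [mem_tset]
    rintro ⟨j, h'⟩
    simp at h'
  induction h with
  | init z hz =>
    have := init_holds (k := k) axt ztok acc hk hm hl z
    rwa [if_neg hz] at this
  | two f g _ hax ih =>
    choose a ha hne using hax
    refine fromAx g a (fun j => by rw [ha]; simp) ?_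
    have h1 := toAx f a (fun j => by rw [ha]; simp) ih
    have h2 := Ref.add h1 (sum_axioms (k := k) (l := l) axt ztok acc a Finset.univ)
    rw [add_zero] at h2
    convert h2 using 1
    funext v
    rcases v with ⟨j, τ⟩ | v
    · simp only [hind, axSum, Finset.mem_univ, true_and, ha, Finset.mem_insert,
        Finset.mem_singleton]
      by_cases h3 : τ = f j
      · have h4 : τ ≠ g j := fun h' => hne j (h3.symm.trans h')
        rw [if_neg h4, if_pos h3, if_pos (Or.inl h3)]
        rfl
      · by_cases h4 : τ = g j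
        · rw [if_pos h4, if_neg h3, if_pos (Or.inr h4), zero_add]
        · rw [if_neg h4, if_neg h3, if_neg (by tauto), add_zero]
    · simp only [hind', axSum, add_zero]
  | three f g h _ _ hax ih ih' =>
    choose a ha hne1 hne2 hne3 using hax
    refine fromAx h a (fun j => by rw [ha]; simp) ?_
    have h1 := toAx f a (fun j => by rw [ha]; simp) ih
    have h1' := toAx g a (fun j => by rw [ha]; simp) ih'
    have h2 := Ref.add (Ref.add h1 h1') (sum_axioms (k := k) (l := l) axt ztok acc a Finset.univ)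
    rw [add_zero, add_zero] at h2
    convert h2 using 1
    funext v
    rcases v with ⟨j, τ⟩ | v
    · simp only [hind, axSum, Finset.mem_univ, true_and, ha, Finset.mem_insert,
        Finset.mem_singleton]
      by_cases h3 : τ = f j
      · have h4 : τ ≠ g j := fun h' => hne1 j (h3.symm.trans h')
        have h5 : τ ≠ h j := fun h' => hne2 j (h3.symm.trans h')
        rw [if_neg h4, if_neg h5, if_pos h3, if_pos (Or.inl h3)]
        rfl
      · by_cases h4 : τ = g j
        · have h5 : τ ≠ h j := fun h' => hne3 j (h4.symm.trans h')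
          rw [if_pos h4, if_neg h5, if_neg h3, if_pos (Or.inr (Or.inl h4))]
          rfl
        · by_cases h5 : τ = h j
          · rw [if_neg h4, if_neg h3, if_pos h5, if_pos (Or.inr (Or.inr h5))]
            rfl
          · rw [if_neg h4, if_neg h3, if_neg h5, if_neg (by tauto)]
            rfl
    · simp only [hind', axSum, add_zero]

end grid

/-- **Theorem B** (refutation): if the accepting fact is derivable then `m + 3` pebbles refute
the XOR system. -/
theorem theoremB {m l k : ℕ} {Tok Ax Z : Type*} [DecidableEq Tok] [DecidableEq Ax]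
    [DecidableEq Z] (axt : Fin m → Ax → Finset Tok) (ztok : Z → Fin m → Tok) (acc : Z)
    (hm : 0 < m) (hl : 0 < l) (hk : m + 3 ≤ k)
    (hd : Derivable axt ztok acc (ztok acc)) :
    Refutable (prodVars (l := l) axt ztok) (prodRhs acc) k := by
  have h0 := derivable_holds (k := k) (l := l) axt ztok acc hk hm hl hd
  have h1 := init_holds (k := k) axt ztok acc hk hm hl acc
  rw [if_pos rfl] at h1
  refine ⟨_, _, ?_, ?_, h0, h1⟩
  · have h2 := Finset.card_image_le (s := tset (l := l) (Z := Z) (ztok acc))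
      (f := (Sum.inl : PVar m l Tok Z → PVar m l Tok Z ⊕ PEqn m l Ax Z))
    have h3 : (tset (l := l) (Z := Z) (ztok acc)).card ≤ m := by
      unfold tset
      refine Finset.card_image_le.trans ?_
      simp
    omega
  · refine ⟨Sum.inl (vtok ⟨0, hm⟩ (ztok acc ⟨0, hm⟩)), Finset.mem_image_of_mem _ ?_⟩
    exact mem_tset.mpr ⟨_, rfl⟩

end P310
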