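import Vale.Agent.P310.HornD2
import Vale.Agent.P310.HornEasy
import Vale.Agent.P310.HornDer
import Vale.Agent.P310.TheoremA
import Vale.Agent.P310.TheoremB

/-!
# P310: the product system of a Horn system (notes/P310.md, section 3), assembly

`hornSys`: the product system of a Horn system with the hypotheses `HHyp`.
`horn_robust`: if the accepting fact is not derivable (in the strong sense that there is a model,
`HHyp.model`, `HHyp.acc_not`) then few pebbles do not refute the XOR system.
`horn_refutable`: if the accepting fact is derivable then `m + 3` pebbles refute it.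
-/

namespace P310

open Finset

variable {L R m n d : ℕ} {Main RI : Type} [DecidableEq Main] [DecidableEq RI]
variable {pi : Fin m → GV L →ₗ[ZMod 2] GV R} {rules : RI → Option (HRule L Main)}
  {ini : Main → Prop} {acc : Main} {Tr : Main → GV L → Prop}

/-- the product system of a Horn system -/
noncomputable def hornSys (H : HHyp d pi rules ini acc Tr) [DecidablePred ini] :
    ProdSys m d (HTok L R Main RI) (HAx L R Main RI) (HZ L Main) (HV L L Main) (HV R L Main) where
  axt := haxt pi rules
  vec := hvec pi rules
  ev := hev pi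
  ztok z _ := hztok ini acc z
  zfact := hzfact ini acc
  acc := .acc
  T := {t | HTrue rules Tr t}
  ax_card := hax_card pi rules
  ax_sum := hax_sum H
  ev_inj := hev_inj H
  zvec := hz_vec rules
  z_true := hz_true H
  acc_not := hacc_not H
  ev_ne _ ht j := hev_ne H ht j
  ev_acc_ne := hev_acc_ne pi acc
  add_mem t ht t' ht' hne s hs h := hD2 H t ht t' ht' hne s hs h
  acc_far t ht s hs := hD2' H t ht s hs

instance instFiniteHTok [Finite Main] [Finite RI] : Finite (HTok L R Main RI) := by
  classical
  refine Finite.of_injective (β := (Main × GV R) ⊕ (Main × Fin (L + 1) × GV R) ⊕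
    (Main × Fin L) ⊕ (Main × Fin L) ⊕ Main ⊕ (RI × GV R) ⊕ (RI × GV R) ⊕ (RI × GV R))
    (fun t => match t with
      | .tm A a => .inl (A, a)
      | .tk C i a => .inr (.inl (C, i, a))
      | .tc C i => .inr (.inr (.inl (C, i)))
      | .td C i => .inr (.inr (.inr (.inl (C, i))))
      | .tf C => .inr (.inr (.inr (.inr (.inl C))))
      | .tp r a => .inr (.inr (.inr (.inr (.inr (.inl (r, a))))))
      | .tu r a => .inr (.inr (.inr (.inr (.inr (.inr (.inl (r, a)))))))
      | .tv r a => .inr (.inr (.inr (.inr (.inr (.inr (.inr (r, a)))))))) ?_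
  intro x y h
  cases x <;> cases y <;> simp_all

instance instFiniteHAx [Finite Main] [Finite RI] : Finite (HAx L R Main RI) := by
  classical
  refine Finite.of_injective (β := (Main × Fin L × GV R) ⊕ (Main × Fin L × GV R) ⊕
    (RI × GV R) ⊕ (RI × GV R) ⊕ (RI × GV R) ⊕ (RI × GV R))
    (fun t => match t with
      | .m0 C i a => .inl (C, i, a)
      | .m1 C i a => .inr (.inl (C, i, a))
      | .p r a => .inr (.inr (.inl (r, a)))
      | .u r a => .inr (.inr (.inr (.inl (r, a))))
      | .v r a => .inr (.inr (.inr (.inr (.inl (r, a)))))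
      | .q r a => .inr (.inr (.inr (.inr (.inr (r, a)))))) ?_
  intro x y h
  cases x <;> cases y <;> simp_all

instance instFiniteHZ [Finite Main] : Finite (HZ L Main) := by
  classical
  refine Finite.of_injective (β := Main ⊕ Main ⊕ (Main × Fin L) ⊕ (Main × Fin L) ⊕ Main ⊕ Unit)
    (fun t => match t with
      | .ini A => .inl A
      | .k0 C => .inr (.inl C)
      | .c C i => .inr (.inr (.inl (C, i)))
      | .d C i => .inr (.inr (.inr (.inl (C, i))))
      | .f C => .inr (.inr (.inr (.inr (.inl C))))
      | .acc => .inr (.inr (.inr (.inr (.inr ()))))) ?_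
  intro x y h
  cases x <;> cases y <;> simp_all

/-- the tokens of the initial facts, at the digits -/
abbrev hzt (m : ℕ) (ini : Main → Prop) [DecidablePred ini] (acc : Main) :
    HZ L Main → Fin m → HTok L R Main RI := fun z _ => hztok ini acc z

/-- **Horn systems, lower bound.** -/
theorem horn_robust [Finite Main] [Finite RI] (H : HHyp d pi rules ini acc Tr)
    [DecidablePred ini] {k l : ℕ} (hk : k + 1 + 6 * d < 2 * m) (hl : k + 1 < l) :
    Robust (prodVars (l := l) (haxt pi rules) (hzt m ini acc)) (prodRhs (HZ.acc)) k :=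
  theoremA (hornSys H) hk hl

/-- **Horn systems, upper bound.** -/
theorem horn_refutable [DecidableEq (HAx L R Main RI)]
    (hwf : HWf (fun ρ => ∃ r, rules r = some ρ) acc) [DecidablePred ini]
    (h : HDer (fun ρ => ∃ r, rules r = some ρ) ini acc 0) {k l : ℕ} (hm : 0 < m) (hl : 0 < l)
    (hk : m + 3 ≤ k) :
    Refutable (prodVars (l := l) (haxt pi rules) (hzt m ini acc)) (prodRhs (HZ.acc)) k := by
  refine theoremB _ _ _ hm hl hk ?_
  have h1 := hder (pi := pi) hwf acc 0 h
  have e : (fun j => HTok.tm acc (pi j 0)) =
      (hzt m ini acc HZ.acc : Fin m → HTok L R Main RI) := by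
    funext j
    rw [map_zero]
    rfl
  rw [e] at h1
  exact h1

end P310
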