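import Vale.Agent.P310.MachDef

/-!
# P310: cells as pairs of numbers
-/

namespace P310

open Function

theorem bv_add_one (β : Bool) : bv β + 1 = bv (!β) := by
  cases β <;> decide

theorem bv_inj {β γ : Bool} (h : bv β = bv γ) : β = γ := by
  revert h
  cases β <;> cases γ <;> decide

theorem cellv_t {L1 L2 t p i : ℕ} (hi : i < L1) (h' : i < L1 + L2) :
    cellv L1 L2 t p ⟨i, h'⟩ = bv (t.testBit i) := by
  unfold cellv bv
  rw [if_pos hi]

theorem cellv_p {L1 L2 t p i : ℕ} (h' : L1 + i < L1 + L2) :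
    cellv L1 L2 t p ⟨L1 + i, h'⟩ = bv (p.testBit i) := by
  unfold cellv bv
  rw [if_neg (by simp), Nat.add_sub_cancel_left]

theorem testBit_xor_pow (x i j : ℕ) :
    (x ^^^ 2 ^ i).testBit j = (x.testBit j ^^ decide (i = j)) := by
  rw [Nat.testBit_xor, Nat.testBit_two_pow]

theorem add_one_zmod (b : Bool) :
    ((if b = true then 1 else 0) + 1 : ZMod 2) = if (b ^^ true) = true then 1 else 0 := by
  cases b <;> decide

theorem cellv_t_add {L1 L2 t p i : ℕ} (hi : i < L1) (h' : i < L1 + L2) :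
    cellv L1 L2 t p + shv (some ⟨i, h'⟩) = cellv L1 L2 (t ^^^ 2 ^ i) p := by
  funext l
  simp only [Pi.add_apply, shv, cellv]
  rw [Pi.single_apply]
  by_cases hl : (l : ℕ) < L1
  · simp only [if_pos hl, testBit_xor_pow]
    by_cases h : i = (l : ℕ)
    · have h2 : l = ⟨i, h'⟩ := Fin.ext h.symm
      rw [if_pos h2, add_one_zmod]
      simp [h]
    · have h2 : l ≠ ⟨i, h'⟩ := fun h2 => h (congrArg Fin.val h2).symm
      rw [if_neg h2]
      simp [h]
  · have h2 : l ≠ ⟨i, h'⟩ := fun h2 => hl (by rw [h2]; exact hi)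
    simp only [if_neg hl, if_neg h2, add_zero]

theorem cellv_p_add {L1 L2 t p i : ℕ} (h' : L1 + i < L1 + L2) :
    cellv L1 L2 t p + shv (some ⟨L1 + i, h'⟩) = cellv L1 L2 t (p ^^^ 2 ^ i) := by
  funext l
  simp only [Pi.add_apply, shv, cellv]
  rw [Pi.single_apply]
  by_cases hl : (l : ℕ) < L1
  · have h2 : l ≠ ⟨L1 + i, h'⟩ := fun h2 => by
      rw [h2] at hl
      simp at hl
    simp only [if_pos hl, if_neg h2, add_zero]
  · simp only [if_neg hl, testBit_xor_pow]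
    by_cases h : i = (l : ℕ) - L1
    · have h2 : l = ⟨L1 + i, h'⟩ := Fin.ext (by simp only; omega)
      rw [if_pos h2, add_one_zmod]
      simp [h]
    · have h2 : l ≠ ⟨L1 + i, h'⟩ := fun h2 => h (by
        have := congrArg Fin.val h2
        simp only at this
        omega)
      rw [if_neg h2]
      simp [h]

theorem cellv_none {L1 L2 t p : ℕ} : cellv L1 L2 t p + shv none = cellv L1 L2 t p := by
  simp [shv]

theorem cellv_zero {L1 L2 : ℕ} : cellv L1 L2 0 0 = 0 := by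
  funext l
  simp [cellv]

theorem cellv_surj {L1 L2 : ℕ} (g : Fin (L1 + L2) → ZMod 2) :
    ∃ t p, t < 2 ^ L1 ∧ p < 2 ^ L2 ∧ g = cellv L1 L2 t p := by
  refine ⟨Nat.ofBits fun i : Fin L1 => decide (g (Fin.castAdd L2 i) = 1),
    Nat.ofBits fun i : Fin L2 => decide (g (Fin.natAdd L1 i) = 1), Nat.ofBits_lt_two_pow _,
    Nat.ofBits_lt_two_pow _, ?_⟩
  have hz : ∀ z : ZMod 2, z = if z = 1 then 1 else 0 := by decide
  funext l
  unfold cellv
  by_cases hl : (l : ℕ) < L1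
  · rw [if_pos hl, Nat.testBit_ofBits_lt _ _ hl, hz (g l)]
    have : Fin.castAdd L2 ⟨(l : ℕ), hl⟩ = l := Fin.ext rfl
    rw [this]
    simp only [decide_eq_true_eq]
  · have h2 : (l : ℕ) - L1 < L2 := by have := l.2; omega
    rw [if_neg hl, Nat.testBit_ofBits_lt _ _ h2, hz (g l)]
    have : Fin.natAdd L1 ⟨(l : ℕ) - L1, h2⟩ = l := Fin.ext (by simp only [Fin.natAdd_mk]; omega)
    rw [this]
    simp only [decide_eq_true_eq]

theorem cellv_inj {L1 L2 t p t' p' : ℕ} (ht : t < 2 ^ L1) (hp : p < 2 ^ L2) (ht' : t' < 2 ^ L1)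
    (hp' : p' < 2 ^ L2) (h : cellv L1 L2 t p = cellv L1 L2 t' p') : t = t' ∧ p = p' := by
  constructor
  · refine Nat.eq_of_testBit_eq fun i => ?_
    by_cases hi : i < L1
    · have := congrFun h ⟨i, by omega⟩
      rw [cellv_t hi, cellv_t hi] at this
      exact bv_inj this
    · have hle : 2 ^ L1 ≤ 2 ^ i := Nat.pow_le_pow_right (by norm_num) (by omega)
      rw [Nat.testBit_lt_two_pow (by omega), Nat.testBit_lt_two_pow (by omega)]
  · refine Nat.eq_of_testBit_eq fun i => ?_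
    by_cases hi : i < L2
    · have := congrFun h ⟨L1 + i, by omega⟩
      rw [cellv_p, cellv_p] at this
      exact bv_inj this
    · have hle : 2 ^ L2 ≤ 2 ^ i := Nat.pow_le_pow_right (by norm_num) (by omega)
      rw [Nat.testBit_lt_two_pow (by omega), Nat.testBit_lt_two_pow (by omega)]

/-! ### arithmetic of bits -/

theorem xor_xor_pow (x i : ℕ) : (x ^^^ 2 ^ i) ^^^ 2 ^ i = x := by
  rw [Nat.xor_assoc, Nat.xor_self, Nat.xor_zero]

theorem testBit_iff (x i : ℕ) : x.testBit i = true ↔ x / 2 ^ i % 2 = 1 := by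
  rw [Nat.testBit_eq_decide_div_mod_eq, decide_eq_true_eq]

theorem testBit_false_iff (x i : ℕ) : x.testBit i = false ↔ x / 2 ^ i % 2 = 0 := by
  rw [Nat.testBit_eq_decide_div_mod_eq, decide_eq_false_iff_not]
  omega

theorem xor_add {x i : ℕ} (h : x.testBit i = false) : x ^^^ 2 ^ i = x + 2 ^ i := by
  refine Nat.eq_of_testBit_eq fun j => ?_
  rw [testBit_xor_pow]
  rcases Nat.lt_trichotomy i j with hj | hj | hj
  · have h1 : decide (i = j) = false := by simp; omega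
    rw [h1, Bool.xor_false]
    have h2 : x / 2 ^ i % 2 = 0 := (testBit_false_iff x i).1 h
    have h3 : (x + 2 ^ i) / 2 ^ (i + 1) = x / 2 ^ (i + 1) := by
      rw [pow_succ, ← Nat.div_div_eq_div_mul, ← Nat.div_div_eq_div_mul,
        Nat.add_div_right _ (by positivity)]
      omega
    obtain ⟨k, rfl⟩ : ∃ k, j = i + 1 + k := ⟨j - (i + 1), by omega⟩
    rw [Nat.testBit_eq_decide_div_mod_eq, Nat.testBit_eq_decide_div_mod_eq, pow_add,
      ← Nat.div_div_eq_div_mul, ← Nat.div_div_eq_div_mul, h3]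
  · subst hj
    rw [h]
    simp only [decide_true, Bool.false_xor]
    symm
    rw [testBit_iff, Nat.add_div_right _ (by positivity)]
    have h2 : x / 2 ^ i % 2 = 0 := (testBit_false_iff x i).1 h
    omega
  · have h1 : decide (i = j) = false := by simp; omega
    rw [h1, Bool.xor_false, Nat.testBit_eq_decide_div_mod_eq, Nat.testBit_eq_decide_div_mod_eq]
    obtain ⟨k, rfl⟩ : ∃ k, i = j + 1 + k := ⟨i - (j + 1), by omega⟩
    have h3 : (x + 2 ^ (j + 1 + k)) / 2 ^ j = x / 2 ^ j + 2 * 2 ^ k := by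
      have : 2 ^ (j + 1 + k) = 2 * 2 ^ k * 2 ^ j := by ring
      rw [this, Nat.add_mul_div_right _ _ (by positivity)]
    rw [h3]
    congr 1
    rw [Nat.add_mul_mod_self_left]

theorem xor_sub {x i : ℕ} (h : x.testBit i = true) : (x ^^^ 2 ^ i) + 2 ^ i = x := by
  have h1 : (x ^^^ 2 ^ i).testBit i = false := by
    rw [testBit_xor_pow, h]; simp
  rw [← xor_add h1, xor_xor_pow]

theorem pow_le_of_testBit {x i : ℕ} (h : x.testBit i = true) : 2 ^ i ≤ x := by
  have := xor_sub h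
  omega

theorem dvd_even {x i : ℕ} (h : 2 ^ i ∣ x) (hb : x.testBit i = false) : 2 ^ (i + 1) ∣ x := by
  obtain ⟨k, rfl⟩ := h
  rw [testBit_false_iff, Nat.mul_div_cancel_left _ (by positivity)] at hb
  obtain ⟨m, rfl⟩ : ∃ m, k = 2 * m := ⟨k / 2, by omega⟩
  exact ⟨m, by ring⟩

theorem dvd_odd {x i : ℕ} (h : 2 ^ i ∣ x) (hb : x.testBit i = true) :
    2 ^ (i + 1) ∣ x + 2 ^ i := by
  obtain ⟨k, rfl⟩ := h
  rw [testBit_iff, Nat.mul_div_cancel_left _ (by positivity)] at hb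
  obtain ⟨m, rfl⟩ : ∃ m, k = 2 * m + 1 := ⟨k / 2, by omega⟩
  exact ⟨m + 1, by ring⟩

theorem dvd_odd' {x i : ℕ} (h : 2 ^ i ∣ x) (hb : x.testBit i = true) :
    2 ^ (i + 1) ∣ x - 2 ^ i := by
  have h1 := dvd_odd h hb
  have h2 := pow_le_of_testBit hb
  have h3 : x + 2 ^ i = (x - 2 ^ i) + 2 ^ (i + 1) := by rw [pow_succ]; omega
  rw [h3] at h1
  exact (Nat.dvd_add_left (dvd_refl _)).1 h1

/-- the bit `i` of `p`, if `2 ^ i ∣ p + 1` -/
theorem succ_bit {p i : ℕ} (h : 2 ^ i ∣ p + 1) :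
    (p.testBit i = false → 2 ^ (i + 1) ∣ p + 1 + 2 ^ i) ∧
      (p.testBit i = true → 2 ^ (i + 1) ∣ p + 1) := by
  obtain ⟨k, hk⟩ := h
  have h1 : 1 ≤ k := by
    rcases Nat.eq_zero_or_pos k with h | h
    · subst h; omega
    · exact h
  obtain ⟨m, rfl⟩ : ∃ m, k = m + 1 := ⟨k - 1, by omega⟩
  have hpos : 0 < 2 ^ i := by positivity
  have h2 : p = (2 ^ i - 1) + 2 ^ i * m := by
    have : 2 ^ i * (m + 1) = 2 ^ i * m + 2 ^ i := by ring
    omega
  have h3 : p / 2 ^ i = m := by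
    rw [h2, Nat.add_mul_div_left _ _ hpos, Nat.div_eq_of_lt (by omega), zero_add]
  constructor
  · intro hb
    rw [testBit_false_iff, h3] at hb
    obtain ⟨r, rfl⟩ : ∃ r, m = 2 * r := ⟨m / 2, by omega⟩
    rw [hk]
    exact ⟨r + 1, by ring⟩
  · intro hb
    rw [testBit_iff, h3] at hb
    obtain ⟨r, rfl⟩ : ∃ r, m = 2 * r + 1 := ⟨m / 2, by omega⟩
    rw [hk]
    exact ⟨r + 1, by ring⟩

theorem xor_div {x i : ℕ} : (x ^^^ 2 ^ i) / 2 ^ (i + 1) = x / 2 ^ (i + 1) := by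
  refine Nat.eq_of_testBit_eq fun j => ?_
  rw [Nat.testBit_div_two_pow, Nat.testBit_div_two_pow, testBit_xor_pow]
  have : decide (i = j + (i + 1)) = false := by simp; omega
  rw [this, Bool.xor_false]

theorem xor_lt {x i L : ℕ} (hx : x < 2 ^ L) (hi : i < L) : x ^^^ 2 ^ i < 2 ^ L :=
  Nat.xor_lt_two_pow hx (Nat.pow_lt_pow_right (by norm_num) hi)

end P310
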