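import Vale.Agent.P310.Horn
import Vale.Agent.P310.NM

/-!
# P310: the Horn system of a machine, definitions (notes/P310.md, section 4)

Cells are pairs `(t, p)`, `t < 2 ^ L1` (time), `p < 2 ^ L2` (position in a stack, from the top).
-/

namespace P310

open Function

/-- the cell with the numbers `t` (first `L1` bits) and `p` (last `L2` bits) -/
def cellv (L1 L2 t p : ℕ) : Fin (L1 + L2) → ZMod 2 := fun i =>
  if (i : ℕ) < L1 then (if t.testBit i then 1 else 0)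
  else (if p.testBit (i - L1) then 1 else 0)

/-- the facts about a configuration: the state, or the content of a cell of a stack -/
inductive Bx
  | st (q : ℕ)
  | cl (g : ℕ) (β : Option ℕ)
  deriving DecidableEq

/-- the types of the Horn system -/
inductive Ty
  | X (l : ℕ) (β : Bool) (i : ℕ)
  | Z (i : ℕ)
  | B (b : Bx)
  | N (b : Bx) (i : ℕ)
  | O (o : Op) (i : ℕ)
  | U (g : ℕ) (β : Option ℕ) (i : ℕ)
  | D (g : ℕ) (β : Option ℕ) (i : ℕ)
  | Acc (i : ℕ)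
  deriving DecidableEq

/-- does the operation change the stack `g`? -/
def Op.touches : Op → ℕ → Prop
  | .push h _, g => h = g
  | .pop h, g => h = g
  | _, _ => False

instance (o : Op) (g : ℕ) : Decidable (o.touches g) := by
  unfold Op.touches
  cases o <;> infer_instance

/-- bounded optional symbols -/
def okb (A : ℕ) (β : Option ℕ) : Prop := ∀ b ∈ β, b < A

/-- bounded facts -/
def okx (Q K A : ℕ) : Bx → Prop
  | .st q => q < Q
  | .cl g β => g < K ∧ okb A β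

/-- bounded operations -/
def oko (K A : ℕ) : Op → Prop
  | .push g b => g < K ∧ b < A
  | .pop g => g < K
  | _ => True

/-- The rules. -/
inductive MRule (M : NM) (Q K A L1 L2 : ℕ) : HRule (L1 + L2) Ty → Prop
  | x1 (l i : ℕ) (β : Bool) (hl : l < L1 + L2) (hi : i < L1 + L2) :
      MRule M Q K A L1 L2 ⟨.X l β i, .X l β i, none, .X l β (i + 1)⟩
  | x2 (l i : ℕ) (β : Bool) (hl : l < L1 + L2) (hi : i < L1 + L2) (h : i ≠ l) :
      MRule M Q K A L1 L2 ⟨.X l β i, .X l β i, some ⟨i, hi⟩, .X l β (i + 1)⟩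
  | x3 (l : ℕ) (hl : l < L1 + L2) :
      MRule M Q K A L1 L2 ⟨.X l false l, .X l false l, some ⟨l, hl⟩, .X l true (l + 1)⟩
  | z1 (i : ℕ) (hi : i < L2) : MRule M Q K A L1 L2 ⟨.Z i, .Z i, none, .Z (i + 1)⟩
  | z2 (i : ℕ) (hi : i < L2) :
      MRule M Q K A L1 L2 ⟨.Z i, .Z i, some ⟨L1 + i, by omega⟩, .Z (i + 1)⟩
  | zs : MRule M Q K A L1 L2 ⟨.Z 0, .Z 0, none, .B (.st 0)⟩
  | zc (g : ℕ) (hg : g < K) : MRule M Q K A L1 L2 ⟨.Z L2, .Z L2, none, .B (.cl g none)⟩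
  | bo (q : ℕ) (hq : q < Q) :
      MRule M Q K A L1 L2 ⟨.B (.st q), .B (.st q), none, .O (M.op q) 0⟩
  | o1 (o : Op) (i : ℕ) (ho : oko K A o) (hi : i < L2) :
      MRule M Q K A L1 L2 ⟨.O o i, .O o i, none, .O o (i + 1)⟩
  | o2 (o : Op) (i : ℕ) (ho : oko K A o) (hi : i < L2) :
      MRule M Q K A L1 L2 ⟨.O o i, .O o i, some ⟨L1 + i, by omega⟩, .O o (i + 1)⟩
  | nn (q : ℕ) (hq : q < Q) (h : M.op q = .nop) :
      MRule M Q K A L1 L2 ⟨.B (.st q), .B (.st q), none, .N (.st (M.nx q none)) 0⟩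
  | na (q : ℕ) (hq : q < Q) (h : M.op q = .acc) :
      MRule M Q K A L1 L2 ⟨.B (.st q), .B (.st q), none, .N (.st q) 0⟩
  | np (q g b : ℕ) (hq : q < Q) (h : M.op q = .push g b) :
      MRule M Q K A L1 L2 ⟨.B (.st q), .B (.st q), none, .N (.st (M.nx q none)) 0⟩
  | nq (q g : ℕ) (β : Option ℕ) (hq : q < Q) (h : M.op q = .pop g) (hb : okb A β) :
      MRule M Q K A L1 L2 ⟨.B (.st q), .B (.cl g β), none, .N (.st (M.nx q β)) 0⟩
  | kp (g : ℕ) (β : Option ℕ) (o : Op) (hg : g < K) (hb : okb A β) (ho : oko K A o)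
      (h : ¬ o.touches g) :
      MRule M Q K A L1 L2 ⟨.B (.cl g β), .O o L2, none, .N (.cl g β) 0⟩
  | pu (g b : ℕ) (hg : g < K) (hb : b < A) :
      MRule M Q K A L1 L2 ⟨.O (.push g b) 0, .O (.push g b) 0, none, .N (.cl g (some b)) 0⟩
  | u0 (g b : ℕ) (β : Option ℕ) (hg : g < K) (hb : b < A) (hβ : okb A β) :
      MRule M Q K A L1 L2 ⟨.B (.cl g β), .O (.push g b) L2, none, .U g β 0⟩
  | u1 (g : ℕ) (β : Option ℕ) (i : ℕ) (hg : g < K) (hβ : okb A β) (hi : i < L2) :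
      MRule M Q K A L1 L2
        ⟨.U g β i, .X (L1 + i) true (L1 + L2), some ⟨L1 + i, by omega⟩, .U g β (i + 1)⟩
  | u2 (g : ℕ) (β : Option ℕ) (i : ℕ) (hg : g < K) (hβ : okb A β) (hi : i < L2) :
      MRule M Q K A L1 L2
        ⟨.U g β i, .X (L1 + i) false (L1 + L2), some ⟨L1 + i, by omega⟩, .N (.cl g β) 0⟩
  | d0 (g : ℕ) (β : Option ℕ) (hg : g < K) (hβ : okb A β) :
      MRule M Q K A L1 L2 ⟨.B (.cl g β), .O (.pop g) L2, none, .D g β 0⟩
  | d1 (g : ℕ) (β : Option ℕ) (i : ℕ) (hg : g < K) (hβ : okb A β) (hi : i < L2) :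
      MRule M Q K A L1 L2
        ⟨.D g β i, .X (L1 + i) false (L1 + L2), some ⟨L1 + i, by omega⟩, .D g β (i + 1)⟩
  | d2 (g : ℕ) (β : Option ℕ) (i : ℕ) (hg : g < K) (hβ : okb A β) (hi : i < L2) :
      MRule M Q K A L1 L2
        ⟨.D g β i, .X (L1 + i) true (L1 + L2), some ⟨L1 + i, by omega⟩, .N (.cl g β) 0⟩
  | d3 (g : ℕ) (β : Option ℕ) (hg : g < K) (hβ : okb A β) :
      MRule M Q K A L1 L2 ⟨.D g β L2, .D g β L2, none, .N (.cl g none) 0⟩
  | t1 (b : Bx) (i : ℕ) (hb : okx Q K A b) (hi : i < L1) :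
      MRule M Q K A L1 L2
        ⟨.N b i, .X i true (L1 + L2), some ⟨i, by omega⟩, .N b (i + 1)⟩
  | t2 (b : Bx) (i : ℕ) (hb : okx Q K A b) (hi : i < L1) :
      MRule M Q K A L1 L2
        ⟨.N b i, .X i false (L1 + L2), some ⟨i, by omega⟩, .B b⟩
  | a0 (q : ℕ) (hq : q < Q) (h : M.op q = .acc) :
      MRule M Q K A L1 L2 ⟨.B (.st q), .B (.st q), none, .Acc 0⟩
  | a1 (i : ℕ) (hi : i < L1) : MRule M Q K A L1 L2 ⟨.Acc i, .Acc i, none, .Acc (i + 1)⟩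
  | a2 (i : ℕ) (hi : i < L1) :
      MRule M Q K A L1 L2 ⟨.Acc i, .Acc i, some ⟨i, by omega⟩, .Acc (i + 1)⟩

/-- The initial facts (at the cell `0`). -/
inductive MInit (L1 L2 : ℕ) : Ty → Prop
  | x (l : ℕ) (hl : l < L1 + L2) : MInit L1 L2 (.X l false 0)
  | z : MInit L1 L2 (.Z 0)

/-! ### the truth -/

/-- truth of a fact about the configuration at time `t`, at the position `p` -/
def hbx (M : NM) : Bx → ℕ → ℕ → Prop
  | .st q, t, p => p = 0 ∧ (M.run t).st = q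
  | .cl g β, t, p => ((M.run t).stk g)[p]? = β

/-- truth at the cell `(t, p)`, for all types but `X` -/
def TrN (M : NM) (L1 : ℕ) : Ty → ℕ → ℕ → Prop
  | .X _ _ _, _, _ => False
  | .Z i, t, p => t = 0 ∧ p < 2 ^ i
  | .B b, t, p => hbx M b t p
  | .N b i, t, p => 2 ^ i ∣ t ∧ hbx M b (t + 2 ^ i) p
  | .O o i, t, p => M.op (M.run t).st = o ∧ p < 2 ^ i
  | .U g β i, t, p => (∃ b, M.op (M.run t).st = .push g b) ∧ 2 ^ i ∣ p ∧
      ((M.run t).stk g)[p + 2 ^ i - 1]? = β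
  | .D g β i, t, p => M.op (M.run t).st = .pop g ∧ 2 ^ i ∣ p + 1 ∧
      ((M.run t).stk g)[p + 1 - 2 ^ i]? = β
  | .Acc i, t, p => p = 0 ∧ ∃ t0 < 2 ^ L1, t0 / 2 ^ i = t / 2 ^ i ∧ M.op (M.run t0).st = .acc

/-- the value of a bit -/
def bv (β : Bool) : ZMod 2 := if β then 1 else 0

/-- The truth. -/
def MTr (M : NM) (L1 L2 : ℕ) : Ty → (Fin (L1 + L2) → ZMod 2) → Prop
  | .X l β i, g => (∀ h : l < L1 + L2, g ⟨l, h⟩ = bv β) ∧ ∀ l' : Fin (L1 + L2), i ≤ l' → g l' = 0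
  | T, g => ∃ t p, t < 2 ^ L1 ∧ p < 2 ^ L2 ∧ g = cellv L1 L2 t p ∧ TrN M L1 T t p

end P310
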