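import Mathlib

/-!
# P310: Reed-Solomon code over the field with `2 ^ r0` elements as linear maps over `ZMod 2`
-/

namespace P310

open Polynomial

theorem exists_rs (m r0 d : ℕ) (hr : 0 < r0) (hm : m ≤ 2 ^ r0) :
    ∃ w : Fin m → (Fin (r0 * d) → ZMod 2) →ₗ[ZMod 2] (Fin r0 → ZMod 2),
      ∀ g, g ≠ 0 → ∀ S : Finset (Fin m), (∀ j ∈ S, w j g = 0) → S.card ≤ d := by
  classical
  have hr' : r0 ≠ 0 := hr.ne'
  have hcard : Nat.card (GaloisField 2 r0) = 2 ^ r0 := GaloisField.card 2 r0 hr'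
  have hfin : Finite (GaloisField 2 r0) :=
    Nat.finite_of_card_ne_zero (by rw [hcard]; positivity)
  have hft : Fintype (GaloisField 2 r0) := Fintype.ofFinite _
  have hrank : Module.finrank (ZMod 2) (GaloisField 2 r0) = r0 := GaloisField.finrank 2 hr'
  let e : GaloisField 2 r0 ≃ₗ[ZMod 2] (Fin r0 → ZMod 2) :=
    LinearEquiv.ofFinrankEq _ _ (by rw [hrank, Module.finrank_fin_fun])
  obtain ⟨α⟩ : Nonempty (Fin m ↪ GaloisField 2 r0) := by
    refine Function.Embedding.nonempty_of_card_le ?_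
    rw [Fintype.card_fin, ← Nat.card_eq_fintype_card, hcard]
    exact hm
  let φ : Fin r0 × Fin d ≃ Fin (r0 * d) := finProdFinEquiv
  let c : Fin d → (Fin (r0 * d) → ZMod 2) →ₗ[ZMod 2] GaloisField 2 r0 := fun t =>
    e.symm.toLinearMap ∘ₗ LinearMap.funLeft (ZMod 2) (ZMod 2) (fun r => φ (r, t))
  have hc : ∀ t g, c t g = e.symm (fun r => g (φ (r, t))) := fun t g => rfl
  let w : Fin m → (Fin (r0 * d) → ZMod 2) →ₗ[ZMod 2] (Fin r0 → ZMod 2) := fun j =>
    e.toLinearMap ∘ₗ ∑ t : Fin d, LinearMap.mulRight (ZMod 2) (α j ^ (t : ℕ)) ∘ₗ c t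
  have hw : ∀ j g, w j g = e (∑ t : Fin d, c t g * α j ^ (t : ℕ)) := by
    intro j g
    simp [w]
  refine ⟨w, fun g hg S hS => ?_⟩
  by_contra hcon
  have hlt : d < S.card := not_le.1 hcon
  set P : (GaloisField 2 r0)[X] := ∑ t : Fin d, C (c t g) * X ^ (t : ℕ) with hP
  have hcoeff : ∀ t : Fin d, P.coeff (t : ℕ) = c t g := by
    intro t
    rw [hP, finsetSum_coeff]
    simp only [coeff_C_mul, coeff_X_pow, Fin.val_inj, mul_ite, mul_one, mul_zero]
    rw [Finset.sum_ite_eq Finset.univ t, if_pos (Finset.mem_univ t)]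
  have hP0 : P ≠ 0 := by
    intro h
    apply hg
    funext x
    obtain ⟨⟨r, t⟩, rfl⟩ := φ.surjective x
    have h1 := hcoeff t
    rw [h, coeff_zero, hc] at h1
    have h2 := (LinearEquiv.map_eq_zero_iff e.symm).1 h1.symm
    exact congrFun h2 r
  have hdeg : P.natDegree < S.card := by
    refine lt_of_le_of_lt ?_ hlt
    refine natDegree_sum_le_of_forall_le _ _ fun t _ => ?_
    exact (natDegree_C_mul_X_pow_le _ _).trans t.2.le
  apply hP0
  refine eq_zero_of_natDegree_lt_card_of_eval_eq_zero' P (S.map α) ?_ (by rwa [Finset.card_map])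
  intro x hx
  obtain ⟨j, hj, rfl⟩ := Finset.mem_map.1 hx
  have h1 := hS j hj
  rw [hw] at h1
  have h2 := (LinearEquiv.map_eq_zero_iff e).1 h1
  rw [hP, eval_finsetSum]
  simpa using h2

end P310
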