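import Vale.Agent.P310.HornDef
import Vale.Agent.P310.NM
import Vale.Agent.P310.Code
import Vale.Agent.P310.RSPi

/-!
# P310: numbers of vectors, and the maps `pi j` with their table

The table number `W` does not depend on the number of blocks `s`.
-/

namespace P310

/-- the number of a vector (coordinate `i` = bit `i`) -/
def gnum {n : ℕ} (g : GV n) : ℕ := ∑ i : Fin n, (g i).val * 2 ^ i.1

namespace PiAux

theorem gnum_succ {n : ℕ} (g : GV (n + 1)) :
    gnum g = gnum (fun i : Fin n => g i.castSucc) + (g (Fin.last n)).val * 2 ^ n := by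
  unfold gnum
  rw [Fin.sum_univ_castSucc]
  rfl

theorem val_le (x : ZMod 2) : x.val ≤ 1 := Nat.lt_succ_iff.1 (ZMod.val_lt x)

end PiAux

theorem gnum_lt {n : ℕ} (g : GV n) : gnum g < 2 ^ n := by
  induction n with
  | zero => simp [gnum]
  | succ n ih =>
    rw [PiAux.gnum_succ, pow_succ]
    have h1 := ih (fun i : Fin n => g i.castSucc)
    have h2 := Nat.mul_le_mul_right (2 ^ n) (PiAux.val_le (g (Fin.last n)))
    omega

theorem gnum_inj {n : ℕ} : Function.Injective (gnum (n := n)) := by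
  induction n with
  | zero => exact Function.injective_of_subsingleton _
  | succ n ih =>
    intro g h hgh
    rw [PiAux.gnum_succ, PiAux.gnum_succ] at hgh
    have h1 := gnum_lt (fun i : Fin n => g i.castSucc)
    have h2 := gnum_lt (fun i : Fin n => h i.castSucc)
    have h3 : (g (Fin.last n)).val = (h (Fin.last n)).val := by
      have e1 := congrArg (· / 2 ^ n) hgh
      rw [Nat.add_mul_div_right _ _ (by positivity), Nat.add_mul_div_right _ _ (by positivity),
        Nat.div_eq_of_lt h1, Nat.div_eq_of_lt h2] at e1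
      omega
    rw [h3] at hgh
    have h4 := ih (Nat.add_right_cancel hgh)
    funext i
    refine Fin.lastCases ?_ (fun i => ?_) i
    · exact ZMod.val_injective 2 h3
    · exact congrFun h4 i

theorem gnum_surj {n x : ℕ} (hx : x < 2 ^ n) : ∃ g : GV n, gnum g = x := by
  let f : GV n → Fin (2 ^ n) := fun g => ⟨gnum g, gnum_lt g⟩
  have hf : Function.Injective f := fun g h hgh => gnum_inj (congrArg Fin.val hgh)
  have hb : Function.Bijective f := by
    rw [Fintype.bijective_iff_injective_and_card]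
    refine ⟨hf, ?_⟩
    simp [ZMod.card]
  obtain ⟨g, hg⟩ := hb.2 ⟨x, hx⟩
  exact ⟨g, congrArg Fin.val hg⟩

theorem gnum_zero {n : ℕ} : gnum (0 : GV n) = 0 := by
  simp [gnum]

theorem gnum_add {n : ℕ} (g h : GV n) : gnum (g + h) = gnum g ^^^ gnum h := by
  induction n with
  | zero => simp [gnum]
  | succ n ih =>
    have key : ∀ (a b x y : ℕ), a < 2 ^ n → b < 2 ^ n →
        (a + x * 2 ^ n) ^^^ (b + y * 2 ^ n) = (a ^^^ b) + (x ^^^ y) * 2 ^ n := by
      intro a b x y ha hb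
      have h1 : ((a + x * 2 ^ n) ^^^ (b + y * 2 ^ n)) % 2 ^ n = a ^^^ b := by
        rw [Nat.xor_mod_two_pow, Nat.add_mul_mod_self_right, Nat.add_mul_mod_self_right,
          Nat.mod_eq_of_lt ha, Nat.mod_eq_of_lt hb]
      have h2 : ((a + x * 2 ^ n) ^^^ (b + y * 2 ^ n)) / 2 ^ n = x ^^^ y := by
        rw [Nat.xor_div_two_pow, Nat.add_mul_div_right _ _ (by positivity),
          Nat.add_mul_div_right _ _ (by positivity), Nat.div_eq_of_lt ha, Nat.div_eq_of_lt hb,
          zero_add, zero_add]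
      rw [← Nat.mod_add_div ((a + x * 2 ^ n) ^^^ (b + y * 2 ^ n)) (2 ^ n), h1, h2]
      ring
    rw [PiAux.gnum_succ, PiAux.gnum_succ g, PiAux.gnum_succ h, key _ _ _ _ (gnum_lt _) (gnum_lt _),
      ← ih]
    congr 2
    have h3 : ∀ x y : ZMod 2, (x + y).val = x.val ^^^ y.val := by decide
    exact h3 _ _

namespace PiAux

/-- the coordinates of a vector as a function on `ℕ` -/
def ext {L : ℕ} : GV L →ₗ[ZMod 2] (ℕ → ZMod 2) where
  toFun g x := if h : x < L then g ⟨x, h⟩ else 0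
  map_add' g h := by
    funext x
    by_cases hx : x < L <;> simp [hx]
  map_smul' c g := by
    funext x
    by_cases hx : x < L <;> simp [hx]

theorem ext_of_lt {L : ℕ} (g : GV L) {x : ℕ} (hx : x < L) : ext g x = g ⟨x, hx⟩ := by
  simp [ext, hx]

/-- the block `b` of a vector -/
def blk {L : ℕ} (K0 b : ℕ) : GV L →ₗ[ZMod 2] GV K0 where
  toFun g i := ext g (b * K0 + i.1)
  map_add' g h := by
    funext x
    simp
  map_smul' c g := by
    funext x
    simp

/-- the blockwise map -/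
def bw {K0 r0 : ℕ} (hr : 0 < r0) (w : GV K0 →ₗ[ZMod 2] GV r0) (L R : ℕ) :
    GV L →ₗ[ZMod 2] GV R where
  toFun g y := w (blk K0 (y.1 / r0) g) ⟨y.1 % r0, Nat.mod_lt _ hr⟩
  map_add' g h := by
    funext x
    simp
  map_smul' c g := by
    funext x
    simp

theorem bw_apply {K0 r0 : ℕ} (hr : 0 < r0) (w : GV K0 →ₗ[ZMod 2] GV r0) {L R : ℕ} (g : GV L)
    (y : Fin R) : bw hr w L R g y = w (blk K0 (y.1 / r0) g) ⟨y.1 % r0, Nat.mod_lt _ hr⟩ := rfl

theorem blk_single {K0 L : ℕ} (hK : 0 < K0) (i : Fin L) (b : ℕ) :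
    blk K0 b (Pi.single i 1 : GV L) =
      if b = i.1 / K0 then (Pi.single ⟨i.1 % K0, Nat.mod_lt _ hK⟩ 1 : GV K0) else 0 := by
  funext x
  show ext (Pi.single i 1 : GV L) (b * K0 + x.1) = _
  have hiff : b * K0 + x.1 = i.1 ↔ (b = i.1 / K0 ∧ x.1 = i.1 % K0) := by
    constructor
    · intro h
      rw [← h, mul_comm, Nat.mul_add_div hK, Nat.mul_add_mod, Nat.div_eq_of_lt x.2,
        Nat.mod_eq_of_lt x.2]
      simp
    · rintro ⟨h1, h2⟩
      rw [h1, h2, mul_comm]
      exact Nat.div_add_mod _ _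
  by_cases h : b * K0 + x.1 < L
  · rw [ext_of_lt _ h]
    by_cases h2 : b * K0 + x.1 = i.1
    · obtain ⟨h3, h4⟩ := hiff.1 h2
      rw [if_pos h3]
      have e1 : (⟨b * K0 + x.1, h⟩ : Fin L) = i := Fin.ext h2
      have e2 : x = ⟨i.1 % K0, Nat.mod_lt _ hK⟩ := Fin.ext h4
      rw [e1, e2, Pi.single_eq_same, Pi.single_eq_same]
    · have e1 : (⟨b * K0 + x.1, h⟩ : Fin L) ≠ i := fun hh => h2 (congrArg Fin.val hh)
      rw [Pi.single_eq_of_ne e1]
      split_ifs with h3
      · have e2 : x ≠ ⟨i.1 % K0, Nat.mod_lt _ hK⟩ := fun hh =>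
          h2 (hiff.2 ⟨h3, congrArg Fin.val hh⟩)
        rw [Pi.single_eq_of_ne e2]
      · rfl
  · have e0 : ext (Pi.single i 1 : GV L) (b * K0 + x.1) = 0 := by simp [ext, h]
    rw [e0]
    split_ifs with h3
    · have e2 : x ≠ ⟨i.1 % K0, Nat.mod_lt _ hK⟩ := by
        intro hh
        apply h
        rw [hiff.2 ⟨h3, congrArg Fin.val hh⟩]
        exact i.2
      rw [Pi.single_eq_of_ne e2]
    · rfl

/-- number of a vector which is supported in one block -/
theorem gnum_block {r0 s b : ℕ} (hr : 0 < r0) (hb : b < s) (v : GV r0) (g : GV (r0 * s))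
    (hg : ∀ y : Fin (r0 * s), g y = if y.1 / r0 = b then v ⟨y.1 % r0, Nat.mod_lt _ hr⟩ else 0) :
    gnum g = gnum v * (2 ^ r0) ^ b := by
  unfold gnum
  rw [Finset.sum_mul]
  symm
  have hlt : ∀ x : Fin r0, r0 * b + x.1 < r0 * s := by
    intro x
    have h1 : r0 * (b + 1) ≤ r0 * s := Nat.mul_le_mul_left r0 hb
    have h2 := x.2
    rw [Nat.mul_add, mul_one] at h1
    omega
  let f : Fin r0 → Fin (r0 * s) := fun x => ⟨r0 * b + x.1, hlt x⟩
  have hf : Function.Injective f := by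
    intro x y hxy
    have h1 : r0 * b + x.1 = r0 * b + y.1 := congrArg Fin.val hxy
    exact Fin.ext (by omega)
  refine Finset.sum_of_injOn f hf.injOn (fun x _ => Finset.mem_univ _) ?_ ?_
  · intro y _ hy
    rw [hg y]
    split_ifs with h1
    · exfalso
      apply hy
      refine ⟨⟨y.1 % r0, Nat.mod_lt _ hr⟩, by simp, Fin.ext ?_⟩
      show r0 * b + y.1 % r0 = y.1
      rw [← h1]
      exact Nat.div_add_mod _ _
    · simp
  · intro x _
    rw [hg (f x)]
    have e1 : (f x).1 = r0 * b + x.1 := rfl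
    have e2 : (f x).1 / r0 = b := by
      rw [e1, Nat.mul_add_div hr, Nat.div_eq_of_lt x.2, add_zero]
    have e3 : (f x).1 % r0 = x.1 := by
      rw [e1, Nat.mul_add_mod, Nat.mod_eq_of_lt x.2]
    rw [if_pos e2]
    have e4 : (⟨(f x).1 % r0, Nat.mod_lt _ hr⟩ : Fin r0) = x := Fin.ext e3
    rw [e4, e1, pow_add, pow_mul]
    ring

end PiAux

open PiAux

/-- The maps `pi j` (`K0 = r0 * d` bits in a block are mapped to `r0` bits by a Reed-Solomon code
over the field with `2 ^ r0` elements) and their table. -/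
theorem exists_pi (m r0 d : ℕ) (hd : 0 < d) (hr : 0 < r0) (hm : m ≤ 2 ^ r0) :
    ∃ W : ℕ, ∀ s L R : ℕ, L = r0 * d * s → R = r0 * s →
      ∃ pi : Fin m → GV L →ₗ[ZMod 2] GV R,
        (∀ g : GV L, g ≠ 0 → ∀ S : Finset (Fin m), (∀ j ∈ S, pi j g = 0) → S.card ≤ d) ∧
        ∀ (j : Fin m) (i : Fin L), gnum (pi j (shv (some i))) =
          dig W (2 ^ r0) (j.1 * (r0 * d) + i.1 % (r0 * d)) * (2 ^ r0) ^ (i.1 / (r0 * d)) := by
  obtain ⟨w, hw⟩ := exists_rs m r0 d hr hm
  have hK : 0 < r0 * d := Nat.mul_pos hr hd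
  -- the table
  let D : ℕ → ℕ := fun x => if h : x / (r0 * d) < m then
    gnum (w ⟨x / (r0 * d), h⟩ (Pi.single ⟨x % (r0 * d), Nat.mod_lt _ hK⟩ 1)) else 0
  have hD : ∀ x, D x < 2 ^ r0 := by
    intro x
    simp only [D]
    split_ifs
    · exact gnum_lt _
    · positivity
  refine ⟨ofDig (2 ^ r0) D (m * (r0 * d)), fun s L R hL hR => ?_⟩
  subst hL
  subst hR
  refine ⟨fun j => bw hr (w j) (r0 * d * s) (r0 * s), ?_, ?_⟩
  · intro g hg S hS
    obtain ⟨x, hx⟩ : ∃ x, g x ≠ 0 := by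
      by_contra hcon
      push Not at hcon
      exact hg (funext hcon)
    have hb : x.1 / (r0 * d) < s := Nat.div_lt_of_lt_mul x.2
    have hblk : blk (r0 * d) (x.1 / (r0 * d)) g ≠ 0 := by
      intro h
      have h1 := congrFun h ⟨x.1 % (r0 * d), Nat.mod_lt _ hK⟩
      have h2 : x.1 / (r0 * d) * (r0 * d) + x.1 % (r0 * d) = x.1 := by
        rw [mul_comm]
        exact Nat.div_add_mod _ _
      have h3 : ext g (x.1 / (r0 * d) * (r0 * d) + x.1 % (r0 * d)) = 0 := h1
      rw [h2, ext_of_lt g x.2] at h3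
      exact hx h3
    refine hw _ hblk S fun j hj => ?_
    funext y
    have hlt : r0 * (x.1 / (r0 * d)) + y.1 < r0 * s := by
      have h1 : r0 * (x.1 / (r0 * d) + 1) ≤ r0 * s := Nat.mul_le_mul_left r0 hb
      have h2 := y.2
      rw [Nat.mul_add, mul_one] at h1
      omega
    have h4 := congrFun (hS j hj) ⟨r0 * (x.1 / (r0 * d)) + y.1, hlt⟩
    rw [bw_apply] at h4
    have e2 : (r0 * (x.1 / (r0 * d)) + y.1) / r0 = x.1 / (r0 * d) := by
      rw [Nat.mul_add_div hr, Nat.div_eq_of_lt y.2, add_zero]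
    have e3 : (r0 * (x.1 / (r0 * d)) + y.1) % r0 = y.1 := by
      rw [Nat.mul_add_mod, Nat.mod_eq_of_lt y.2]
    simp only [e2, e3] at h4
    exact h4
  · intro j i
    have hb : i.1 / (r0 * d) < s := Nat.div_lt_of_lt_mul i.2
    have h1 := gnum_block hr hb (w j (Pi.single ⟨i.1 % (r0 * d), Nat.mod_lt _ hK⟩ 1))
      (bw hr (w j) (r0 * d * s) (r0 * s) (shv (some i))) (by
        intro y
        rw [bw_apply]
        show w j (blk (r0 * d) (y.1 / r0) (Pi.single i 1)) _ = _
        rw [blk_single hK]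
        split_ifs with h
        · rfl
        · rw [map_zero]
          rfl)
    rw [h1]
    congr 1
    have hJ : j.1 * (r0 * d) + i.1 % (r0 * d) < m * (r0 * d) := by
      have h2 : (j.1 + 1) * (r0 * d) ≤ m * (r0 * d) := Nat.mul_le_mul_right _ j.2
      have h3 := Nat.mod_lt i.1 hK
      rw [Nat.add_mul, one_mul] at h2
      omega
    rw [dig_ofDig hD hJ]
    have e4 : (j.1 * (r0 * d) + i.1 % (r0 * d)) / (r0 * d) = j.1 := by
      rw [mul_comm, Nat.mul_add_div hK, Nat.div_eq_of_lt (Nat.mod_lt _ hK), add_zero]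
    have e5 : (j.1 * (r0 * d) + i.1 % (r0 * d)) % (r0 * d) = i.1 % (r0 * d) := by
      rw [mul_comm j.1, Nat.mul_add_mod, Nat.mod_mod]
    have e6 : (j.1 * (r0 * d) + i.1 % (r0 * d)) / (r0 * d) < m := by
      rw [e4]
      exact j.2
    simp only [D]
    rw [dif_pos e6]
    simp only [e4, e5]

end P310
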