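import Vale.Agent.P310.TokNum
import Vale.Agent.P310.Arith2

/-!
# P310: the numeric data of the coded system are computable in polynomial time
-/

namespace P310

open PolyTM

variable {A : Type} {k : ℕ}

/-- a family of numeric data whose components are computable in polynomial time -/
structure CTPar (A : Type) {k : ℕ} (p : (Fin k → ℕ) → TPar) : Prop where
  m : Comp A fun x => (p x).m
  l : Comp A fun x => (p x).l
  L : Comp A fun x => (p x).L
  X : Comp A fun x => (p x).X
  BM : Comp A fun x => (p x).BM
  BR : Comp A fun x => (p x).BR
  ac : Comp A fun x => (p x).ac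
  V : ∀ r : (Fin k → ℕ) → ℕ, Comp A r → Comp A fun x => (p x).V (r x)
  P : ∀ r : (Fin k → ℕ) → ℕ, Comp A r → Comp A fun x => (p x).P (r x)
  Q : ∀ r : (Fin k → ℕ) → ℕ, Comp A r → Comp A fun x => (p x).Q (r x)
  S : ∀ r : (Fin k → ℕ) → ℕ, Comp A r → Comp A fun x => (p x).S (r x)
  C : ∀ r : (Fin k → ℕ) → ℕ, Comp A r → Comp A fun x => (p x).C (r x)
  I : ∀ r : (Fin k → ℕ) → ℕ, Comp A r → Comp A fun x => (p x).I (r x)
  w : ∀ r r' : (Fin k → ℕ) → ℕ, Comp A r → Comp A r' → Comp A fun x => (p x).w (r x) (r' x)

variable {p : (Fin k → ℕ) → TPar}

theorem comp_Y (H : CTPar A p) : Comp A fun x => (p x).Y := by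
  simp only [TPar.Y]
  (repeat' first
    | with_reducible assumption
    | with_reducible exact Comp.const _
    | with_reducible exact CTPar.m ‹_›
    | with_reducible exact CTPar.l ‹_›
    | with_reducible exact CTPar.L ‹_›
    | with_reducible exact CTPar.X ‹_›
    | with_reducible exact CTPar.BM ‹_›
    | with_reducible exact CTPar.BR ‹_›
    | with_reducible exact CTPar.ac ‹_›
    | with_reducible apply CTPar.V ‹_›
    | with_reducible apply CTPar.P ‹_›
    | with_reducible apply CTPar.Q ‹_›
    | with_reducible apply CTPar.S ‹_›
    | with_reducible apply CTPar.C ‹_›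
    | with_reducible apply CTPar.I ‹_›
    | with_reducible apply CTPar.w ‹_›
    | with_reducible apply Comp.add
    | with_reducible apply Comp.mul
    | with_reducible apply Comp.sub
    | with_reducible apply Comp.div
    | with_reducible apply Comp.mod
    | with_reducible apply comp_xor
    | with_reducible apply Comp.and_ind
    | with_reducible apply Comp.or_ind
    | with_reducible apply Comp.not_ind
    | with_reducible apply Comp.eq_ind
    | with_reducible apply Comp.lt_ind
    | with_reducible apply Comp.le_ind
    | with_reducible apply Comp.ite)

theorem comp_tN (H : CTPar A p) {fk fy fi fa : (Fin k → ℕ) → ℕ} (hk : Comp A fk)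
    (hy : Comp A fy) (hi : Comp A fi) (ha : Comp A fa) :
    Comp A fun x => (p x).tN (fk x) (fy x) (fi x) (fa x) := by
  have hY := comp_Y H
  simp only [TPar.tN]
  (repeat' first
    | with_reducible assumption
    | with_reducible exact Comp.const _
    | with_reducible exact CTPar.m ‹_›
    | with_reducible exact CTPar.l ‹_›
    | with_reducible exact CTPar.L ‹_›
    | with_reducible exact CTPar.X ‹_›
    | with_reducible exact CTPar.BM ‹_›
    | with_reducible exact CTPar.BR ‹_›
    | with_reducible exact CTPar.ac ‹_›
    | with_reducible apply CTPar.V ‹_›
    | with_reducible apply CTPar.P ‹_›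
    | with_reducible apply CTPar.Q ‹_›
    | with_reducible apply CTPar.S ‹_›
    | with_reducible apply CTPar.C ‹_›
    | with_reducible apply CTPar.I ‹_›
    | with_reducible apply CTPar.w ‹_›
    | with_reducible apply Comp.add
    | with_reducible apply Comp.mul
    | with_reducible apply Comp.sub
    | with_reducible apply Comp.div
    | with_reducible apply Comp.mod
    | with_reducible apply comp_xor
    | with_reducible apply Comp.and_ind
    | with_reducible apply Comp.or_ind
    | with_reducible apply Comp.not_ind
    | with_reducible apply Comp.eq_ind
    | with_reducible apply Comp.lt_ind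
    | with_reducible apply Comp.le_ind
    | with_reducible apply Comp.ite)

theorem comp_NT (H : CTPar A p) : Comp A fun x => (p x).NT := by
  have hY := comp_Y H
  simp only [TPar.NT]
  (repeat' first
    | with_reducible assumption
    | with_reducible exact Comp.const _
    | with_reducible exact CTPar.m ‹_›
    | with_reducible exact CTPar.l ‹_›
    | with_reducible exact CTPar.L ‹_›
    | with_reducible exact CTPar.X ‹_›
    | with_reducible exact CTPar.BM ‹_›
    | with_reducible exact CTPar.BR ‹_›
    | with_reducible exact CTPar.ac ‹_›
    | with_reducible apply CTPar.V ‹_›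
    | with_reducible apply CTPar.P ‹_›
    | with_reducible apply CTPar.Q ‹_›
    | with_reducible apply CTPar.S ‹_›
    | with_reducible apply CTPar.C ‹_›
    | with_reducible apply CTPar.I ‹_›
    | with_reducible apply CTPar.w ‹_›
    | with_reducible apply Comp.add
    | with_reducible apply Comp.mul
    | with_reducible apply Comp.sub
    | with_reducible apply Comp.div
    | with_reducible apply Comp.mod
    | with_reducible apply comp_xor
    | with_reducible apply Comp.and_ind
    | with_reducible apply Comp.or_ind
    | with_reducible apply Comp.not_ind
    | with_reducible apply Comp.eq_ind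
    | with_reducible apply Comp.lt_ind
    | with_reducible apply Comp.le_ind
    | with_reducible apply Comp.ite)

theorem comp_vN (H : CTPar A p) {fk fj fw fc : (Fin k → ℕ) → ℕ} (hk : Comp A fk)
    (hj : Comp A fj) (hw : Comp A fw) (hc : Comp A fc) :
    Comp A fun x => (p x).vN (fk x) (fj x) (fw x) (fc x) := by
  simp only [TPar.vN]
  (repeat' first
    | with_reducible assumption
    | with_reducible exact Comp.const _
    | with_reducible exact CTPar.m ‹_›
    | with_reducible exact CTPar.l ‹_›
    | with_reducible exact CTPar.L ‹_›
    | with_reducible exact CTPar.X ‹_›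
    | with_reducible exact CTPar.BM ‹_›
    | with_reducible exact CTPar.BR ‹_›
    | with_reducible exact CTPar.ac ‹_›
    | with_reducible apply CTPar.V ‹_›
    | with_reducible apply CTPar.P ‹_›
    | with_reducible apply CTPar.Q ‹_›
    | with_reducible apply CTPar.S ‹_›
    | with_reducible apply CTPar.C ‹_›
    | with_reducible apply CTPar.I ‹_›
    | with_reducible apply CTPar.w ‹_›
    | with_reducible apply Comp.add
    | with_reducible apply Comp.mul
    | with_reducible apply Comp.sub
    | with_reducible apply Comp.div
    | with_reducible apply Comp.mod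
    | with_reducible apply comp_xor
    | with_reducible apply Comp.and_ind
    | with_reducible apply Comp.or_ind
    | with_reducible apply Comp.not_ind
    | with_reducible apply Comp.eq_ind
    | with_reducible apply Comp.lt_ind
    | with_reducible apply Comp.le_ind
    | with_reducible apply Comp.ite)

theorem comp_eN (H : CTPar A p) {fk fj fw fc : (Fin k → ℕ) → ℕ} (hk : Comp A fk)
    (hj : Comp A fj) (hw : Comp A fw) (hc : Comp A fc) :
    Comp A fun x => (p x).eN (fk x) (fj x) (fw x) (fc x) := by
  simp only [TPar.eN]
  (repeat' first
    | with_reducible assumption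
    | with_reducible exact Comp.const _
    | with_reducible exact CTPar.m ‹_›
    | with_reducible exact CTPar.l ‹_›
    | with_reducible exact CTPar.L ‹_›
    | with_reducible exact CTPar.X ‹_›
    | with_reducible exact CTPar.BM ‹_›
    | with_reducible exact CTPar.BR ‹_›
    | with_reducible exact CTPar.ac ‹_›
    | with_reducible apply CTPar.V ‹_›
    | with_reducible apply CTPar.P ‹_›
    | with_reducible apply CTPar.Q ‹_›
    | with_reducible apply CTPar.S ‹_›
    | with_reducible apply CTPar.C ‹_›
    | with_reducible apply CTPar.I ‹_›
    | with_reducible apply CTPar.w ‹_›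
    | with_reducible apply Comp.add
    | with_reducible apply Comp.mul
    | with_reducible apply Comp.sub
    | with_reducible apply Comp.div
    | with_reducible apply Comp.mod
    | with_reducible apply comp_xor
    | with_reducible apply Comp.and_ind
    | with_reducible apply Comp.or_ind
    | with_reducible apply Comp.not_ind
    | with_reducible apply Comp.eq_ind
    | with_reducible apply Comp.lt_ind
    | with_reducible apply Comp.le_ind
    | with_reducible apply Comp.ite)

theorem comp_sX (H : CTPar A p) {fj fy : (Fin k → ℕ) → ℕ} (hj : Comp A fj) (hy : Comp A fy) :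
    Comp A fun x => (p x).sX (fj x) (fy x) := by
  simp only [TPar.sX]
  (repeat' first
    | with_reducible assumption
    | with_reducible exact Comp.const _
    | with_reducible exact CTPar.m ‹_›
    | with_reducible exact CTPar.l ‹_›
    | with_reducible exact CTPar.L ‹_›
    | with_reducible exact CTPar.X ‹_›
    | with_reducible exact CTPar.BM ‹_›
    | with_reducible exact CTPar.BR ‹_›
    | with_reducible exact CTPar.ac ‹_›
    | with_reducible apply CTPar.V ‹_›
    | with_reducible apply CTPar.P ‹_›
    | with_reducible apply CTPar.Q ‹_›
    | with_reducible apply CTPar.S ‹_›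
    | with_reducible apply CTPar.C ‹_›
    | with_reducible apply CTPar.I ‹_›
    | with_reducible apply CTPar.w ‹_›
    | with_reducible apply Comp.add
    | with_reducible apply Comp.mul
    | with_reducible apply Comp.sub
    | with_reducible apply Comp.div
    | with_reducible apply Comp.mod
    | with_reducible apply comp_xor
    | with_reducible apply Comp.and_ind
    | with_reducible apply Comp.or_ind
    | with_reducible apply Comp.not_ind
    | with_reducible apply Comp.eq_ind
    | with_reducible apply Comp.lt_ind
    | with_reducible apply Comp.le_ind
    | with_reducible apply Comp.ite)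

theorem comp_nX (H : CTPar A p) : Comp A fun x => (p x).nX := by
  have hN := comp_NT H
  simp only [TPar.nX]
  (repeat' first
    | with_reducible assumption
    | with_reducible exact Comp.const _
    | with_reducible exact CTPar.m ‹_›
    | with_reducible exact CTPar.l ‹_›
    | with_reducible exact CTPar.L ‹_›
    | with_reducible exact CTPar.X ‹_›
    | with_reducible exact CTPar.BM ‹_›
    | with_reducible exact CTPar.BR ‹_›
    | with_reducible exact CTPar.ac ‹_›
    | with_reducible apply CTPar.V ‹_›
    | with_reducible apply CTPar.P ‹_›
    | with_reducible apply CTPar.Q ‹_›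
    | with_reducible apply CTPar.S ‹_›
    | with_reducible apply CTPar.C ‹_›
    | with_reducible apply CTPar.I ‹_›
    | with_reducible apply CTPar.w ‹_›
    | with_reducible apply Comp.add
    | with_reducible apply Comp.mul
    | with_reducible apply Comp.sub
    | with_reducible apply Comp.div
    | with_reducible apply Comp.mod
    | with_reducible apply comp_xor
    | with_reducible apply Comp.and_ind
    | with_reducible apply Comp.or_ind
    | with_reducible apply Comp.not_ind
    | with_reducible apply Comp.eq_ind
    | with_reducible apply Comp.lt_ind
    | with_reducible apply Comp.le_ind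
    | with_reducible apply Comp.ite)

theorem comp_nE (H : CTPar A p) : Comp A fun x => (p x).nE := by
  have hN := comp_NT H
  simp only [TPar.nE]
  (repeat' first
    | with_reducible assumption
    | with_reducible exact Comp.const _
    | with_reducible exact CTPar.m ‹_›
    | with_reducible exact CTPar.l ‹_›
    | with_reducible exact CTPar.L ‹_›
    | with_reducible exact CTPar.X ‹_›
    | with_reducible exact CTPar.BM ‹_›
    | with_reducible exact CTPar.BR ‹_›
    | with_reducible exact CTPar.ac ‹_›
    | with_reducible apply CTPar.V ‹_›
    | with_reducible apply CTPar.P ‹_›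
    | with_reducible apply CTPar.Q ‹_›
    | with_reducible apply CTPar.S ‹_›
    | with_reducible apply CTPar.C ‹_›
    | with_reducible apply CTPar.I ‹_›
    | with_reducible apply CTPar.w ‹_›
    | with_reducible apply Comp.add
    | with_reducible apply Comp.mul
    | with_reducible apply Comp.sub
    | with_reducible apply Comp.div
    | with_reducible apply Comp.mod
    | with_reducible apply comp_xor
    | with_reducible apply Comp.and_ind
    | with_reducible apply Comp.or_ind
    | with_reducible apply Comp.not_ind
    | with_reducible apply Comp.eq_ind
    | with_reducible apply Comp.lt_ind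
    | with_reducible apply Comp.le_ind
    | with_reducible apply Comp.ite)

theorem comp_sp (H : CTPar A p) : Comp A fun x => (p x).sys.sp := by
  have h1 := comp_tN H (Comp.const 5) (Comp.const 0) (Comp.const 0) (Comp.const 0)
  exact comp_eN H (Comp.const 1) (Comp.const 0) h1 (Comp.const 0)

theorem comp_axv (H : CTPar A p) {fj fk fy fi fa ft : (Fin k → ℕ) → ℕ} (hj : Comp A fj)
    (hk : Comp A fk) (hy : Comp A fy) (hi : Comp A fi) (ha : Comp A fa) (ht : Comp A ft) :
    Comp A fun x => (p x).axv (fj x) (fk x) (fy x) (fi x) (fa x) (ft x) := by
  simp only [TPar.axv]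
  (repeat' first
    | with_reducible apply comp_tN ‹_›
    | with_reducible apply comp_vN ‹_›
    | with_reducible apply comp_sX ‹_›
    | with_reducible exact comp_Y ‹_›
    | with_reducible assumption
    | with_reducible exact Comp.const _
    | with_reducible exact CTPar.m ‹_›
    | with_reducible exact CTPar.l ‹_›
    | with_reducible exact CTPar.L ‹_›
    | with_reducible exact CTPar.BM ‹_›
    | with_reducible exact CTPar.BR ‹_›
    | with_reducible exact CTPar.ac ‹_›
    | with_reducible apply CTPar.V ‹_›
    | with_reducible apply CTPar.P ‹_›
    | with_reducible apply CTPar.Q ‹_›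
    | with_reducible apply CTPar.S ‹_›
    | with_reducible apply CTPar.C ‹_›
    | with_reducible apply CTPar.I ‹_›
    | with_reducible apply CTPar.w ‹_›
    | with_reducible apply comp_xor
    | with_reducible apply Comp.add
    | with_reducible apply Comp.sub
    | with_reducible apply Comp.and_ind
    | with_reducible apply Comp.or_ind
    | with_reducible apply Comp.not_ind
    | with_reducible apply Comp.eq_ind
    | with_reducible apply Comp.lt_ind
    | with_reducible apply Comp.le_ind
    | with_reducible apply Comp.ite)

theorem comp_zok (H : CTPar A p) {fk fy fi fa : (Fin k → ℕ) → ℕ}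
    (hk : Comp A fk) (hy : Comp A fy) (hi : Comp A fi) (ha : Comp A fa) :
    Comp A fun x => (p x).zok (fk x) (fy x) (fi x) (fa x) := by
  simp only [TPar.zok]
  (repeat' first
    | with_reducible apply comp_tN ‹_›
    | with_reducible apply comp_vN ‹_›
    | with_reducible apply comp_sX ‹_›
    | with_reducible exact comp_Y ‹_›
    | with_reducible assumption
    | with_reducible exact Comp.const _
    | with_reducible exact CTPar.m ‹_›
    | with_reducible exact CTPar.l ‹_›
    | with_reducible exact CTPar.L ‹_›
    | with_reducible exact CTPar.BM ‹_›
    | with_reducible exact CTPar.BR ‹_›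
    | with_reducible exact CTPar.ac ‹_›
    | with_reducible apply CTPar.V ‹_›
    | with_reducible apply CTPar.P ‹_›
    | with_reducible apply CTPar.Q ‹_›
    | with_reducible apply CTPar.S ‹_›
    | with_reducible apply CTPar.C ‹_›
    | with_reducible apply CTPar.I ‹_›
    | with_reducible apply CTPar.w ‹_›
    | with_reducible apply comp_xor
    | with_reducible apply Comp.add
    | with_reducible apply Comp.sub
    | with_reducible apply Comp.and_ind
    | with_reducible apply Comp.or_ind
    | with_reducible apply Comp.not_ind
    | with_reducible apply Comp.eq_ind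
    | with_reducible apply Comp.lt_ind
    | with_reducible apply Comp.le_ind
    | with_reducible apply Comp.ite)

theorem comp_zt (H : CTPar A p) {fk fy fi : (Fin k → ℕ) → ℕ}
    (hk : Comp A fk) (hy : Comp A fy) (hi : Comp A fi) :
    Comp A fun x => (p x).zt (fk x) (fy x) (fi x) := by
  simp only [TPar.zt]
  (repeat' first
    | with_reducible apply comp_tN ‹_›
    | with_reducible apply comp_vN ‹_›
    | with_reducible apply comp_sX ‹_›
    | with_reducible exact comp_Y ‹_›
    | with_reducible assumption
    | with_reducible exact Comp.const _
    | with_reducible exact CTPar.m ‹_›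
    | with_reducible exact CTPar.l ‹_›
    | with_reducible exact CTPar.L ‹_›
    | with_reducible exact CTPar.BM ‹_›
    | with_reducible exact CTPar.BR ‹_›
    | with_reducible exact CTPar.ac ‹_›
    | with_reducible apply CTPar.V ‹_›
    | with_reducible apply CTPar.P ‹_›
    | with_reducible apply CTPar.Q ‹_›
    | with_reducible apply CTPar.S ‹_›
    | with_reducible apply CTPar.C ‹_›
    | with_reducible apply CTPar.I ‹_›
    | with_reducible apply CTPar.w ‹_›
    | with_reducible apply comp_xor
    | with_reducible apply Comp.add
    | with_reducible apply Comp.sub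
    | with_reducible apply Comp.and_ind
    | with_reducible apply Comp.or_ind
    | with_reducible apply Comp.not_ind
    | with_reducible apply Comp.eq_ind
    | with_reducible apply Comp.lt_ind
    | with_reducible apply Comp.le_ind
    | with_reducible apply Comp.ite)

theorem comp_gv (H : CTPar A p) {fj fw fc fk fy fi ft : (Fin k → ℕ) → ℕ} (hj : Comp A fj)
    (hw : Comp A fw) (hc : Comp A fc)
    (hk : Comp A fk) (hy : Comp A fy) (hi : Comp A fi) (ht : Comp A ft) :
    Comp A fun x => (p x).gv (fj x) (fw x) (fc x) (fk x) (fy x) (fi x) (ft x) := by
  have h1 := comp_zt H hk hy hi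
  simp only [TPar.gv]
  (repeat' first
    | with_reducible apply comp_tN ‹_›
    | with_reducible apply comp_vN ‹_›
    | with_reducible apply comp_sX ‹_›
    | with_reducible exact comp_Y ‹_›
    | with_reducible assumption
    | with_reducible exact Comp.const _
    | with_reducible exact CTPar.m ‹_›
    | with_reducible exact CTPar.l ‹_›
    | with_reducible exact CTPar.L ‹_›
    | with_reducible exact CTPar.BM ‹_›
    | with_reducible exact CTPar.BR ‹_›
    | with_reducible exact CTPar.ac ‹_›
    | with_reducible apply CTPar.V ‹_›
    | with_reducible apply CTPar.P ‹_›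
    | with_reducible apply CTPar.Q ‹_›
    | with_reducible apply CTPar.S ‹_›
    | with_reducible apply CTPar.C ‹_›
    | with_reducible apply CTPar.I ‹_›
    | with_reducible apply CTPar.w ‹_›
    | with_reducible apply comp_xor
    | with_reducible apply Comp.add
    | with_reducible apply Comp.sub
    | with_reducible apply Comp.and_ind
    | with_reducible apply Comp.or_ind
    | with_reducible apply Comp.not_ind
    | with_reducible apply Comp.eq_ind
    | with_reducible apply Comp.lt_ind
    | with_reducible apply Comp.le_ind
    | with_reducible apply Comp.ite)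

theorem comp_evC (H : CTPar A p) {fb fj fc fw fk fy fi fa ft : (Fin k → ℕ) → ℕ} (hb : Comp A fb)
    (hj : Comp A fj) (hc : Comp A fc) (hw : Comp A fw)
    (hk : Comp A fk) (hy : Comp A fy) (hi : Comp A fi) (ha : Comp A fa) (ht : Comp A ft) :
    Comp A fun x => (p x).evC (fb x) (fj x) (fc x) (fw x) (fk x) (fy x) (fi x) (fa x) (ft x) := by
  have h1 := comp_axv H hj hk hy hi ha ht
  have h2 := comp_zok H hk hy hi ha
  have h3 := comp_gv H hj hw hc hk hy hi ht
  simp only [TPar.evC]
  (repeat' first
    | with_reducible apply comp_tN ‹_›
    | with_reducible apply comp_vN ‹_›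
    | with_reducible apply comp_sX ‹_›
    | with_reducible exact comp_Y ‹_›
    | with_reducible assumption
    | with_reducible exact Comp.const _
    | with_reducible exact CTPar.m ‹_›
    | with_reducible exact CTPar.l ‹_›
    | with_reducible exact CTPar.L ‹_›
    | with_reducible exact CTPar.BM ‹_›
    | with_reducible exact CTPar.BR ‹_›
    | with_reducible exact CTPar.ac ‹_›
    | with_reducible apply CTPar.V ‹_›
    | with_reducible apply CTPar.P ‹_›
    | with_reducible apply CTPar.Q ‹_›
    | with_reducible apply CTPar.S ‹_›
    | with_reducible apply CTPar.C ‹_›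
    | with_reducible apply CTPar.I ‹_›
    | with_reducible apply CTPar.w ‹_›
    | with_reducible apply comp_xor
    | with_reducible apply Comp.add
    | with_reducible apply Comp.sub
    | with_reducible apply Comp.and_ind
    | with_reducible apply Comp.or_ind
    | with_reducible apply Comp.not_ind
    | with_reducible apply Comp.eq_ind
    | with_reducible apply Comp.lt_ind
    | with_reducible apply Comp.le_ind
    | with_reducible apply Comp.ite)

theorem comp_evW (H : CTPar A p) {fb fj fc fw ft : (Fin k → ℕ) → ℕ} (hb : Comp A fb)
    (hj : Comp A fj) (hc : Comp A fc) (hw : Comp A fw) (ht : Comp A ft) :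
    Comp A fun x => (p x).evW (fb x) (fj x) (fc x) (fw x) (ft x) := by
  have hY := comp_Y H
  have hL : Comp A fun x => (p x).L + 1 := Comp.add H.L (Comp.const 1)
  have h8 := Comp.div hw (Comp.const (A := A) (k := k) 8)
  exact comp_evC H hb hj hc hw (Comp.mod hw (Comp.const 8)) (Comp.mod h8 hY)
    (Comp.mod (Comp.div h8 hY) hL) (Comp.div (Comp.div h8 hY) hL) ht

theorem comp_evN (H : CTPar A p) {e t : (Fin k → ℕ) → ℕ} (he : Comp A e) (ht : Comp A t) :
    Comp A fun x => (p x).evN (e x) (t x) := by
  have h2 := Comp.div he (Comp.const (A := A) (k := k) 2)
  exact comp_evW H (Comp.mod he (Comp.const 2)) (Comp.mod h2 H.m)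
    (Comp.mod (Comp.div h2 H.m) H.l) (Comp.div (Comp.div h2 H.m) H.l) ht

end P310
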