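import Vale.Agent.P310.TokEmb

/-!
# P310: the coded system is the image of the product system
-/

namespace P310

open Finset TPar

variable {p : TPar} {R : ℕ} {pi : Fin p.m → GV p.L →ₗ[ZMod 2] GV R}
  {rules : Fin p.BR → Option (HRule p.L (Fin p.BM))} {ini : Fin p.BM → Prop}
  [DecidablePred ini] {acc : Fin p.BM}

theorem shn_none {L : ℕ} : shn (none : Option (Fin L)) = 0 := rfl

omit [DecidablePred ini] in
theorem sX_eq (H : p.Fit pi rules ini acc) (j : Fin p.m) {r : Fin p.BR}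
    {ρ : HRule p.L (Fin p.BM)} (hr : rules r = some ρ) (a : GV R) :
    gnum a ^^^ p.sX j r = gnum (a + pi j (shv ρ.sh)) := by
  obtain ⟨_, _, _, hS, _⟩ := H.hsome r ρ hr
  unfold sX
  rw [hS]
  rcases ρ.sh with _ | i
  · rw [shn_none, if_pos rfl]
    simp [shv]
  · have h1 : shn (some i) = i.1 + 1 := rfl
    rw [h1, if_neg (by omega), Nat.add_sub_cancel, gnum_add, H.hpi]

omit [DecidablePred ini] in
theorem axv_an (H : p.Fit pi rules ini acc) (j : Fin p.m)
    (α : HAx p.L R (Fin p.BM) (Fin p.BR)) (t : ℕ) :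
    p.axv j (aq α).1 (aq α).2.1 (aq α).2.2.1 (aq α).2.2.2 t =
      ((axT pi rules j α t).map (tn p)).elim 0 (· + 1) := by
  rcases α with ⟨C, i, a⟩ | ⟨C, i, a⟩ | ⟨r, a⟩ | ⟨r, a⟩ | ⟨r, a⟩ | ⟨r, a⟩
  · show p.axv j 0 C i (gnum a) t = _
    have h1 : C.1 < p.BM ∧ i.1 < p.L := ⟨C.2, i.2⟩
    rw [axv, if_pos rfl, if_pos h1]
    simp only [axT]
    split_ifs <;> rfl
  · show p.axv j 1 C i (gnum a) t = _
    have h1 : C.1 < p.BM ∧ i.1 < p.L := ⟨C.2, i.2⟩
    rw [axv, if_neg (by omega), if_pos rfl, if_pos h1, ← H.hpi, ← gnum_add]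
    simp only [axT]
    split_ifs <;> rfl
  · show p.axv j 2 r 0 (gnum a) t = _
    rw [axv, if_neg (by omega), if_neg (by omega)]
    rcases hr : rules r with _ | ρ
    · rw [if_neg (fun h => H.hnone r hr h.2.2)]
      simp only [axT, hr]
      rfl
    · obtain ⟨hV, hP, hQ, hS, hC⟩ := H.hsome r ρ hr
      rw [if_pos ⟨r.2, rfl, hV⟩, if_pos rfl, sX_eq H j hr, hP, hQ]
      simp only [axT, hr, Fin.val_inj]
      split_ifs <;> rfl
  · show p.axv j 3 r 0 (gnum a) t = _
    rw [axv, if_neg (by omega), if_neg (by omega)]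
    rcases hr : rules r with _ | ρ
    · rw [if_neg (fun h => H.hnone r hr h.2.2)]
      simp only [axT, hr]
      rfl
    · obtain ⟨hV, hP, hQ, hS, hC⟩ := H.hsome r ρ hr
      rw [if_pos ⟨r.2, rfl, hV⟩, if_neg (by omega), if_pos rfl, hC]
      simp only [axT, hr]
      split_ifs <;> rfl
  · show p.axv j 4 r 0 (gnum a) t = _
    rw [axv, if_neg (by omega), if_neg (by omega)]
    rcases hr : rules r with _ | ρ
    · rw [if_neg (fun h => H.hnone r hr h.2.2)]
      simp only [axT, hr]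
      rfl
    · obtain ⟨hV, hP, hQ, hS, hC⟩ := H.hsome r ρ hr
      rw [if_pos ⟨r.2, rfl, hV⟩, if_neg (by omega), if_neg (by omega), if_pos rfl, hC]
      simp only [axT, hr]
      split_ifs <;> rfl
  · show p.axv j 5 r 0 (gnum a) t = _
    rw [axv, if_neg (by omega), if_neg (by omega)]
    rcases hr : rules r with _ | ρ
    · rw [if_neg (fun h => H.hnone r hr h.2.2)]
      simp only [axT, hr]
      rfl
    · obtain ⟨hV, hP, hQ, hS, hC⟩ := H.hsome r ρ hr
      rw [if_pos ⟨r.2, rfl, hV⟩, if_neg (by omega), if_neg (by omega), if_neg (by omega),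
        if_pos rfl, hC]
      simp only [axT, hr]
      split_ifs <;> rfl

theorem zt_zn (H : p.Fit pi rules ini acc) (z : HZ p.L (Fin p.BM)) :
    p.zt (zq z).1 (zq z).2.1 (zq z).2.2.1 =
      tn p (hztok ini acc z : HTok p.L R (Fin p.BM) (Fin p.BR)) := by
  have h0 : gnum (0 : GV R) = 0 := gnum_zero
  rcases z with A | C | ⟨C, i⟩ | ⟨C, i⟩ | C | _
  · show p.zt 0 A 0 = _
    rw [zt, if_pos rfl]
    simp only [hztok]
    by_cases hA : ini A
    · rw [if_pos ((H.hini A).2 hA), if_pos hA]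
      simp only [tn, tq, h0]
    · rw [if_neg (fun h => hA ((H.hini A).1 h)), if_neg hA]
      simp only [tn, tq]
  · show p.zt 1 C 0 = _
    rw [zt, if_neg (by omega), if_pos rfl]
    simp only [hztok, tn, tq, h0]
    rfl
  · show p.zt 2 C i = _
    rw [zt, if_neg (by omega), if_neg (by omega), if_pos rfl]
    rfl
  · show p.zt 3 C i = _
    rw [zt, if_neg (by omega), if_neg (by omega), if_neg (by omega), if_pos rfl]
    rfl
  · show p.zt 4 C 0 = _
    rw [zt, if_neg (by omega), if_neg (by omega), if_neg (by omega), if_neg (by omega), if_pos rfl]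
    rfl
  · show p.zt 5 0 0 = _
    rw [zt, if_neg (by omega), if_neg (by omega), if_neg (by omega), if_neg (by omega),
      if_neg (by omega), H.hac]
    simp only [hztok, tn, tq, h0]

theorem zok_zn (z : HZ p.L (Fin p.BM)) :
    p.zok (zq z).1 (zq z).2.1 (zq z).2.2.1 (zq z).2.2.2 = 1 := by
  rcases z with A | C | ⟨C, i⟩ | ⟨C, i⟩ | C | _
  · show p.zok 0 A 0 0 = 1
    rw [zok, if_pos rfl, if_pos (by omega), if_pos ⟨A.2, rfl⟩]
  · show p.zok 1 C 0 0 = 1
    rw [zok, if_pos rfl, if_pos (by omega), if_pos ⟨C.2, rfl⟩]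
  · show p.zok 2 C i 0 = 1
    rw [zok, if_pos rfl, if_neg (by omega), if_pos (by omega), if_pos ⟨C.2, i.2⟩]
  · show p.zok 3 C i 0 = 1
    rw [zok, if_pos rfl, if_neg (by omega), if_pos (by omega), if_pos ⟨C.2, i.2⟩]
  · show p.zok 4 C 0 0 = 1
    rw [zok, if_pos rfl, if_pos (by omega), if_pos ⟨C.2, rfl⟩]
  · rfl

theorem evN_en (H : p.Fit pi rules ini acc)
    (ε : PEqn p.m p.l (HAx p.L R (Fin p.BM) (Fin p.BR)) (HZ p.L (Fin p.BM))) (t : ℕ) :
    p.evN (en p ε) t = ((eT pi rules ini acc ε t).map (vn p)).elim 0 (· + 1) := by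
  rcases ε with ⟨j, α⟩ | ⟨z, j, c⟩
  · obtain ⟨h1, h2, h3, h4⟩ := eN_dec (p := p) (w := an p α) (by omega : 0 < 2) j.2 H.hl
    obtain ⟨q1, q2, q3, _⟩ := aq_lt α
    obtain ⟨d1, d2, d3, d4⟩ := tN_dec (p := p) (a := (aq α).2.2.2) q1 q2 q3
    show p.evN (p.eN 0 j (an p α) 0) t = _
    unfold evN
    rw [h1, h2, h3, h4]
    unfold evW
    have e1 : an p α % 8 = (aq α).1 := d1
    have e2 : an p α / 8 % p.Y = (aq α).2.1 := d2
    have e3 : an p α / 8 / p.Y % (p.L + 1) = (aq α).2.2.1 := d3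
    have e4 : an p α / 8 / p.Y / (p.L + 1) = (aq α).2.2.2 := d4
    rw [e1, e2, e3, e4]
    unfold evC
    rw [if_pos rfl, if_pos rfl, axv_an H j α t]
    simp only [eT]
    rcases axT pi rules j α t with _ | τ
    · rfl
    · show (if tn p τ + 1 = 0 then 0 else p.vN 0 j (tn p τ + 1 - 1) 0 + 1) = _
      rw [if_neg (Nat.succ_ne_zero _), Nat.add_sub_cancel]
      rfl
  · obtain ⟨h1, h2, h3, h4⟩ := eN_dec (p := p) (w := zn p z) (by omega : 1 < 2) j.2 c.2
    have hM : 0 < p.BM := by have := acc.2; omega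
    obtain ⟨q1, q2, q3, _⟩ := zq_lt (BR := p.BR) hM z
    obtain ⟨d1, d2, d3, d4⟩ := tN_dec (p := p) (a := (zq z).2.2.2) q1 q2 q3
    show p.evN (p.eN 1 j (zn p z) c) t = _
    unfold evN
    rw [h1, h2, h3, h4]
    unfold evW
    have e1 : zn p z % 8 = (zq z).1 := d1
    have e2 : zn p z / 8 % p.Y = (zq z).2.1 := d2
    have e3 : zn p z / 8 / p.Y % (p.L + 1) = (zq z).2.2.1 := d3
    have e4 : zn p z / 8 / p.Y / (p.L + 1) = (zq z).2.2.2 := d4
    rw [e1, e2, e3, e4]
    unfold evC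
    rw [if_neg (by omega), if_pos (zok_zn z)]
    unfold gv
    rw [zt_zn (R := R) H z]
    simp only [eT, gT]
    split_ifs <;> rfl

theorem axv_ne {j k y i a t : ℕ} (h : p.axv j k y i a t ≠ 0) :
    (k ≤ 1 ∧ y < p.BM ∧ i < p.L) ∨ (2 ≤ k ∧ k ≤ 5 ∧ y < p.BR ∧ i = 0) := by
  by_cases h0 : k = 0
  · left
    rw [axv, if_pos h0] at h
    by_cases h1 : y < p.BM ∧ i < p.L
    · exact ⟨by omega, h1⟩
    · rw [if_neg h1] at h
      exact absurd rfl h
  by_cases h1 : k = 1
  · left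
    rw [axv, if_neg h0, if_pos h1] at h
    by_cases h1 : y < p.BM ∧ i < p.L
    · exact ⟨by omega, h1⟩
    · rw [if_neg h1] at h
      exact absurd rfl h
  rw [axv, if_neg h0, if_neg h1] at h
  by_cases h2 : y < p.BR ∧ i = 0 ∧ p.V y = 1
  · rw [if_pos h2] at h
    right
    refine ⟨by omega, ?_, h2.1, h2.2.1⟩
    by_contra h5
    rw [if_neg (by omega), if_neg (by omega), if_neg (by omega), if_neg (by omega)] at h
    exact absurd rfl h
  · rw [if_neg h2] at h
    exact absurd rfl h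

theorem zok_one {k y i a : ℕ} (h : p.zok k y i a = 1) : a = 0 ∧
    (((k = 0 ∨ k = 1 ∨ k = 4) ∧ y < p.BM ∧ i = 0) ∨ ((k = 2 ∨ k = 3) ∧ y < p.BM ∧ i < p.L) ∨
      (k = 5 ∧ y = 0 ∧ i = 0)) := by
  by_cases h0 : a = 0
  swap
  · rw [zok, if_neg h0] at h
    omega
  refine ⟨h0, ?_⟩
  rw [zok, if_pos h0] at h
  by_cases h1 : k = 0 ∨ k = 1 ∨ k = 4
  · rw [if_pos h1] at h
    by_cases h2 : y < p.BM ∧ i = 0
    · exact Or.inl ⟨h1, h2⟩
    · rw [if_neg h2] at h
      omega
  rw [if_neg h1] at h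
  by_cases h2 : k = 2 ∨ k = 3
  · rw [if_pos h2] at h
    by_cases h3 : y < p.BM ∧ i < p.L
    · exact Or.inr (Or.inl ⟨h2, h3⟩)
    · rw [if_neg h3] at h
      omega
  rw [if_neg h2] at h
  by_cases h3 : k = 5
  · rw [if_pos h3] at h
    by_cases h4 : y = 0 ∧ i = 0
    · exact Or.inr (Or.inr ⟨h3, h4⟩)
    · rw [if_neg h4] at h
      omega
  · rw [if_neg h3] at h
    omega

omit [DecidablePred ini] in
/-- equations which are not numbers of equations of the product system are dummies -/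
theorem evN_dummy (H : p.Fit pi rules ini acc) {e : ℕ} (he : e < p.nE)
    (h : ∀ ε : PEqn p.m p.l (HAx p.L R (Fin p.BM) (Fin p.BR)) (HZ p.L (Fin p.BM)), en p ε ≠ e)
    (t : ℕ) : p.evN e t = 0 := by
  by_contra hne
  unfold evN at hne
  have henc := eN_enc (p := p) e
  have hb : e % 2 < 2 := Nat.mod_lt _ (by omega)
  have hj : e / 2 % p.m < p.m := Nat.mod_lt _ H.hm
  have hc : e / 2 / p.m % p.l < p.l := Nat.mod_lt _ H.hl
  have hwlt : e / 2 / p.m / p.l < p.NT := by
    apply Nat.div_lt_of_lt_mul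
    apply Nat.div_lt_of_lt_mul
    apply Nat.div_lt_of_lt_mul
    exact he
  generalize e % 2 = b at *
  generalize e / 2 % p.m = j at *
  generalize e / 2 / p.m % p.l = c at *
  generalize e / 2 / p.m / p.l = w at *
  unfold evW at hne
  have hwenc := tN_enc (p := p) w
  have hYpos : 0 < p.Y := by have := acc.2; unfold Y; omega
  have hi : w / 8 / p.Y % (p.L + 1) < p.L + 1 := Nat.mod_lt _ (by omega)
  have ha : w / 8 / p.Y / (p.L + 1) < p.X := by
    apply Nat.div_lt_of_lt_mul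
    apply Nat.div_lt_of_lt_mul
    apply Nat.div_lt_of_lt_mul
    exact hwlt
  rw [H.hX] at ha
  obtain ⟨a, ha'⟩ := gnum_surj ha
  generalize w % 8 = k at *
  generalize w / 8 % p.Y = y at *
  generalize w / 8 / p.Y % (p.L + 1) = i at *
  generalize w / 8 / p.Y / (p.L + 1) = a' at *
  subst ha'
  unfold evC at hne
  by_cases hb0 : b = 0
  · rw [if_pos hb0] at hne
    by_cases hc0 : c = 0
    swap
    · rw [if_neg hc0] at hne
      exact hne rfl
    rw [if_pos hc0] at hne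
    have hax : p.axv j k y i (gnum a) t ≠ 0 := fun h0 => by
      rw [if_pos h0] at hne
      exact hne rfl
    have key : ∀ α : HAx p.L R (Fin p.BM) (Fin p.BR), aq α = (k, y, i, gnum a) → False := by
      intro α hα
      apply h (.inl (⟨j, hj⟩, α))
      show p.eN 0 j (an p α) 0 = e
      unfold an
      rw [hα]
      show p.eN 0 j (p.tN k y i (gnum a)) 0 = e
      rw [hwenc, ← henc, hb0, hc0]
    rcases axv_ne hax with ⟨h1, h2, h3⟩ | ⟨h1, h2, h3, h4⟩
    · have : k = 0 ∨ k = 1 := by omega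
      rcases this with rfl | rfl
      · exact key (.m0 ⟨y, h2⟩ ⟨i, h3⟩ a) rfl
      · exact key (.m1 ⟨y, h2⟩ ⟨i, h3⟩ a) rfl
    · subst h4
      have : k = 2 ∨ k = 3 ∨ k = 4 ∨ k = 5 := by omega
      rcases this with rfl | rfl | rfl | rfl
      · exact key (.p ⟨y, h3⟩ a) rfl
      · exact key (.u ⟨y, h3⟩ a) rfl
      · exact key (.v ⟨y, h3⟩ a) rfl
      · exact key (.q ⟨y, h3⟩ a) rfl
  · rw [if_neg hb0] at hne
    have hzok : p.zok k y i (gnum a) = 1 := by
      by_contra h0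
      rw [if_neg h0] at hne
      exact hne rfl
    obtain ⟨h0, hz⟩ := zok_one hzok
    have hb1 : b = 1 := by omega
    have key : ∀ z : HZ p.L (Fin p.BM), zq z = (k, y, i, 0) → False := by
      intro z hz
      apply h (.inr (z, ⟨j, hj⟩, ⟨c, hc⟩))
      show p.eN 1 j (zn p z) c = e
      unfold zn
      rw [hz]
      show p.eN 1 j (p.tN k y i 0) c = e
      rw [← h0, hwenc, ← henc, hb1]
    rcases hz with ⟨h1, h2, h3⟩ | ⟨h1, h2, h3⟩ | ⟨h1, h2, h3⟩
    · subst h3
      rcases h1 with rfl | rfl | rfl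
      · exact key (.ini ⟨y, h2⟩) rfl
      · exact key (.k0 ⟨y, h2⟩) rfl
      · exact key (.f ⟨y, h2⟩) rfl
    · rcases h1 with rfl | rfl
      · exact key (.c ⟨y, h2⟩ ⟨i, h3⟩) rfl
      · exact key (.d ⟨y, h2⟩ ⟨i, h3⟩) rfl
    · subst h1 h2 h3
      exact key .acc rfl

/-! ### The embedding -/

theorem evN_cases (H : p.Fit pi rules ini acc) {e t : ℕ} (he : e < p.nE) (h : p.evN e t ≠ 0) :
    ∃ (ε : PEqn p.m p.l (HAx p.L R (Fin p.BM) (Fin p.BR)) (HZ p.L (Fin p.BM)))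
      (v : PVar p.m p.l (HTok p.L R (Fin p.BM) (Fin p.BR)) (HZ p.L (Fin p.BM))), en p ε = e ∧
      eT pi rules ini acc ε t = some v ∧ p.evN e t = vn p v + 1 := by
  by_cases hex : ∃ ε : PEqn p.m p.l (HAx p.L R (Fin p.BM) (Fin p.BR)) (HZ p.L (Fin p.BM)),
      en p ε = e
  · obtain ⟨ε, rfl⟩ := hex
    have h1 := evN_en H ε t
    rcases hv : eT pi rules ini acc ε t with _ | v
    · rw [hv] at h1
      exact absurd h1 h
    · rw [hv] at h1
      exact ⟨ε, v, rfl, hv, h1⟩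
  · push Not at hex
    exact absurd (evN_dummy H he hex t) h

theorem sys_ok (H : p.Fit pi rules ini acc) : p.sys.Ok where
  le e i he hi := by
    show p.evN e i ≤ p.nX
    by_cases h : p.evN e i = 0
    · omega
    · obtain ⟨ε, v, _, _, h1⟩ := evN_cases H he h
      have hM : 0 < p.BM := by have := acc.2; omega
      have := vn_lt (R := R) H.hX hM v H.hl
      omega
  inj e i j he hi hj hij h0 := by
    have h0' : p.evN e i ≠ 0 := h0
    have hij' : p.evN e i = p.evN e j := hij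
    have h1' : p.evN e j ≠ 0 := by rw [← hij']; exact h0'
    obtain ⟨ε, v, e1, e2, e3⟩ := evN_cases H he h0'
    obtain ⟨ε', v', e1', e2', e3'⟩ := evN_cases H he h1'
    have hM : 0 < p.BM := by have := acc.2; omega
    have hε : ε = ε' := en_inj hM H.hl (by rw [e1, e1'])
    have hv : v = v' := vn_inj hM H.hl (by omega)
    subst hε hv
    exact eT_inj pi rules ini acc e2 e2'
  sp_lt := by
    have hM : 0 < p.BM := by have := acc.2; omega
    have := en_lt (R := R) H.hX hM (.inr (.acc, ⟨0, H.hm⟩, ⟨0, H.hl⟩)) H.hl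
    exact this
  sp_ne := by
    have h1 := evN_en H (.inr (.acc, ⟨0, H.hm⟩, ⟨0, H.hl⟩)) 0
    have h2 : p.evN (p.eN 1 0 (p.tN 5 0 0 0) 0) 0 = _ := h1
    show p.evN (p.eN 1 0 (p.tN 5 0 0 0) 0) 0 ≠ 0
    rw [h2]
    simp [eT, gT]

theorem emb_sys (H : p.Fit pi rules ini acc) :
    Nonempty (Emb (prodVars (l := p.l) (haxt pi rules) (fun z _ => hztok ini acc z))
      (prodRhs (m := p.m) (HZ.acc : HZ p.L (Fin p.BM))) p.sys.toSys.vars p.sys.rhs) := by
  have hM : 0 < p.BM := by have := acc.2; omega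
  refine ⟨{ f := fun v => ⟨vn p v, vn_lt H.hX hM v H.hl⟩
            g := fun ε => ⟨en p ε, en_lt H.hX hM ε H.hl⟩
            f_inj := fun v v' h => vn_inj hM H.hl (congrArg Fin.val h)
            g_inj := fun v v' h => en_inj hM H.hl (congrArg Fin.val h)
            hvars := fun ε => ?_
            hb := fun ε => ?_
            hdummy := fun e' he' => ?_ }⟩
  · ext x
    have hx : x ∈ p.sys.toSys.vars ⟨en p ε, en_lt H.hX hM ε H.hl⟩ ↔
        ∃ i < 4, p.evN (en p ε) i = x.1 + 1 := by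
      show x ∈ p.sys.vset _ ↔ _
      simp only [CSys.vset, Finset.mem_filter, Finset.mem_univ, true_and]
      rfl
    rw [hx, Finset.mem_image]
    constructor
    · rintro ⟨i, hi, h⟩
      rw [evN_en H] at h
      rcases hv : eT pi rules ini acc ε i with _ | v
      · rw [hv] at h
        simp at h
      · rw [hv] at h
        refine ⟨v, (mem_prodVars pi rules ini acc).2 ⟨i, hi, hv⟩, Fin.ext ?_⟩
        simpa using h
    · rintro ⟨v, hv, rfl⟩
      obtain ⟨t, ht, h⟩ := (mem_prodVars pi rules ini acc).1 hv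
      refine ⟨t, ht, ?_⟩
      rw [evN_en H, h]
      rfl
  · show (if en p ε = p.eN 1 0 (p.tN 5 0 0 0) 0 then (1 : ZMod 2) else 0) = _
    have e0 : p.eN 1 0 (p.tN 5 0 0 0) 0 = en p (R := R) (.inr (.acc, ⟨0, H.hm⟩, ⟨0, H.hl⟩)) := rfl
    rw [e0]
    rcases ε with ⟨j, α⟩ | ⟨z, j, c⟩
    · rw [if_neg (fun h => by simpa using en_inj hM H.hl h)]
      rfl
    · simp only [prodRhs]
      congr 1
      rw [eq_iff_iff, (en_inj hM H.hl).eq_iff]
      simp [Fin.ext_iff]
  · have hno : ∀ ε : PEqn p.m p.l (HAx p.L R (Fin p.BM) (Fin p.BR)) (HZ p.L (Fin p.BM)),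
        en p ε ≠ e'.1 := fun ε h => he' ε (Fin.ext h)
    have hz := evN_dummy H e'.2 hno
    refine ⟨?_, ?_⟩
    · ext x
      show x ∈ p.sys.vset _ ↔ _
      simp only [CSys.vset, Finset.mem_filter, Finset.mem_univ, true_and, Finset.notMem_empty,
        iff_false]
      rintro ⟨i, hi, h⟩
      have h' : p.evN e' i = x.1 + 1 := h
      rw [hz] at h'
      omega
    · show (if e'.1 = p.eN 1 0 (p.tN 5 0 0 0) 0 then (1 : ZMod 2) else 0) = 0
      have e0 : p.eN 1 0 (p.tN 5 0 0 0) 0 = en p (R := R) (.inr (.acc, ⟨0, H.hm⟩, ⟨0, H.hl⟩)) := rfl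
      rw [e0, if_neg (fun h => hno _ h.symm)]

end P310
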