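import Vale.Agent.P310.HornMain
import Vale.Agent.P310.HornNM
import Vale.Agent.P310.TokFit
import Vale.Agent.P310.TokComp
import Vale.Agent.P310.CodedPrn

/-!
# P310: the reduction

Parameters `x = (n, s, m, l, r0, d, W)`; `n = 2 ^ (r0 * s) + i`, where `i` is the code of a
machine in base `s`; `m` digits, grids of length `l`, `r0 * d` bits are mapped to `r0` bits at
every digit, `W` is the number of the table of these maps.
-/

namespace P310

open PolyTM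

/-- the parameters of the Horn system -/
def rp (x : Fin 7 → ℕ) : RPar where
  B := x 0 + 2 * x 1 + x 4 * x 5 * x 1 + 30
  n := x 0
  s := x 1
  i := x 0 - min (2 ^ (x 4 * x 1)) (x 0)
  L1 := (x 4 * x 5 * x 1 - 1) / 2
  L2 := x 4 * x 5 * x 1 - (x 4 * x 5 * x 1 - 1) / 2

/-- the data of the product system -/
def tp (x : Fin 7 → ℕ) : TPar where
  m := x 2
  l := x 3
  L := (rp x).L1 + (rp x).L2
  X := min (2 ^ (x 4 * x 1)) (x 0)
  BM := (rp x).B ^ 5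
  BR := (rp x).B ^ 6
  ac := 7 + (rp x).B * (rp x).L1
  V := rV (rp x)
  P := rP (rp x)
  Q := rQ (rp x)
  S := rS (rp x)
  C := rC (rp x)
  I := iniN (rp x)
  w j i := dig (x 6) (min (2 ^ x 4) (x 0)) (j * (x 4 * x 5) + i % (x 4 * x 5)) *
    min (min (2 ^ x 4) (x 0) ^ (i / (x 4 * x 5))) (x 0)

/-- the rules of the numbered Horn system -/
def nRules (x : Fin 7 → ℕ) : Fin (tp x).BR → Option (HRule (tp x).L (Fin (tp x).BM)) := fun r =>
  if h : rV (rp x) r = 1 ∧ rP (rp x) r < (tp x).BM ∧ rQ (rp x) r < (tp x).BM ∧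
      rS (rp x) r ≤ (tp x).L ∧ rC (rp x) r < (tp x).BM then
    some ⟨⟨rP (rp x) r, h.2.1⟩, ⟨rQ (rp x) r, h.2.2.1⟩,
      if h' : rS (rp x) r = 0 then none else some ⟨rS (rp x) r - 1, by omega⟩,
      ⟨rC (rp x) r, h.2.2.2.2⟩⟩
  else none

/-- the numbering of the types -/
def nTy (x : Fin 7 → ℕ) (T : Ty) : Fin (tp x).BM :=
  ⟨tyn (rp x).B T % (tp x).BM, Nat.mod_lt _ (by
    show 0 < (rp x).B ^ 5
    have : 0 < (rp x).B := by unfold rp; simp
    positivity)⟩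

/-- the initial types -/
def nIni (x : Fin 7 → ℕ) : Fin (tp x).BM → Prop := fun a => iniN (rp x) a = 1

instance (x : Fin 7 → ℕ) : DecidablePred (nIni x) := fun a => by
  unfold nIni
  infer_instance

variable {x : Fin 7 → ℕ}

theorem rp_ok (hs : 2 ≤ x 1) : (rp x).Ok where
  hs := hs
  hB := by
    show x 0 + 2 * x 1 + (x 4 * x 5 * x 1 - 1) / 2 +
      (x 4 * x 5 * x 1 - (x 4 * x 5 * x 1 - 1) / 2) + 30 ≤ x 0 + 2 * x 1 + x 4 * x 5 * x 1 + 30
    omega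

theorem rp_B : 30 ≤ (rp x).B := by
  show 30 ≤ x 0 + 2 * x 1 + x 4 * x 5 * x 1 + 30
  omega

theorem nTy_val {T : Ty} (hT : T ∈ tyB (rp x).B) : (nTy x T).1 = tyn (rp x).B T :=
  Nat.mod_eq_of_lt (tyn_lt (by have := rp_B (x := x); omega) hT)

theorem nTy_inj : Set.InjOn (nTy x) (tyB (rp x).B) := by
  intro T hT T' hT' h
  have h1 := congrArg Fin.val h
  rw [nTy_val hT, nTy_val hT'] at h1
  exact tyn_inj (by have := rp_B (x := x); omega) hT hT' h1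

theorem shn_le {L : ℕ} (o : Option (Fin L)) : shn o ≤ L := by
  rcases o with _ | i
  · exact Nat.zero_le _
  · show i.1 + 1 ≤ L
    omega

theorem shn_dec {L : ℕ} (o : Option (Fin L)) {a : ℕ} (ha : a = shn o) (hL : a ≤ L) :
    (if h' : a = 0 then none else some (⟨a - 1, by omega⟩ : Fin L)) = o := by
  subst ha
  rcases o with _ | i
  · rfl
  · show (if h' : i.1 + 1 = 0 then none else _) = _
    rw [dif_neg (by omega)]
    congr 1

theorem nRules_of {r : Fin (tp x).BR} {ρ : HRule ((rp x).L1 + (rp x).L2) Ty}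
    (hρ : ρ.p1 ∈ tyB (rp x).B ∧ ρ.p2 ∈ tyB (rp x).B ∧ ρ.c ∈ tyB (rp x).B)
    (hV : rV (rp x) r = 1) (hP : rP (rp x) r = tyn (rp x).B ρ.p1)
    (hQ : rQ (rp x) r = tyn (rp x).B ρ.p2) (hS : rS (rp x) r = shn ρ.sh)
    (hC : rC (rp x) r = tyn (rp x).B ρ.c) : nRules x r = some (ρ.ren (nTy x)) := by
  have hB : 8 ≤ (rp x).B := by have := rp_B (x := x); omega
  have h : rV (rp x) r = 1 ∧ rP (rp x) r < (tp x).BM ∧ rQ (rp x) r < (tp x).BM ∧
      rS (rp x) r ≤ (tp x).L ∧ rC (rp x) r < (tp x).BM :=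
    ⟨hV, by rw [hP]; exact tyn_lt hB hρ.1, by rw [hQ]; exact tyn_lt hB hρ.2.1,
      by rw [hS]; exact shn_le _, by rw [hC]; exact tyn_lt hB hρ.2.2⟩
  unfold nRules
  rw [dif_pos h]
  congr 1
  refine HRule.ext ?_ ?_ ?_ ?_
  · exact Fin.ext (by rw [HRule.ren, nTy_val hρ.1]; exact hP)
  · exact Fin.ext (by rw [HRule.ren, nTy_val hρ.2.1]; exact hQ)
  · exact shn_dec _ hS (by rw [hS]; exact shn_le _)
  · exact Fin.ext (by rw [HRule.ren, nTy_val hρ.2.2]; exact hC)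

theorem nRules_some {r : Fin (tp x).BR} {ρ' : HRule (tp x).L (Fin (tp x).BM)}
    (h : nRules x r = some ρ') : rV (rp x) r = 1 ∧ rP (rp x) r = ρ'.p1 ∧ rQ (rp x) r = ρ'.p2 ∧
      rS (rp x) r = shn ρ'.sh ∧ rC (rp x) r = ρ'.c := by
  unfold nRules at h
  by_cases h0 : rV (rp x) r = 1 ∧ rP (rp x) r < (tp x).BM ∧ rQ (rp x) r < (tp x).BM ∧
      rS (rp x) r ≤ (tp x).L ∧ rC (rp x) r < (tp x).BM
  swap
  · rw [dif_neg h0] at h
    cases h
  rw [dif_pos h0] at h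
  have h' := Option.some.inj h
  subst h'
  refine ⟨h0.1, rfl, rfl, ?_, rfl⟩
  by_cases h1 : rS (rp x) r = 0
  · simp only [dif_pos h1]
    rw [h1]
    rfl
  · simp only [dif_neg h1]
    show rS (rp x) r = rS (rp x) r - 1 + 1
    omega

theorem nRules_none (hs : 2 ≤ x 1) {r : Fin (tp x).BR} (h : nRules x r = none) :
    rV (rp x) r ≠ 1 := by
  intro hV
  obtain ⟨ρ, h1, h2, h3, h4, h5⟩ := rules_sound (rp_ok hs) hV
  rw [nRules_of (rules_bdd (rp_ok hs) h1) hV h2 h3 h4 h5] at h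
  cases h

theorem mnum (hs : 2 ≤ x 1) : MNum (codeNM (rp x).n (rp x).s (rp x).i)
    ((rp x).n + 2 * (rp x).s) (rp x).s (rp x).s (rp x).L1 (rp x).L2 (nTy x) (tyB (rp x).B)
    (nRules x) (nIni x) where
  inj := nTy_inj
  bdd ρ h := rules_bdd (rp_ok hs) h
  ibdd T h := init_bdd (rp_ok hs) h
  acc := by
    show (rp x).L1 < (rp x).B
    have := (rp_ok (x := x) hs).hB
    omega
  sound r ρ' h := by
    obtain ⟨h1, h2, h3, h4, h5⟩ := nRules_some h
    obtain ⟨ρ, e1, e2, e3, e4, e5⟩ := rules_sound (rp_ok hs) h1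
    refine ⟨ρ, e1, ?_⟩
    rw [nRules_of (rules_bdd (rp_ok hs) e1) h1 e2 e3 e4 e5] at h
    exact (Option.some.inj h).symm
  complete ρ h := by
    obtain ⟨r, hr, h1, h2, h3, h4, h5⟩ := rules_complete (rp_ok hs) h
    exact ⟨⟨r, hr⟩, nRules_of (rules_bdd (rp_ok hs) h) h1 h2 h3 h4 h5⟩
  ini a := by
    unfold nIni
    rw [iniN_iff (rp_ok hs)]
    constructor
    · rintro ⟨T, hT, h⟩
      exact ⟨T, hT, Fin.ext (by rw [nTy_val (init_bdd (rp_ok hs) hT)]; exact h)⟩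
    · rintro ⟨T, hT, h⟩
      exact ⟨T, hT, by rw [← nTy_val (init_bdd (rp_ok hs) hT), h]⟩

/-- the good parameters -/
structure XOk (x : Fin 7 → ℕ) (i : ℕ) : Prop where
  hs : 2 ≤ x 1
  hm : 0 < x 2
  hl : 0 < x 3
  hr : 0 < x 4
  hd : 0 < x 5
  hn : x 0 = 2 ^ (x 4 * x 1) + i

theorem XOk.hX {i : ℕ} (h : XOk x i) : (tp x).X = 2 ^ (x 4 * x 1) := by
  show min (2 ^ (x 4 * x 1)) (x 0) = _
  rw [h.hn]
  omega

theorem XOk.hi {i : ℕ} (h : XOk x i) : (rp x).i = i := by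
  show x 0 - min (2 ^ (x 4 * x 1)) (x 0) = i
  rw [h.hn]
  omega

theorem XOk.hL {i : ℕ} (_h : XOk x i) : (tp x).L = x 4 * x 5 * x 1 := by
  show (x 4 * x 5 * x 1 - 1) / 2 + (x 4 * x 5 * x 1 - (x 4 * x 5 * x 1 - 1) / 2) = _
  omega

theorem XOk.hw {i : ℕ} (h : XOk x i) (j e : ℕ) (he : e < (tp x).L) :
    (tp x).w j e = dig (x 6) (2 ^ x 4) (j * (x 4 * x 5) + e % (x 4 * x 5)) *
      (2 ^ x 4) ^ (e / (x 4 * x 5)) := by
  have hs := h.hs
  have h1 : 2 ^ x 4 ≤ x 0 := by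
    rw [h.hn]
    have : 2 ^ x 4 ≤ 2 ^ (x 4 * x 1) := Nat.pow_le_pow_right (by omega)
      (Nat.le_mul_of_pos_right _ (by omega))
    omega
  have h2 : min (2 ^ x 4) (x 0) = 2 ^ x 4 := min_eq_left h1
  have h3 : e / (x 4 * x 5) < x 1 := by
    apply Nat.div_lt_of_lt_mul
    rw [← h.hL]
    exact he
  have h4 : (2 ^ x 4) ^ (e / (x 4 * x 5)) ≤ x 0 := by
    rw [← pow_mul, h.hn]
    have : 2 ^ (x 4 * (e / (x 4 * x 5))) ≤ 2 ^ (x 4 * x 1) := Nat.pow_le_pow_right (by omega)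
      (Nat.mul_le_mul_left _ h3.le)
    omega
  show dig (x 6) (min (2 ^ x 4) (x 0)) (j * (x 4 * x 5) + e % (x 4 * x 5)) *
    min (min (2 ^ x 4) (x 0) ^ (e / (x 4 * x 5))) (x 0) = _
  rw [h2, min_eq_left h4]

theorem fit_tp {i : ℕ} (h : XOk x i) {pi : Fin (tp x).m → GV (tp x).L →ₗ[ZMod 2] GV (x 4 * x 1)}
    (hpi : ∀ (j : Fin (tp x).m) (e : Fin (tp x).L), gnum (pi j (shv (some e))) =
      dig (x 6) (2 ^ x 4) (j.1 * (x 4 * x 5) + e.1 % (x 4 * x 5)) *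
        (2 ^ x 4) ^ (e.1 / (x 4 * x 5))) :
    (tp x).Fit pi (nRules x) (nIni x) (nTy x (.Acc (rp x).L1)) where
  hm := h.hm
  hl := h.hl
  hX := h.hX
  hpi j e := by rw [hpi, h.hw j e e.2]
  hsome r ρ hr := nRules_some hr
  hnone r hr := nRules_none h.hs hr
  hini A := Iff.rfl
  hac := by
    have h1 : Ty.Acc (rp x).L1 ∈ tyB (rp x).B := by
      show (rp x).L1 < (rp x).B
      have := (rp_ok (x := x) h.hs).hB
      omega
    rw [nTy_val h1]
    show 7 + (rp x).B * (rp x).L1 = num5 (rp x).B 7 (rp x).L1 0 0 0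
    unfold num5
    ring

/-- the number of a table of suitable maps -/
def TabOk (m r0 d W : ℕ) : Prop := ∀ s L R : ℕ, L = r0 * d * s → R = r0 * s →
  ∃ pi : Fin m → GV L →ₗ[ZMod 2] GV R,
    (∀ g : GV L, g ≠ 0 → ∀ S : Finset (Fin m), (∀ j ∈ S, pi j g = 0) → S.card ≤ d) ∧
    ∀ (j : Fin m) (i : Fin L), gnum (pi j (shv (some i))) =
      dig W (2 ^ r0) (j.1 * (r0 * d) + i.1 % (r0 * d)) * (2 ^ r0) ^ (i.1 / (r0 * d))

/-- **The reduction.** -/
theorem reduction {k i : ℕ} (h : XOk x i) (hT : TabOk (x 2) (x 4) (x 5) (x 6))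
    (hk : k + 1 + 6 * x 5 < 2 * x 2) (hl : k + 1 < x 3) (hm : x 2 + 3 ≤ k) :
    WLEquiv k ((tp x).sys.graph 0) ((tp x).sys.graph 1) ↔
      ¬ (codeNM (x 0) (x 1) i).Accepts (2 ^ ((x 4 * x 5 * x 1 - 1) / 2)) := by
  classical
  obtain ⟨pi, far, hpi⟩ := hT (x 1) (tp x).L (x 4 * x 1) h.hL rfl
  have hfit := fit_tp h hpi
  obtain ⟨M⟩ := emb_sys hfit
  have hok := sys_ok hfit
  have N := mnum (x := x) h.hs
  have hLL : (rp x).L1 < (rp x).L2 := by
    show (x 4 * x 5 * x 1 - 1) / 2 < x 4 * x 5 * x 1 - (x 4 * x 5 * x 1 - 1) / 2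
    have : 0 < x 4 * x 5 * x 1 := by
      have h1 := h.hr
      have h2 := h.hd
      have h3 := h.hs
      positivity
    omega
  have hi := h.hi
  have hcode : codeNM (rp x).n (rp x).s (rp x).i = codeNM (x 0) (x 1) i := by rw [hi]; rfl
  have hL1 : (rp x).L1 = (x 4 * x 5 * x 1 - 1) / 2 := rfl
  constructor
  · intro hwl hacc
    rw [← hcode, ← hL1] at hacc
    have hder := N.hder (codeNM_bdd (n := (rp x).n) (s := (rp x).s) (i := (rp x).i) h.hs) hLL hacc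
    exact horn_not_wl (pi := pi) (l := (tp x).l) hok M N.hwf hder h.hm h.hl hm hwl
  · intro hacc
    rw [← hcode, ← hL1] at hacc
    exact horn_wl (pi := pi) (l := (tp x).l) hok M (N.hhyp hLL hacc far) hk hl

end P310
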