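import Vale.Agent.P310.RuleTy
import Vale.Agent.P310.Arith2

/-!
# P310: the numbers of the types and rules of the Horn system of `codeNM n s i`

A type is a number `< B ^ 5` (five digits in base `B`), a rule is a number `< B ^ 6` (six digits:
the constructor of `MRule` and its parameters). The functions below are computable in polynomial
time (`Comp`) and give, for the rule number `r`: is it a rule (`rV`), the numbers of its premises
(`rP`, `rQ`), its shift (`rS`: `0` for `none`, `i + 1` for `some i`), the number of its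
conclusion (`rC`).
-/

namespace P310

open PolyTM

/-! ### operations and facts -/

/-- the digits of an operation -/
def opd : Op → ℕ × ℕ × ℕ
  | .nop => (0, 0, 0)
  | .push g b => (1, g, b)
  | .pop g => (2, g, 0)
  | .acc => (3, 0, 0)

/-- the digits of a fact -/
def bxd : Bx → ℕ × ℕ × ℕ
  | .st q => (0, q, 0)
  | .cl g β => (1, g, ob β)

theorem tyn_O (B : ℕ) (o : Op) (i : ℕ) :
    tyn B (.O o i) = num5 B 4 (opd o).1 (opd o).2.1 (opd o).2.2 i := by
  cases o <;> rfl

theorem tyn_B (B : ℕ) (b : Bx) :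
    tyn B (.B b) = num5 B 2 (bxd b).1 (bxd b).2.1 (bxd b).2.2 0 := by
  cases b <;> rfl

theorem tyn_N (B : ℕ) (b : Bx) (i : ℕ) :
    tyn B (.N b i) = num5 B 3 (bxd b).1 (bxd b).2.1 (bxd b).2.2 i := by
  cases b <;> rfl

/-- valid digits of an operation -/
def okoD (s a b c : ℕ) : Prop :=
  (a = 0 ∧ b = 0 ∧ c = 0) ∨ (a = 1 ∧ b < s ∧ c < s) ∨ (a = 2 ∧ b < s ∧ c = 0) ∨
    (a = 3 ∧ b = 0 ∧ c = 0)

/-- valid digits of a fact -/
def okxD (Q s a b c : ℕ) : Prop := (a = 0 ∧ b < Q ∧ c = 0) ∨ (a = 1 ∧ b < s ∧ c ≤ s)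

theorem okb_iff {A : ℕ} {β : Option ℕ} : okb A β ↔ ob β ≤ A := by
  refine ⟨ob_le, fun h => ?_⟩
  cases β with
  | none => intro b hb; cases hb
  | some b' =>
    intro b hb
    cases hb
    exact h

theorem ob_surj (c : ℕ) : ∃ β, ob β = c := by
  cases c with
  | zero => exact ⟨none, rfl⟩
  | succ c => exact ⟨some c, rfl⟩

theorem okoD_op {s : ℕ} {o : Op} (h : oko s s o) :
    okoD s (opd o).1 (opd o).2.1 (opd o).2.2 := by
  cases o with
  | nop => exact .inl ⟨rfl, rfl, rfl⟩
  | push g b => exact .inr (.inl ⟨rfl, h.1, h.2⟩)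
  | pop g => exact .inr (.inr (.inl ⟨rfl, h, rfl⟩))
  | acc => exact .inr (.inr (.inr ⟨rfl, rfl, rfl⟩))

theorem exists_op {s a b c : ℕ} (h : okoD s a b c) : ∃ o, oko s s o ∧ opd o = (a, b, c) := by
  rcases h with ⟨rfl, rfl, rfl⟩ | ⟨rfl, h1, h2⟩ | ⟨rfl, h1, rfl⟩ | ⟨rfl, rfl, rfl⟩
  · exact ⟨.nop, trivial, rfl⟩
  · exact ⟨.push b c, ⟨h1, h2⟩, rfl⟩
  · exact ⟨.pop b, h1, rfl⟩
  · exact ⟨.acc, trivial, rfl⟩

theorem okxD_bx {Q s : ℕ} {b : Bx} (h : okx Q s s b) :
    okxD Q s (bxd b).1 (bxd b).2.1 (bxd b).2.2 := by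
  cases b with
  | st q => exact .inl ⟨rfl, h, rfl⟩
  | cl g β => exact .inr ⟨rfl, h.1, okb_iff.1 h.2⟩

theorem exists_bx {Q s a b c : ℕ} (h : okxD Q s a b c) : ∃ o, okx Q s s o ∧ bxd o = (a, b, c) := by
  rcases h with ⟨rfl, h1, rfl⟩ | ⟨rfl, h1, h2⟩
  · exact ⟨.st b, h1, rfl⟩
  · obtain ⟨β, rfl⟩ := ob_surj c
    exact ⟨.cl b β, ⟨h1, okb_iff.2 h2⟩, rfl⟩

theorem touches_iff {o : Op} {g : ℕ} :
    o.touches g ↔ ((opd o).1 = 1 ∨ (opd o).1 = 2) ∧ (opd o).2.1 = g := by
  cases o <;> simp [Op.touches, opd]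

/-! ### the machine -/

/-- the kind of the operation of the state `q` -/
def opcN (x : RPar) (q : ℕ) : ℕ :=
  if q < x.s + x.n then 1
  else if 3 ≤ dig x.i x.s (2 * prI (q - (x.s + x.n)) 0 + 1) then 3
  else dig x.i x.s (2 * prI (q - (x.s + x.n)) 0 + 1)

/-- the stack of the operation of the state `q` -/
def opgN (x : RPar) (q : ℕ) : ℕ :=
  if q < x.s + x.n then 0
  else if opcN x q = 1 ∨ opcN x q = 2 then dig x.i x.s (2 * prI (q - (x.s + x.n)) 1 + 1)
  else 0

/-- the symbol of the operation of the state `q` -/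
def opbN (x : RPar) (q : ℕ) : ℕ :=
  if q < x.s then 1
  else if q < x.s + x.n then 0
  else if opcN x q = 1 then dig x.i x.s (2 * prI (q - (x.s + x.n)) 2 + 1)
  else 0

/-- the next state -/
def nxN (x : RPar) (q β : ℕ) : ℕ :=
  if q < x.s + x.n then q + 1 else x.s + x.n + dig x.i x.s (2 * prI (q - (x.s + x.n)) β)

theorem opd_op (x : RPar) (q : ℕ) :
    opd ((codeNM x.n x.s x.i).op q) = (opcN x q, opgN x q, opbN x q) := by
  by_cases h1 : q < x.s
  · have h2 : q < x.s + x.n := by omega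
    simp [codeNM, opcN, opgN, opbN, h1, h2, opd]
  by_cases h2 : q < x.s + x.n
  · simp [codeNM, opcN, opgN, opbN, h1, h2, opd]
  · simp only [codeNM, opcN, opgN, opbN, h1, h2, if_false, opC]
    generalize dig x.i x.s (2 * prI (q - (x.s + x.n)) 0 + 1) = u
    by_cases h3 : u = 0
    · subst h3
      simp [opd]
    by_cases h4 : u = 1
    · subst h4
      simp [opd]
    by_cases h5 : u = 2
    · subst h5
      simp [opd]
    have h6 : 3 ≤ u := by omega
    simp [opd, h3, h4, h5, h6]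

theorem nx_eq (x : RPar) (q : ℕ) (β : Option ℕ) :
    (codeNM x.n x.s x.i).nx q β = nxN x q (ob β) := rfl

/-! ### the table of the rules -/

/-- a row of the table -/
structure Row where
  v : ℕ
  p : ℕ
  q : ℕ
  s : ℕ
  c : ℕ

instance (s a b c : ℕ) : Decidable (okoD s a b c) := by unfold okoD; infer_instance

instance (Q s a b c : ℕ) : Decidable (okxD Q s a b c) := by unfold okxD; infer_instance

/-- the table -/
def tab (x : RPar) (a b c d e : ℕ) : ℕ → Row
  | 0 => ⟨if a < x.L1 + x.L2 ∧ c < x.L1 + x.L2 ∧ b ≤ 1 then 1 else 0,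
      num5 x.B 0 a b c 0, num5 x.B 0 a b c 0, 0, num5 x.B 0 a b (c + 1) 0⟩
  | 1 => ⟨if a < x.L1 + x.L2 ∧ c < x.L1 + x.L2 ∧ b ≤ 1 ∧ ¬ c = a then 1 else 0,
      num5 x.B 0 a b c 0, num5 x.B 0 a b c 0, c + 1, num5 x.B 0 a b (c + 1) 0⟩
  | 2 => ⟨if a < x.L1 + x.L2 then 1 else 0,
      num5 x.B 0 a 0 a 0, num5 x.B 0 a 0 a 0, a + 1, num5 x.B 0 a 1 (a + 1) 0⟩
  | 3 => ⟨if a < x.L2 then 1 else 0,
      num5 x.B 1 a 0 0 0, num5 x.B 1 a 0 0 0, 0, num5 x.B 1 (a + 1) 0 0 0⟩
  | 4 => ⟨if a < x.L2 then 1 else 0,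
      num5 x.B 1 a 0 0 0, num5 x.B 1 a 0 0 0, x.L1 + a + 1, num5 x.B 1 (a + 1) 0 0 0⟩
  | 5 => ⟨1, num5 x.B 1 0 0 0 0, num5 x.B 1 0 0 0 0, 0, num5 x.B 2 0 0 0 0⟩
  | 6 => ⟨if a < x.s then 1 else 0,
      num5 x.B 1 x.L2 0 0 0, num5 x.B 1 x.L2 0 0 0, 0, num5 x.B 2 1 a 0 0⟩
  | 7 => ⟨if a < x.n + 2 * x.s then 1 else 0,
      num5 x.B 2 0 a 0 0, num5 x.B 2 0 a 0 0, 0, num5 x.B 4 (opcN x a) (opgN x a) (opbN x a) 0⟩
  | 8 => ⟨if okoD x.s a b c ∧ d < x.L2 then 1 else 0,
      num5 x.B 4 a b c d, num5 x.B 4 a b c d, 0, num5 x.B 4 a b c (d + 1)⟩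
  | 9 => ⟨if okoD x.s a b c ∧ d < x.L2 then 1 else 0,
      num5 x.B 4 a b c d, num5 x.B 4 a b c d, x.L1 + d + 1, num5 x.B 4 a b c (d + 1)⟩
  | 10 => ⟨if a < x.n + 2 * x.s ∧ opcN x a = 0 then 1 else 0,
      num5 x.B 2 0 a 0 0, num5 x.B 2 0 a 0 0, 0, num5 x.B 3 0 (nxN x a 0) 0 0⟩
  | 11 => ⟨if a < x.n + 2 * x.s ∧ opcN x a = 3 then 1 else 0,
      num5 x.B 2 0 a 0 0, num5 x.B 2 0 a 0 0, 0, num5 x.B 3 0 a 0 0⟩
  | 12 => ⟨if a < x.n + 2 * x.s ∧ opcN x a = 1 then 1 else 0,
      num5 x.B 2 0 a 0 0, num5 x.B 2 0 a 0 0, 0, num5 x.B 3 0 (nxN x a 0) 0 0⟩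
  | 13 => ⟨if a < x.n + 2 * x.s ∧ opcN x a = 2 ∧ b ≤ x.s then 1 else 0,
      num5 x.B 2 0 a 0 0, num5 x.B 2 1 (opgN x a) b 0, 0, num5 x.B 3 0 (nxN x a b) 0 0⟩
  | 14 => ⟨if a < x.s ∧ b ≤ x.s ∧ okoD x.s c d e ∧ ¬ ((c = 1 ∨ c = 2) ∧ d = a) then 1 else 0,
      num5 x.B 2 1 a b 0, num5 x.B 4 c d e x.L2, 0, num5 x.B 3 1 a b 0⟩
  | 15 => ⟨if a < x.s ∧ b < x.s then 1 else 0,
      num5 x.B 4 1 a b 0, num5 x.B 4 1 a b 0, 0, num5 x.B 3 1 a (b + 1) 0⟩
  | 16 => ⟨if a < x.s ∧ b < x.s ∧ c ≤ x.s then 1 else 0,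
      num5 x.B 2 1 a c 0, num5 x.B 4 1 a b x.L2, 0, num5 x.B 5 a c 0 0⟩
  | 17 => ⟨if a < x.s ∧ b ≤ x.s ∧ c < x.L2 then 1 else 0,
      num5 x.B 5 a b c 0, num5 x.B 0 (x.L1 + c) 1 (x.L1 + x.L2) 0, x.L1 + c + 1,
      num5 x.B 5 a b (c + 1) 0⟩
  | 18 => ⟨if a < x.s ∧ b ≤ x.s ∧ c < x.L2 then 1 else 0,
      num5 x.B 5 a b c 0, num5 x.B 0 (x.L1 + c) 0 (x.L1 + x.L2) 0, x.L1 + c + 1,
      num5 x.B 3 1 a b 0⟩
  | 19 => ⟨if a < x.s ∧ b ≤ x.s then 1 else 0,
      num5 x.B 2 1 a b 0, num5 x.B 4 2 a 0 x.L2, 0, num5 x.B 6 a b 0 0⟩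
  | 20 => ⟨if a < x.s ∧ b ≤ x.s ∧ c < x.L2 then 1 else 0,
      num5 x.B 6 a b c 0, num5 x.B 0 (x.L1 + c) 0 (x.L1 + x.L2) 0, x.L1 + c + 1,
      num5 x.B 6 a b (c + 1) 0⟩
  | 21 => ⟨if a < x.s ∧ b ≤ x.s ∧ c < x.L2 then 1 else 0,
      num5 x.B 6 a b c 0, num5 x.B 0 (x.L1 + c) 1 (x.L1 + x.L2) 0, x.L1 + c + 1,
      num5 x.B 3 1 a b 0⟩
  | 22 => ⟨if a < x.s ∧ b ≤ x.s then 1 else 0,
      num5 x.B 6 a b x.L2 0, num5 x.B 6 a b x.L2 0, 0, num5 x.B 3 1 a 0 0⟩
  | 23 => ⟨if okxD (x.n + 2 * x.s) x.s a b c ∧ d < x.L1 then 1 else 0,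
      num5 x.B 3 a b c d, num5 x.B 0 d 1 (x.L1 + x.L2) 0, d + 1, num5 x.B 3 a b c (d + 1)⟩
  | 24 => ⟨if okxD (x.n + 2 * x.s) x.s a b c ∧ d < x.L1 then 1 else 0,
      num5 x.B 3 a b c d, num5 x.B 0 d 0 (x.L1 + x.L2) 0, d + 1, num5 x.B 2 a b c 0⟩
  | 25 => ⟨if a < x.n + 2 * x.s ∧ opcN x a = 3 then 1 else 0,
      num5 x.B 2 0 a 0 0, num5 x.B 2 0 a 0 0, 0, num5 x.B 7 0 0 0 0⟩
  | 26 => ⟨if a < x.L1 then 1 else 0,
      num5 x.B 7 a 0 0 0, num5 x.B 7 a 0 0 0, 0, num5 x.B 7 (a + 1) 0 0 0⟩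
  | 27 => ⟨if a < x.L1 then 1 else 0,
      num5 x.B 7 a 0 0 0, num5 x.B 7 a 0 0 0, a + 1, num5 x.B 7 (a + 1) 0 0 0⟩
  | _ + 28 => ⟨0, 0, 0, 0, 0⟩

theorem ind_one {P : Prop} [Decidable P] (h : (if P then 1 else 0) = 1) : P := by
  by_contra h1
  simp [h1] at h

theorem tab_sound {x : RPar} {a b c d e m : ℕ}
    (h : (tab x a b c d e m).v = 1) :
    ∃ ρ, MRule (codeNM x.n x.s x.i) (x.n + 2 * x.s) x.s x.s x.L1 x.L2 ρ ∧
      (tab x a b c d e m).p = tyn x.B ρ.p1 ∧ (tab x a b c d e m).q = tyn x.B ρ.p2 ∧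
      (tab x a b c d e m).s = shn ρ.sh ∧ (tab x a b c d e m).c = tyn x.B ρ.c := by
  have hop : ∀ q, opd ((codeNM x.n x.s x.i).op q) = (opcN x q, opgN x q, opbN x q) := opd_op x
  have hbit : ∀ b ≤ 1, ∃ β : Bool, (if β then 1 else 0) = b := by
    intro b hb
    interval_cases b
    · exact ⟨false, rfl⟩
    · exact ⟨true, rfl⟩
  have hnop : ∀ q, opcN x q = 0 → (codeNM x.n x.s x.i).op q = .nop := by
    intro q hq
    have h1 := hop q
    rw [hq] at h1
    cases h2 : (codeNM x.n x.s x.i).op q <;> simp [h2, opd] at h1 ⊢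
  have hacc : ∀ q, opcN x q = 3 → (codeNM x.n x.s x.i).op q = .acc := by
    intro q hq
    have h1 := hop q
    rw [hq] at h1
    cases h2 : (codeNM x.n x.s x.i).op q <;> simp [h2, opd] at h1 ⊢
  have hpush : ∀ q, opcN x q = 1 → ∃ g b, (codeNM x.n x.s x.i).op q = .push g b := by
    intro q hq
    have h1 := hop q
    rw [hq] at h1
    cases h2 : (codeNM x.n x.s x.i).op q <;> simp [h2, opd] at h1 ⊢
  have hpop : ∀ q, opcN x q = 2 → (codeNM x.n x.s x.i).op q = .pop (opgN x q) := by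
    intro q hq
    have h1 := hop q
    rw [hq] at h1
    cases h2 : (codeNM x.n x.s x.i).op q <;> simp [h2, opd] at h1 ⊢
    exact h1.1
  rcases Nat.lt_or_ge m 28 with hm | hm
  swap
  · obtain ⟨m, rfl⟩ := Nat.exists_eq_add_of_le' hm
    exact absurd h Nat.zero_ne_one
  interval_cases m
  · obtain ⟨h1, h2, h3⟩ := ind_one h
    obtain ⟨β, rfl⟩ := hbit b h3
    exact ⟨_, .x1 a c β h1 h2, rfl, rfl, rfl, rfl⟩
  · obtain ⟨h1, h2, h3, h4⟩ := ind_one h
    obtain ⟨β, rfl⟩ := hbit b h3
    exact ⟨_, .x2 a c β h1 h2 h4, rfl, rfl, rfl, rfl⟩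
  · exact ⟨_, .x3 a (ind_one h), rfl, rfl, rfl, rfl⟩
  · exact ⟨_, .z1 a (ind_one h), rfl, rfl, rfl, rfl⟩
  · exact ⟨_, .z2 a (ind_one h), rfl, rfl, rfl, rfl⟩
  · exact ⟨_, .zs, rfl, rfl, rfl, rfl⟩
  · exact ⟨_, .zc a (ind_one h), rfl, rfl, rfl, rfl⟩
  · refine ⟨_, .bo a (ind_one h), rfl, rfl, rfl, ?_⟩
    rw [tyn_O, hop]
    rfl
  · obtain ⟨h1, h2⟩ := ind_one h
    obtain ⟨o, ho, ho2⟩ := exists_op h1
    refine ⟨_, .o1 o d ho h2, ?_, ?_, rfl, ?_⟩ <;> rw [tyn_O, ho2] <;> rfl
  · obtain ⟨h1, h2⟩ := ind_one h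
    obtain ⟨o, ho, ho2⟩ := exists_op h1
    refine ⟨_, .o2 o d ho h2, ?_, ?_, rfl, ?_⟩ <;> rw [tyn_O, ho2] <;> rfl
  · obtain ⟨h1, h2⟩ := ind_one h
    exact ⟨_, .nn a h1 (hnop a h2), rfl, rfl, rfl, rfl⟩
  · obtain ⟨h1, h2⟩ := ind_one h
    exact ⟨_, .na a h1 (hacc a h2), rfl, rfl, rfl, rfl⟩
  · obtain ⟨h1, h2⟩ := ind_one h
    obtain ⟨g, b', hgb⟩ := hpush a h2
    exact ⟨_, .np a g b' h1 hgb, rfl, rfl, rfl, rfl⟩
  · obtain ⟨h1, h2, h3⟩ := ind_one h
    obtain ⟨β, rfl⟩ := ob_surj b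
    exact ⟨_, .nq a _ β h1 (hpop a h2) (okb_iff.2 h3), rfl, rfl, rfl, rfl⟩
  · obtain ⟨h1, h2, h3, h4⟩ := ind_one h
    obtain ⟨β, rfl⟩ := ob_surj b
    obtain ⟨o, ho, ho2⟩ := exists_op h3
    refine ⟨_, .kp a β o h1 (okb_iff.2 h2) ho ?_, rfl, ?_, rfl, rfl⟩
    · rw [touches_iff, ho2]
      exact h4
    · rw [tyn_O, ho2]
      rfl
  · obtain ⟨h1, h2⟩ := ind_one h
    exact ⟨_, .pu a b h1 h2, rfl, rfl, rfl, rfl⟩
  · obtain ⟨h1, h2, h3⟩ := ind_one h
    obtain ⟨β, rfl⟩ := ob_surj c
    exact ⟨_, .u0 a b β h1 h2 (okb_iff.2 h3), rfl, rfl, rfl, rfl⟩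
  · obtain ⟨h1, h2, h3⟩ := ind_one h
    obtain ⟨β, rfl⟩ := ob_surj b
    exact ⟨_, .u1 a β c h1 (okb_iff.2 h2) h3, rfl, rfl, rfl, rfl⟩
  · obtain ⟨h1, h2, h3⟩ := ind_one h
    obtain ⟨β, rfl⟩ := ob_surj b
    exact ⟨_, .u2 a β c h1 (okb_iff.2 h2) h3, rfl, rfl, rfl, rfl⟩
  · obtain ⟨h1, h2⟩ := ind_one h
    obtain ⟨β, rfl⟩ := ob_surj b
    exact ⟨_, .d0 a β h1 (okb_iff.2 h2), rfl, rfl, rfl, rfl⟩
  · obtain ⟨h1, h2, h3⟩ := ind_one h
    obtain ⟨β, rfl⟩ := ob_surj b
    exact ⟨_, .d1 a β c h1 (okb_iff.2 h2) h3, rfl, rfl, rfl, rfl⟩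
  · obtain ⟨h1, h2, h3⟩ := ind_one h
    obtain ⟨β, rfl⟩ := ob_surj b
    exact ⟨_, .d2 a β c h1 (okb_iff.2 h2) h3, rfl, rfl, rfl, rfl⟩
  · obtain ⟨h1, h2⟩ := ind_one h
    obtain ⟨β, rfl⟩ := ob_surj b
    exact ⟨_, .d3 a β h1 (okb_iff.2 h2), rfl, rfl, rfl, rfl⟩
  · obtain ⟨h1, h2⟩ := ind_one h
    obtain ⟨o, ho, ho2⟩ := exists_bx h1
    refine ⟨_, .t1 o d ho h2, ?_, rfl, rfl, ?_⟩ <;> rw [tyn_N, ho2] <;> rfl
  · obtain ⟨h1, h2⟩ := ind_one h
    obtain ⟨o, ho, ho2⟩ := exists_bx h1
    refine ⟨_, .t2 o d ho h2, ?_, rfl, rfl, ?_⟩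
    · rw [tyn_N, ho2]
      rfl
    · rw [tyn_B, ho2]
      rfl
  · obtain ⟨h1, h2⟩ := ind_one h
    exact ⟨_, .a0 a h1 (hacc a h2), rfl, rfl, rfl, rfl⟩
  · exact ⟨_, .a1 a (ind_one h), rfl, rfl, rfl, rfl⟩
  · exact ⟨_, .a2 a (ind_one h), rfl, rfl, rfl, rfl⟩

theorem one_ind {P : Prop} [Decidable P] (h : P) : (if P then 1 else 0) = 1 := if_pos h

/-- the claim of completeness -/
def InTab (x : RPar) (ρ : HRule (x.L1 + x.L2) Ty) (a b c d e m : ℕ) : Prop :=
  (tab x a b c d e m).v = 1 ∧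
      (tab x a b c d e m).p = tyn x.B ρ.p1 ∧ (tab x a b c d e m).q = tyn x.B ρ.p2 ∧
      (tab x a b c d e m).s = shn ρ.sh ∧ (tab x a b c d e m).c = tyn x.B ρ.c

theorem tab_complete {x : RPar} (hx : x.Ok) {ρ : HRule (x.L1 + x.L2) Ty}
    (h : MRule (codeNM x.n x.s x.i) (x.n + 2 * x.s) x.s x.s x.L1 x.L2 ρ) :
    ∃ a b c d e m, a < x.B ∧ b < x.B ∧ c < x.B ∧ d < x.B ∧ e < x.B ∧ m < 28 ∧
      InTab x ρ a b c d e m := by
  have hs := hx.hs
  have hB := hx.hB
  have hop : ∀ q, opd ((codeNM x.n x.s x.i).op q) = (opcN x q, opgN x q, opbN x q) := opd_op x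
  have hbit : ∀ β : Bool, (if β then 1 else 0) ≤ 1 := by
    intro β
    cases β <;> simp
  cases h with
  | x1 l i β hl hi =>
    refine ⟨l, if β then 1 else 0, i, 0, 0, 0, by omega, ?_, by omega, by omega, by omega,
      by omega, ?_⟩
    · have := hbit β
      omega
    · exact ⟨one_ind ⟨hl, hi, hbit β⟩, rfl, rfl, rfl, rfl⟩
  | x2 l i β hl hi hil =>
    refine ⟨l, if β then 1 else 0, i, 0, 0, 1, by omega, ?_, by omega, by omega, by omega,
      by omega, ?_⟩
    · have := hbit β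
      omega
    · exact ⟨one_ind ⟨hl, hi, hbit β, hil⟩, rfl, rfl, rfl, rfl⟩
  | x3 l hl =>
    exact ⟨l, 0, 0, 0, 0, 2, by omega, by omega, by omega, by omega, by omega, by omega,
      one_ind hl, rfl, rfl, rfl, rfl⟩
  | z1 i hi =>
    exact ⟨i, 0, 0, 0, 0, 3, by omega, by omega, by omega, by omega, by omega, by omega,
      one_ind hi, rfl, rfl, rfl, rfl⟩
  | z2 i hi =>
    exact ⟨i, 0, 0, 0, 0, 4, by omega, by omega, by omega, by omega, by omega, by omega,
      one_ind hi, rfl, rfl, rfl, rfl⟩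
  | zs =>
    exact ⟨0, 0, 0, 0, 0, 5, by omega, by omega, by omega, by omega, by omega, by omega,
      rfl, rfl, rfl, rfl, rfl⟩
  | zc g hg =>
    exact ⟨g, 0, 0, 0, 0, 6, by omega, by omega, by omega, by omega, by omega, by omega,
      one_ind hg, rfl, rfl, rfl, rfl⟩
  | bo q hq =>
    refine ⟨q, 0, 0, 0, 0, 7, by omega, by omega, by omega, by omega, by omega, by omega,
      one_ind hq, rfl, rfl, rfl, ?_⟩
    rw [tyn_O, hop]
    rfl
  | o1 o i ho hi =>
    have h1 := okoD_op ho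
    obtain ⟨a, b, c, ho2⟩ : ∃ a b c, opd o = (a, b, c) := ⟨_, _, _, rfl⟩
    rw [ho2] at h1
    change okoD x.s a b c at h1
    refine ⟨a, b, c, i, 0, 8, ?_, ?_, ?_, by omega, by omega, by omega,
      one_ind ⟨h1, hi⟩, ?_, ?_, rfl, ?_⟩
    · unfold okoD at h1; omega
    · unfold okoD at h1; omega
    · unfold okoD at h1; omega
    all_goals rw [tyn_O, ho2]; rfl
  | o2 o i ho hi =>
    have h1 := okoD_op ho
    obtain ⟨a, b, c, ho2⟩ : ∃ a b c, opd o = (a, b, c) := ⟨_, _, _, rfl⟩
    rw [ho2] at h1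
    change okoD x.s a b c at h1
    refine ⟨a, b, c, i, 0, 9, ?_, ?_, ?_, by omega, by omega, by omega,
      one_ind ⟨h1, hi⟩, ?_, ?_, rfl, ?_⟩
    · unfold okoD at h1; omega
    · unfold okoD at h1; omega
    · unfold okoD at h1; omega
    all_goals rw [tyn_O, ho2]; rfl
  | nn q hq h =>
    have h1 := hop q
    rw [h] at h1
    have h2 : opcN x q = 0 := by simpa [opd] using (congrArg Prod.fst h1).symm
    exact ⟨q, 0, 0, 0, 0, 10, by omega, by omega, by omega, by omega, by omega, by omega,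
      one_ind ⟨hq, h2⟩, rfl, rfl, rfl, rfl⟩
  | na q hq h =>
    have h1 := hop q
    rw [h] at h1
    have h2 : opcN x q = 3 := by simpa [opd] using (congrArg Prod.fst h1).symm
    exact ⟨q, 0, 0, 0, 0, 11, by omega, by omega, by omega, by omega, by omega, by omega,
      one_ind ⟨hq, h2⟩, rfl, rfl, rfl, rfl⟩
  | np q g b hq h =>
    have h1 := hop q
    rw [h] at h1
    have h2 : opcN x q = 1 := by simpa [opd] using (congrArg Prod.fst h1).symm
    exact ⟨q, 0, 0, 0, 0, 12, by omega, by omega, by omega, by omega, by omega, by omega,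
      one_ind ⟨hq, h2⟩, rfl, rfl, rfl, rfl⟩
  | nq q g β hq h hb =>
    have h1 := hop q
    rw [h] at h1
    have h2 : opcN x q = 2 := by simpa [opd] using (congrArg Prod.fst h1).symm
    have h3 : opgN x q = g := by simpa [opd] using (congrArg (fun z => z.2.1) h1).symm
    have h4 := ob_le hb
    refine ⟨q, ob β, 0, 0, 0, 13, by omega, by omega, by omega, by omega, by omega, by omega,
      one_ind ⟨hq, h2, h4⟩, rfl, ?_, rfl, rfl⟩
    show num5 x.B 2 1 (opgN x q) (ob β) 0 = _
    rw [h3]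
    rfl
  | kp g β o hg hb ho h =>
    have h1 := okoD_op ho
    rw [touches_iff] at h
    obtain ⟨a, b, c, ho2⟩ : ∃ a b c, opd o = (a, b, c) := ⟨_, _, _, rfl⟩
    rw [ho2] at h1 h
    change okoD x.s a b c at h1
    have h4 := ob_le hb
    refine ⟨g, ob β, a, b, c, 14, by omega, by omega, ?_, ?_, ?_, by omega,
      one_ind ⟨hg, h4, h1, h⟩, rfl, ?_, rfl, rfl⟩
    · unfold okoD at h1; omega
    · unfold okoD at h1; omega
    · unfold okoD at h1; omega
    all_goals rw [tyn_O, ho2]; rfl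
  | pu g b hg hb =>
    exact ⟨g, b, 0, 0, 0, 15, by omega, by omega, by omega, by omega, by omega, by omega,
      one_ind ⟨hg, hb⟩, rfl, rfl, rfl, rfl⟩
  | u0 g b β hg hb hβ =>
    have h4 := ob_le hβ
    exact ⟨g, b, ob β, 0, 0, 16, by omega, by omega, by omega, by omega, by omega, by omega,
      one_ind ⟨hg, hb, h4⟩, rfl, rfl, rfl, rfl⟩
  | u1 g β i hg hβ hi =>
    have h4 := ob_le hβ
    exact ⟨g, ob β, i, 0, 0, 17, by omega, by omega, by omega, by omega, by omega, by omega,
      one_ind ⟨hg, h4, hi⟩, rfl, rfl, rfl, rfl⟩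
  | u2 g β i hg hβ hi =>
    have h4 := ob_le hβ
    exact ⟨g, ob β, i, 0, 0, 18, by omega, by omega, by omega, by omega, by omega, by omega,
      one_ind ⟨hg, h4, hi⟩, rfl, rfl, rfl, rfl⟩
  | d0 g β hg hβ =>
    have h4 := ob_le hβ
    exact ⟨g, ob β, 0, 0, 0, 19, by omega, by omega, by omega, by omega, by omega, by omega,
      one_ind ⟨hg, h4⟩, rfl, rfl, rfl, rfl⟩
  | d1 g β i hg hβ hi =>
    have h4 := ob_le hβ
    exact ⟨g, ob β, i, 0, 0, 20, by omega, by omega, by omega, by omega, by omega, by omega,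
      one_ind ⟨hg, h4, hi⟩, rfl, rfl, rfl, rfl⟩
  | d2 g β i hg hβ hi =>
    have h4 := ob_le hβ
    exact ⟨g, ob β, i, 0, 0, 21, by omega, by omega, by omega, by omega, by omega, by omega,
      one_ind ⟨hg, h4, hi⟩, rfl, rfl, rfl, rfl⟩
  | d3 g β hg hβ =>
    have h4 := ob_le hβ
    exact ⟨g, ob β, 0, 0, 0, 22, by omega, by omega, by omega, by omega, by omega, by omega,
      one_ind ⟨hg, h4⟩, rfl, rfl, rfl, rfl⟩
  | t1 b i hb hi =>
    have h1 := okxD_bx hb
    obtain ⟨a, b', c, ho2⟩ : ∃ a b' c, bxd b = (a, b', c) := ⟨_, _, _, rfl⟩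
    rw [ho2] at h1
    change okxD (x.n + 2 * x.s) x.s a b' c at h1
    refine ⟨a, b', c, i, 0, 23, ?_, ?_, ?_, by omega, by omega, by omega,
      one_ind ⟨h1, hi⟩, ?_, rfl, rfl, ?_⟩
    · unfold okxD at h1; omega
    · unfold okxD at h1; omega
    · unfold okxD at h1; omega
    all_goals rw [tyn_N, ho2]; rfl
  | t2 b i hb hi =>
    have h1 := okxD_bx hb
    obtain ⟨a, b', c, ho2⟩ : ∃ a b' c, bxd b = (a, b', c) := ⟨_, _, _, rfl⟩
    rw [ho2] at h1
    change okxD (x.n + 2 * x.s) x.s a b' c at h1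
    refine ⟨a, b', c, i, 0, 24, ?_, ?_, ?_, by omega, by omega, by omega,
      one_ind ⟨h1, hi⟩, ?_, rfl, rfl, ?_⟩
    · unfold okxD at h1; omega
    · unfold okxD at h1; omega
    · unfold okxD at h1; omega
    · rw [tyn_N, ho2]; rfl
    · rw [tyn_B, ho2]; rfl
  | a0 q hq h =>
    have h1 := hop q
    rw [h] at h1
    have h2 : opcN x q = 3 := by simpa [opd] using (congrArg Prod.fst h1).symm
    exact ⟨q, 0, 0, 0, 0, 25, by omega, by omega, by omega, by omega, by omega, by omega,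
      one_ind ⟨hq, h2⟩, rfl, rfl, rfl, rfl⟩
  | a1 i hi =>
    exact ⟨i, 0, 0, 0, 0, 26, by omega, by omega, by omega, by omega, by omega, by omega,
      one_ind hi, rfl, rfl, rfl, rfl⟩
  | a2 i hi =>
    exact ⟨i, 0, 0, 0, 0, 27, by omega, by omega, by omega, by omega, by omega, by omega,
      one_ind hi, rfl, rfl, rfl, rfl⟩

/-! ### the functions -/

/-- the row of the rule number `r` -/
def row (x : RPar) (r : ℕ) : Row :=
  tab x (r / x.B % x.B) (r / x.B ^ 2 % x.B) (r / x.B ^ 3 % x.B) (r / x.B ^ 4 % x.B)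
    (r / x.B ^ 5 % x.B) (r % x.B)

/-- is the number `r` a rule (`1`) or not (`0`)? -/
def rV (x : RPar) (r : ℕ) : ℕ := (row x r).v
/-- the number of the first premise -/
def rP (x : RPar) (r : ℕ) : ℕ := (row x r).p
/-- the number of the second premise -/
def rQ (x : RPar) (r : ℕ) : ℕ := (row x r).q
/-- the number of the shift -/
def rS (x : RPar) (r : ℕ) : ℕ := (row x r).s
/-- the number of the conclusion -/
def rC (x : RPar) (r : ℕ) : ℕ := (row x r).c

theorem rules_sound {x : RPar} (_hx : x.Ok) {r : ℕ} (h : rV x r = 1) :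
    ∃ ρ, MRule (codeNM x.n x.s x.i) (x.n + 2 * x.s) x.s x.s x.L1 x.L2 ρ ∧
      rP x r = tyn x.B ρ.p1 ∧ rQ x r = tyn x.B ρ.p2 ∧ rS x r = shn ρ.sh ∧
      rC x r = tyn x.B ρ.c :=
  tab_sound h

theorem row_num6 {x : RPar} {a b c d e m : ℕ} (ha : a < x.B) (hb : b < x.B) (hc : c < x.B)
    (hd : d < x.B) (he : e < x.B) (hm : m < x.B) :
    m + x.B * num5 x.B a b c d e < x.B ^ 6 ∧
      row x (m + x.B * num5 x.B a b c d e) = tab x a b c d e m := by
  have hB : 0 < x.B := by omega
  have hlt : num5 x.B a b c d e < x.B ^ 5 := num5_lt ha hb hc hd he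
  have key : ∀ {u v : ℕ}, u < x.B → (u + x.B * v) % x.B = u ∧ (u + x.B * v) / x.B = v := by
    intro u v hu
    constructor
    · rw [Nat.add_mul_mod_self_left, Nat.mod_eq_of_lt hu]
    · rw [Nat.add_mul_div_left _ _ hB, Nat.div_eq_of_lt hu, zero_add]
  refine ⟨?_, ?_⟩
  · calc m + x.B * num5 x.B a b c d e < x.B * (num5 x.B a b c d e + 1) := by
          rw [mul_add]; omega
      _ ≤ x.B * x.B ^ 5 := Nat.mul_le_mul_left _ hlt
      _ = x.B ^ 6 := by ring
  · have e1 : (m + x.B * num5 x.B a b c d e) / x.B = num5 x.B a b c d e := (key hm).2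
    have e2 : num5 x.B a b c d e / x.B = b + x.B * (c + x.B * (d + x.B * e)) := (key ha).2
    have e3 : (b + x.B * (c + x.B * (d + x.B * e))) / x.B = c + x.B * (d + x.B * e) := (key hb).2
    have e4 : (c + x.B * (d + x.B * e)) / x.B = d + x.B * e := (key hc).2
    have e5 : (d + x.B * e) / x.B = e := (key hd).2
    have f2 : (m + x.B * num5 x.B a b c d e) / x.B ^ 2 = b + x.B * (c + x.B * (d + x.B * e)) := by
      rw [pow_succ, pow_one, ← Nat.div_div_eq_div_mul, e1, e2]
    have f3 : (m + x.B * num5 x.B a b c d e) / x.B ^ 3 = c + x.B * (d + x.B * e) := by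
      rw [pow_succ, ← Nat.div_div_eq_div_mul, f2, e3]
    have f4 : (m + x.B * num5 x.B a b c d e) / x.B ^ 4 = d + x.B * e := by
      rw [pow_succ, ← Nat.div_div_eq_div_mul, f3, e4]
    have f5 : (m + x.B * num5 x.B a b c d e) / x.B ^ 5 = e := by
      rw [pow_succ, ← Nat.div_div_eq_div_mul, f4, e5]
    unfold row
    rw [f5, f4, f3, f2, e1, (key hm).1, (key hb).1, (key hc).1, (key hd).1, Nat.mod_eq_of_lt he,
      show num5 x.B a b c d e % x.B = a from (key ha).1]

theorem rules_complete {x : RPar} (hx : x.Ok) {ρ : HRule (x.L1 + x.L2) Ty}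
    (h : MRule (codeNM x.n x.s x.i) (x.n + 2 * x.s) x.s x.s x.L1 x.L2 ρ) :
    ∃ r < x.B ^ 6, rV x r = 1 ∧ rP x r = tyn x.B ρ.p1 ∧ rQ x r = tyn x.B ρ.p2 ∧
      rS x r = shn ρ.sh ∧ rC x r = tyn x.B ρ.c := by
  obtain ⟨a, b, c, d, e, m, ha, hb, hc, hd, he, hm, hin⟩ := tab_complete hx h
  have hB := hx.hB
  obtain ⟨h1, h2⟩ := row_num6 ha hb hc hd he (show m < x.B by omega)
  refine ⟨m + x.B * num5 x.B a b c d e, h1, ?_⟩
  unfold rV rP rQ rS rC
  rw [h2]
  exact hin

/-- is the number `a` an initial type (`1`) or not (`0`)? -/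
def iniN (x : RPar) (a : ℕ) : ℕ :=
  if a = 1 ∨ (a % x.B = 0 ∧ a / x.B < x.L1 + x.L2) then 1 else 0

theorem iniN_iff {x : RPar} (hx : x.Ok) (a : ℕ) :
    iniN x a = 1 ↔ ∃ T, MInit x.L1 x.L2 T ∧ tyn x.B T = a := by
  have hB := hx.hB
  constructor
  · intro h
    rcases ind_one h with rfl | ⟨h1, h2⟩
    · exact ⟨_, .z, by simp [tyn, num5]⟩
    · refine ⟨_, .x (a / x.B) h2, ?_⟩
      simp only [tyn, num5, Bool.false_eq_true, if_false, mul_zero, add_zero, zero_add]
      exact Nat.mul_div_cancel' (Nat.dvd_of_mod_eq_zero h1)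
  · rintro ⟨T, hT, rfl⟩
    apply one_ind
    cases hT with
    | x l hl =>
      right
      simp only [tyn, num5, Bool.false_eq_true, if_false, mul_zero, add_zero, zero_add]
      exact ⟨Nat.mul_mod_right _ _, by rwa [Nat.mul_div_cancel_left _ (by omega)]⟩
    | z => left; simp [tyn, num5]

/-! ### computability -/

section comp

/-- case distinction with a bounded number of cases -/
theorem comp_cases {A : Type} {k : ℕ} {F : ℕ → (Fin k → ℕ) → ℕ} {d : (Fin k → ℕ) → ℕ}
    (hd : Comp A d) (N : ℕ) (hF : ∀ m < N, Comp A (F m)) (h0 : ∀ m, N ≤ m → ∀ x, F m x = 0) :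
    Comp A (fun x => F (d x) x) := by
  have h1 : ∀ M ≤ N, Comp A (fun x => ∑ m ∈ Finset.range M, if d x = m then F m x else 0) := by
    intro M
    induction M with
    | zero => intro _; simpa using Comp.const (A := A) (k := k) 0
    | succ M ih =>
      intro hM
      simp only [Finset.sum_range_succ]
      exact Comp.add (ih (by omega))
        (Comp.ite (Comp.eq_ind hd (Comp.const M)) (hF M (by omega)) (Comp.const 0))
  refine Comp.congr (h1 N le_rfl) (fun x => ?_)
  rw [Finset.sum_ite_eq]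
  split_ifs with h
  · rfl
  · exact (h0 _ (by simpa using h) x).symm

variable {A : Type} {k : ℕ} {fB fn fs fi f1 f2 fr : (Fin k → ℕ) → ℕ}

theorem comp_opcN {fq : (Fin k → ℕ) → ℕ} (hn : Comp A fn) (hs : Comp A fs)
    (hi : Comp A fi) (hq : Comp A fq) :
    Comp A (fun x => opcN ⟨fB x, fn x, fs x, fi x, f1 x, f2 x⟩ (fq x)) := by
  simp only [opcN]
  (repeat' first
    | with_reducible assumption
    | with_reducible exact Comp.const _
    | with_reducible apply Comp.add
    | with_reducible apply Comp.mul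
    | with_reducible apply Comp.sub
    | with_reducible apply Comp.div
    | with_reducible apply Comp.mod
    | with_reducible apply comp_dig
    | with_reducible apply comp_prI
    | with_reducible apply Comp.and_ind
    | with_reducible apply Comp.or_ind
    | with_reducible apply Comp.not_ind
    | with_reducible apply Comp.eq_ind
    | with_reducible apply Comp.lt_ind
    | with_reducible apply Comp.le_ind
    | with_reducible apply Comp.ite)

theorem comp_opgN {fq : (Fin k → ℕ) → ℕ} (hn : Comp A fn) (hs : Comp A fs)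
    (hi : Comp A fi) (hq : Comp A fq) :
    Comp A (fun x => opgN ⟨fB x, fn x, fs x, fi x, f1 x, f2 x⟩ (fq x)) := by
  have h1 := comp_opcN (fB := fB) (f1 := f1) (f2 := f2) hn hs hi hq
  simp only [opgN]
  (repeat' first
    | with_reducible assumption
    | with_reducible exact Comp.const _
    | with_reducible apply Comp.add
    | with_reducible apply Comp.mul
    | with_reducible apply Comp.sub
    | with_reducible apply Comp.div
    | with_reducible apply Comp.mod
    | with_reducible apply comp_dig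
    | with_reducible apply comp_prI
    | with_reducible apply Comp.and_ind
    | with_reducible apply Comp.or_ind
    | with_reducible apply Comp.not_ind
    | with_reducible apply Comp.eq_ind
    | with_reducible apply Comp.lt_ind
    | with_reducible apply Comp.le_ind
    | with_reducible apply Comp.ite)

theorem comp_opbN {fq : (Fin k → ℕ) → ℕ} (hn : Comp A fn) (hs : Comp A fs)
    (hi : Comp A fi) (hq : Comp A fq) :
    Comp A (fun x => opbN ⟨fB x, fn x, fs x, fi x, f1 x, f2 x⟩ (fq x)) := by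
  have h1 := comp_opcN (fB := fB) (f1 := f1) (f2 := f2) hn hs hi hq
  simp only [opbN]
  (repeat' first
    | with_reducible assumption
    | with_reducible exact Comp.const _
    | with_reducible apply Comp.add
    | with_reducible apply Comp.mul
    | with_reducible apply Comp.sub
    | with_reducible apply Comp.div
    | with_reducible apply Comp.mod
    | with_reducible apply comp_dig
    | with_reducible apply comp_prI
    | with_reducible apply Comp.and_ind
    | with_reducible apply Comp.or_ind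
    | with_reducible apply Comp.not_ind
    | with_reducible apply Comp.eq_ind
    | with_reducible apply Comp.lt_ind
    | with_reducible apply Comp.le_ind
    | with_reducible apply Comp.ite)

theorem comp_nxN {fq fb : (Fin k → ℕ) → ℕ} (hn : Comp A fn) (hs : Comp A fs)
    (hi : Comp A fi) (hq : Comp A fq) (hb : Comp A fb) :
    Comp A (fun x => nxN ⟨fB x, fn x, fs x, fi x, f1 x, f2 x⟩ (fq x) (fb x)) := by
  simp only [nxN]
  (repeat' first
    | with_reducible assumption
    | with_reducible exact Comp.const _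
    | with_reducible apply Comp.add
    | with_reducible apply Comp.mul
    | with_reducible apply Comp.sub
    | with_reducible apply Comp.div
    | with_reducible apply Comp.mod
    | with_reducible apply comp_dig
    | with_reducible apply comp_prI
    | with_reducible apply Comp.and_ind
    | with_reducible apply Comp.or_ind
    | with_reducible apply Comp.not_ind
    | with_reducible apply Comp.eq_ind
    | with_reducible apply Comp.lt_ind
    | with_reducible apply Comp.le_ind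
    | with_reducible apply Comp.ite)

theorem comp_okoD {fs fa fb fc : (Fin k → ℕ) → ℕ} (hs : Comp A fs) (ha : Comp A fa)
    (hb : Comp A fb) (hc : Comp A fc) :
    Comp A (fun x => if okoD (fs x) (fa x) (fb x) (fc x) then 1 else 0) := by
  have : Comp A (fun x => if (fa x = 0 ∧ fb x = 0 ∧ fc x = 0) ∨
      (fa x = 1 ∧ fb x < fs x ∧ fc x < fs x) ∨ (fa x = 2 ∧ fb x < fs x ∧ fc x = 0) ∨
      (fa x = 3 ∧ fb x = 0 ∧ fc x = 0) then 1 else 0) := by
    (repeat' first
      | with_reducible assumption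
      | with_reducible exact Comp.const _
      | with_reducible apply Comp.add
      | with_reducible apply Comp.mul
      | with_reducible apply Comp.sub
      | with_reducible apply Comp.div
      | with_reducible apply Comp.mod
      | with_reducible apply comp_dig
      | with_reducible apply comp_prI
      | with_reducible apply Comp.and_ind
      | with_reducible apply Comp.or_ind
      | with_reducible apply Comp.not_ind
      | with_reducible apply Comp.eq_ind
      | with_reducible apply Comp.lt_ind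
      | with_reducible apply Comp.le_ind
      | with_reducible apply Comp.ite)
  refine Comp.congr this (fun x => ?_)
  unfold okoD
  congr

theorem comp_okxD {fQ fs fa fb fc : (Fin k → ℕ) → ℕ} (hQ : Comp A fQ) (hs : Comp A fs)
    (ha : Comp A fa) (hb : Comp A fb) (hc : Comp A fc) :
    Comp A (fun x => if okxD (fQ x) (fs x) (fa x) (fb x) (fc x) then 1 else 0) := by
  have : Comp A (fun x => if (fa x = 0 ∧ fb x < fQ x ∧ fc x = 0) ∨
      (fa x = 1 ∧ fb x < fs x ∧ fc x ≤ fs x) then 1 else 0) := by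
    (repeat' first
      | with_reducible assumption
      | with_reducible exact Comp.const _
      | with_reducible apply Comp.add
      | with_reducible apply Comp.mul
      | with_reducible apply Comp.sub
      | with_reducible apply Comp.div
      | with_reducible apply Comp.mod
      | with_reducible apply comp_dig
      | with_reducible apply comp_prI
      | with_reducible apply Comp.and_ind
      | with_reducible apply Comp.or_ind
      | with_reducible apply Comp.not_ind
      | with_reducible apply Comp.eq_ind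
      | with_reducible apply Comp.lt_ind
      | with_reducible apply Comp.le_ind
      | with_reducible apply Comp.ite)
  refine Comp.congr this (fun x => ?_)
  unfold okxD
  congr

theorem comp_num5 {fa fb fc fd fe : (Fin k → ℕ) → ℕ} (hB : Comp A fB) (ha : Comp A fa)
    (hb : Comp A fb) (hc : Comp A fc) (hd : Comp A fd) (he : Comp A fe) :
    Comp A (fun x => num5 (fB x) (fa x) (fb x) (fc x) (fd x) (fe x)) := by
  simp only [num5]
  (repeat' first
    | with_reducible assumption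
    | with_reducible exact Comp.const _
    | with_reducible apply Comp.add
    | with_reducible apply Comp.mul
    | with_reducible apply Comp.sub
    | with_reducible apply Comp.div
    | with_reducible apply Comp.mod
    | with_reducible apply comp_dig
    | with_reducible apply comp_prI
    | with_reducible apply Comp.and_ind
    | with_reducible apply Comp.or_ind
    | with_reducible apply Comp.not_ind
    | with_reducible apply Comp.eq_ind
    | with_reducible apply Comp.lt_ind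
    | with_reducible apply Comp.le_ind
    | with_reducible apply Comp.ite)

theorem comp_tabV {fa fb fc fd fe fm : (Fin k → ℕ) → ℕ} (hB : Comp A fB) (hn : Comp A fn)
    (hs : Comp A fs) (hi : Comp A fi) (h1 : Comp A f1) (h2 : Comp A f2) (ha : Comp A fa)
    (hb : Comp A fb) (hc : Comp A fc) (hd : Comp A fd) (he : Comp A fe) (hm : Comp A fm) :
    Comp A (fun x => (tab ⟨fB x, fn x, fs x, fi x, f1 x, f2 x⟩ (fa x) (fb x) (fc x) (fd x) (fe x)
      (fm x)).v) := by
  have _h := hB
  refine comp_cases (F := fun m x => (tab ⟨fB x, fn x, fs x, fi x, f1 x, f2 x⟩ (fa x) (fb x)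
    (fc x) (fd x) (fe x) m).v) hm 28 ?_ ?_
  · intro m hm
    interval_cases m <;> simp only [tab] <;>
      (repeat' first
        | with_reducible assumption
        | with_reducible exact Comp.const _
        | with_reducible apply comp_num5
        | with_reducible apply comp_opcN
        | with_reducible apply comp_opgN
        | with_reducible apply comp_opbN
        | with_reducible apply comp_nxN
        | with_reducible apply comp_okoD
        | with_reducible apply comp_okxD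
        | with_reducible apply Comp.add
        | with_reducible apply Comp.mul
        | with_reducible apply Comp.and_ind
        | with_reducible apply Comp.or_ind
        | with_reducible apply Comp.not_ind
        | with_reducible apply Comp.eq_ind
        | with_reducible apply Comp.lt_ind
        | with_reducible apply Comp.le_ind
        | with_reducible apply Comp.ite)
  · intro m hm x
    obtain ⟨m, rfl⟩ := Nat.exists_eq_add_of_le' hm
    rfl

theorem comp_tabP {fa fb fc fd fe fm : (Fin k → ℕ) → ℕ} (hB : Comp A fB) (hn : Comp A fn)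
    (hs : Comp A fs) (hi : Comp A fi) (h1 : Comp A f1) (h2 : Comp A f2) (ha : Comp A fa)
    (hb : Comp A fb) (hc : Comp A fc) (hd : Comp A fd) (he : Comp A fe) (hm : Comp A fm) :
    Comp A (fun x => (tab ⟨fB x, fn x, fs x, fi x, f1 x, f2 x⟩ (fa x) (fb x) (fc x) (fd x) (fe x)
      (fm x)).p) := by
  have _h := hB
  refine comp_cases (F := fun m x => (tab ⟨fB x, fn x, fs x, fi x, f1 x, f2 x⟩ (fa x) (fb x)
    (fc x) (fd x) (fe x) m).p) hm 28 ?_ ?_
  · intro m hm
    interval_cases m <;> simp only [tab] <;>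
      (repeat' first
        | with_reducible assumption
        | with_reducible exact Comp.const _
        | with_reducible apply comp_num5
        | with_reducible apply comp_opcN
        | with_reducible apply comp_opgN
        | with_reducible apply comp_opbN
        | with_reducible apply comp_nxN
        | with_reducible apply comp_okoD
        | with_reducible apply comp_okxD
        | with_reducible apply Comp.add
        | with_reducible apply Comp.mul
        | with_reducible apply Comp.and_ind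
        | with_reducible apply Comp.or_ind
        | with_reducible apply Comp.not_ind
        | with_reducible apply Comp.eq_ind
        | with_reducible apply Comp.lt_ind
        | with_reducible apply Comp.le_ind
        | with_reducible apply Comp.ite)
  · intro m hm x
    obtain ⟨m, rfl⟩ := Nat.exists_eq_add_of_le' hm
    rfl

theorem comp_tabQ {fa fb fc fd fe fm : (Fin k → ℕ) → ℕ} (hB : Comp A fB) (hn : Comp A fn)
    (hs : Comp A fs) (hi : Comp A fi) (h1 : Comp A f1) (h2 : Comp A f2) (ha : Comp A fa)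
    (hb : Comp A fb) (hc : Comp A fc) (hd : Comp A fd) (he : Comp A fe) (hm : Comp A fm) :
    Comp A (fun x => (tab ⟨fB x, fn x, fs x, fi x, f1 x, f2 x⟩ (fa x) (fb x) (fc x) (fd x) (fe x)
      (fm x)).q) := by
  have _h := hB
  refine comp_cases (F := fun m x => (tab ⟨fB x, fn x, fs x, fi x, f1 x, f2 x⟩ (fa x) (fb x)
    (fc x) (fd x) (fe x) m).q) hm 28 ?_ ?_
  · intro m hm
    interval_cases m <;> simp only [tab] <;>
      (repeat' first
        | with_reducible assumption
        | with_reducible exact Comp.const _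
        | with_reducible apply comp_num5
        | with_reducible apply comp_opcN
        | with_reducible apply comp_opgN
        | with_reducible apply comp_opbN
        | with_reducible apply comp_nxN
        | with_reducible apply comp_okoD
        | with_reducible apply comp_okxD
        | with_reducible apply Comp.add
        | with_reducible apply Comp.mul
        | with_reducible apply Comp.and_ind
        | with_reducible apply Comp.or_ind
        | with_reducible apply Comp.not_ind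
        | with_reducible apply Comp.eq_ind
        | with_reducible apply Comp.lt_ind
        | with_reducible apply Comp.le_ind
        | with_reducible apply Comp.ite)
  · intro m hm x
    obtain ⟨m, rfl⟩ := Nat.exists_eq_add_of_le' hm
    rfl

theorem comp_tabS {fa fb fc fd fe fm : (Fin k → ℕ) → ℕ} (hB : Comp A fB) (hn : Comp A fn)
    (hs : Comp A fs) (hi : Comp A fi) (h1 : Comp A f1) (h2 : Comp A f2) (ha : Comp A fa)
    (hb : Comp A fb) (hc : Comp A fc) (hd : Comp A fd) (he : Comp A fe) (hm : Comp A fm) :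
    Comp A (fun x => (tab ⟨fB x, fn x, fs x, fi x, f1 x, f2 x⟩ (fa x) (fb x) (fc x) (fd x) (fe x)
      (fm x)).s) := by
  have _h := hB
  refine comp_cases (F := fun m x => (tab ⟨fB x, fn x, fs x, fi x, f1 x, f2 x⟩ (fa x) (fb x)
    (fc x) (fd x) (fe x) m).s) hm 28 ?_ ?_
  · intro m hm
    interval_cases m <;> simp only [tab] <;>
      (repeat' first
        | with_reducible assumption
        | with_reducible exact Comp.const _
        | with_reducible apply comp_num5
        | with_reducible apply comp_opcN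
        | with_reducible apply comp_opgN
        | with_reducible apply comp_opbN
        | with_reducible apply comp_nxN
        | with_reducible apply comp_okoD
        | with_reducible apply comp_okxD
        | with_reducible apply Comp.add
        | with_reducible apply Comp.mul
        | with_reducible apply Comp.and_ind
        | with_reducible apply Comp.or_ind
        | with_reducible apply Comp.not_ind
        | with_reducible apply Comp.eq_ind
        | with_reducible apply Comp.lt_ind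
        | with_reducible apply Comp.le_ind
        | with_reducible apply Comp.ite)
  · intro m hm x
    obtain ⟨m, rfl⟩ := Nat.exists_eq_add_of_le' hm
    rfl

theorem comp_tabC {fa fb fc fd fe fm : (Fin k → ℕ) → ℕ} (hB : Comp A fB) (hn : Comp A fn)
    (hs : Comp A fs) (hi : Comp A fi) (h1 : Comp A f1) (h2 : Comp A f2) (ha : Comp A fa)
    (hb : Comp A fb) (hc : Comp A fc) (hd : Comp A fd) (he : Comp A fe) (hm : Comp A fm) :
    Comp A (fun x => (tab ⟨fB x, fn x, fs x, fi x, f1 x, f2 x⟩ (fa x) (fb x) (fc x) (fd x) (fe x)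
      (fm x)).c) := by
  have _h := hB
  refine comp_cases (F := fun m x => (tab ⟨fB x, fn x, fs x, fi x, f1 x, f2 x⟩ (fa x) (fb x)
    (fc x) (fd x) (fe x) m).c) hm 28 ?_ ?_
  · intro m hm
    interval_cases m <;> simp only [tab] <;>
      (repeat' first
        | with_reducible assumption
        | with_reducible exact Comp.const _
        | with_reducible apply comp_num5
        | with_reducible apply comp_opcN
        | with_reducible apply comp_opgN
        | with_reducible apply comp_opbN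
        | with_reducible apply comp_nxN
        | with_reducible apply comp_okoD
        | with_reducible apply comp_okxD
        | with_reducible apply Comp.add
        | with_reducible apply Comp.mul
        | with_reducible apply Comp.and_ind
        | with_reducible apply Comp.or_ind
        | with_reducible apply Comp.not_ind
        | with_reducible apply Comp.eq_ind
        | with_reducible apply Comp.lt_ind
        | with_reducible apply Comp.le_ind
        | with_reducible apply Comp.ite)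
  · intro m hm x
    obtain ⟨m, rfl⟩ := Nat.exists_eq_add_of_le' hm
    rfl

theorem comp_rV (hB : Comp A fB) (hn : Comp A fn) (hs : Comp A fs) (hi : Comp A fi)
    (h1 : Comp A f1) (h2 : Comp A f2) (hr : Comp A fr) :
    Comp A (fun x => rV ⟨fB x, fn x, fs x, fi x, f1 x, f2 x⟩ (fr x)) :=
  comp_tabV hB hn hs hi h1 h2 (Comp.mod (Comp.div hr hB) hB)
    (Comp.mod (Comp.div hr (Comp.pow_const hB 2)) hB)
    (Comp.mod (Comp.div hr (Comp.pow_const hB 3)) hB)
    (Comp.mod (Comp.div hr (Comp.pow_const hB 4)) hB)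
    (Comp.mod (Comp.div hr (Comp.pow_const hB 5)) hB) (Comp.mod hr hB)

theorem comp_rP (hB : Comp A fB) (hn : Comp A fn) (hs : Comp A fs) (hi : Comp A fi)
    (h1 : Comp A f1) (h2 : Comp A f2) (hr : Comp A fr) :
    Comp A (fun x => rP ⟨fB x, fn x, fs x, fi x, f1 x, f2 x⟩ (fr x)) :=
  comp_tabP hB hn hs hi h1 h2 (Comp.mod (Comp.div hr hB) hB)
    (Comp.mod (Comp.div hr (Comp.pow_const hB 2)) hB)
    (Comp.mod (Comp.div hr (Comp.pow_const hB 3)) hB)
    (Comp.mod (Comp.div hr (Comp.pow_const hB 4)) hB)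
    (Comp.mod (Comp.div hr (Comp.pow_const hB 5)) hB) (Comp.mod hr hB)

theorem comp_rQ (hB : Comp A fB) (hn : Comp A fn) (hs : Comp A fs) (hi : Comp A fi)
    (h1 : Comp A f1) (h2 : Comp A f2) (hr : Comp A fr) :
    Comp A (fun x => rQ ⟨fB x, fn x, fs x, fi x, f1 x, f2 x⟩ (fr x)) :=
  comp_tabQ hB hn hs hi h1 h2 (Comp.mod (Comp.div hr hB) hB)
    (Comp.mod (Comp.div hr (Comp.pow_const hB 2)) hB)
    (Comp.mod (Comp.div hr (Comp.pow_const hB 3)) hB)
    (Comp.mod (Comp.div hr (Comp.pow_const hB 4)) hB)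
    (Comp.mod (Comp.div hr (Comp.pow_const hB 5)) hB) (Comp.mod hr hB)

theorem comp_rS (hB : Comp A fB) (hn : Comp A fn) (hs : Comp A fs) (hi : Comp A fi)
    (h1 : Comp A f1) (h2 : Comp A f2) (hr : Comp A fr) :
    Comp A (fun x => rS ⟨fB x, fn x, fs x, fi x, f1 x, f2 x⟩ (fr x)) :=
  comp_tabS hB hn hs hi h1 h2 (Comp.mod (Comp.div hr hB) hB)
    (Comp.mod (Comp.div hr (Comp.pow_const hB 2)) hB)
    (Comp.mod (Comp.div hr (Comp.pow_const hB 3)) hB)
    (Comp.mod (Comp.div hr (Comp.pow_const hB 4)) hB)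
    (Comp.mod (Comp.div hr (Comp.pow_const hB 5)) hB) (Comp.mod hr hB)

theorem comp_rC (hB : Comp A fB) (hn : Comp A fn) (hs : Comp A fs) (hi : Comp A fi)
    (h1 : Comp A f1) (h2 : Comp A f2) (hr : Comp A fr) :
    Comp A (fun x => rC ⟨fB x, fn x, fs x, fi x, f1 x, f2 x⟩ (fr x)) :=
  comp_tabC hB hn hs hi h1 h2 (Comp.mod (Comp.div hr hB) hB)
    (Comp.mod (Comp.div hr (Comp.pow_const hB 2)) hB)
    (Comp.mod (Comp.div hr (Comp.pow_const hB 3)) hB)
    (Comp.mod (Comp.div hr (Comp.pow_const hB 4)) hB)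
    (Comp.mod (Comp.div hr (Comp.pow_const hB 5)) hB) (Comp.mod hr hB)

theorem comp_iniN (hB : Comp A fB) (_hn : Comp A fn) (_hs : Comp A fs) (_hi : Comp A fi)
    (h1 : Comp A f1) (h2 : Comp A f2) (hr : Comp A fr) :
    Comp A (fun x => iniN ⟨fB x, fn x, fs x, fi x, f1 x, f2 x⟩ (fr x)) := by
  simp only [iniN]
  (repeat' first
    | with_reducible assumption
    | with_reducible exact Comp.const _
    | with_reducible apply Comp.add
    | with_reducible apply Comp.mul
    | with_reducible apply Comp.sub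
    | with_reducible apply Comp.div
    | with_reducible apply Comp.mod
    | with_reducible apply comp_dig
    | with_reducible apply comp_prI
    | with_reducible apply Comp.and_ind
    | with_reducible apply Comp.or_ind
    | with_reducible apply Comp.not_ind
    | with_reducible apply Comp.eq_ind
    | with_reducible apply Comp.lt_ind
    | with_reducible apply Comp.le_ind
    | with_reducible apply Comp.ite)

end comp

end P310
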