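import Vale.Agent.P310.MachDef

/-!
# P310: the numbers of the types of the Horn system of `codeNM n s i`: bounds and injectivity
-/

namespace P310

/-- five digits in base `B` -/
def num5 (B a b c d e : ℕ) : ℕ := a + B * (b + B * (c + B * (d + B * e)))

/-- the number of a type -/
def tyn (B : ℕ) : Ty → ℕ
  | .X l β i => num5 B 0 l (if β then 1 else 0) i 0
  | .Z i => num5 B 1 i 0 0 0
  | .B (.st q) => num5 B 2 0 q 0 0
  | .B (.cl g β) => num5 B 2 1 g (ob β) 0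
  | .N (.st q) i => num5 B 3 0 q 0 i
  | .N (.cl g β) i => num5 B 3 1 g (ob β) i
  | .O .nop i => num5 B 4 0 0 0 i
  | .O (.push g b) i => num5 B 4 1 g b i
  | .O (.pop g) i => num5 B 4 2 g 0 i
  | .O .acc i => num5 B 4 3 0 0 i
  | .U g β i => num5 B 5 g (ob β) i 0
  | .D g β i => num5 B 6 g (ob β) i 0
  | .Acc i => num5 B 7 i 0 0 0

/-- the types with all parameters `< B` -/
def tyB (B : ℕ) : Set Ty := fun T => match T with
  | .X l _ i => l < B ∧ i < B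
  | .Z i => i < B
  | .B (.st q) => q < B
  | .B (.cl g β) => g < B ∧ ob β < B
  | .N (.st q) i => q < B ∧ i < B
  | .N (.cl g β) i => g < B ∧ ob β < B ∧ i < B
  | .O .nop i => i < B
  | .O (.push g b) i => g < B ∧ b < B ∧ i < B
  | .O (.pop g) i => g < B ∧ i < B
  | .O .acc i => i < B
  | .U g β i => g < B ∧ ob β < B ∧ i < B
  | .D g β i => g < B ∧ ob β < B ∧ i < B
  | .Acc i => i < B

/-- the number of a shift -/
def shn {L : ℕ} : Option (Fin L) → ℕ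
  | none => 0
  | some i => i.1 + 1

theorem num5_lt {B a b c d e : ℕ} (ha : a < B) (hb : b < B) (hc : c < B) (hd : d < B)
    (he : e < B) : num5 B a b c d e < B ^ 5 := by
  have key : ∀ {x k : ℕ}, x < B → ∀ {y : ℕ}, y < B ^ k → x + B * y < B ^ (k + 1) := by
    intro x k hx y hy
    have h1 : B * (y + 1) ≤ B * B ^ k := Nat.mul_le_mul_left B hy
    rw [pow_succ, mul_comm (B ^ k) B]
    rw [Nat.mul_add, mul_one] at h1
    omega
  unfold num5
  have he' : e < B ^ 1 := by rw [pow_one]; exact he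
  exact key ha (key hb (key hc (key hd he')))

theorem num5_inj {B a b c d e a' b' c' d' e' : ℕ} (ha : a < B) (hb : b < B) (hc : c < B)
    (hd : d < B) (ha' : a' < B) (hb' : b' < B) (hc' : c' < B)
    (hd' : d' < B) (h : num5 B a b c d e = num5 B a' b' c' d' e') :
    a = a' ∧ b = b' ∧ c = c' ∧ d = d' ∧ e = e' := by
  have key : ∀ {x x' y y' : ℕ}, x < B → x' < B → x + B * y = x' + B * y' → x = x' ∧ y = y' := by
    intro x x' y y' hx hx' h
    have h1 : x = x' := by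
      have := congrArg (· % B) h
      simpa [Nat.add_mul_mod_self_left, Nat.mod_eq_of_lt hx, Nat.mod_eq_of_lt hx'] using this
    subst h1
    exact ⟨rfl, Nat.eq_of_mul_eq_mul_left (by omega) (Nat.add_left_cancel h)⟩
  unfold num5 at h
  obtain ⟨h1, h⟩ := key ha ha' h
  obtain ⟨h2, h⟩ := key hb hb' h
  obtain ⟨h3, h⟩ := key hc hc' h
  obtain ⟨h4, h⟩ := key hd hd' h
  exact ⟨h1, h2, h3, h4, h⟩

theorem ob_eq_iff {β β' : Option ℕ} : ob β = ob β' ↔ β = β' := by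
  cases β <;> cases β' <;> simp [ob]

/-- the digits of the number of a type -/
def tyd : Ty → ℕ × ℕ × ℕ × ℕ × ℕ
  | .X l β i => (0, l, (if β then 1 else 0), i, 0)
  | .Z i => (1, i, 0, 0, 0)
  | .B (.st q) => (2, 0, q, 0, 0)
  | .B (.cl g β) => (2, 1, g, ob β, 0)
  | .N (.st q) i => (3, 0, q, 0, i)
  | .N (.cl g β) i => (3, 1, g, ob β, i)
  | .O .nop i => (4, 0, 0, 0, i)
  | .O (.push g b) i => (4, 1, g, b, i)
  | .O (.pop g) i => (4, 2, g, 0, i)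
  | .O .acc i => (4, 3, 0, 0, i)
  | .U g β i => (5, g, ob β, i, 0)
  | .D g β i => (6, g, ob β, i, 0)
  | .Acc i => (7, i, 0, 0, 0)

theorem tyn_eq (B : ℕ) (T : Ty) :
    tyn B T = num5 B (tyd T).1 (tyd T).2.1 (tyd T).2.2.1 (tyd T).2.2.2.1 (tyd T).2.2.2.2 := by
  rcases T with ⟨l, β, i⟩ | i | (q | ⟨g, β⟩) | ⟨(q | ⟨g, β⟩), i⟩ | ⟨(_ | ⟨g, b⟩ | g | _), i⟩ |
    ⟨g, β, i⟩ | ⟨g, β, i⟩ | i <;> rfl

theorem tyd_lt {B : ℕ} (hB : 8 ≤ B) {T : Ty} (h : T ∈ tyB B) :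
    (tyd T).1 < B ∧ (tyd T).2.1 < B ∧ (tyd T).2.2.1 < B ∧ (tyd T).2.2.2.1 < B ∧
      (tyd T).2.2.2.2 < B := by
  have h01 : ∀ β : Bool, (if β then 1 else 0) < B := by
    intro β; split_ifs <;> omega
  rcases T with ⟨l, β, i⟩ | i | (q | ⟨g, β⟩) | ⟨(q | ⟨g, β⟩), i⟩ | ⟨(_ | ⟨g, b⟩ | g | _), i⟩ |
    ⟨g, β, i⟩ | ⟨g, β, i⟩ | i
  · have h : l < B ∧ i < B := h
    exact ⟨by simp only [tyd]; omega, h.1, h01 β, h.2, by simp only [tyd]; omega⟩
  · have h : i < B := h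
    simp only [tyd]; omega
  · have h : q < B := h
    simp only [tyd]; omega
  · have h : g < B ∧ ob β < B := h
    simp only [tyd]; omega
  · have h : q < B ∧ i < B := h
    simp only [tyd]; omega
  · have h : g < B ∧ ob β < B ∧ i < B := h
    simp only [tyd]; omega
  · have h : i < B := h
    simp only [tyd]; omega
  · have h : g < B ∧ b < B ∧ i < B := h
    simp only [tyd]; omega
  · have h : g < B ∧ i < B := h
    simp only [tyd]; omega
  · have h : i < B := h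
    simp only [tyd]; omega
  · have h : g < B ∧ ob β < B ∧ i < B := h
    simp only [tyd]; omega
  · have h : g < B ∧ ob β < B ∧ i < B := h
    simp only [tyd]; omega
  · have h : i < B := h
    simp only [tyd]; omega

theorem tyd_inj : Function.Injective tyd := by
  intro T T' h
  rcases T with ⟨l, β, i⟩ | i | (q | ⟨g, β⟩) | ⟨(q | ⟨g, β⟩), i⟩ | ⟨(_ | ⟨g, b⟩ | g | _), i⟩ |
    ⟨g, β, i⟩ | ⟨g, β, i⟩ | i <;>
  rcases T' with ⟨l', β', i'⟩ | i' | (q' | ⟨g', β'⟩) | ⟨(q' | ⟨g', β'⟩), i'⟩ |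
    ⟨(_ | ⟨g', b'⟩ | g' | _), i'⟩ | ⟨g', β', i'⟩ | ⟨g', β', i'⟩ | i' <;>
  simp [tyd, ob_eq_iff] at h ⊢ <;>
  first
    | exact h
    | (cases β <;> cases β' <;> simp_all)
    | tauto

theorem tyn_lt {B : ℕ} (hB : 8 ≤ B) {T : Ty} (h : T ∈ tyB B) : tyn B T < B ^ 5 := by
  obtain ⟨h1, h2, h3, h4, h5⟩ := tyd_lt hB h
  rw [tyn_eq]
  exact num5_lt h1 h2 h3 h4 h5

theorem tyn_inj {B : ℕ} (hB : 8 ≤ B) : Set.InjOn (tyn B) (tyB B) := by
  intro T hT T' hT' h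
  obtain ⟨h1, h2, h3, h4, h5⟩ := tyd_lt hB hT
  obtain ⟨h1', h2', h3', h4', h5'⟩ := tyd_lt hB hT'
  rw [tyn_eq, tyn_eq] at h
  obtain ⟨e1, e2, e3, e4, e5⟩ := num5_inj h1 h2 h3 h4 h1' h2' h3' h4' h
  apply tyd_inj
  exact Prod.ext e1 (Prod.ext e2 (Prod.ext e3 (Prod.ext e4 e5)))

/-- the parameters: base, input, code, lengths -/
structure RPar where
  B : ℕ
  n : ℕ
  s : ℕ
  i : ℕ
  L1 : ℕ
  L2 : ℕ

/-- good parameters -/
structure RPar.Ok (x : RPar) : Prop where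
  hs : 2 ≤ x.s
  hB : x.n + 2 * x.s + x.L1 + x.L2 + 30 ≤ x.B

theorem ob_le {A : ℕ} {β : Option ℕ} (h : okb A β) : ob β ≤ A := by
  cases β with
  | none => exact Nat.zero_le _
  | some b => exact h b rfl

/-- all types which occur are bounded -/
theorem rules_bdd {x : RPar} (hx : x.Ok) {ρ : HRule (x.L1 + x.L2) Ty}
    (h : MRule (codeNM x.n x.s x.i) (x.n + 2 * x.s) x.s x.s x.L1 x.L2 ρ) :
    ρ.p1 ∈ tyB x.B ∧ ρ.p2 ∈ tyB x.B ∧ ρ.c ∈ tyB x.B := by
  have hs := hx.hs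
  have hB := hx.hB
  have hM := codeNM_bdd (n := x.n) (s := x.s) (i := x.i) hs
  have hO : ∀ (o : Op) (j : ℕ), oko x.s x.s o → j ≤ x.L1 + x.L2 → Ty.O o j ∈ tyB x.B := by
    intro o j ho hj
    rcases o with _ | ⟨g, b⟩ | g | _
    · show j < x.B
      omega
    · obtain ⟨h1, h2⟩ : g < x.s ∧ b < x.s := ho
      show g < x.B ∧ b < x.B ∧ j < x.B
      omega
    · have h1 : g < x.s := ho
      show g < x.B ∧ j < x.B
      omega
    · show j < x.B
      omega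
  have hBt : ∀ b : Bx, okx (x.n + 2 * x.s) x.s x.s b → Ty.B b ∈ tyB x.B := by
    intro b hb
    rcases b with q | ⟨g, β⟩
    · have h1 : q < x.n + 2 * x.s := hb
      show q < x.B
      omega
    · obtain ⟨h1, h2⟩ : g < x.s ∧ okb x.s β := hb
      have h3 := ob_le h2
      show g < x.B ∧ ob β < x.B
      omega
  have hN : ∀ (b : Bx) (j : ℕ), okx (x.n + 2 * x.s) x.s x.s b → j ≤ x.L1 + x.L2 →
      Ty.N b j ∈ tyB x.B := by
    intro b j hb hj
    rcases b with q | ⟨g, β⟩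
    · have h1 : q < x.n + 2 * x.s := hb
      show q < x.B ∧ j < x.B
      omega
    · obtain ⟨h1, h2⟩ : g < x.s ∧ okb x.s β := hb
      have h3 := ob_le h2
      show g < x.B ∧ ob β < x.B ∧ j < x.B
      omega
  have hX : ∀ (l : ℕ) (β : Bool) (j : ℕ), l < x.L1 + x.L2 → j ≤ x.L1 + x.L2 →
      Ty.X l β j ∈ tyB x.B := by
    intro l β j hl hj
    show l < x.B ∧ j < x.B
    omega
  have hZ : ∀ j ≤ x.L2, Ty.Z j ∈ tyB x.B := by
    intro j hj
    show j < x.B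
    omega
  have hU : ∀ (g : ℕ) (β : Option ℕ) (j : ℕ), g < x.s → okb x.s β → j ≤ x.L1 + x.L2 →
      Ty.U g β j ∈ tyB x.B := by
    intro g β j hg hβ hj
    have h3 := ob_le hβ
    show g < x.B ∧ ob β < x.B ∧ j < x.B
    omega
  have hD : ∀ (g : ℕ) (β : Option ℕ) (j : ℕ), g < x.s → okb x.s β → j ≤ x.L1 + x.L2 →
      Ty.D g β j ∈ tyB x.B := by
    intro g β j hg hβ hj
    have h3 := ob_le hβ
    show g < x.B ∧ ob β < x.B ∧ j < x.B
    omega
  have hA : ∀ j ≤ x.L1, Ty.Acc j ∈ tyB x.B := by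
    intro j hj
    show j < x.B
    omega
  have hst : ∀ q < x.n + 2 * x.s, okx (x.n + 2 * x.s) x.s x.s (.st q) := fun q hq => hq
  have hcl : ∀ (g : ℕ) (β : Option ℕ), g < x.s → okb x.s β →
      okx (x.n + 2 * x.s) x.s x.s (.cl g β) := fun g β hg hβ => ⟨hg, hβ⟩
  have hnone : okb x.s none := by intro b hb; cases hb
  cases h with
  | x1 l i β hl hi => exact ⟨hX _ _ _ hl (by omega), hX _ _ _ hl (by omega), hX _ _ _ hl (by omega)⟩
  | x2 l i β hl hi hil =>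
    exact ⟨hX _ _ _ hl (by omega), hX _ _ _ hl (by omega), hX _ _ _ hl (by omega)⟩
  | x3 l hl => exact ⟨hX _ _ _ hl (by omega), hX _ _ _ hl (by omega), hX _ _ _ hl (by omega)⟩
  | z1 i hi => exact ⟨hZ _ (by omega), hZ _ (by omega), hZ _ (by omega)⟩
  | z2 i hi => exact ⟨hZ _ (by omega), hZ _ (by omega), hZ _ (by omega)⟩
  | zs => exact ⟨hZ _ (by omega), hZ _ (by omega), hBt _ (hst _ (by omega))⟩
  | zc g hg => exact ⟨hZ _ (by omega), hZ _ (by omega), hBt _ (hcl _ _ hg hnone)⟩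
  | bo q hq =>
    refine ⟨hBt _ (hst _ hq), hBt _ (hst _ hq), hO _ _ ?_ (by omega)⟩
    cases hop : (codeNM x.n x.s x.i).op q with
    | nop => trivial
    | push g b => exact hM.push _ _ _ hq hop
    | pop g => exact hM.pop _ _ hq hop
    | acc => trivial
  | o1 o i ho hi => exact ⟨hO _ _ ho (by omega), hO _ _ ho (by omega), hO _ _ ho (by omega)⟩
  | o2 o i ho hi => exact ⟨hO _ _ ho (by omega), hO _ _ ho (by omega), hO _ _ ho (by omega)⟩
  | nn q hq h =>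
    exact ⟨hBt _ (hst _ hq), hBt _ (hst _ hq), hN _ _ (hst _ (hM.nx _ _ hq)) (by omega)⟩
  | na q hq h => exact ⟨hBt _ (hst _ hq), hBt _ (hst _ hq), hN _ _ (hst _ hq) (by omega)⟩
  | np q g b hq h =>
    exact ⟨hBt _ (hst _ hq), hBt _ (hst _ hq), hN _ _ (hst _ (hM.nx _ _ hq)) (by omega)⟩
  | nq q g β hq h hb =>
    exact ⟨hBt _ (hst _ hq), hBt _ (hcl _ _ (hM.pop _ _ hq h) hb),
      hN _ _ (hst _ (hM.nx _ _ hq)) (by omega)⟩
  | kp g β o hg hb ho h =>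
    exact ⟨hBt _ (hcl _ _ hg hb), hO _ _ ho (by omega), hN _ _ (hcl _ _ hg hb) (by omega)⟩
  | pu g b hg hb =>
    exact ⟨hO _ _ ⟨hg, hb⟩ (by omega), hO _ _ ⟨hg, hb⟩ (by omega), hN _ _ (hcl _ _ hg (by
      intro c hc
      cases hc
      exact hb)) (by omega)⟩
  | u0 g b β hg hb hβ =>
    exact ⟨hBt _ (hcl _ _ hg hβ), hO _ _ ⟨hg, hb⟩ (by omega), hU _ _ _ hg hβ (by omega)⟩
  | u1 g β i hg hβ hi =>
    exact ⟨hU _ _ _ hg hβ (by omega), hX _ _ _ (by omega) (by omega), hU _ _ _ hg hβ (by omega)⟩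
  | u2 g β i hg hβ hi =>
    exact ⟨hU _ _ _ hg hβ (by omega), hX _ _ _ (by omega) (by omega),
      hN _ _ (hcl _ _ hg hβ) (by omega)⟩
  | d0 g β hg hβ =>
    exact ⟨hBt _ (hcl _ _ hg hβ), hO _ _ hg (by omega), hD _ _ _ hg hβ (by omega)⟩
  | d1 g β i hg hβ hi =>
    exact ⟨hD _ _ _ hg hβ (by omega), hX _ _ _ (by omega) (by omega), hD _ _ _ hg hβ (by omega)⟩
  | d2 g β i hg hβ hi =>
    exact ⟨hD _ _ _ hg hβ (by omega), hX _ _ _ (by omega) (by omega),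
      hN _ _ (hcl _ _ hg hβ) (by omega)⟩
  | d3 g β hg hβ =>
    exact ⟨hD _ _ _ hg hβ (by omega), hD _ _ _ hg hβ (by omega),
      hN _ _ (hcl _ _ hg hnone) (by omega)⟩
  | t1 b i hb hi =>
    exact ⟨hN _ _ hb (by omega), hX _ _ _ (by omega) (by omega), hN _ _ hb (by omega)⟩
  | t2 b i hb hi =>
    exact ⟨hN _ _ hb (by omega), hX _ _ _ (by omega) (by omega), hBt _ hb⟩
  | a0 q hq h => exact ⟨hBt _ (hst _ hq), hBt _ (hst _ hq), hA _ (by omega)⟩
  | a1 i hi => exact ⟨hA _ (by omega), hA _ (by omega), hA _ (by omega)⟩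
  | a2 i hi => exact ⟨hA _ (by omega), hA _ (by omega), hA _ (by omega)⟩

theorem init_bdd {x : RPar} (hx : x.Ok) {T : Ty} (h : MInit x.L1 x.L2 T) : T ∈ tyB x.B := by
  have hB := hx.hB
  cases h with
  | x l hl =>
    show l < x.B ∧ 0 < x.B
    omega
  | z =>
    show 0 < x.B
    omega

end P310
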