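import Vale.Agent.P310.TokNum
import Vale.Agent.P310.RuleCode

/-!
# P310: the numbering of the classes of the product system embeds it in the coded system
-/

namespace P310

open Finset TPar

/-- `p` describes the product system of the Horn system `rules`, `ini`, `acc` -/
structure TPar.Fit (p : TPar) {R : ℕ} (pi : Fin p.m → GV p.L →ₗ[ZMod 2] GV R)
    (rules : Fin p.BR → Option (HRule p.L (Fin p.BM))) (ini : Fin p.BM → Prop)
    (acc : Fin p.BM) : Prop where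
  hm : 0 < p.m
  hl : 0 < p.l
  hX : p.X = 2 ^ R
  hpi : ∀ j i, gnum (pi j (shv (some i))) = p.w j i
  hsome : ∀ r ρ, rules r = some ρ → p.V r = 1 ∧ p.P r = ρ.p1 ∧ p.Q r = ρ.p2 ∧
    p.S r = shn ρ.sh ∧ p.C r = ρ.c
  hnone : ∀ r, rules r = none → p.V r ≠ 1
  hini : ∀ A : Fin p.BM, p.I A.1 = 1 ↔ ini A
  hac : p.ac = acc

section
variable {L R BM BR : ℕ}

/-- kind, type or rule, stage, position of a token -/
def tq : HTok L R (Fin BM) (Fin BR) → ℕ × ℕ × ℕ × ℕ
  | .tm A a => (0, A, 0, gnum a)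
  | .tk C i a => (1, C, i, gnum a)
  | .tc C i => (2, C, i, 0)
  | .td C i => (3, C, i, 0)
  | .tf C => (4, C, 0, 0)
  | .tp r a => (5, r, 0, gnum a)
  | .tu r a => (6, r, 0, gnum a)
  | .tv r a => (7, r, 0, gnum a)

/-- kind, type or rule, stage, position of an axiom -/
def aq : HAx L R (Fin BM) (Fin BR) → ℕ × ℕ × ℕ × ℕ
  | .m0 C i a => (0, C, i, gnum a)
  | .m1 C i a => (1, C, i, gnum a)
  | .p r a => (2, r, 0, gnum a)
  | .u r a => (3, r, 0, gnum a)
  | .v r a => (4, r, 0, gnum a)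
  | .q r a => (5, r, 0, gnum a)

/-- kind, type, stage of an initial fact -/
def zq : HZ L (Fin BM) → ℕ × ℕ × ℕ × ℕ
  | .ini A => (0, A, 0, 0)
  | .k0 C => (1, C, 0, 0)
  | .c C i => (2, C, i, 0)
  | .d C i => (3, C, i, 0)
  | .f C => (4, C, 0, 0)
  | .acc => (5, 0, 0, 0)

set_option linter.unusedSimpArgs false in
theorem tq_inj : Function.Injective (tq (L := L) (R := R) (BM := BM) (BR := BR)) := by
  rintro (⟨A, a⟩ | ⟨C, i, a⟩ | ⟨C, i⟩ | ⟨C, i⟩ | C | ⟨r, a⟩ | ⟨r, a⟩ | ⟨r, a⟩)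
    (⟨A', a'⟩ | ⟨C', i', a'⟩ | ⟨C', i'⟩ | ⟨C', i'⟩ | C' | ⟨r', a'⟩ | ⟨r', a'⟩ | ⟨r', a'⟩) h <;>
  simp only [tq, Prod.mk.injEq, reduceCtorEq, OfNat.ofNat_ne_zero, OfNat.zero_ne_ofNat,
    OfNat.ofNat_ne_one, OfNat.one_ne_ofNat, false_and, zero_ne_one, one_ne_zero,
    Nat.reduceEqDiff, true_and, and_true, Fin.val_inj, gnum_inj.eq_iff] at h
  · rw [h.1, h.2]
  · rw [h.1, h.2.1, h.2.2]
  · rw [h.1, h.2]
  · rw [h.1, h.2]
  · rw [h]
  · rw [h.1, h.2]
  · rw [h.1, h.2]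
  · rw [h.1, h.2]

set_option linter.unusedSimpArgs false in
theorem aq_inj : Function.Injective (aq (L := L) (R := R) (BM := BM) (BR := BR)) := by
  rintro (⟨C, i, a⟩ | ⟨C, i, a⟩ | ⟨r, a⟩ | ⟨r, a⟩ | ⟨r, a⟩ | ⟨r, a⟩)
    (⟨C', i', a'⟩ | ⟨C', i', a'⟩ | ⟨r', a'⟩ | ⟨r', a'⟩ | ⟨r', a'⟩ | ⟨r', a'⟩) h <;>
  simp only [aq, Prod.mk.injEq, reduceCtorEq, OfNat.ofNat_ne_zero, OfNat.zero_ne_ofNat,
    OfNat.ofNat_ne_one, OfNat.one_ne_ofNat, false_and, zero_ne_one, one_ne_zero,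
    Nat.reduceEqDiff, true_and, and_true, Fin.val_inj, gnum_inj.eq_iff] at h
  · rw [h.1, h.2.1, h.2.2]
  · rw [h.1, h.2.1, h.2.2]
  · rw [h.1, h.2]
  · rw [h.1, h.2]
  · rw [h.1, h.2]
  · rw [h.1, h.2]

set_option linter.unusedSimpArgs false in
theorem zq_inj : Function.Injective (zq (L := L) (BM := BM)) := by
  rintro (A | C | ⟨C, i⟩ | ⟨C, i⟩ | C | _) (A' | C' | ⟨C', i'⟩ | ⟨C', i'⟩ | C' | _) h <;>
  simp only [zq, Prod.mk.injEq, reduceCtorEq, OfNat.ofNat_ne_zero, OfNat.zero_ne_ofNat,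
    OfNat.ofNat_ne_one, OfNat.one_ne_ofNat, false_and, zero_ne_one, one_ne_zero,
    Nat.reduceEqDiff, true_and, and_true, Fin.val_inj] at h
  · rw [h]
  · rw [h]
  · rw [h.1, h.2]
  · rw [h.1, h.2]
  · rw [h]
  · rfl

theorem tq_lt (τ : HTok L R (Fin BM) (Fin BR)) : (tq τ).1 < 8 ∧ (tq τ).2.1 < BR + BM ∧
    (tq τ).2.2.1 < L + 1 ∧ (tq τ).2.2.2 < 2 ^ R := by
  have h0 : 0 < 2 ^ R := by positivity
  rcases τ with ⟨A, a⟩ | ⟨C, i, a⟩ | ⟨C, i⟩ | ⟨C, i⟩ | C | ⟨r, a⟩ | ⟨r, a⟩ | ⟨r, a⟩ <;>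
  simp only [tq] <;> refine ⟨by omega, by omega, by omega, ?_⟩ <;>
  first | exact gnum_lt _ | exact h0

theorem aq_lt (τ : HAx L R (Fin BM) (Fin BR)) : (aq τ).1 < 8 ∧ (aq τ).2.1 < BR + BM ∧
    (aq τ).2.2.1 < L + 1 ∧ (aq τ).2.2.2 < 2 ^ R := by
  rcases τ with ⟨C, i, a⟩ | ⟨C, i, a⟩ | ⟨r, a⟩ | ⟨r, a⟩ | ⟨r, a⟩ | ⟨r, a⟩ <;>
  simp only [aq] <;> refine ⟨by omega, by omega, by omega, ?_⟩ <;> exact gnum_lt _

theorem zq_lt (hM : 0 < BM) (τ : HZ L (Fin BM)) : (zq τ).1 < 8 ∧ (zq τ).2.1 < BR + BM ∧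
    (zq τ).2.2.1 < L + 1 ∧ (zq τ).2.2.2 = 0 := by
  rcases τ with A | C | ⟨C, i⟩ | ⟨C, i⟩ | C | _ <;>
  simp only [zq] <;> refine ⟨by omega, by omega, by omega, ?_⟩ <;> trivial

end

section
variable (p : TPar) {R : ℕ}

/-- the number of a token -/
def tn (τ : HTok p.L R (Fin p.BM) (Fin p.BR)) : ℕ :=
  p.tN (tq τ).1 (tq τ).2.1 (tq τ).2.2.1 (tq τ).2.2.2

/-- the number of an axiom -/
def an (τ : HAx p.L R (Fin p.BM) (Fin p.BR)) : ℕ :=
  p.tN (aq τ).1 (aq τ).2.1 (aq τ).2.2.1 (aq τ).2.2.2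

/-- the number of an initial fact -/
def zn (τ : HZ p.L (Fin p.BM)) : ℕ := p.tN (zq τ).1 (zq τ).2.1 (zq τ).2.2.1 (zq τ).2.2.2

/-- the number of a variable -/
def vn : PVar p.m p.l (HTok p.L R (Fin p.BM) (Fin p.BR)) (HZ p.L (Fin p.BM)) → ℕ
  | .inl (j, τ) => p.vN 0 j (tn p τ) 0
  | .inr (.inl (z, j, c)) => p.vN 1 j (zn p z) c
  | .inr (.inr (z, j, c)) => p.vN 2 j (zn p z) c

/-- the number of an equation -/
def en : PEqn p.m p.l (HAx p.L R (Fin p.BM) (Fin p.BR)) (HZ p.L (Fin p.BM)) → ℕ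
  | .inl (j, τ) => p.eN 0 j (an p τ) 0
  | .inr (z, j, c) => p.eN 1 j (zn p z) c

end

section
variable {p : TPar} {R : ℕ}

theorem tn_lt (hX : p.X = 2 ^ R) (τ : HTok p.L R (Fin p.BM) (Fin p.BR)) : tn p τ < p.NT := by
  obtain ⟨h1, h2, h3, h4⟩ := tq_lt τ
  exact tN_lt h1 h2 h3 (by rw [hX]; exact h4)

theorem an_lt (hX : p.X = 2 ^ R) (τ : HAx p.L R (Fin p.BM) (Fin p.BR)) : an p τ < p.NT := by
  obtain ⟨h1, h2, h3, h4⟩ := aq_lt τ
  exact tN_lt h1 h2 h3 (by rw [hX]; exact h4)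

theorem zn_lt (hX : p.X = 2 ^ R) (hM : 0 < p.BM) (τ : HZ p.L (Fin p.BM)) : zn p τ < p.NT := by
  obtain ⟨h1, h2, h3, h4⟩ := zq_lt (BR := p.BR) hM τ
  exact tN_lt h1 h2 h3 (by rw [hX, h4]; positivity)

theorem tn_inj : Function.Injective (tn p (R := R)) := by
  intro τ τ' h
  obtain ⟨h1, h2, h3, _⟩ := tq_lt τ
  obtain ⟨h1', h2', h3', _⟩ := tq_lt τ'
  obtain ⟨e1, e2, e3, e4⟩ := tN_inj (p := p) h1 h2 h3 h1' h2' h3' h
  exact tq_inj (Prod.ext e1 (Prod.ext e2 (Prod.ext e3 e4)))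

theorem an_inj : Function.Injective (an p (R := R)) := by
  intro τ τ' h
  obtain ⟨h1, h2, h3, _⟩ := aq_lt τ
  obtain ⟨h1', h2', h3', _⟩ := aq_lt τ'
  obtain ⟨e1, e2, e3, e4⟩ := tN_inj (p := p) h1 h2 h3 h1' h2' h3' h
  exact aq_inj (Prod.ext e1 (Prod.ext e2 (Prod.ext e3 e4)))

theorem zn_inj (hM : 0 < p.BM) : Function.Injective (zn p) := by
  intro τ τ' h
  obtain ⟨h1, h2, h3, _⟩ := zq_lt (BR := p.BR) hM τ
  obtain ⟨h1', h2', h3', _⟩ := zq_lt (BR := p.BR) hM τ'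
  obtain ⟨e1, e2, e3, e4⟩ := tN_inj (p := p) h1 h2 h3 h1' h2' h3' h
  exact zq_inj (Prod.ext e1 (Prod.ext e2 (Prod.ext e3 e4)))

theorem vn_lt (hX : p.X = 2 ^ R) (hM : 0 < p.BM)
    (v : PVar p.m p.l (HTok p.L R (Fin p.BM) (Fin p.BR)) (HZ p.L (Fin p.BM))) (hl : 0 < p.l) :
    vn p v < p.nX := by
  rcases v with ⟨j, τ⟩ | ⟨z, j, c⟩ | ⟨z, j, c⟩
  · exact vN_lt (by omega) j.2 hl (tn_lt hX τ)
  · exact vN_lt (by omega) j.2 c.2 (zn_lt hX hM z)
  · exact vN_lt (by omega) j.2 c.2 (zn_lt hX hM z)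

theorem vn_inj (hM : 0 < p.BM) (hl : 0 < p.l) : Function.Injective (vn p (R := R)) := by
  rintro (⟨j, τ⟩ | ⟨z, j, c⟩ | ⟨z, j, c⟩) (⟨j', τ'⟩ | ⟨z', j', c'⟩ | ⟨z', j', c'⟩) h
  · obtain ⟨_, e2, e3, _⟩ := vN_inj (p := p) (by omega) j.2 hl (by omega) j'.2 hl h
    rw [Fin.ext e2, tn_inj e3]
  · obtain ⟨e1, _⟩ := vN_inj (p := p) (by omega) j.2 hl (by omega) j'.2 c'.2 h
    omega
  · obtain ⟨e1, _⟩ := vN_inj (p := p) (by omega) j.2 hl (by omega) j'.2 c'.2 h
    omega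
  · obtain ⟨e1, _⟩ := vN_inj (p := p) (by omega) j.2 c.2 (by omega) j'.2 hl h
    omega
  · obtain ⟨_, e2, e3, e4⟩ := vN_inj (p := p) (by omega) j.2 c.2 (by omega) j'.2 c'.2 h
    rw [Fin.ext e2, zn_inj hM e3, Fin.ext e4]
  · obtain ⟨e1, _⟩ := vN_inj (p := p) (by omega) j.2 c.2 (by omega) j'.2 c'.2 h
    omega
  · obtain ⟨e1, _⟩ := vN_inj (p := p) (by omega) j.2 c.2 (by omega) j'.2 hl h
    omega
  · obtain ⟨e1, _⟩ := vN_inj (p := p) (by omega) j.2 c.2 (by omega) j'.2 c'.2 h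
    omega
  · obtain ⟨_, e2, e3, e4⟩ := vN_inj (p := p) (by omega) j.2 c.2 (by omega) j'.2 c'.2 h
    rw [Fin.ext e2, zn_inj hM e3, Fin.ext e4]

theorem en_lt (hX : p.X = 2 ^ R) (hM : 0 < p.BM)
    (v : PEqn p.m p.l (HAx p.L R (Fin p.BM) (Fin p.BR)) (HZ p.L (Fin p.BM))) (hl : 0 < p.l) :
    en p v < p.nE := by
  rcases v with ⟨j, τ⟩ | ⟨z, j, c⟩
  · exact eN_lt (by omega) j.2 hl (an_lt hX τ)
  · exact eN_lt (by omega) j.2 c.2 (zn_lt hX hM z)

theorem en_inj (hM : 0 < p.BM) (hl : 0 < p.l) : Function.Injective (en p (R := R)) := by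
  rintro (⟨j, τ⟩ | ⟨z, j, c⟩) (⟨j', τ'⟩ | ⟨z', j', c'⟩) h
  · obtain ⟨_, e2, e3, _⟩ := eN_inj (p := p) (by omega) j.2 hl (by omega) j'.2 hl h
    rw [Fin.ext e2, an_inj e3]
  · obtain ⟨e1, _⟩ := eN_inj (p := p) (by omega) j.2 hl (by omega) j'.2 c'.2 h
    omega
  · obtain ⟨e1, _⟩ := eN_inj (p := p) (by omega) j.2 c.2 (by omega) j'.2 hl h
    omega
  · obtain ⟨_, e2, e3, e4⟩ := eN_inj (p := p) (by omega) j.2 c.2 (by omega) j'.2 c'.2 h
    rw [Fin.ext e2, zn_inj hM e3, Fin.ext e4]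

end

/-! ### The lists of variables of the equations -/

section
variable {p : TPar} {R : ℕ} (pi : Fin p.m → GV p.L →ₗ[ZMod 2] GV R)
  (rules : Fin p.BR → Option (HRule p.L (Fin p.BM))) (ini : Fin p.BM → Prop)
  [DecidablePred ini] (acc : Fin p.BM)

/-- the `t`-th token of an axiom -/
def axT (j : Fin p.m) : HAx p.L R (Fin p.BM) (Fin p.BR) → ℕ →
    Option (HTok p.L R (Fin p.BM) (Fin p.BR))
  | .m0 C i a, t => if t = 0 then some (.tk C i.castSucc a)
      else if t = 1 then some (.tk C i.succ a) else if t = 2 then some (.tc C i) else none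
  | .m1 C i a, t => if t = 0 then some (.tk C i.castSucc (a + pi j (shv (some i))))
      else if t = 1 then some (.tk C i.succ a) else if t = 2 then some (.td C i) else none
  | .p r a, t => match rules r with
      | none => none
      | some ρ => if t = 0 then some (.tm ρ.p1 (a + pi j (shv ρ.sh)))
        else if t = 1 then if ρ.p1 = ρ.p2 then none else some (.tm ρ.p2 (a + pi j (shv ρ.sh)))
        else if t = 2 then some (.tp r a) else none
  | .u r a, t => match rules r with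
      | none => none
      | some ρ => if t = 0 then some (.tp r a)
        else if t = 1 then some (.tk ρ.c (Fin.last _) a)
        else if t = 2 then some (.tu r a) else none
  | .v r a, t => match rules r with
      | none => none
      | some ρ => if t = 0 then some (.tp r a)
        else if t = 1 then some (.tf ρ.c)
        else if t = 2 then some (.tv r a) else none
  | .q r a, t => match rules r with
      | none => none
      | some ρ => if t = 0 then some (.tu r a)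
        else if t = 1 then some (.tv r a)
        else if t = 2 then some (.tm ρ.c a) else none

theorem axT_inj {j : Fin p.m} {α : HAx p.L R (Fin p.BM) (Fin p.BR)} {t t' : ℕ}
    {τ : HTok p.L R (Fin p.BM) (Fin p.BR)} (h : axT pi rules j α t = some τ)
    (h' : axT pi rules j α t' = some τ) : t = t' := by
  rw [← h'] at h
  rcases α with ⟨C, i, a⟩ | ⟨C, i, a⟩ | ⟨r, a⟩ | ⟨r, a⟩ | ⟨r, a⟩ | ⟨r, a⟩
  · simp only [axT] at h h'
    split_ifs at h h' <;> first | omega | (exfalso; simp [Fin.ext_iff] at h; done) | cases h'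
  · simp only [axT] at h h'
    split_ifs at h h' <;> first | omega | (exfalso; simp [Fin.ext_iff] at h; done) | cases h'
  all_goals
    simp only [axT] at h h'
    rcases hr : rules r with _ | ρ
    · rw [hr] at h'
      cases h'
    · rw [hr] at h h'
      simp only at h h'
      split_ifs at h h' <;> first
        | omega
        | (exfalso; simp at h; done)
        | (exfalso; simp at h; exact absurd h (by assumption))
        | (exfalso; simp at h; exact absurd h.symm (by assumption))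
        | cases h'

theorem mem_haxt {j : Fin p.m} {α : HAx p.L R (Fin p.BM) (Fin p.BR)}
    {τ : HTok p.L R (Fin p.BM) (Fin p.BR)} :
    τ ∈ haxt pi rules j α ↔ ∃ t < 4, axT pi rules j α t = some τ := by
  have h3 : ∀ (f : ℕ → Option (HTok p.L R (Fin p.BM) (Fin p.BR))), f 3 = none →
      ((∃ t < 4, f t = some τ) ↔ f 0 = some τ ∨ f 1 = some τ ∨ f 2 = some τ) := by
    intro f hf
    constructor
    · rintro ⟨t, ht, h⟩
      have : t = 0 ∨ t = 1 ∨ t = 2 ∨ t = 3 := by omega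
      rcases this with rfl | rfl | rfl | rfl
      · exact Or.inl h
      · exact Or.inr (Or.inl h)
      · exact Or.inr (Or.inr h)
      · rw [hf] at h
        cases h
    · rintro (h | h | h)
      · exact ⟨0, by omega, h⟩
      · exact ⟨1, by omega, h⟩
      · exact ⟨2, by omega, h⟩
  rcases α with ⟨C, i, a⟩ | ⟨C, i, a⟩ | ⟨r, a⟩ | ⟨r, a⟩ | ⟨r, a⟩ | ⟨r, a⟩
  · rw [h3 _ (by simp [axT])]
    simp [axT, haxt, eq_comm]
  · rw [h3 _ (by simp [axT])]
    simp [axT, haxt, eq_comm]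
  · rcases hr : rules r with _ | ρ
    · rw [h3 _ (by simp [axT, hr])]
      simp [axT, haxt, hr]
    · rw [h3 _ (by simp [axT, hr])]
      by_cases h12 : ρ.p1 = ρ.p2
      · simp [axT, haxt, hr, h12, eq_comm]
      · simp [axT, haxt, hr, h12, eq_comm]
  · rcases hr : rules r with _ | ρ
    · rw [h3 _ (by simp [axT, hr])]
      simp [axT, haxt, hr]
    · rw [h3 _ (by simp [axT, hr])]
      simp [axT, haxt, hr, eq_comm]
  · rcases hr : rules r with _ | ρ
    · rw [h3 _ (by simp [axT, hr])]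
      simp [axT, haxt, hr]
    · rw [h3 _ (by simp [axT, hr])]
      simp [axT, haxt, hr, eq_comm]
  · rcases hr : rules r with _ | ρ
    · rw [h3 _ (by simp [axT, hr])]
      simp [axT, haxt, hr]
    · rw [h3 _ (by simp [axT, hr])]
      simp [axT, haxt, hr, eq_comm]

/-- the `t`-th variable of a grid equation -/
def gT (z : HZ p.L (Fin p.BM)) (j : Fin p.m) (c : Fin p.l) (t : ℕ) :
    Option (PVar p.m p.l (HTok p.L R (Fin p.BM) (Fin p.BR)) (HZ p.L (Fin p.BM))) :=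
  if t = 0 then some (if c.1 + 1 < p.l then vhor z j c else vtok j (hztok ini acc z))
  else if t = 1 then if h : 0 < c.1 then some (vhor z j ⟨c.1 - 1, by omega⟩) else none
  else if t = 2 then if j.1 + 1 < p.m then some (vver z j c) else none
  else if t = 3 then if h : 0 < j.1 then some (vver z ⟨j.1 - 1, by omega⟩ c) else none
  else none

/-- the `t`-th variable of an equation -/
def eT : PEqn p.m p.l (HAx p.L R (Fin p.BM) (Fin p.BR)) (HZ p.L (Fin p.BM)) → ℕ →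
    Option (PVar p.m p.l (HTok p.L R (Fin p.BM) (Fin p.BR)) (HZ p.L (Fin p.BM)))
  | .inl (j, α), t => (axT pi rules j α t).map (vtok j)
  | .inr (z, j, c), t => gT ini acc z j c t

theorem mem_prodVars {ε : PEqn p.m p.l (HAx p.L R (Fin p.BM) (Fin p.BR)) (HZ p.L (Fin p.BM))}
    {v : PVar p.m p.l (HTok p.L R (Fin p.BM) (Fin p.BR)) (HZ p.L (Fin p.BM))} :
    v ∈ prodVars (haxt pi rules) (fun z _ => hztok ini acc z) ε ↔
      ∃ t < 4, eT pi rules ini acc ε t = some v := by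
  rcases ε with ⟨j, α⟩ | ⟨z, j, c⟩
  · simp only [prodVars, Finset.mem_image, mem_haxt, eT, Option.map_eq_some_iff]
    constructor
    · rintro ⟨τ, ⟨t, ht, h⟩, rfl⟩
      exact ⟨t, ht, τ, h, rfl⟩
    · rintro ⟨t, ht, τ, h, rfl⟩
      exact ⟨τ, ⟨t, ht, h⟩, rfl⟩
  · simp only [prodVars, gridVars, eT, gT, Finset.mem_union, Finset.mem_singleton]
    constructor
    · rintro (((h | h) | h) | h)
      · exact ⟨0, by omega, by simp [h]⟩
      · refine ⟨1, by omega, ?_⟩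
        split_ifs at h with hc
        · rw [Finset.mem_singleton] at h
          simp [hc, h]
        · simp at h
      · refine ⟨2, by omega, ?_⟩
        split_ifs at h with hc
        · rw [Finset.mem_singleton] at h
          simp [hc, h]
        · simp at h
      · refine ⟨3, by omega, ?_⟩
        split_ifs at h with hc
        · rw [Finset.mem_singleton] at h
          simp [hc, h]
        · simp at h
    · rintro ⟨t, ht, h⟩
      have : t = 0 ∨ t = 1 ∨ t = 2 ∨ t = 3 := by omega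
      rcases this with rfl | rfl | rfl | rfl
      · left; left; left
        simpa [eq_comm] using h
      · left; left; right
        simp only [one_ne_zero, if_false, if_true] at h
        split_ifs at h with hc
        rw [dif_pos hc, Finset.mem_singleton]
        exact (Option.some.inj h).symm
      · left; right
        simp only [OfNat.ofNat_ne_zero, OfNat.ofNat_ne_one, if_false, if_true] at h
        split_ifs at h with hc
        rw [if_pos hc, Finset.mem_singleton]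
        exact (Option.some.inj h).symm
      · right
        simp only [OfNat.ofNat_ne_zero, OfNat.ofNat_ne_one, Nat.reduceEqDiff, if_false,
          if_true] at h
        split_ifs at h with hc
        rw [dif_pos hc, Finset.mem_singleton]
        exact (Option.some.inj h).symm

theorem gT_inj {z : HZ p.L (Fin p.BM)} {j : Fin p.m} {c : Fin p.l} {t t' : ℕ}
    {v : PVar p.m p.l (HTok p.L R (Fin p.BM) (Fin p.BR)) (HZ p.L (Fin p.BM))}
    (h : gT ini acc z j c t = some v) (h' : gT ini acc z j c t' = some v) : t = t' := by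
  rw [← h'] at h
  simp only [gT] at h h'
  split_ifs at h h' <;> first
    | omega
    | (exfalso
       simp only [Option.some.injEq, Sum.inl.injEq, Sum.inr.injEq, Prod.mk.injEq, Fin.ext_iff,
        reduceCtorEq] at h
       done)
    | (exfalso
       simp only [Option.some.injEq, Sum.inr.injEq, Prod.mk.injEq, Fin.ext_iff, Sum.inl.injEq] at h
       omega)

theorem eT_inj {ε : PEqn p.m p.l (HAx p.L R (Fin p.BM) (Fin p.BR)) (HZ p.L (Fin p.BM))} {t t' : ℕ}
    {v : PVar p.m p.l (HTok p.L R (Fin p.BM) (Fin p.BR)) (HZ p.L (Fin p.BM))}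
    (h : eT pi rules ini acc ε t = some v) (h' : eT pi rules ini acc ε t' = some v) : t = t' := by
  rcases ε with ⟨j, α⟩ | ⟨z, j, c⟩
  · simp only [eT, Option.map_eq_some_iff] at h h'
    obtain ⟨τ, h1, rfl⟩ := h
    obtain ⟨τ', h1', h2⟩ := h'
    simp only [vtok, Sum.inl.injEq, Prod.mk.injEq, true_and] at h2
    rw [h2] at h1'
    exact axT_inj pi rules h1 h1'
  · exact gT_inj ini acc h h'

end

end P310
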