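import Vale.Agent.P310.PiTab
import Vale.Agent.P310.CodedIso
import Vale.Agent.P310.Transport

/-!
# P310: the numbers of tokens, axioms, initial facts, variables and equations

All of them are numbers in mixed radix boxes.
-/

namespace P310

open Finset

/-- the numeric data of a product system of a Horn system -/
structure TPar where
  /-- number of digits -/
  m : ℕ
  /-- length of the grids -/
  l : ℕ
  /-- dimension of the cells -/
  L : ℕ
  /-- number of positions `2 ^ R` -/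
  X : ℕ
  /-- number of types -/
  BM : ℕ
  /-- number of rule indices -/
  BR : ℕ
  /-- the accepting type -/
  ac : ℕ
  /-- rules: validity, premises, shift, conclusion -/
  V : ℕ → ℕ
  P : ℕ → ℕ
  Q : ℕ → ℕ
  S : ℕ → ℕ
  C : ℕ → ℕ
  /-- initial types -/
  I : ℕ → ℕ
  /-- number of `pi j e_i` -/
  w : ℕ → ℕ → ℕ

namespace TPar

variable (p : TPar)

def Y : ℕ := p.BR + p.BM

/-- tokens, axioms, initial facts: kind, type or rule, stage, position -/
def tN (k y i a : ℕ) : ℕ := k + 8 * (y + p.Y * (i + (p.L + 1) * a))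

def NT : ℕ := 8 * (p.Y * ((p.L + 1) * p.X))

/-- variables: kind, digit, token or initial fact, column -/
def vN (k j w c : ℕ) : ℕ := k + 3 * (j + p.m * (c + p.l * w))

def nX : ℕ := 3 * (p.m * (p.l * p.NT))

/-- equations: kind, digit, axiom or initial fact, column -/
def eN (k j w c : ℕ) : ℕ := k + 2 * (j + p.m * (c + p.l * w))

def nE : ℕ := 2 * (p.m * (p.l * p.NT))

/-- the number of the shift of the rule `y` at the digit `j` -/
def sX (j y : ℕ) : ℕ := if p.S y = 0 then 0 else p.w j (p.S y - 1)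

/-- the `t`-th token (plus one) of an axiom; `0` if there is none -/
def axv (j k y i a t : ℕ) : ℕ :=
  if k = 0 then
    if y < p.BM ∧ i < p.L then
      if t = 0 then p.tN 1 y i a + 1
      else if t = 1 then p.tN 1 y (i + 1) a + 1
      else if t = 2 then p.tN 2 y i 0 + 1 else 0
    else 0
  else if k = 1 then
    if y < p.BM ∧ i < p.L then
      if t = 0 then p.tN 1 y i (a ^^^ p.w j i) + 1
      else if t = 1 then p.tN 1 y (i + 1) a + 1
      else if t = 2 then p.tN 3 y i 0 + 1 else 0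
    else 0
  else if y < p.BR ∧ i = 0 ∧ p.V y = 1 then
    if k = 2 then
      if t = 0 then p.tN 0 (p.P y) 0 (a ^^^ p.sX j y) + 1
      else if t = 1 then if p.P y = p.Q y then 0 else p.tN 0 (p.Q y) 0 (a ^^^ p.sX j y) + 1
      else if t = 2 then p.tN 5 y 0 a + 1 else 0
    else if k = 3 then
      if t = 0 then p.tN 5 y 0 a + 1
      else if t = 1 then p.tN 1 (p.C y) p.L a + 1
      else if t = 2 then p.tN 6 y 0 a + 1 else 0
    else if k = 4 then
      if t = 0 then p.tN 5 y 0 a + 1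
      else if t = 1 then p.tN 4 (p.C y) 0 0 + 1
      else if t = 2 then p.tN 7 y 0 a + 1 else 0
    else if k = 5 then
      if t = 0 then p.tN 6 y 0 a + 1
      else if t = 1 then p.tN 7 y 0 a + 1
      else if t = 2 then p.tN 0 (p.C y) 0 a + 1 else 0
    else 0
  else 0

/-- is this the number of an initial fact? -/
def zok (k y i a : ℕ) : ℕ :=
  if a = 0 then
    if k = 0 ∨ k = 1 ∨ k = 4 then if y < p.BM ∧ i = 0 then 1 else 0
    else if k = 2 ∨ k = 3 then if y < p.BM ∧ i < p.L then 1 else 0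
    else if k = 5 then if y = 0 ∧ i = 0 then 1 else 0
    else 0
  else 0

/-- the token of an initial fact -/
def zt (k y i : ℕ) : ℕ :=
  if k = 0 then if p.I y = 1 then p.tN 0 y 0 0 else p.tN 4 y 0 0
  else if k = 1 then p.tN 1 y 0 0
  else if k = 2 then p.tN 2 y i 0
  else if k = 3 then p.tN 3 y i 0
  else if k = 4 then p.tN 4 y 0 0
  else p.tN 0 p.ac 0 0

/-- the `t`-th variable (plus one) of a grid equation; `(k, y, i)` are digits of the initial
fact `w` -/
def gv (j w c k y i t : ℕ) : ℕ :=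
  if t = 0 then if c + 1 < p.l then p.vN 1 j w c + 1 else p.vN 0 j (p.zt k y i) 0 + 1
  else if t = 1 then if 0 < c then p.vN 1 j w (c - 1) + 1 else 0
  else if t = 2 then if j + 1 < p.m then p.vN 2 j w c + 1 else 0
  else if t = 3 then if 0 < j then p.vN 2 (j - 1) w c + 1 else 0
  else 0

/-- the `t`-th variable (plus one) of the equation with the given digits -/
def evC (b j c w k y i a t : ℕ) : ℕ :=
  if b = 0 then
    if c = 0 then
      if p.axv j k y i a t = 0 then 0 else p.vN 0 j (p.axv j k y i a t - 1) 0 + 1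
    else 0
  else if p.zok k y i a = 1 then p.gv j w c k y i t else 0

/-- the same as a function of the number of the axiom or initial fact -/
def evW (b j c w t : ℕ) : ℕ :=
  p.evC b j c w (w % 8) (w / 8 % p.Y) (w / 8 / p.Y % (p.L + 1)) (w / 8 / p.Y / (p.L + 1)) t

/-- the `t`-th variable (plus one) of the equation `e` -/
def evN (e t : ℕ) : ℕ :=
  p.evW (e % 2) (e / 2 % p.m) (e / 2 / p.m % p.l) (e / 2 / p.m / p.l) t

/-- the coded system -/
def sys : CSys where
  nX := p.nX
  nE := p.nE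
  ev := p.evN
  sp := p.eN 1 0 (p.tN 5 0 0 0) 0

/-! ### Digits -/

theorem md {a b x : ℕ} (h : a < b) : (a + b * x) % b = a := by
  rw [Nat.add_mul_mod_self_left, Nat.mod_eq_of_lt h]

theorem dv {a b x : ℕ} (h : a < b) : (a + b * x) / b = x := by
  rw [Nat.add_mul_div_left _ _ (by omega), Nat.div_eq_of_lt h, zero_add]

theorem lt_dig {a b x y : ℕ} (ha : a < b) (hx : x < y) : a + b * x < b * y := by
  have : b * (x + 1) ≤ b * y := Nat.mul_le_mul_left _ hx
  rw [mul_add, mul_one] at this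
  omega

variable {p}

theorem tN_dec {k y i a : ℕ} (hk : k < 8) (hy : y < p.Y) (hi : i < p.L + 1) :
    p.tN k y i a % 8 = k ∧ p.tN k y i a / 8 % p.Y = y ∧ p.tN k y i a / 8 / p.Y % (p.L + 1) = i ∧
      p.tN k y i a / 8 / p.Y / (p.L + 1) = a := by
  unfold tN
  rw [md hk, dv hk, md hy, dv hy, md hi, dv hi]
  exact ⟨rfl, rfl, rfl, rfl⟩

theorem tN_lt {k y i a : ℕ} (hk : k < 8) (hy : y < p.Y) (hi : i < p.L + 1) (ha : a < p.X) :
    p.tN k y i a < p.NT := lt_dig hk (lt_dig hy (lt_dig hi ha))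

theorem tN_enc (w : ℕ) : p.tN (w % 8) (w / 8 % p.Y) (w / 8 / p.Y % (p.L + 1))
    (w / 8 / p.Y / (p.L + 1)) = w := by
  unfold tN
  rw [Nat.mod_add_div, Nat.mod_add_div, Nat.mod_add_div]

theorem tN_inj {k y i a k' y' i' a' : ℕ} (hk : k < 8) (hy : y < p.Y) (hi : i < p.L + 1)
    (hk' : k' < 8) (hy' : y' < p.Y) (hi' : i' < p.L + 1) (h : p.tN k y i a = p.tN k' y' i' a') :
    k = k' ∧ y = y' ∧ i = i' ∧ a = a' := by
  obtain ⟨h1, h2, h3, h4⟩ := tN_dec (p := p) (a := a) hk hy hi
  obtain ⟨h1', h2', h3', h4'⟩ := tN_dec (p := p) (a := a') hk' hy' hi'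
  rw [h] at h1 h2 h3 h4
  exact ⟨h1.symm.trans h1', h2.symm.trans h2', h3.symm.trans h3', h4.symm.trans h4'⟩

theorem vN_lt {k j w c : ℕ} (hk : k < 3) (hj : j < p.m) (hc : c < p.l) (hw : w < p.NT) :
    p.vN k j w c < p.nX := lt_dig hk (lt_dig hj (lt_dig hc hw))

theorem vN_inj {k j w c k' j' w' c' : ℕ} (hk : k < 3) (hj : j < p.m) (hc : c < p.l)
    (hk' : k' < 3) (hj' : j' < p.m) (hc' : c' < p.l) (h : p.vN k j w c = p.vN k' j' w' c') :
    k = k' ∧ j = j' ∧ w = w' ∧ c = c' := by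
  unfold vN at h
  have h1 := congrArg (· % 3) h
  simp only [md hk, md hk'] at h1
  have h2 := congrArg (· / 3) h
  simp only [dv hk, dv hk'] at h2
  have h3 := congrArg (· % p.m) h2
  simp only [md hj, md hj'] at h3
  have h4 := congrArg (· / p.m) h2
  simp only [dv hj, dv hj'] at h4
  have h5 := congrArg (· % p.l) h4
  simp only [md hc, md hc'] at h5
  have h6 := congrArg (· / p.l) h4
  simp only [dv hc, dv hc'] at h6
  exact ⟨h1, h3, h6, h5⟩

theorem eN_dec {k j w c : ℕ} (hk : k < 2) (hj : j < p.m) (hc : c < p.l) :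
    p.eN k j w c % 2 = k ∧ p.eN k j w c / 2 % p.m = j ∧ p.eN k j w c / 2 / p.m % p.l = c ∧
      p.eN k j w c / 2 / p.m / p.l = w := by
  unfold eN
  rw [md hk, dv hk, md hj, dv hj, md hc, dv hc]
  exact ⟨rfl, rfl, rfl, rfl⟩

theorem eN_lt {k j w c : ℕ} (hk : k < 2) (hj : j < p.m) (hc : c < p.l) (hw : w < p.NT) :
    p.eN k j w c < p.nE := lt_dig hk (lt_dig hj (lt_dig hc hw))

theorem eN_enc (e : ℕ) : p.eN (e % 2) (e / 2 % p.m) (e / 2 / p.m / p.l) (e / 2 / p.m % p.l) = e := by
  unfold eN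
  rw [Nat.mod_add_div, Nat.mod_add_div, Nat.mod_add_div]

theorem eN_inj {k j w c k' j' w' c' : ℕ} (hk : k < 2) (hj : j < p.m) (hc : c < p.l)
    (hk' : k' < 2) (hj' : j' < p.m) (hc' : c' < p.l) (h : p.eN k j w c = p.eN k' j' w' c') :
    k = k' ∧ j = j' ∧ w = w' ∧ c = c' := by
  obtain ⟨h1, h2, h3, h4⟩ := eN_dec (p := p) (w := w) hk hj hc
  obtain ⟨h1', h2', h3', h4'⟩ := eN_dec (p := p) (w := w') hk' hj' hc'
  rw [h] at h1 h2 h3 h4
  exact ⟨h1.symm.trans h1', h2.symm.trans h2', h4.symm.trans h4', h3.symm.trans h3'⟩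

end TPar

end P310
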