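import Mathlib

/-!
# P310: the k-dimensional Weisfeiler-Leman refinement (joint update)

`Color k r` is the type of colours after `r` rounds, `color G k r x` the colour `C_r(x)`,
`WLEquiv k G H` is `G ≡_k H`.  Abstract Duplicator and Spoiler lemmas.
-/

namespace P310

/-- The colours after `r` rounds: the data themselves. -/
def Color (k : ℕ) : ℕ → Type
  | 0 => Fin k → Fin k → Prop × Prop
  | r + 1 => Color k r × Multiset (Fin k → Color k r)

/-- The colour of the tuple `x` after `r` rounds of joint-update refinement. -/
def color {V : Type*} [Fintype V] (G : SimpleGraph V) (k : ℕ) :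
    (r : ℕ) → (Fin k → V) → Color k r
  | 0, x => fun i j => (x i = x j, G.Adj (x i) (x j))
  | r + 1, x => (color G k r x,
      (Finset.univ : Finset V).val.map
        (fun y => fun i => color G k r (Function.update x i y)))

/-- `G ≡_k H`: for all `r` the multisets of colours of all `k`-tuples coincide. -/
def WLEquiv (k : ℕ) {V W : Type*} [Fintype V] [Fintype W]
    (G : SimpleGraph V) (H : SimpleGraph W) : Prop :=
  ∀ r : ℕ, (Finset.univ : Finset (Fin k → V)).val.map (color G k r) =
    (Finset.univ : Finset (Fin k → W)).val.map (color H k r)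

/-- The tuples `x` and `y` have equal colours after every number of rounds. -/
def Same (k : ℕ) {V W : Type*} [Fintype V] [Fintype W]
    (G : SimpleGraph V) (H : SimpleGraph W) (x : Fin k → V) (y : Fin k → W) : Prop :=
  ∀ r : ℕ, color G k r x = color H k r y

section multiset

theorem card_fiber_of_map_eq {V W A : Type*} [Fintype V] [Fintype W] [DecidableEq A]
    {g : V → A} {h : W → A}
    (e : (Finset.univ : Finset V).val.map g = (Finset.univ : Finset W).val.map h) (c : A) :
    Fintype.card {v // g v = c} = Fintype.card {w // h w = c} := by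
  have := congrArg (Multiset.count c) e
  rw [Multiset.count_map, Multiset.count_map] at this
  rw [Fintype.card_subtype, Fintype.card_subtype]
  simp only [Finset.card_def, Finset.filter_val]
  simpa [eq_comm] using this

/-- Equal multisets of values give a value-preserving bijection. -/
theorem exists_equiv_of_map_eq {V W A : Type*} [Fintype V] [Fintype W]
    {g : V → A} {h : W → A}
    (e : (Finset.univ : Finset V).val.map g = (Finset.univ : Finset W).val.map h) :
    ∃ f : V ≃ W, ∀ v, g v = h (f v) := by
  classical
  have hc : ∀ c : A, Nonempty ({v // g v = c} ≃ {w // h w = c}) := fun c =>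
    ⟨Fintype.equivOfCardEq (card_fiber_of_map_eq e c)⟩
  have F : ∀ c : A, {v // g v = c} ≃ {w // h w = c} := fun c => (hc c).some
  refine ⟨(Equiv.sigmaFiberEquiv g).symm.trans
    ((Equiv.sigmaCongrRight F).trans (Equiv.sigmaFiberEquiv h)), fun v => ?_⟩
  have := (F (g v) ⟨v, rfl⟩).2
  simpa [Equiv.sigmaFiberEquiv] using this.symm

/-- A value-preserving bijection gives equal multisets of values. -/
theorem map_eq_of_equiv {V W A : Type*} [Fintype V] [Fintype W]
    {g : V → A} {h : W → A} (f : V ≃ W) (hf : ∀ v, g v = h (f v)) :
    (Finset.univ : Finset V).val.map g = (Finset.univ : Finset W).val.map h := by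
  have : g = h ∘ f := funext hf
  rw [this, ← Multiset.map_map, Multiset.map_univ_val_equiv]

end multiset

variable {V W : Type*} [Fintype V] [Fintype W]

theorem color_refine {G : SimpleGraph V} {H : SimpleGraph W} {k : ℕ}
    {x : Fin k → V} {y : Fin k → W} {r : ℕ}
    (h : color G k (r + 1) x = color H k (r + 1) y) : color G k r x = color H k r y :=
  congrArg Prod.fst h

theorem color_refine_le {G : SimpleGraph V} {H : SimpleGraph W} {k : ℕ}
    {x : Fin k → V} {y : Fin k → W} {r s : ℕ} (hrs : r ≤ s)
    (h : color G k s x = color H k s y) : color G k r x = color H k r y := by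
  induction s, hrs using Nat.le_induction with
  | base => exact h
  | succ s _ ih => exact ih (color_refine h)

/-- **Duplicator lemma** (tuples). -/
theorem same_of_rel {G : SimpleGraph V} {H : SimpleGraph W} {k : ℕ}
    (R : (Fin k → V) → (Fin k → W) → Prop)
    (atomic : ∀ x y, R x y → ∀ i j, (x i = x j ↔ y i = y j) ∧
      (G.Adj (x i) (x j) ↔ H.Adj (y i) (y j)))
    (step : ∀ x y, R x y → ∃ f : V ≃ W, ∀ v i,
      R (Function.update x i v) (Function.update y i (f v)))
    {x : Fin k → V} {y : Fin k → W} (hxy : R x y) : Same k G H x y := by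
  intro r
  induction r generalizing x y with
  | zero =>
    funext i j
    obtain ⟨h1, h2⟩ := atomic x y hxy i j
    exact Prod.ext (propext h1) (propext h2)
  | succ r ih =>
    obtain ⟨f, hf⟩ := step x y hxy
    refine Prod.ext (ih hxy) ?_
    exact map_eq_of_equiv f (fun v => funext fun i => ih (hf v i))

/-- **Spoiler lemma**: equal colours for all rounds are preserved by a suitable bijection. -/
theorem Same.step {G : SimpleGraph V} {H : SimpleGraph W} {k : ℕ}
    {x : Fin k → V} {y : Fin k → W} (hxy : Same k G H x y) :
    ∃ f : V ≃ W, ∀ v i, Same k G H (Function.update x i v) (Function.update y i (f v)) := by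
  classical
  have h : ∀ r : ℕ, ∃ f : V ≃ W, ∀ v, (fun i => color G k r (Function.update x i v)) =
      fun i => color H k r (Function.update y i (f v)) := fun r =>
    exists_equiv_of_map_eq (congrArg Prod.snd (hxy (r + 1)))
  choose F hF using h
  obtain ⟨f, hf⟩ := Finite.exists_infinite_fiber F
  refine ⟨f, fun v i r => ?_⟩
  have hinf : (F ⁻¹' {f}).Infinite := Set.infinite_coe_iff.mp hf
  obtain ⟨s, hs, hrs⟩ := hinf.exists_gt r
  have hs' : F s = f := hs
  have := congrFun (hF s v) i
  rw [hs'] at this
  exact color_refine_le hrs.le this

theorem Same.atomic {G : SimpleGraph V} {H : SimpleGraph W} {k : ℕ}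
    {x : Fin k → V} {y : Fin k → W} (hxy : Same k G H x y) (i j : Fin k) :
    (x i = x j ↔ y i = y j) ∧ (G.Adj (x i) (x j) ↔ H.Adj (y i) (y j)) := by
  have h := congrFun (congrFun (hxy 0) i) j
  exact ⟨iff_of_eq (congrArg Prod.fst h), iff_of_eq (congrArg Prod.snd h)⟩

/-- Equivalent graphs: every tuple has a partner. -/
theorem WLEquiv.exists_same {G : SimpleGraph V} {H : SimpleGraph W} {k : ℕ}
    (h : WLEquiv k G H) : ∃ f : (Fin k → V) ≃ (Fin k → W), ∀ x, Same k G H x (f x) := by
  classical
  have h' : ∀ r : ℕ, ∃ f : (Fin k → V) ≃ (Fin k → W), ∀ x, color G k r x = color H k r (f x) :=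
    fun r => exists_equiv_of_map_eq (h r)
  choose F hF using h'
  obtain ⟨f, hf⟩ := Finite.exists_infinite_fiber F
  refine ⟨f, fun x r => ?_⟩
  have hinf : (F ⁻¹' {f}).Infinite := Set.infinite_coe_iff.mp hf
  obtain ⟨s, hs, hrs⟩ := hinf.exists_gt r
  have hs' : F s = f := hs
  have := hF s x
  rw [hs'] at this
  exact color_refine_le hrs.le this

/-- One pair of tuples with equal colours suffices for equivalence. -/
theorem WLEquiv.of_same {G : SimpleGraph V} {H : SimpleGraph W} {k : ℕ}
    {x : Fin k → V} {y : Fin k → W} (hxy : Same k G H x y) : WLEquiv k G H := by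
  classical
  -- bijections between the tuples that agree with `x`, `y` outside a finite set
  have key : ∀ s : Finset (Fin k), ∀ (x : Fin k → V) (y : Fin k → W), Same k G H x y →
      ∃ f : (Fin k → V) → (Fin k → W),
        (∀ a, Same k G H (fun i => if i ∈ s then a i else x i)
          (fun i => if i ∈ s then f a i else y i)) ∧
        (∀ a b, (∀ i ∈ s, a i = b i) → ∀ i ∈ s, f a i = f b i) ∧
        (∀ a b, (∀ i ∈ s, f a i = f b i) → ∀ i ∈ s, a i = b i) := by
    intro s
    induction s using Finset.induction_on with
    | empty =>
      intro x y h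
      exact ⟨fun _ => y, fun a => by simpa using h, by simp, by simp⟩
    | insert j s hj ih =>
      intro x y h
      obtain ⟨g, hg⟩ := h.step
      choose F hF1 hF2 hF3 using fun v : V => ih _ _ (hg v j)
      refine ⟨fun a => Function.update (F (a j) a) j (g (a j)), fun a => ?_, ?_, ?_⟩
      · have := hF1 (a j) a
        convert this using 2 with i i
        · by_cases hij : i = j
          · subst hij; simp [hj]
          · by_cases his : i ∈ s <;> simp [hij, his]
        · by_cases hij : i = j
          · subst hij; simp [hj]
          · by_cases his : i ∈ s <;> simp [hij, his]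
      · intro a b hab i hi
        have haj : a j = b j := hab j (Finset.mem_insert_self _ _)
        by_cases hij : i = j
        · subst hij; simp [haj]
        · have his : i ∈ s := (Finset.mem_insert.mp hi).resolve_left hij
          simp only [Function.update_of_ne hij]
          rw [haj]
          exact hF2 (b j) a b (fun i' hi' => hab i' (Finset.mem_insert_of_mem hi')) i his
      · intro a b hab
        have haj : a j = b j := by
          have := hab j (Finset.mem_insert_self _ _)
          simpa using this
        have hs : ∀ i ∈ s, F (b j) a i = F (b j) b i := by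
          intro i hi
          have hij : i ≠ j := fun h' => hj (h' ▸ hi)
          have := hab i (Finset.mem_insert_of_mem hi)
          simp only [Function.update_of_ne hij, haj] at this
          exact this
        intro i hi
        rcases Finset.mem_insert.mp hi with rfl | hi
        · exact haj
        · exact hF3 (b j) a b hs i hi
  obtain ⟨f, hf1, _, hf3⟩ := key Finset.univ x y hxy
  obtain ⟨g, _⟩ := hxy.step
  have hinj : Function.Injective f := fun a b hab => funext fun i =>
    hf3 a b (fun i _ => congrFun hab i) i (Finset.mem_univ i)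
  have hcard : Fintype.card (Fin k → V) = Fintype.card (Fin k → W) :=
    Fintype.card_congr (Equiv.arrowCongr (Equiv.refl _) g)
  have hbij : Function.Bijective f := (Fintype.bijective_iff_injective_and_card f).2 ⟨hinj, hcard⟩
  intro r
  refine map_eq_of_equiv (Equiv.ofBijective f hbij) (fun a => ?_)
  have := hf1 a r
  simpa using this

/-- Invariance of colours under isomorphism. -/
theorem color_iso {V' : Type*} [Fintype V'] {G : SimpleGraph V} {G' : SimpleGraph V'}
    (e : G ≃g G') (k : ℕ) (x : Fin k → V) : Same k G G' x (fun i => e (x i)) := by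
  refine same_of_rel (fun x y => y = fun i => e (x i)) ?_ ?_ rfl
  · rintro x y rfl i j
    exact ⟨e.injective.eq_iff.symm, e.map_adj_iff.symm⟩
  · rintro x y rfl
    refine ⟨e.toEquiv, fun v i => ?_⟩
    funext j
    by_cases hji : j = i
    · subst hji; simp
    · simp [Function.update_of_ne hji]

theorem WLEquiv.of_iso {V' W' : Type*} [Fintype V'] [Fintype W']
    {G : SimpleGraph V} {H : SimpleGraph W} {G' : SimpleGraph V'} {H' : SimpleGraph W'}
    (e : G ≃g G') (f : H ≃g H') {k : ℕ} (h : WLEquiv k G H) : WLEquiv k G' H' := by
  intro r
  have h1 : (Finset.univ : Finset (Fin k → V)).val.map (color G k r) =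
      (Finset.univ : Finset (Fin k → V')).val.map (color G' k r) :=
    map_eq_of_equiv (Equiv.arrowCongr (Equiv.refl _) e.toEquiv) (fun x => color_iso e k x r)
  have h2 : (Finset.univ : Finset (Fin k → W)).val.map (color H k r) =
      (Finset.univ : Finset (Fin k → W')).val.map (color H' k r) :=
    map_eq_of_equiv (Equiv.arrowCongr (Equiv.refl _) f.toEquiv) (fun x => color_iso f k x r)
  rw [← h1, ← h2]
  exact h r

end P310
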