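import Vale.Agent.P310.WL

/-!
# P310: the graph of an XOR system

An XOR system has variables `X`, equations `E`, a finite set `vars e` of variables for every
equation `e` and right hand sides `b : E → ZMod 2`.  A *class* is a variable or an equation,
`cov p` is the set of variables covered by a class `p`.  The vertices of the graph are
* `(p, φ, 0)`: `φ` an assignment of the variables of `cov p` (zero elsewhere), of parity
  `b e` if `p` is the equation `e` (main vertices);
* `(p, φ, l)` with `1 ≤ l ≤ cls p`: leaves attached to `(p, φ, 0)`;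
* isolated vertices `j : J`.
Main vertices of an equation `e` and of a variable `x ∈ vars e` are adjacent if they agree on `x`.
-/

namespace P310

/-- The combinatorial part of an XOR system, with numbers of leaves of the classes. -/
structure Sys (X E : Type*) where
  vars : E → Finset X
  cls : X ⊕ E → ℕ
  cls_inj : Function.Injective cls
  two_le : ∀ p, 2 ≤ cls p

variable {X E J : Type*}

namespace Sys

/-- The variables covered by a class. -/
def cov (S : Sys X E) : X ⊕ E → Finset X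
  | .inl x => {x}
  | .inr e => S.vars e

@[simp] theorem cov_inl (S : Sys X E) (x : X) : S.cov (.inl x) = {x} := rfl
@[simp] theorem cov_inr (S : Sys X E) (e : E) : S.cov (.inr e) = S.vars e := rfl

/-- Validity of a triple (class, assignment, leaf number). -/
def Valid (S : Sys X E) (b : E → ZMod 2) (v : (X ⊕ E) × (X → ZMod 2) × ℕ) : Prop :=
  (∀ x, x ∉ S.cov v.1 → v.2.1 x = 0) ∧
  (∀ e, v.1 = .inr e → ∑ x ∈ S.vars e, v.2.1 x = b e) ∧ v.2.2 ≤ S.cls v.1

/-- The vertices of the graph. -/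
def Vert (S : Sys X E) (b : E → ZMod 2) (J : Type*) : Type _ :=
  {v : (X ⊕ E) × (X → ZMod 2) × ℕ // S.Valid b v} ⊕ J

instance [Finite X] [Finite E] [Finite J] (S : Sys X E) (b : E → ZMod 2) :
    Finite (S.Vert b J) := by
  classical
  have : Finite {v : (X ⊕ E) × (X → ZMod 2) × ℕ // S.Valid b v} := by
    cases nonempty_fintype X
    cases nonempty_fintype E
    obtain ⟨N, hN⟩ := (Set.finite_range S.cls).bddAbove
    refine Finite.of_injective (β := (X ⊕ E) × (X → ZMod 2) × Fin (N + 1))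
      (fun v => (v.1.1, v.1.2.1, ⟨v.1.2.2, Nat.lt_succ_of_le
        (v.2.2.2.trans (hN ⟨v.1.1, rfl⟩))⟩)) ?_
    rintro ⟨⟨p, φ, l⟩, h⟩ ⟨⟨q, ψ, l'⟩, h'⟩ hh
    simp only [Prod.mk.injEq, Fin.mk.injEq] at hh
    obtain ⟨rfl, rfl, rfl⟩ := hh
    rfl
  unfold Vert
  infer_instance

noncomputable instance [Finite X] [Finite E] [Finite J] (S : Sys X E) (b : E → ZMod 2) :
    Fintype (S.Vert b J) := Fintype.ofFinite _

/-- One-sided adjacency of triples. -/
def adj0 (S : Sys X E) (v w : (X ⊕ E) × (X → ZMod 2) × ℕ) : Prop :=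
  (v.2.2 = 0 ∧ w.2.2 = 0 ∧ ∃ e x, v.1 = .inr e ∧ w.1 = .inl x ∧ x ∈ S.vars e ∧
    v.2.1 x = w.2.1 x) ∨
  (v.2.2 = 0 ∧ w.2.2 ≠ 0 ∧ v.1 = w.1 ∧ v.2.1 = w.2.1)

/-- The graph of the XOR system with right hand side `b` (and isolated vertices `J`). -/
def graph (S : Sys X E) (b : E → ZMod 2) (J : Type*) : SimpleGraph (S.Vert b J) where
  Adj v w := match v, w with
    | .inl v, .inl w => S.adj0 v.1 w.1 ∨ S.adj0 w.1 v.1
    | _, _ => False
  symm := ⟨by
    rintro (v | v) (w | w) h
    · exact h.symm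
    · exact h
    · exact h
    · exact h⟩
  loopless := ⟨by
    rintro (v | v) h
    · rcases h with h | h
      · rcases h with ⟨_, _, e, x, h1, h2, _⟩ | ⟨h1, h2, _⟩
        · rw [h1] at h2; cases h2
        · exact h2 h1
      · rcases h with ⟨_, _, e, x, h1, h2, _⟩ | ⟨h1, h2, _⟩
        · rw [h1] at h2; cases h2
        · exact h2 h1
    · exact h⟩

/-- The raw data of a vertex. -/
def raw (S : Sys X E) (b : E → ZMod 2) :
    S.Vert b J → ((X ⊕ E) × (X → ZMod 2) × ℕ) ⊕ J
  | .inl v => .inl v.1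
  | .inr j => .inr j

theorem raw_inj (S : Sys X E) (b : E → ZMod 2) : Function.Injective (S.raw (J := J) b) := by
  rintro (v | v) (w | w) h
  · exact congrArg Sum.inl (Subtype.ext (Sum.inl.inj h))
  · cases h
  · cases h
  · exact congrArg Sum.inr (Sum.inr.inj h)

/-- Adjacency of raw data. -/
def rawAdj (S : Sys X E) : ((X ⊕ E) × (X → ZMod 2) × ℕ) ⊕ J →
    ((X ⊕ E) × (X → ZMod 2) × ℕ) ⊕ J → Prop
  | .inl v, .inl w => S.adj0 v w ∨ S.adj0 w v
  | _, _ => False

theorem adj_iff_raw (S : Sys X E) (b : E → ZMod 2) (v w : S.Vert b J) :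
    (S.graph b J).Adj v w ↔ S.rawAdj (S.raw b v) (S.raw b w) := by
  rcases v with v | v <;> rcases w with w | w <;> exact Iff.rfl

/-- Translation of raw data by `lam`. -/
def tr [DecidableEq X] (S : Sys X E) (lam : X → ZMod 2) :
    ((X ⊕ E) × (X → ZMod 2) × ℕ) ⊕ J → ((X ⊕ E) × (X → ZMod 2) × ℕ) ⊕ J
  | .inl v => .inl (v.1, (fun x => if x ∈ S.cov v.1 then v.2.1 x + lam x else v.2.1 x), v.2.2)
  | .inr j => .inr j

theorem zmod2_add_self (a : ZMod 2) : a + a = 0 := CharTwo.add_self_eq_zero a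

theorem tr_tr [DecidableEq X] (S : Sys X E) (lam : X → ZMod 2)
    (v : ((X ⊕ E) × (X → ZMod 2) × ℕ) ⊕ J) : S.tr lam (S.tr lam v) = v := by
  rcases v with ⟨p, φ, l⟩ | v
  · simp only [tr]
    congr 2
    simp only [Prod.mk.injEq, and_true]
    funext x
    by_cases hx : x ∈ S.cov p
    · simp only [if_pos hx, add_assoc, zmod2_add_self, add_zero]
    · simp only [if_neg hx]
  · rfl

theorem tr_inj [DecidableEq X] (S : Sys X E) (lam : X → ZMod 2) :
    Function.Injective (S.tr (J := J) lam) :=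
  Function.LeftInverse.injective (S.tr_tr lam)

/-- The class of raw data. -/
def rcls : ((X ⊕ E) × (X → ZMod 2) × ℕ) ⊕ J → Option (X ⊕ E)
  | .inl v => some v.1
  | .inr _ => none

theorem tr_congr [DecidableEq X] (S : Sys X E) {lam mu : X → ZMod 2}
    (v : ((X ⊕ E) × (X → ZMod 2) × ℕ) ⊕ J)
    (h : ∀ p, rcls v = some p → ∀ x ∈ S.cov p, lam x = mu x) : S.tr lam v = S.tr mu v := by
  rcases v with ⟨p, φ, l⟩ | v
  · simp only [tr]
    congr 2
    simp only [Prod.mk.injEq, and_true]
    funext x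
    by_cases hx : x ∈ S.cov p
    · simp only [if_pos hx, h p rfl x hx]
    · simp only [if_neg hx]
  · rfl

theorem adj0_tr [DecidableEq X] (S : Sys X E) (lam : X → ZMod 2)
    {v w : (X ⊕ E) × (X → ZMod 2) × ℕ} (h : S.adj0 v w) :
    S.adj0 (v.1, (fun x => if x ∈ S.cov v.1 then v.2.1 x + lam x else v.2.1 x), v.2.2)
      (w.1, (fun x => if x ∈ S.cov w.1 then w.2.1 x + lam x else w.2.1 x), w.2.2) := by
  rcases h with ⟨h1, h2, e, x, h3, h4, h5, h6⟩ | ⟨h1, h2, h3, h4⟩
  · refine Or.inl ⟨h1, h2, e, x, h3, h4, h5, ?_⟩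
    simp only [h3, h4, cov_inr, cov_inl, if_pos h5, Finset.mem_singleton, if_true, h6]
  · exact Or.inr ⟨h1, h2, h3, by simp only [h3, h4]⟩

theorem rawAdj_tr [DecidableEq X] (S : Sys X E) (lam : X → ZMod 2)
    (v w : ((X ⊕ E) × (X → ZMod 2) × ℕ) ⊕ J) :
    S.rawAdj v w ↔ S.rawAdj (S.tr lam v) (S.tr lam w) := by
  have key : ∀ v w : ((X ⊕ E) × (X → ZMod 2) × ℕ) ⊕ J,
      S.rawAdj v w → S.rawAdj (S.tr lam v) (S.tr lam w) := by
    intro v w h
    rcases v with v | v
    · rcases w with w | w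
      · exact h.imp (S.adj0_tr lam) (S.adj0_tr lam)
      · exact h
    · exact h
  refine ⟨key v w, fun h => ?_⟩
  have := key _ _ h
  rwa [S.tr_tr, S.tr_tr] at this

/-- `lam` satisfies the equation of the class `p` (if any). -/
def Sat (b : E → ZMod 2) (S : Sys X E) (lam : X → ZMod 2) (p : X ⊕ E) : Prop :=
  ∀ e, p = .inr e → ∑ x ∈ S.vars e, lam x = b e

theorem valid_tr [DecidableEq X] {S : Sys X E} {b b' : E → ZMod 2} {lam : X → ZMod 2}
    {v : (X ⊕ E) × (X → ZMod 2) × ℕ} (hv : S.Valid b v) (hs : Sat b' S lam v.1) :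
    S.Valid (fun e => b e + b' e)
      (v.1, (fun x => if x ∈ S.cov v.1 then v.2.1 x + lam x else v.2.1 x), v.2.2) := by
  obtain ⟨h1, h2, h3⟩ := hv
  refine ⟨fun x hx => ?_, fun e he => ?_, h3⟩
  · simp only [if_neg hx]
    exact h1 x hx
  · simp only at he
    have : ∀ x ∈ S.vars e, (if x ∈ S.cov v.1 then v.2.1 x + lam x else v.2.1 x) =
        v.2.1 x + lam x := fun x hx => by
      rw [if_pos]
      rw [he]
      exact hx
    rw [Finset.sum_congr rfl this, Finset.sum_add_distrib, h2 e he, hs e he]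

end Sys

open Sys

/-- **Duplicator theorem for XOR systems** (1a). -/
theorem wlEquiv_of_good [Finite X] [Finite E] [Finite J]
    (S : Sys X E) (b : E → ZMod 2) (k : ℕ)
    (Good : Set (X ⊕ E) → (X → ZMod 2) → Prop)
    (h0 : Good ∅ 0)
    (hsat : ∀ P lam, Good P lam → ∀ e, Sum.inr e ∈ P → ∑ x ∈ S.vars e, lam x = b e)
    (hmono : ∀ P P' lam, Good P lam → P' ⊆ P → Good P' lam)
    (hext : ∀ P lam, Good P lam → P.encard ≤ k → ∀ p, ∃ mu, (∀ q ∈ P, ∀ x ∈ S.cov q,
      mu x = lam x) ∧ Good (insert p P) mu)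
    (hpos : Nonempty (X ⊕ E)) :
    WLEquiv k (S.graph 0 J) (S.graph b J) := by
  classical
  -- the classes of a tuple
  let C : (Fin k → S.Vert (0 : E → ZMod 2) J) → Set (X ⊕ E) := fun x =>
    {p | ∃ i, rcls (S.raw 0 (x i)) = some p}
  have hCcard : ∀ x, (C x).encard ≤ k := by
    intro x
    have : C x ⊆ (fun i => (rcls (S.raw 0 (x i))).getD hpos.some) '' Set.univ := by
      rintro p ⟨i, hi⟩
      exact ⟨i, trivial, by simp [hi]⟩
    refine (Set.encard_le_encard this).trans ((Set.encard_image_le _ _).trans ?_)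
    simp
  let R : (Fin k → S.Vert (0 : E → ZMod 2) J) → (Fin k → S.Vert b J) → Prop := fun x y =>
    ∃ lam, Good (C x) lam ∧ ∀ i, S.raw b (y i) = S.tr lam (S.raw 0 (x i))
  have hatom : ∀ x y, R x y → ∀ i j, (x i = x j ↔ y i = y j) ∧
      ((S.graph 0 J).Adj (x i) (x j) ↔ (S.graph b J).Adj (y i) (y j)) := by
    rintro x y ⟨lam, _, hy⟩ i j
    constructor
    · rw [← (S.raw_inj b).eq_iff, hy, hy, (S.tr_inj lam).eq_iff, (S.raw_inj 0).eq_iff]
    · rw [S.adj_iff_raw, S.adj_iff_raw, hy, hy, ← S.rawAdj_tr]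
  have hstep : ∀ x y, R x y → ∃ f : S.Vert (0 : E → ZMod 2) J ≃ S.Vert b J, ∀ v i,
      R (Function.update x i v) (Function.update y i (f v)) := by
    rintro x y ⟨lam, hg, hy⟩
    choose mu hmu1 hmu2 using hext (C x) lam hg (hCcard x)
    have hs : ∀ p, Sat b S (mu p) p := fun p e he =>
      hsat _ _ (hmu2 p) e (by rw [← he]; exact Set.mem_insert _ _)
    have hval : ∀ v : {v : (X ⊕ E) × (X → ZMod 2) × ℕ // S.Valid 0 v}, S.Valid b
        (v.1.1, (fun x => if x ∈ S.cov v.1.1 then v.1.2.1 x + mu v.1.1 x else v.1.2.1 x),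
          v.1.2.2) := fun v => by
      have := valid_tr v.2 (hs v.1.1)
      convert this using 1
      funext e
      simp
    have hval' : ∀ v : {v : (X ⊕ E) × (X → ZMod 2) × ℕ // S.Valid b v}, S.Valid 0
        (v.1.1, (fun x => if x ∈ S.cov v.1.1 then v.1.2.1 x + mu v.1.1 x else v.1.2.1 x),
          v.1.2.2) := fun v => by
      have := valid_tr v.2 (hs v.1.1)
      convert this using 1
      funext e
      exact (zmod2_add_self _).symm
    let F : S.Vert (0 : E → ZMod 2) J → S.Vert b J := fun v => match v with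
      | .inl v => .inl ⟨_, hval v⟩
      | .inr j => .inr j
    let G : S.Vert b J → S.Vert (0 : E → ZMod 2) J := fun v => match v with
      | .inl v => .inl ⟨_, hval' v⟩
      | .inr j => .inr j
    have hF : ∀ v, S.raw b (F v) = S.tr (match rcls (S.raw 0 v) with
        | some p => mu p
        | none => 0) (S.raw 0 v) := by
      rintro (v | v) <;> rfl
    have hG : ∀ v, S.raw 0 (G v) = S.tr (match rcls (S.raw b v) with
        | some p => mu p
        | none => 0) (S.raw b v) := by
      rintro (v | v) <;> rfl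
    have hrF : ∀ v, rcls (S.raw b (F v)) = rcls (S.raw 0 v) := by
      rintro (v | v) <;> rfl
    have hrG : ∀ v, rcls (S.raw 0 (G v)) = rcls (S.raw b v) := by
      rintro (v | v) <;> rfl
    have hFG : Function.LeftInverse G F := fun v => S.raw_inj 0 (by
      rw [hG, hrF, hF, S.tr_tr])
    have hGF : Function.RightInverse G F := fun v => S.raw_inj b (by
      rw [hF, hrG, hG, S.tr_tr])
    refine ⟨⟨F, G, hFG, hGF⟩, fun v i => ?_⟩
    simp only [Equiv.coe_fn_mk]
    rcases hv : rcls (S.raw 0 v) with _ | p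
    · refine ⟨lam, hmono _ _ _ hg ?_, fun j => ?_⟩
      · rintro p ⟨j, hj⟩
        by_cases hji : j = i
        · subst hji
          simp only [Function.update_self, hv] at hj
          cases hj
        · rw [Function.update_of_ne hji] at hj
          exact ⟨j, hj⟩
      · by_cases hji : j = i
        · subst hji
          simp only [Function.update_self]
          rw [hF]
          exact S.tr_congr _ (fun p hp => by rw [hv] at hp; cases hp)
        · simp only [Function.update_of_ne hji, hy]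
    · refine ⟨mu p, hmono _ _ _ (hmu2 p) ?_, fun j => ?_⟩
      · rintro q ⟨j, hj⟩
        by_cases hji : j = i
        · subst hji
          simp only [Function.update_self, hv] at hj
          cases hj
          exact Set.mem_insert _ _
        · rw [Function.update_of_ne hji] at hj
          exact Set.mem_insert_of_mem _ ⟨j, hj⟩
      · by_cases hji : j = i
        · subst hji
          simp only [Function.update_self]
          rw [hF, hv]
        · simp only [Function.update_of_ne hji, hy]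
          exact S.tr_congr _ (fun q hq x hx => (hmu1 p q ⟨j, hq⟩ x hx).symm)
  -- initial tuple
  obtain ⟨p0⟩ := hpos
  obtain ⟨mu0, -, hmu0⟩ := hext ∅ 0 h0 (by simp) p0
  have hv0 : S.Valid (0 : E → ZMod 2) (p0, 0, 0) := ⟨fun _ _ => rfl, fun e _ => by simp,
    Nat.zero_le _⟩
  have hs0 : Sat b S mu0 p0 := fun e he =>
    hsat _ _ hmu0 e (by rw [← he]; exact Set.mem_insert _ _)
  have hvb : S.Valid b (p0, (fun x => if x ∈ S.cov p0 then (0 : X → ZMod 2) x + mu0 x
      else (0 : X → ZMod 2) x), 0) := by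
    have := valid_tr hv0 hs0
    convert this using 1
    funext e
    simp
  let x0 : Fin k → S.Vert (0 : E → ZMod 2) J := fun _ => .inl ⟨_, hv0⟩
  let y0 : Fin k → S.Vert b J := fun _ => .inl ⟨_, hvb⟩
  have hR0 : R x0 y0 := by
    refine ⟨mu0, hmono _ _ _ hmu0 ?_, fun i => rfl⟩
    rintro p ⟨i, hi⟩
    cases hi
    exact Set.mem_insert _ _
  exact WLEquiv.of_same (same_of_rel R hatom hstep hR0)

end P310
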