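import Vale.Agent.P310.XorGraph

/-!
# P310: the Spoiler side for graphs of XOR systems (1b)
-/

set_option linter.unusedSectionVars false

namespace P310

open Sys

variable {X E J : Type*} [Finite X] [Finite E] [Finite J]

/-- `v` is a main vertex of class `p` with assignment `φ`. -/
def IsMain (S : Sys X E) (b : E → ZMod 2) (v : S.Vert b J) (p : X ⊕ E) (φ : X → ZMod 2) : Prop :=
  S.raw b v = .inl (p, φ, 0)

/-- `w` is a pendant vertex attached to `v`. -/
def Pend {V : Type*} (G : SimpleGraph V) (v w : V) : Prop :=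
  G.Adj v w ∧ ∀ u, G.Adj w u → u = v

section third
theorem exists_third {k : ℕ} (hk : 3 ≤ k) (i j : Fin k) : ∃ l, l ≠ i ∧ l ≠ j := by
  by_contra h
  push Not at h
  have : (Finset.univ : Finset (Fin k)) ⊆ {i, j} := by
    intro l _
    by_cases hl : l = i
    · simp [hl]
    · simp [h l hl]
  have h1 := Finset.card_le_card this
  have h2 : ({i, j} : Finset (Fin k)).card ≤ 2 := Finset.card_le_two
  simp at h1
  omega
end third

/-- The bijection of the Spoiler lemma preserves pendant vertices. -/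
theorem pend_of_same {V W : Type*} [Fintype V] [Fintype W] {G : SimpleGraph V}
    {H : SimpleGraph W} {k : ℕ} (hk : 3 ≤ k) {x : Fin k → V} {y : Fin k → W}
    {i j : Fin k} (h : Same k G H x y) (hp : Pend G (x i) (x j)) :
    Pend H (y i) (y j) := by
  refine ⟨((h.atomic i j).2).1 hp.1, fun w hw => ?_⟩
  obtain ⟨l, hl1, hl2⟩ := exists_third hk i j
  obtain ⟨f, hf⟩ := h.step
  have hs := hf (f.symm w) l
  rw [f.apply_symm_apply] at hs
  have h1 := (hs.atomic j l).2
  simp only [Function.update_self, Function.update_of_ne hl2.symm] at h1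
  have h2 := hp.2 _ (h1.2 hw)
  have h3 := (hs.atomic l i).1
  simp only [Function.update_self, Function.update_of_ne hl1.symm] at h3
  exact h3.1 h2

theorem pend_iff_of_same {V W : Type*} [Fintype V] [Fintype W] {G : SimpleGraph V}
    {H : SimpleGraph W} {k : ℕ} (hk : 3 ≤ k) {x : Fin k → V} {y : Fin k → W}
    {i j : Fin k} (h : Same k G H x y) :
    Pend G (x i) (x j) ↔ Pend H (y i) (y j) :=
  ⟨pend_of_same hk h, pend_of_same hk (fun r => (h r).symm)⟩

/-- The number of pendant vertices is an invariant. -/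
theorem pend_card_of_same {V W : Type*} [Fintype V] [Fintype W] {G : SimpleGraph V}
    {H : SimpleGraph W} {k : ℕ} (hk : 3 ≤ k) {x : Fin k → V} {y : Fin k → W}
    (i : Fin k) (h : Same k G H x y) :
    Nat.card {v // Pend G (x i) v} = Nat.card {w // Pend H (y i) w} := by
  obtain ⟨j, hj, -⟩ := exists_third hk i i
  obtain ⟨f, hf⟩ := h.step
  refine Nat.card_congr (f.subtypeEquiv fun v => ?_)
  have := pend_iff_of_same (i := i) (j := j) hk (hf v j)
  simpa only [Function.update_self, Function.update_of_ne hj.symm] using this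

/-! ### Pendant vertices in the graph of an XOR system -/

section pend
variable (S : Sys X E) (b : E → ZMod 2)

theorem pend_main {v : S.Vert b J} {p : X ⊕ E} {φ : X → ZMod 2} (hv : IsMain S b v p φ) :
    Nat.card {w // Pend (S.graph b J) v w} = S.cls p := by
  classical
  obtain ⟨v, hv'⟩ | v := v
  swap
  · cases hv
  have hv2 : v = (p, φ, 0) := Sum.inl.inj hv
  subst hv2
  have hval : ∀ i : Fin (S.cls p), S.Valid b (p, φ, i.1 + 1) := fun i =>
    ⟨hv'.1, hv'.2.1, i.2⟩
  let g : Fin (S.cls p) → {w : S.Vert b J // Pend (S.graph b J) (.inl ⟨(p, φ, 0), hv'⟩) w} :=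
    fun i => ⟨.inl ⟨(p, φ, i.1 + 1), hval i⟩, by
      refine ⟨Or.inl (Or.inr ⟨rfl, Nat.succ_ne_zero _, rfl, rfl⟩), ?_⟩
      rintro (u | u) hu
      · rcases hu with hu | hu
        · rcases hu with ⟨h1, _⟩ | ⟨h1, _⟩ <;> exact absurd h1 (Nat.succ_ne_zero _)
        · rcases hu with ⟨_, h1, _⟩ | ⟨h1, _, h2, h3⟩
          · exact absurd h1 (Nat.succ_ne_zero _)
          · refine congrArg Sum.inl (Subtype.ext ?_)
            exact Prod.ext h2 (Prod.ext h3 h1)
      · exact hu.elim⟩
  have hg : Function.Bijective g := by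
    constructor
    · intro i j hij
      have h1 := Sum.inl.inj (Subtype.ext_iff.mp hij)
      have h2 := Subtype.ext_iff.mp h1
      simp only [Prod.mk.injEq] at h2
      exact Fin.ext (by omega)
    · rintro ⟨w, hw1, hw2⟩
      rcases w with ⟨⟨q, ψ, l⟩, hw'⟩ | w
      swap
      · exact hw1.elim
      -- the neighbour of another main vertex is not pendant
      have hmain : ∀ (q : X ⊕ E) (ψ : X → ZMod 2) (hw' : S.Valid b (q, ψ, 0)),
          ¬ (∀ u, (S.graph b J).Adj (.inl ⟨(q, ψ, 0), hw'⟩) u →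
            u = .inl ⟨(p, φ, 0), hv'⟩) := by
        intro q ψ hw' h
        have h2 := S.two_le q
        have := h (.inl ⟨(q, ψ, 1), hw'.1, hw'.2.1, by show 1 ≤ S.cls q; omega⟩)
          (Or.inl (Or.inr ⟨rfl, one_ne_zero, rfl, rfl⟩))
        have h1 := Subtype.ext_iff.mp (Sum.inl.inj this)
        simp only [Prod.mk.injEq] at h1
        omega
      rcases l with _ | l
      · exact absurd hw2 (hmain q ψ hw')
      · have hpq : p = q ∧ φ = ψ := by
          rcases hw1 with hu | hu
          · rcases hu with ⟨_, h1, _⟩ | ⟨_, _, h2, h3⟩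
            · exact absurd h1 (Nat.succ_ne_zero _)
            · exact ⟨h2, h3⟩
          · rcases hu with ⟨h1, _⟩ | ⟨h1, _⟩ <;> exact absurd h1 (Nat.succ_ne_zero _)
        obtain ⟨rfl, rfl⟩ := hpq
        exact ⟨⟨l, hw'.2.2⟩, rfl⟩
  rw [← Nat.card_eq_of_bijective g hg]
  simp

/-- Vertices with at least two pendant vertices are main vertices. -/
theorem main_of_pend {v : S.Vert b J}
    (h : 2 ≤ Nat.card {w // Pend (S.graph b J) v w}) : ∃ p φ, IsMain S b v p φ := by
  classical
  obtain ⟨⟨p, φ, l⟩, hv⟩ | v := v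
  · rcases l with _ | l
    · exact ⟨p, φ, rfl⟩
    · exfalso
      -- a leaf has at most one neighbour
      have hsub : Subsingleton {w // Pend (S.graph b J) (.inl ⟨(p, φ, l + 1), hv⟩) w} := by
        constructor
        rintro ⟨w, hw, -⟩ ⟨w', hw', -⟩
        have hval : S.Valid b (p, φ, 0) := ⟨hv.1, hv.2.1, Nat.zero_le _⟩
        have key : ∀ w : S.Vert b J, (S.graph b J).Adj (.inl ⟨(p, φ, l + 1), hv⟩) w →
            w = .inl ⟨(p, φ, 0), hval⟩ := by
          rintro (u | u) hu
          · rcases hu with hu | hu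
            · rcases hu with ⟨h1, _⟩ | ⟨h1, _⟩ <;> exact absurd h1 (Nat.succ_ne_zero _)
            · rcases hu with ⟨_, h1, _⟩ | ⟨h1, _, h2, h3⟩
              · exact absurd h1 (Nat.succ_ne_zero _)
              · exact congrArg Sum.inl (Subtype.ext (Prod.ext h2 (Prod.ext h3 h1)))
          · exact hu.elim
        exact Subtype.ext ((key w hw).trans (key w' hw').symm)
      have := Finite.card_le_one_iff_subsingleton.mpr hsub
      omega
  · exfalso
    have : IsEmpty {w // Pend (S.graph b J) (.inr v) w} := ⟨fun w => w.2.1⟩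
    rw [Nat.card_of_isEmpty] at h
    omega

end pend

/-- Partners of main vertices are main vertices of the same class. -/
theorem main_of_same {S : Sys X E} {b b' : E → ZMod 2} {k : ℕ} (hk : 3 ≤ k)
    {x : Fin k → S.Vert b J} {y : Fin k → S.Vert b' J}
    (h : Same k (S.graph b J) (S.graph b' J) x y) {i : Fin k} {p : X ⊕ E} {φ : X → ZMod 2}
    (hi : IsMain S b (x i) p φ) : ∃ ψ, IsMain S b' (y i) p ψ := by
  have h1 := pend_card_of_same hk i h
  rw [pend_main S b hi] at h1
  obtain ⟨q, ψ, hq⟩ := main_of_pend S b' (v := y i) (by rw [← h1]; exact S.two_le p)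
  rw [pend_main S b' hq] at h1
  have := S.cls_inj h1
  subst this
  exact ⟨ψ, hq⟩

/-- `lam` is the difference of the tuples `x` and `y` on the covered variables. -/
def IsDiff (S : Sys X E) (b b' : E → ZMod 2) {k : ℕ} (x : Fin k → S.Vert b J)
    (y : Fin k → S.Vert b' J) (lam : X → ZMod 2) : Prop :=
  ∀ i p φ ψ, IsMain S b (x i) p φ → IsMain S b' (y i) p ψ → ∀ v ∈ S.cov p, φ v + ψ v = lam v

theorem main_unique {S : Sys X E} {b : E → ZMod 2} {v : S.Vert b J} {p q : X ⊕ E}
    {φ ψ : X → ZMod 2} (h : IsMain S b v p φ) (h' : IsMain S b v q ψ) : p = q ∧ φ = ψ := by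
  have := Sum.inl.inj (h.symm.trans h')
  simp only [Prod.mk.injEq] at this
  exact ⟨this.1, this.2.1⟩

theorem main_valid {S : Sys X E} {b : E → ZMod 2} {v : S.Vert b J} {p : X ⊕ E}
    {φ : X → ZMod 2} (h : IsMain S b v p φ) : S.Valid b (p, φ, 0) := by
  rcases v with ⟨v, hv⟩ | v
  · have : v = (p, φ, 0) := Sum.inl.inj h
    rw [← this]
    exact hv
  · cases h

/-- Adjacency or equality with a main vertex of a variable class: agreement. -/
theorem var_rel [DecidableEq X] {S : Sys X E} {b : E → ZMod 2} {v w : S.Vert b J} {p : X ⊕ E} {x : X}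
    {φ ψ : X → ZMod 2} (hv : IsMain S b v p φ) (hw : IsMain S b w (.inl x) ψ)
    (hx : x ∈ S.cov p) : (v = w ∨ (S.graph b J).Adj v w) ↔ φ x = ψ x := by
  constructor
  · rintro (rfl | h)
    · obtain ⟨-, rfl⟩ := main_unique hv hw
      rfl
    · rw [S.adj_iff_raw, hv, hw] at h
      rcases h with h | h
      · rcases h with ⟨_, _, e, x', h1, h2, h3, h4⟩ | ⟨_, h1, _⟩
        · cases h2
          exact h4
        · exact absurd rfl h1
      · rcases h with ⟨_, _, e, x', h1, h2, h3, h4⟩ | ⟨_, h1, _⟩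
        · cases h1
        · exact absurd rfl h1
  · intro h
    rcases p with x' | e
    · left
      simp only [cov_inl, Finset.mem_singleton] at hx
      subst hx
      apply S.raw_inj b
      rw [hv, hw]
      congr 2
      simp only [Prod.mk.injEq, and_true]
      funext u
      by_cases hu : u = x
      · subst hu; exact h
      · have h1 := (main_valid hv).1 u (by simpa using hu)
        have h2 := (main_valid hw).1 u (by simpa using hu)
        exact h1.trans h2.symm
    · right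
      rw [S.adj_iff_raw, hv, hw]
      exact Or.inl (Or.inl ⟨rfl, rfl, e, x, rfl, rfl, hx, h⟩)

theorem zmod2_eq_of_iff {a b c d : ZMod 2} (h : a = b ↔ c = d) : a + c = b + d := by
  revert a b c d
  decide

theorem exists_diff [DecidableEq X] {S : Sys X E} {b b' : E → ZMod 2} {k : ℕ} (hk : 3 ≤ k)
    {x : Fin k → S.Vert b J} {y : Fin k → S.Vert b' J}
    (h : Same k (S.graph b J) (S.graph b' J) x y) : ∃ lam, IsDiff S b b' x y lam := by
  classical
  -- consistency
  have cons : ∀ i j p q φ φ' ψ ψ', IsMain S b (x i) p φ → IsMain S b (x j) q φ' →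
      IsMain S b' (y i) p ψ → IsMain S b' (y j) q ψ' → ∀ v, v ∈ S.cov p → v ∈ S.cov q →
      φ v + ψ v = φ' v + ψ' v := by
    intro i j p q φ φ' ψ ψ' h1 h2 h3 h4 v hp hq
    obtain ⟨l, hl1, hl2⟩ := exists_third hk i j
    obtain ⟨f, hf⟩ := h.step
    have hval : S.Valid b (.inl v, (fun u => if u = v then φ v else 0), 0) := by
      refine ⟨fun u hu => ?_, fun e he => ?_, Nat.zero_le _⟩
      · simp only [cov_inl, Finset.mem_singleton] at hu
        simp only [if_neg hu]
      · cases he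
    let w : S.Vert b J := .inl ⟨_, hval⟩
    have hw : IsMain S b w (.inl v) (fun u => if u = v then φ v else 0) := rfl
    have hs := hf w l
    have hw2 : IsMain S b (Function.update x l w l) (.inl v)
        (fun u => if u = v then φ v else 0) := by
      rw [Function.update_self]
      exact hw
    obtain ⟨χ, hχ⟩ := main_of_same hk hs hw2
    rw [Function.update_self] at hχ
    have a1 := hs.atomic i l
    have a2 := hs.atomic j l
    simp only [Function.update_self, Function.update_of_ne hl1.symm] at a1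
    simp only [Function.update_self, Function.update_of_ne hl2.symm] at a2
    have c1 := var_rel h1 hw hp
    have c2 := var_rel h2 hw hq
    have c3 := var_rel h3 hχ hp
    have c4 := var_rel h4 hχ hq
    simp only [if_true] at c1 c2
    have e1 : ψ v = χ v := by
      rw [← c3, ← a1.1, ← a1.2, c1]
      trivial
    have e2 : φ' v = φ v ↔ ψ' v = χ v := by
      rw [← c4, ← a2.1, ← a2.2, c2]
    rw [← e1] at e2
    exact (zmod2_eq_of_iff e2).symm
  refine ⟨fun v => if hh : ∃ i p φ ψ, IsMain S b (x i) p φ ∧ IsMain S b' (y i) p ψ ∧ v ∈ S.cov p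
    then (hh.choose_spec.choose_spec.choose v + hh.choose_spec.choose_spec.choose_spec.choose v)
    else 0, ?_⟩
  intro i p φ ψ h1 h2 v hv
  have hh : ∃ i p φ ψ, IsMain S b (x i) p φ ∧ IsMain S b' (y i) p ψ ∧ v ∈ S.cov p :=
    ⟨i, p, φ, ψ, h1, h2, hv⟩
  simp only [dif_pos hh]
  have hs := hh.choose_spec.choose_spec.choose_spec.choose_spec
  exact cons _ _ _ _ _ _ _ _ h1 hs.1 h2 hs.2.1 v hv hs.2.2

section holds
variable [Fintype X]

/-- The linear equation `e · lam = c` holds at the window `P`. -/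
def HoldsAt (S : Sys X E) (b : E → ZMod 2) (J : Type*) [Finite J] (k : ℕ)
    (P : Set (X ⊕ E)) (e : X → ZMod 2) (c : ZMod 2) : Prop :=
  ∀ (x : Fin k → S.Vert (0 : E → ZMod 2) J) (y : Fin k → S.Vert b J) (lam : X → ZMod 2),
    Same k (S.graph 0 J) (S.graph b J) x y → IsDiff S 0 b x y lam →
    (∀ p ∈ P, ∃ i φ, IsMain S 0 (x i) p φ) → ∑ v, e v * lam v = c

variable {S : Sys X E} {b : E → ZMod 2} {k : ℕ}

theorem HoldsAt.eqn [DecidableEq X] (hk : 3 ≤ k) {P : Set (X ⊕ E)} (e : E) (he : Sum.inr e ∈ P) :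
    HoldsAt S b J k P (fun v => if v ∈ S.vars e then 1 else 0) (b e) := by
  intro x y lam hs hd hP
  obtain ⟨i, φ, hi⟩ := hP _ he
  obtain ⟨ψ, hψ⟩ := main_of_same hk hs hi
  have h1 : ∑ v ∈ S.vars e, φ v = (0 : ZMod 2) := (main_valid hi).2.1 e rfl
  have h2 : ∑ v ∈ S.vars e, ψ v = b e := (main_valid hψ).2.1 e rfl
  have h3 : ∀ v ∈ S.vars e, lam v = φ v + ψ v := fun v hv => (hd i _ φ ψ hi hψ v hv).symm
  simp only [ite_mul, one_mul, zero_mul]
  rw [Finset.sum_ite_mem, Finset.univ_inter, Finset.sum_congr rfl h3, Finset.sum_add_distrib,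
    h1, h2, zero_add]

theorem HoldsAt.add {P : Set (X ⊕ E)} {e e' : X → ZMod 2} {c c' : ZMod 2}
    (h : HoldsAt S b J k P e c) (h' : HoldsAt S b J k P e' c') :
    HoldsAt S b J k P (fun v => e v + e' v) (c + c') := by
  intro x y lam hs hd hP
  simp only [add_mul, Finset.sum_add_distrib]
  rw [h x y lam hs hd hP, h' x y lam hs hd hP]

theorem HoldsAt.zero {P : Set (X ⊕ E)} : HoldsAt S b J k P 0 0 := by
  intro x y lam _ _ _
  simp

theorem HoldsAt.mono {P P' : Set (X ⊕ E)} {e : X → ZMod 2} {c : ZMod 2}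
    (h : HoldsAt S b J k P e c) (hP : P ⊆ P') : HoldsAt S b J k P' e c :=
  fun x y lam hs hd hP' => h x y lam hs hd (fun p hp => hP' p (hP hp))

theorem HoldsAt.drop [DecidableEq X] (hk : 3 ≤ k) {P : Finset (X ⊕ E)} {q : X ⊕ E}
    {e : X → ZMod 2} {c : ZMod 2} (h : HoldsAt S b J k (insert q (P : Set (X ⊕ E))) e c)
    (he : ∀ v, e v ≠ 0 → ∃ p ∈ P, v ∈ S.cov p) (hcard : P.card < k) :
    HoldsAt S b J k (P : Set (X ⊕ E)) e c := by
  classical
  intro x y lam hs hd hP
  have : Nonempty (Fin k) := ⟨⟨0, by omega⟩⟩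
  choose! I φ hI using hP
  -- a free position
  obtain ⟨i, hfree⟩ : ∃ i, ∀ p ∈ P, I p ≠ i := by
    by_contra hcon
    push Not at hcon
    have h1 : (Finset.univ : Finset (Fin k)) ⊆ P.image I := fun i _ => by
      obtain ⟨p, hp, hpi⟩ := hcon i
      exact Finset.mem_image.mpr ⟨p, hp, hpi⟩
    have h2 := (Finset.card_le_card h1).trans Finset.card_image_le
    simp at h2
    omega
  obtain ⟨f, hf⟩ := hs.step
  have hval : S.Valid (0 : E → ZMod 2) (q, 0, 0) := ⟨fun _ _ => rfl, fun e _ => by simp,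
    Nat.zero_le _⟩
  let w : S.Vert (0 : E → ZMod 2) J := .inl ⟨_, hval⟩
  have hw : IsMain S 0 w q 0 := rfl
  have hs' := hf w i
  obtain ⟨mu, hmu⟩ := exists_diff hk hs'
  have hcov : ∀ p ∈ insert q (P : Set (X ⊕ E)), ∃ j φ, IsMain S 0 (Function.update x i w j) p φ := by
    intro p hp
    rcases Set.mem_insert_iff.mp hp with rfl | hp
    · exact ⟨i, 0, by rw [Function.update_self]; exact hw⟩
    · exact ⟨I p, φ p, by rw [Function.update_of_ne (hfree p hp)]; exact hI p hp⟩
  have h1 := h _ _ mu hs' hmu hcov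
  rw [← h1]
  refine Finset.sum_congr rfl fun v _ => ?_
  by_cases hv : e v = 0
  · simp [hv]
  · obtain ⟨p, hp, hvp⟩ := he v hv
    obtain ⟨ψ, hψ⟩ := main_of_same hk hs (hI p hp)
    have e1 := hd (I p) p (φ p) ψ (hI p hp) hψ v hvp
    have e2 := hmu (I p) p (φ p) ψ (by rw [Function.update_of_ne (hfree p hp)]; exact hI p hp)
      (by rw [Function.update_of_ne (hfree p hp)]; exact hψ) v hvp
    rw [← e1, ← e2]

/-- Contradiction. -/
theorem HoldsAt.contra [DecidableEq X] (hk : 3 ≤ k) {P : Finset (X ⊕ E)} {e : X → ZMod 2}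
    (h0 : HoldsAt S b J k (P : Set (X ⊕ E)) e 0) (h1 : HoldsAt S b J k (P : Set (X ⊕ E)) e 1)
    (hcard : P.card ≤ k) (hne : P.Nonempty) : ¬ WLEquiv k (S.graph 0 J) (S.graph b J) := by
  classical
  intro hWL
  obtain ⟨f, hf⟩ := hWL.exists_same
  -- a tuple covering the window
  have hval : ∀ q : X ⊕ E, S.Valid (0 : E → ZMod 2) (q, 0, 0) := fun q =>
    ⟨fun _ _ => rfl, fun e _ => by simp, Nat.zero_le _⟩
  obtain ⟨g, hg⟩ : ∃ g : Fin k → X ⊕ E, ∀ p ∈ P, ∃ i, g i = p := by
    obtain ⟨p0, hp0⟩ := hne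
    have e : P ≃ Fin P.card := P.equivFin
    refine ⟨fun i => if hi : i.1 < P.card then (e.symm ⟨i.1, hi⟩ : X ⊕ E) else p0,
      fun p hp => ⟨⟨(e ⟨p, hp⟩).1, lt_of_lt_of_le (e ⟨p, hp⟩).2 hcard⟩, ?_⟩⟩
    simp
  let x : Fin k → S.Vert (0 : E → ZMod 2) J := fun i => .inl ⟨_, hval (g i)⟩
  have hx := hf x
  obtain ⟨lam, hlam⟩ := exists_diff hk hx
  have hP : ∀ p ∈ (P : Set (X ⊕ E)), ∃ i φ, IsMain S 0 (x i) p φ := by
    intro p hp
    obtain ⟨i, hi⟩ := hg p hp
    exact ⟨i, 0, by rw [← hi]; rfl⟩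
  have e0 := h0 _ _ lam hx hlam hP
  have e1 := h1 _ _ lam hx hlam hP
  rw [e0] at e1
  exact zero_ne_one e1

end holds

end P310
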